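import Crest.Agent.R72.Defs

/-!
# Row 72: from lattices to the continuum

PLAN.  `volume.restrict (Ico (δ a) (δ b)) = ∑ n ∈ Ico a b, δ • map (θ ↦ δ (n + θ)) (volume.restrict (Ico 0 1))`,
hence for bounded measurable functions the integral over a product of two or three such intervals is the
average over `θ ∈ [0,1)²` or `[0,1)³` of the lattice sums.
-/

set_option autoImplicit false

namespace Crest.Agent.R72

open MeasureTheory Set Matrix Filter Topology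
open scoped ENNReal

namespace TrA

theorem unf_one {δ : ℝ} (hδ : 0 < δ) (c : ℝ) :
    ENNReal.ofReal δ • (volume.restrict (Ico (0 : ℝ) 1)).map (fun θ => δ * (c + θ)) =
      volume.restrict (Ico (δ * c) (δ * (c + 1))) := by
  have hm : Measurable fun θ : ℝ => δ * (c + θ) := by fun_prop
  have h1 : (volume : Measure ℝ).map (fun θ => δ * (c + θ)) = ENNReal.ofReal δ⁻¹ • volume := by
    have : (fun θ : ℝ => δ * (c + θ)) = (fun x => δ * x) ∘ fun θ => c + θ := rfl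
    rw [this, ← Measure.map_map (by fun_prop) (by fun_prop), map_add_left_eq_self,
      Real.map_volume_mul_left hδ.ne', abs_of_pos (inv_pos.mpr hδ)]
  have h2 : (fun θ : ℝ => δ * (c + θ)) ⁻¹' Ico (δ * c) (δ * (c + 1)) = Ico 0 1 := by
    ext θ
    simp only [mem_preimage, mem_Ico, mul_le_mul_iff_right₀ hδ, mul_lt_mul_iff_right₀ hδ,
      le_add_iff_nonneg_right, add_lt_add_iff_left]
  rw [← h2, ← Measure.restrict_map hm measurableSet_Ico, h1, Measure.restrict_smul, smul_smul,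
    ← ENNReal.ofReal_mul hδ.le, mul_inv_cancel₀ hδ.ne', ENNReal.ofReal_one, one_smul]

theorem unf_line {δ : ℝ} (hδ : 0 < δ) (a b : ℤ) :
    volume.restrict (Ico (δ * a) (δ * b)) = ∑ n ∈ Finset.Ico a b,
      ENNReal.ofReal δ • (volume.restrict (Ico (0 : ℝ) 1)).map (fun θ => δ * (n + θ)) := by
  rcases le_or_gt a b with h | h
  · induction b, h using Int.leInduction with
    | base => simp
    | succ b h ih =>
      have h1 : δ * a ≤ δ * b := by gcongr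
      have h2 : δ * b ≤ δ * (b + 1) := by gcongr; linarith
      rw [← Finset.insert_Ico_right_eq_Ico_add_one h, Finset.sum_insert (by simp), ← ih, unf_one hδ,
        add_comm (volume.restrict _), ← Measure.restrict_union Ico_disjoint_Ico_same measurableSet_Ico,
        Ico_union_Ico_eq_Ico h1 h2]
      push_cast
      rfl
  · have h1 : δ * b ≤ δ * a := by gcongr
    rw [Finset.Ico_eq_empty (by omega), Ico_eq_empty (not_lt.mpr h1)]
    simp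

theorem unf_prod {α β Θ Θ' ι ι' : Type*} [MeasurableSpace α] [MeasurableSpace β] [MeasurableSpace Θ]
    [MeasurableSpace Θ'] {ν : Measure α} {ν' : Measure β} [SigmaFinite ν] [SigmaFinite ν']
    {μ : Measure Θ} {μ' : Measure Θ'} [SFinite μ] [SFinite μ'] {s : Finset ι} {s' : Finset ι'}
    {w w' : ℝ≥0∞} {T : ι → Θ → α} {T' : ι' → Θ' → β} (hT : ∀ i, Measurable (T i))
    (hT' : ∀ i, Measurable (T' i)) (h : ν = ∑ i ∈ s, w • μ.map (T i))
    (h' : ν' = ∑ i ∈ s', w' • μ'.map (T' i)) :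
    ν.prod ν' = ∑ p ∈ s ×ˢ s', (w * w') • (μ.prod μ').map fun θ => (T p.1 θ.1, T' p.2 θ.2) := by
  refine Measure.prod_eq fun A B hA hB => ?_
  conv_rhs => rw [h, h']
  simp only [Measure.coe_finsetSum, Finset.sum_apply, Measure.smul_apply, smul_eq_mul]
  rw [Finset.sum_mul_sum, Finset.sum_product]
  refine Finset.sum_congr rfl fun i _ => Finset.sum_congr rfl fun j _ => ?_
  have : (fun θ : Θ × Θ' => (T i θ.1, T' j θ.2)) = Prod.map (T i) (T' j) := rfl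
  rw [this, ← Measure.map_prod_map _ _ (hT i) (hT' j), Measure.prod_prod]
  ring

theorem int_bdd {α : Type*} [MeasurableSpace α] {μ : Measure α} [IsFiniteMeasure μ] {f : α → ℝ}
    (hf : Measurable f) {M : ℝ} (hM : ∀ x, |f x| ≤ M) : Integrable f μ :=
  Integrable.of_bound hf.aestronglyMeasurable M (Eventually.of_forall hM)

theorem unf_integral {α Θ ι : Type*} [MeasurableSpace α] [MeasurableSpace Θ] {ν : Measure α}
    {μ : Measure Θ} [IsFiniteMeasure μ] {s : Finset ι} {w : ℝ} (hw : 0 ≤ w) {T : ι → Θ → α}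
    (hT : ∀ i, Measurable (T i)) (h : ν = ∑ i ∈ s, ENNReal.ofReal w • μ.map (T i)) {f : α → ℝ}
    (hf : Measurable f) {M : ℝ} (hM : ∀ x, |f x| ≤ M) :
    ∫ x, f x ∂ν = ∫ θ, ∑ i ∈ s, w * f (T i θ) ∂μ := by
  rw [h, integral_finsetSum_measure fun i _ =>
    (int_bdd hf hM).smul_measure ENNReal.ofReal_ne_top, integral_finsetSum]
  · refine Finset.sum_congr rfl fun i _ => ?_
    rw [integral_smul_measure, integral_map (hT i).aemeasurable hf.aestronglyMeasurable,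
      integral_const_mul, ENNReal.toReal_ofReal hw, smul_eq_mul]
  · exact fun i _ => (int_bdd (hf.comp (hT i)) fun x => hM _).const_mul w

end TrA

open TrA

theorem transfer {ι : Type*} (s : Finset ι) {δ : ℝ} (hδ : 0 < δ) (a b : ℤ)
    (Ψ : ι → ℝ × ℝ × ℝ → ℝ) (hΨm : ∀ i, Measurable (Ψ i)) (hΨb : ∀ i, ∃ M, ∀ x, |Ψ i x| ≤ M)
    (Φ₀ Φ₁ Φ₂ : ℝ × ℝ → ℝ) (h₀ : Measurable Φ₀) (h₁ : Measurable Φ₁) (h₂ : Measurable Φ₂)
    (hb : ∃ M, ∀ x, |Φ₀ x| ≤ M ∧ |Φ₁ x| ≤ M ∧ |Φ₂ x| ≤ M)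
    (h : ∀ θ₀ ∈ Ico (0 : ℝ) 1, ∀ θ₁ ∈ Ico (0 : ℝ) 1, ∀ θ₂ ∈ Ico (0 : ℝ) 1,
      ∑ i ∈ s, |∑ n₀ ∈ Finset.Ico a b, ∑ n₁ ∈ Finset.Ico a b, ∑ n₂ ∈ Finset.Ico a b,
        δ ^ 3 * Ψ i (δ * (n₀ + θ₀), δ * (n₁ + θ₁), δ * (n₂ + θ₂))| ≤
      ∑ n ∈ Finset.Ico a b, ∑ n' ∈ Finset.Ico a b, δ ^ 2 * (Φ₀ (δ * (n + θ₀), δ * (n' + θ₁)) +
        Φ₁ (δ * (n + θ₁), δ * (n' + θ₂)) + Φ₂ (δ * (n + θ₂), δ * (n' + θ₀)))) :
    ∑ i ∈ s, |∫ x in Ico (δ * a) (δ * b) ×ˢ Ico (δ * a) (δ * b) ×ˢ Ico (δ * a) (δ * b), Ψ i x| ≤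
      ∫ x in Ico (δ * a) (δ * b) ×ˢ Ico (δ * a) (δ * b), (Φ₀ x + Φ₁ x + Φ₂ x) := by
  obtain ⟨M, hM⟩ := hb
  set μ : Measure ℝ := volume.restrict (Ico (0 : ℝ) 1) with hμ
  have : IsProbabilityMeasure μ := ⟨by simp [hμ]⟩
  have hT : ∀ n : ℤ, Measurable fun θ : ℝ => δ * (n + θ) := fun n => by fun_prop
  have u1 := unf_line hδ a b
  rw [← hμ] at u1
  have u2 := unf_prod hT hT u1 u1
  have hT2 : ∀ p : ℤ × ℤ, Measurable fun θ : ℝ × ℝ => (δ * (p.1 + θ.1), δ * (p.2 + θ.2)) :=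
    fun p => by fun_prop
  have u3 := unf_prod hT hT2 u1 u2
  have hT3 : ∀ p : ℤ × ℤ × ℤ, Measurable fun θ : ℝ × ℝ × ℝ =>
      (δ * (p.1 + θ.1), δ * (p.2.1 + θ.2.1), δ * (p.2.2 + θ.2.2)) := fun p => by fun_prop
  rw [Measure.prod_restrict, ← Measure.volume_eq_prod, ← ENNReal.ofReal_mul hδ.le, ← sq] at u2
  rw [Measure.prod_restrict, ← Measure.volume_eq_prod, Measure.prod_restrict, ← Measure.volume_eq_prod,
    ← ENNReal.ofReal_mul hδ.le, ← ENNReal.ofReal_mul hδ.le, show δ * (δ * δ) = δ ^ 3 by ring] at u3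
  set S := Finset.Ico a b
  -- the lattice sums
  set L : ι → ℝ × ℝ × ℝ → ℝ := fun i θ => ∑ p ∈ S ×ˢ S ×ˢ S,
    δ ^ 3 * Ψ i (δ * (p.1 + θ.1), δ * (p.2.1 + θ.2.1), δ * (p.2.2 + θ.2.2)) with hL
  have hLi : ∀ i, Integrable (L i) (μ.prod (μ.prod μ)) := fun i => by
    obtain ⟨M', hM'⟩ := hΨb i
    exact integrable_finsetSum _ fun p _ =>
      (int_bdd ((hΨm i).comp (hT3 p)) fun x => hM' _).const_mul _
  set R : (ℝ × ℝ → ℝ) → ℝ × ℝ → ℝ := fun Φ θ => ∑ p ∈ S ×ˢ S,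
    δ ^ 2 * Φ (δ * (p.1 + θ.1), δ * (p.2 + θ.2)) with hR
  have hRi : ∀ Φ, Measurable Φ → (∀ x, |Φ x| ≤ M) → ∀ T : ℝ × ℝ × ℝ → ℝ × ℝ,
      MeasurePreserving T (μ.prod (μ.prod μ)) (μ.prod μ) →
      Integrable (fun θ => R Φ (T θ)) (μ.prod (μ.prod μ)) ∧
        ∫ θ, R Φ (T θ) ∂(μ.prod (μ.prod μ)) =
          ∫ x in Ico (δ * a) (δ * b) ×ˢ Ico (δ * a) (δ * b), Φ x := by
    intro Φ hΦ hΦM T hT'
    have h1 : Integrable (R Φ) (μ.prod μ) := integrable_finsetSum _ fun p _ =>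
      (int_bdd (hΦ.comp (hT2 p)) fun x => hΦM _).const_mul _
    refine ⟨hT'.integrable_comp_of_integrable h1, ?_⟩
    rw [unf_integral (sq_nonneg δ) hT2 u2 hΦ hΦM,
      ← integral_map hT'.measurable.aemeasurable (by rw [hT'.map_eq]; exact h1.1), hT'.map_eq]
  obtain ⟨i0, e0⟩ := hRi Φ₀ h₀ (fun x => (hM x).1) (Prod.map id Prod.fst)
    ((MeasurePreserving.id μ).prod measurePreserving_fst)
  obtain ⟨i1, e1⟩ := hRi Φ₁ h₁ (fun x => (hM x).2.1) Prod.snd measurePreserving_snd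
  obtain ⟨i2, e2⟩ := hRi Φ₂ h₂ (fun x => (hM x).2.2) (Prod.swap ∘ Prod.map id Prod.snd)
    (Measure.measurePreserving_swap.comp ((MeasurePreserving.id μ).prod measurePreserving_snd))
  have : IsFiniteMeasure ((volume : Measure (ℝ × ℝ)).restrict
      (Ico (δ * a) (δ * b) ×ˢ Ico (δ * a) (δ * b))) := by
    rw [Measure.volume_eq_prod, ← Measure.prod_restrict]; infer_instance
  have j0 := int_bdd (μ := volume.restrict (Ico (δ * a) (δ * b) ×ˢ Ico (δ * a) (δ * b))) h₀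
    fun x => (hM x).1
  have j1 := int_bdd (μ := volume.restrict (Ico (δ * a) (δ * b) ×ˢ Ico (δ * a) (δ * b))) h₁
    fun x => (hM x).2.1
  have j2 := int_bdd (μ := volume.restrict (Ico (δ * a) (δ * b) ×ˢ Ico (δ * a) (δ * b))) h₂
    fun x => (hM x).2.2
  rw [integral_add (j0.fun_add j1) j2, integral_add j0 j1, ← e0, ← e1, ← e2, ← integral_add i0 i1,
    ← integral_add (i0.fun_add i1) i2]
  calc _ = ∑ i ∈ s, |∫ θ, L i θ ∂(μ.prod (μ.prod μ))| := by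
        refine Finset.sum_congr rfl fun i _ => ?_
        obtain ⟨M', hM'⟩ := hΨb i
        rw [unf_integral (by positivity) hT3 u3 (hΨm i) hM']
    _ ≤ ∑ i ∈ s, ∫ θ, |L i θ| ∂(μ.prod (μ.prod μ)) :=
        Finset.sum_le_sum fun i _ => abs_integral_le_integral_abs
    _ = ∫ θ, ∑ i ∈ s, |L i θ| ∂(μ.prod (μ.prod μ)) :=
        (integral_finsetSum _ fun i _ => (hLi i).abs).symm
    _ ≤ _ := by
        refine integral_mono_ae (integrable_finsetSum _ fun i _ => (hLi i).abs)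
          ((i0.fun_add i1).fun_add i2) ?_
        have hae : ∀ᵐ θ ∂(μ.prod (μ.prod μ)),
            θ ∈ Ico (0 : ℝ) 1 ×ˢ Ico (0 : ℝ) 1 ×ˢ Ico (0 : ℝ) 1 := by
          rw [hμ, Measure.prod_restrict, Measure.prod_restrict]
          exact ae_restrict_mem (measurableSet_Ico.prod (measurableSet_Ico.prod measurableSet_Ico))
        filter_upwards [hae] with θ hθ
        have h3 := h θ.1 hθ.1 θ.2.1 hθ.2.1 θ.2.2 hθ.2.2
        simp only [hL, hR, Finset.sum_product]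
        refine h3.trans (le_of_eq ?_)
        simp only [mul_add (δ ^ 2), Finset.sum_add_distrib, Prod.map, id, Function.comp, Prod.swap]

/-- from an additive to a multiplicative bound -/
theorem le_of_scale {L K x y z : ℝ} (hK : 0 ≤ K) (hx : 0 ≤ x) (hy : 0 ≤ y) (hz : 0 ≤ z)
    (h : ∀ a b c : ℝ, 0 < a → 0 < b → 0 < c → a * b * c * L ≤ K * (a ^ 3 * x + b ^ 3 * y + c ^ 3 * z)) :
    L ≤ 3 * K * x ^ (1 / 3 : ℝ) * y ^ (1 / 3 : ℝ) * z ^ (1 / 3 : ℝ) := by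
  have key : ∀ ε : ℝ, 0 < ε → L ≤ 3 * K * (x + ε) ^ (1 / 3 : ℝ) * (y + ε) ^ (1 / 3 : ℝ) *
      (z + ε) ^ (1 / 3 : ℝ) := by
    intro ε hε
    have aux : ∀ t : ℝ, 0 ≤ t → 0 < (t + ε) ^ (1 / 3 : ℝ) ∧ ((t + ε) ^ (1 / 3 : ℝ))⁻¹ ^ 3 * t ≤ 1 := by
      intro t ht
      have h1 : 0 < t + ε := by linarith
      refine ⟨Real.rpow_pos_of_pos h1 _, ?_⟩
      rw [inv_pow, ← Real.rpow_natCast, ← Real.rpow_mul h1.le]
      norm_num
      rw [inv_mul_le_iff₀ h1]; linarith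
    obtain ⟨a1, a2⟩ := aux x hx
    obtain ⟨b1, b2⟩ := aux y hy
    obtain ⟨c1, c2⟩ := aux z hz
    have h1 := h _ _ _ (inv_pos.mpr a1) (inv_pos.mpr b1) (inv_pos.mpr c1)
    generalize (x + ε) ^ (1 / 3 : ℝ) = X at *
    generalize (y + ε) ^ (1 / 3 : ℝ) = Y at *
    generalize (z + ε) ^ (1 / 3 : ℝ) = Z at *
    have h2 : X⁻¹ * Y⁻¹ * Z⁻¹ * L ≤ K * 3 := h1.trans (mul_le_mul_of_nonneg_left (by linarith) hK)
    rw [← mul_inv, ← mul_inv, inv_mul_le_iff₀ (by positivity)] at h2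
    linarith
  have hc : ∀ t : ℝ, Continuous fun ε : ℝ => (t + ε) ^ (1 / 3 : ℝ) := fun t =>
    (Real.continuous_rpow_const (by norm_num)).comp (by fun_prop)
  have ht : Tendsto (fun ε : ℝ => 3 * K * (x + ε) ^ (1 / 3 : ℝ) * (y + ε) ^ (1 / 3 : ℝ) *
      (z + ε) ^ (1 / 3 : ℝ)) (𝓝[>] 0)
      (𝓝 (3 * K * (x + 0) ^ (1 / 3 : ℝ) * (y + 0) ^ (1 / 3 : ℝ) * (z + 0) ^ (1 / 3 : ℝ))) :=
    ((((continuous_const.mul (hc x)).mul (hc y)).mul (hc z)).tendsto 0).mono_left nhdsWithin_le_nhds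
  simp only [add_zero] at ht
  exact ge_of_tendsto ht (eventually_nhdsWithin_of_forall key)

end Crest.Agent.R72
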