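import Crest.Agent.R72.Disc
import Crest.Agent.R72.Transfer

/-!
# Row 72: the estimate in the continuum

PLAN.  Coordinates `(y, s, x)`, `t = s - x - y`:
`Ψ (y,s,x) = F (s - y, y) G (x, s - x) ∑_{i<m} α i (x,y) (k (ρ i) t - k (ρ (i+1)) t)`.  For `k = KK σ₀ σ₁`, `δ = min (ρ 0) √σ₀`
and a box containing the supports, `transfer` (one index) with `disc` for the types `↥(Finset.Ico a b)` and the
positions `-y`, `s`, `-x` bounds `|∫ Ψ|` by `K √V (∫|F|³ + ∫|G|³ + ∫|H|³)` (shears preserve the measure).  Dominated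
convergence (`tendsto_KK`, `abs_KK_le`; the planes `t = 0, ±ρ i` are null) gives the same for `k = TT`; Fubini and
`s = t + x + y` identify `∫ Ψ` with the left-hand side (`TT a t - TT b t = 1_{a<|t|<b}/t` for `|t| ≠ b`).
-/

set_option autoImplicit false

namespace Crest.Agent.R72

open MeasureTheory Set Matrix Filter Topology
open scoped ENNReal

namespace CoreA

theorem integral_comp_mp {α β : Type*} [MeasurableSpace α] [MeasurableSpace β] {μ : Measure α}
    {ν : Measure β} {T : α → β} (hT : MeasurePreserving T μ ν) {g : β → ℝ} (hg : Measurable g) :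
    ∫ x, g (T x) ∂μ = ∫ y, g y ∂ν := by
  rw [← hT.map_eq, integral_map hT.measurable.aemeasurable hg.aestronglyMeasurable]

theorem integrable_of_supp {E : Type*} [NormedAddCommGroup E] [ProperSpace E] [MeasurableSpace E]
    [OpensMeasurableSpace E] {μ : Measure E} [IsFiniteMeasureOnCompacts μ] {f : E → ℝ}
    (hm : Measurable f) {M R : ℝ} (hb : ∀ x, |f x| ≤ M) (hs : ∀ x, f x ≠ 0 → ‖x‖ ≤ R) :
    Integrable f μ := by
  refine IntegrableOn.integrable_of_forall_notMem_eq_zero (s := Metric.closedBall 0 R)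
    (Measure.integrableOn_of_bounded measure_closedBall_lt_top.ne hm.aestronglyMeasurable
      (Eventually.of_forall hb)) fun x hx => ?_
  by_contra h
  exact hx (mem_closedBall_zero_iff.2 (hs x h))

theorem Nice.integrable3 {F : ℝ × ℝ → ℝ} (hF : Nice F) : Integrable fun z => |F z| ^ 3 := by
  obtain ⟨M, hM⟩ := hF.bdd
  obtain ⟨R, hR⟩ := hF.supp
  have := hF.meas
  refine integrable_of_supp (by fun_prop) (M := M ^ 3) (R := R) (fun z => ?_) fun z hz => ?_
  · rw [abs_pow, abs_abs]; exact pow_le_pow_left₀ (abs_nonneg _) (hM z) 3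
  · have := hR z fun h => hz (by simp [h])
    exact max_le this.1 this.2

/-- the change of variables `((x,y),t) ↦ (y, t + x + y, x)` -/
theorem mpT : MeasurePreserving
    (fun w : (ℝ × ℝ) × ℝ => ((w.1.2, w.2 + (w.1.1 + w.1.2), w.1.1) : ℝ × ℝ × ℝ)) volume volume := by
  have h1 : MeasurePreserving (fun w : (ℝ × ℝ) × ℝ => ((id w.1, w.2 + (w.1.1 + w.1.2)) :
      (ℝ × ℝ) × ℝ)) ((volume.prod volume).prod volume) ((volume.prod volume).prod volume) :=
    (MeasurePreserving.id _).skew_product (g := fun (z : ℝ × ℝ) (t : ℝ) => t + (z.1 + z.2))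
      (by fun_prop) (Eventually.of_forall fun z => map_add_right_eq_self _ _)
  exact ((measurePreserving_prodAssoc volume volume volume).comp
    (Measure.measurePreserving_swap.comp (measurePreserving_prodAssoc volume volume volume))).comp h1

/-- the product of the two functions -/
def B (F G : ℝ × ℝ → ℝ) (w : (ℝ × ℝ) × ℝ) : ℝ := F (w.1.1 + w.2, w.1.2) * G (w.1.1, w.1.2 + w.2)

theorem measurable_B {F G : ℝ × ℝ → ℝ} (hF : Nice F) (hG : Nice G) : Measurable (B F G) := by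
  have := hF.meas
  have := hG.meas
  unfold B; fun_prop

theorem integrable_B {F G : ℝ × ℝ → ℝ} (hF : Nice F) (hG : Nice G) : Integrable (B F G) := by
  obtain ⟨M, hM⟩ := hF.bdd
  obtain ⟨R, hR⟩ := hF.supp
  obtain ⟨M', hM'⟩ := hG.bdd
  obtain ⟨R', hR'⟩ := hG.supp
  refine integrable_of_supp (measurable_B hF hG) (M := M * M') (R := R + R') (fun w => ?_)
    fun w hw => ?_
  · rw [B, abs_mul]
    exact mul_le_mul (hM _) (hM' _) (abs_nonneg _) ((abs_nonneg _).trans (hM 0))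
  · have h1 := hR _ (left_ne_zero_of_mul hw)
    have h2 := hR' _ (right_ne_zero_of_mul hw)
    simp only at h1 h2
    have h3 := abs_nonneg w.1.1
    have h4 := abs_nonneg w.1.2
    have h5 := abs_sub (w.1.1 + w.2) w.1.1
    rw [add_sub_cancel_left] at h5
    simp only [Prod.norm_def, Real.norm_eq_abs, max_le_iff]
    exact ⟨⟨by linarith [h1.2, h2.1], by linarith [h1.2, h2.1]⟩, by linarith [h1.1, h2.1]⟩

theorem sep_lat {δ : ℝ} (hδ : 0 < δ) (s : Finset ℤ) (θ : ℝ) :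
    Sep δ fun n : s => δ * (((n : ℤ) : ℝ) + θ) := by
  intro a b hab
  have h : (1 : ℝ) ≤ |((a : ℤ) : ℝ) - ((b : ℤ) : ℝ)| := by
    exact_mod_cast Int.one_le_abs (sub_ne_zero.2 fun h => hab (Subtype.ext h))
  rw [← mul_sub, add_sub_add_right_eq_sub, abs_mul, abs_of_pos hδ]
  exact le_mul_of_one_le_right hδ.le h

theorem sep_neg {X : Type*} {δ : ℝ} {ξ : X → ℝ} (h : Sep δ ξ) : Sep δ fun a => -ξ a := by
  intro a b hab
  rw [neg_sub_neg, abs_sub_comm]
  exact h a b hab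

theorem abs_sum_le {m : ℕ} {a k : ℕ → ℝ} {M C : ℝ} (ha : ∀ i, |a i| ≤ M) (hk : ∀ i, |k i| ≤ C) :
    |∑ i ∈ Finset.range m, a i * k i| ≤ m * (M * C) := by
  refine (Finset.abs_sum_le_sum_abs _ _).trans ((Finset.sum_le_card_nsmul _ _ (M * C)
    fun i _ => ?_).trans (by simp))
  rw [abs_mul]
  exact mul_le_mul (ha i) (hk i) (abs_nonneg _) ((abs_nonneg _).trans (ha 0))

theorem abs_KK_sub_le {σ₀ σ₁ : ℝ} (h₀ : 0 < σ₀) (h₁ : 0 < σ₁) {ρ : ℕ → ℝ} (hρ : Monotone ρ)
    (h0 : 0 < ρ 0) (i : ℕ) (t : ℝ) :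
    |KK σ₀ σ₁ (ρ i) t - KK σ₀ σ₁ (ρ (i + 1)) t| ≤ 8 / ρ 0 + 8 / ρ 0 := by
  have h : ∀ i, |KK σ₀ σ₁ (ρ i) t| ≤ 8 / ρ 0 := fun i =>
    (abs_KK_le h₀ h₁ (h0.trans_le (hρ (Nat.zero_le i))) t).trans
      (div_le_div_of_nonneg_left (by norm_num) h0 (hρ (Nat.zero_le i)))
  exact (abs_sub _ _).trans (add_le_add (h i) (h _))

theorem lattice_step {F G H : ℝ × ℝ → ℝ} (hF : Nice F) (hG : Nice G) (hH : Nice H) {C δ D : ℝ}
    (hC : 0 ≤ C) (hδ : 0 < δ) {m : ℕ} {α : ℕ → ℝ × ℝ → ℝ} (hα : ∀ i, Measurable (α i))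
    (hαH : ∀ i z, |α i z| ≤ H z) {k : ℕ → ℝ → ℝ} (hk : ∀ i, Measurable (k i))
    (hkD : ∀ i t, |k i t| ≤ D)
    (h : ∀ (X : Type) [Fintype X] [DecidableEq X] (y s x : X → ℝ), Sep δ y → Sep δ s → Sep δ x →
      |Tri δ (fun a => -y a) s (fun c => -x c) (Matrix.of fun a b => F (s b - y a, y a))
        (Matrix.of fun b c => G (x c, s b - x c))
        fun c a t => ∑ i ∈ Finset.range m, α i (x c, y a) * k i t| ≤
      C * (N3 δ (Matrix.of fun a b => F (s b - y a, y a)) +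
        N3 δ (Matrix.of fun b c => G (x c, s b - x c)) +
        N3 δ (Matrix.of fun c a => H (x c, y a)))) :
    |∫ w, B F G w * ∑ i ∈ Finset.range m, α i w.1 * k i w.2| ≤
      C * ((∫ z, |F z| ^ 3) + (∫ z, |G z| ^ 3) + ∫ z, |H z| ^ 3) := by
  obtain ⟨M, hM⟩ := hF.bdd
  obtain ⟨R, hR⟩ := hF.supp
  obtain ⟨M', hM'⟩ := hG.bdd
  obtain ⟨R', hR'⟩ := hG.supp
  obtain ⟨M'', hM''⟩ := hH.bdd
  have hFm := hF.meas
  have hGm := hG.meas
  have hHm := hH.meas
  have hM0 : 0 ≤ M := (abs_nonneg _).trans (hM 0)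
  have hM0' : 0 ≤ M' := (abs_nonneg _).trans (hM' 0)
  have hM0'' : 0 ≤ M'' := (abs_nonneg _).trans (hM'' 0)
  obtain ⟨N, hN⟩ := exists_nat_gt ((2 * R + R') / δ)
  rw [div_lt_iff₀' hδ] at hN
  let Ψ : ℝ × ℝ × ℝ → ℝ := fun w => F (w.2.1 - w.1, w.1) * G (w.2.2, w.2.1 - w.2.2) *
    ∑ i ∈ Finset.range m, α i (w.2.2, w.1) * k i (-w.1 + w.2.1 + -w.2.2)
  have hΨ : Measurable Ψ := by
    simp only [Ψ]; fun_prop
  have t := transfer (Finset.univ : Finset Unit) hδ (-N) N (fun _ => Ψ) (fun _ => hΨ)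
    (fun _ => ⟨M * M' * (m * (M'' * D)), fun w => by
      simp only [Ψ, abs_mul]
      exact mul_le_mul (mul_le_mul (hM _) (hM' _) (abs_nonneg _) hM0)
        (abs_sum_le (fun i => (hαH i _).trans ((le_abs_self _).trans (hM'' _))) fun i => hkD i _)
        (abs_nonneg _) (by positivity)⟩)
    (fun z => C * |F (z.2 - z.1, z.1)| ^ 3) (fun z => C * |G (z.2, z.1 - z.2)| ^ 3)
    (fun z => C * |H z| ^ 3) (by fun_prop) (by fun_prop) (by fun_prop)
    ⟨C * (M + M' + M'') ^ 3, fun z => by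
      have key : ∀ u : ℝ, |u| ≤ M + M' + M'' → |C * |u| ^ 3| ≤ C * (M + M' + M'') ^ 3 := by
        intro u hu
        rw [abs_of_nonneg (by positivity)]
        gcongr
      exact ⟨key _ (by linarith [hM (z.2 - z.1, z.1)]), key _ (by linarith [hM' (z.2, z.1 - z.2)]),
        key _ (by linarith [hM'' z])⟩⟩
    (fun θ₀ _ θ₁ _ θ₂ _ => by
      have := h _ _ _ _ (sep_lat hδ (Finset.Ico (-N : ℤ) N) θ₀) (sep_lat hδ _ θ₁) (sep_lat hδ _ θ₂)
      simp only [Tri, N3, of_apply] at this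
      simp only [Finset.univ_unique, Finset.sum_singleton,
        ← Finset.sum_coe_sort (Finset.Ico (-N : ℤ) N)]
      refine this.trans (le_of_eq ?_)
      simp only [← Finset.sum_add_distrib, Finset.mul_sum]
      exact Finset.sum_congr rfl fun _ _ => Finset.sum_congr rfl fun _ _ => by ring)
  simp only [Finset.univ_unique, Finset.sum_singleton] at t
  rw [setIntegral_eq_integral_of_forall_compl_eq_zero, ← integral_comp_mp mpT hΨ] at t
  swap
  · intro w hw
    by_contra h0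
    have h1 := hR _ (left_ne_zero_of_mul (left_ne_zero_of_mul h0))
    have h2 := hR' _ (right_ne_zero_of_mul (left_ne_zero_of_mul h0))
    simp only [abs_le] at h1 h2
    refine hw ⟨⟨?_, ?_⟩, ⟨?_, ?_⟩, ⟨?_, ?_⟩⟩ <;> push_cast <;> linarith [h1.1.1, h1.1.2, h1.2.1,
      h1.2.2, h2.1.1, h2.1.2]
  have mp1 : MeasurePreserving (fun z : ℝ × ℝ => (z.2 - z.1, z.1)) volume volume :=
    Measure.measurePreserving_swap.comp (measurePreserving_prod_sub volume volume)
  have mp2 : MeasurePreserving (fun z : ℝ × ℝ => (z.2, z.1 - z.2)) volume volume :=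
    measurePreserving_prod_sub_swap volume volume
  have i1 : Integrable fun z : ℝ × ℝ => C * |F (z.2 - z.1, z.1)| ^ 3 :=
    (mp1.integrable_comp_of_integrable (Nice.integrable3 hF)).const_mul C
  have i2 : Integrable fun z : ℝ × ℝ => C * |G (z.2, z.1 - z.2)| ^ 3 :=
    (mp2.integrable_comp_of_integrable (Nice.integrable3 hG)).const_mul C
  have i3 : Integrable fun z : ℝ × ℝ => C * |H z| ^ 3 := (Nice.integrable3 hH).const_mul C
  have i12 : Integrable fun z : ℝ × ℝ => C * |F (z.2 - z.1, z.1)| ^ 3 +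
    C * |G (z.2, z.1 - z.2)| ^ 3 := i1.add i2
  have t2 := t.trans (setIntegral_le_integral (i12.add i3)
    (Eventually.of_forall fun z => by positivity))
  rw [integral_add i12 i3, integral_add i1 i2, integral_const_mul, integral_const_mul,
    integral_const_mul, integral_comp_mp mp1 (g := fun z => |F z| ^ 3) (by fun_prop),
    integral_comp_mp mp2 (g := fun z => |G z| ^ 3) (by fun_prop), ← mul_add, ← mul_add] at t2
  refine le_of_eq_of_le ?_ t2
  congr 2
  funext w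
  simp only [Ψ, B]
  congr 1
  · congr 3 <;> ring
  · refine Finset.sum_congr rfl fun i _ => ?_
    congr 2; ring

theorem measurable_TT (R : ℝ) : Measurable (TT R) := by
  unfold TT
  exact Measurable.ite (measurableSet_lt measurable_const (by fun_prop)) (by fun_prop)
    measurable_const

theorem abs_TT_le {R : ℝ} (hR : 0 < R) (t : ℝ) : |TT R t| ≤ 1 / R := by
  unfold TT
  split_ifs with h
  · rw [abs_div, abs_one]; exact one_div_le_one_div_of_le hR h.le
  · rw [abs_zero]; positivity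

theorem ae_abs_ne (R : ℝ) : ∀ᵐ t : ℝ, |t| ≠ R := by
  filter_upwards [(Set.toFinite {R, -R}).countable.ae_notMem volume] with t ht h
  rcases abs_choice t with h' | h'
  · exact ht (Or.inl (h'.symm.trans h))
  · exact ht (Or.inr (by rw [mem_singleton_iff, ← h, h', neg_neg]))

theorem mul_BR (F G : ℝ × ℝ → ℝ) {a b : ℝ} (hab : a ≤ b) (c : ℝ) (z : ℝ × ℝ) :
    c * BR F G a b z = ∫ t, B F G (z, t) * (c * (TT a t - TT b t)) := by
  have hm : MeasurableSet {t : ℝ | a < |t| ∧ |t| < b} :=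
    continuous_abs.measurable (measurableSet_Ioo (a := a) (b := b))
  rw [BR, ← integral_indicator hm, ← integral_const_mul]
  refine integral_congr_ae ((ae_abs_ne b).mono fun t ht => ?_)
  simp only [B, TT, indicator, mem_ofPred_eq]
  by_cases h1 : a < |t|
  · rcases lt_or_gt_of_ne ht with h2 | h2
    · rw [if_pos ⟨h1, h2⟩, if_pos h1, if_neg h2.not_gt]; ring
    · rw [if_neg fun h => h2.not_gt h.2, if_pos h1, if_pos h2]; ring
  · rw [if_neg fun h => h1 h.1, if_neg h1, if_neg fun h => h1 (hab.trans_lt h)]; ring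

end CoreA

open CoreA in
theorem core : ∃ K > 0, ∀ (F G H : ℝ × ℝ → ℝ), Nice F → Nice G → Nice H → ∀ V : ℝ, 1 ≤ V →
    ∀ (m : ℕ) (ρ : ℕ → ℝ) (α : ℕ → ℝ × ℝ → ℝ), Monotone ρ → 0 < ρ 0 → (∀ i, Measurable (α i)) →
    α m = 0 → (∀ i z, |α i z| ≤ H z) → (∀ z, Var m (fun i => α i z) ≤ V * H z) →
    |∑ i ∈ Finset.range m, ∫ z, α i z * BR F G (ρ i) (ρ (i + 1)) z| ≤
      K * √V * ((∫ z, |F z| ^ 3) + (∫ z, |G z| ^ 3) + ∫ z, |H z| ^ 3) := by
  obtain ⟨K, hK, hd⟩ := disc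
  refine ⟨K, hK, fun F G H hF hG hH V hV m ρ α hρ h0 hα hm hαH hVar => ?_⟩
  obtain ⟨M, hM⟩ := hH.bdd
  have hαM : ∀ i z, |α i z| ≤ M := fun i z => (hαH i z).trans ((le_abs_self _).trans (hM z))
  have hρ0 : ∀ i, 0 < ρ i := fun i => h0.trans_le (hρ (Nat.zero_le i))
  have hB := measurable_B hF hG
  have hBi := integrable_B hF hG
  have s0 : ∀ n : ℕ, (0 : ℝ) < 1 / ((n : ℝ) + 1) := fun n => by positivity
  have s1 : ∀ n : ℕ, (0 : ℝ) < (n : ℝ) + 1 := fun n => by positivity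
  have key : ∀ n : ℕ, |∫ w, B F G w * ∑ i ∈ Finset.range m, α i w.1 *
      (KK (1 / ((n : ℝ) + 1)) ((n : ℝ) + 1) (ρ i) w.2 -
        KK (1 / ((n : ℝ) + 1)) ((n : ℝ) + 1) (ρ (i + 1)) w.2)| ≤
      K * √V * ((∫ z, |F z| ^ 3) + (∫ z, |G z| ^ 3) + ∫ z, |H z| ^ 3) := by
    intro n
    have hδ : 0 < min (ρ 0) √(1 / ((n : ℝ) + 1)) := lt_min h0 (Real.sqrt_pos.2 (s0 n))
    refine lattice_step hF hG hH (by positivity) hδ hα hαH
      (k := fun i t => KK (1 / ((n : ℝ) + 1)) ((n : ℝ) + 1) (ρ i) t -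
        KK (1 / ((n : ℝ) + 1)) ((n : ℝ) + 1) (ρ (i + 1)) t)
      (fun i => (measurable_KK _ _ _).sub (measurable_KK _ _ _))
      (abs_KK_sub_le (s0 n) (s1 n) hρ h0) fun X _ _ y s x hy hs hx => ?_
    refine hd X X X _ hδ _ _ _ (sep_neg hy) hs (sep_neg hx) _ _ _ V hV m ρ
      (fun i => Matrix.of fun c a => α i (x c, y a)) hρ (min_le_left _ _)
      (by ext c a; simp [hm]) (fun i c a => hαH i _) (fun c a => hVar _) _ _ ?_ ?_
    · exact (pow_le_pow_left₀ hδ.le (min_le_right _ _) 2).trans (Real.sq_sqrt (s0 n).le).le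
    · have : (0 : ℝ) ≤ n := Nat.cast_nonneg n
      rw [div_le_iff₀ (s1 n)]; nlinarith
  have lim := tendsto_integral_of_dominated_convergence
    (F := fun (n : ℕ) (w : (ℝ × ℝ) × ℝ) => B F G w * ∑ i ∈ Finset.range m, α i w.1 *
      (KK (1 / ((n : ℝ) + 1)) ((n : ℝ) + 1) (ρ i) w.2 -
        KK (1 / ((n : ℝ) + 1)) ((n : ℝ) + 1) (ρ (i + 1)) w.2))
    (f := fun w => B F G w * ∑ i ∈ Finset.range m, α i w.1 * (TT (ρ i) w.2 - TT (ρ (i + 1)) w.2))
    (μ := volume) (fun w => |B F G w| * (m * (M * (8 / ρ 0 + 8 / ρ 0))))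
    (fun n => (hB.mul (Finset.measurable_sum _ fun i _ => ((hα i).comp measurable_fst).mul
      (((measurable_KK _ _ _).sub (measurable_KK _ _ _)).comp
        measurable_snd))).aestronglyMeasurable)
    (hBi.abs.mul_const _)
    (fun n => Eventually.of_forall fun w => by
      rw [Real.norm_eq_abs, abs_mul]
      exact mul_le_mul_of_nonneg_left (abs_sum_le (fun i => hαM i _)
        fun i => abs_KK_sub_le (s0 n) (s1 n) hρ h0 i _) (abs_nonneg _))
    (by
      have h1 : ∀ᵐ t : ℝ, |t| ≠ 0 ∧ ∀ i, |t| ≠ ρ i :=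
        (ae_abs_ne 0).and (ae_all_iff.2 fun i => ae_abs_ne (ρ i))
      filter_upwards [(Measure.quasiMeasurePreserving_snd (μ := (volume : Measure (ℝ × ℝ)))
        (ν := (volume : Measure ℝ))).ae h1] with w hw
      have hw0 : w.2 ≠ 0 := abs_ne_zero.1 hw.1
      exact (tendsto_finsetSum _ fun i _ => ((tendsto_KK (hρ0 i) (hw.2 i) hw0).sub
        (tendsto_KK (hρ0 _) (hw.2 _) hw0)).const_mul _).const_mul _)
  refine le_of_eq_of_le ?_ (le_of_tendsto' lim.abs key)
  have hi : ∀ i, Integrable fun w : (ℝ × ℝ) × ℝ =>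
      B F G w * (α i w.1 * (TT (ρ i) w.2 - TT (ρ (i + 1)) w.2)) := fun i =>
    hBi.mul_bdd (c := M * (1 / ρ i + 1 / ρ (i + 1))) (((hα i).comp measurable_fst).mul
      (((measurable_TT _).sub (measurable_TT _)).comp measurable_snd)).aestronglyMeasurable
      (Eventually.of_forall fun w => by
        rw [Real.norm_eq_abs, abs_mul]
        exact mul_le_mul (hαM i _) ((abs_sub _ _).trans (add_le_add (abs_TT_le (hρ0 _) _)
          (abs_TT_le (hρ0 _) _))) (abs_nonneg _) ((abs_nonneg _).trans (hM 0)))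
  simp only [Finset.mul_sum]
  rw [integral_finsetSum _ fun i _ => hi i]
  congr 1
  refine Finset.sum_congr rfl fun i _ => ?_
  rw [Measure.volume_eq_prod (ℝ × ℝ) ℝ, integral_prod _ (hi i)]
  exact integral_congr_ae (Eventually.of_forall fun z => mul_BR F G (hρ (Nat.le_succ i)) _ z)

end Crest.Agent.R72
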