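import Mathlib
import Crest.Prelude.Def_TriangularHilbert
import Crest.Prelude.Def_DyadicTriangular

/-!
# Row 72 (S0095, S0096, S0097): the triangular Hilbert transform.  Definitions.

OVERVIEW.  The trilinear form `∑ F₀(x₀,x₁) F₁(x₁,x₂) F₂(x₂,x₀) k(x₀+x₁+x₂)` is a superposition of
traces `tr (A D₁ B D₂ C D₀)` of localised matrices.  The Bellman function at the vertex `0` is
`EE (A Aᵀ + Cᵀ C) ≈ tr (A Aᵀ + Cᵀ C)^(3/2)`, written as a superposition of the functions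
`ell G = tr G - log det (1 + G)`.  When the localisation is refined `ell` increases on average by
`gn G G u = tr (ph G * u * ph G * u)`, `ph G = G (1 + G)⁻¹`, and these gains control the traces.
-/

set_option autoImplicit false

namespace Crest.Agent.R72

open MeasureTheory Set Matrix
open scoped ENNReal

section Mat

variable {X Y : Type*} [Fintype X] [DecidableEq X] [Fintype Y] [DecidableEq Y]

/-- the resolvent `(1 + G)⁻¹` -/
noncomputable def Rs (G : Matrix X X ℝ) : Matrix X X ℝ := (1 + G)⁻¹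

/-- `G (1 + G)⁻¹` -/
noncomputable def ph (G : Matrix X X ℝ) : Matrix X X ℝ := 1 - Rs G

/-- the energy at a fixed spectral scale -/
noncomputable def ell (G : Matrix X X ℝ) : ℝ := G.trace - Real.log (1 + G).det

/-- the gain at a fixed spectral scale -/
noncomputable def gn (P Q : Matrix X X ℝ) (u : X → ℝ) : ℝ :=
  (ph P * diagonal u * ph Q * diagonal u).trace

/-- the energy, `(2π/3) tr G^(3/2)` -/
noncomputable def EE (G : Matrix X X ℝ) : ℝ≥0∞ :=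
  ∫⁻ v in Ioi (0 : ℝ), ENNReal.ofReal (2 * v ^ 2 * ell ((v ^ 2)⁻¹ • G))

/-- the gain -/
noncomputable def GG (P Q : Matrix X X ℝ) (u : X → ℝ) : ℝ≥0∞ :=
  ∫⁻ v in Ioi (0 : ℝ), ENNReal.ofReal (2 * v ^ 2 * gn ((v ^ 2)⁻¹ • P) ((v ^ 2)⁻¹ • Q) u)

end Mat

/-- the Gaussian density of variance `σ` -/
noncomputable def gs (σ x : ℝ) : ℝ := (√(2 * Real.pi * σ))⁻¹ * Real.exp (-x ^ 2 / (2 * σ))

/-- its first derivative -/
noncomputable def d1 (σ x : ℝ) : ℝ := -x / σ * gs σ x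

/-- its third derivative -/
noncomputable def d3 (σ x : ℝ) : ℝ := (3 * x / σ ^ 2 - x ^ 3 / σ ^ 3) * gs σ x

/-- `δ`-separated families of points -/
def Sep {X : Type*} (δ : ℝ) (ξ : X → ℝ) : Prop := ∀ a b, a ≠ b → δ ≤ |ξ a - ξ b|

/-- the Gaussian maximal function of `f` at the point `y` -/
noncomputable def MM {X : Type*} [Fintype X] (δ : ℝ) (ξ : X → ℝ) (f : X → ℝ) (y : ℝ) : ℝ :=
  ⨆ τ : Ici (δ ^ 2), ∑ a, δ * gs τ (ξ a - y) * f a

/-- the discrete `L³` norm, cubed -/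
noncomputable def N3 {X Y : Type*} [Fintype X] [Fintype Y] (δ : ℝ) (f : Matrix X Y ℝ) : ℝ :=
  ∑ a, ∑ b, δ ^ 2 * |f a b| ^ 3

section Win

variable {X Y Z : Type*} [Fintype X] [DecidableEq X] [Fintype Y] [DecidableEq Y] [Fintype Z]
  [DecidableEq Z]

/-- a matrix localised by Gaussian windows -/
noncomputable def Wm (σ τ : ℝ) (ξ : X → ℝ) (η : Y → ℝ) (F : Matrix X Y ℝ) (p q : ℝ) :
    Matrix X Y ℝ :=
  Matrix.of fun a b => √(gs σ (ξ a - p)) * F a b * √(gs τ (η b - q))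

/-- its Gram matrix -/
noncomputable def Gm (σ τ : ℝ) (ξ : X → ℝ) (η : Y → ℝ) (F : Matrix X Y ℝ) (p q : ℝ) :
    Matrix X X ℝ :=
  Wm σ τ ξ η F p q * (Wm σ τ ξ η F p q)ᵀ

/-- the logarithmic derivative of the window -/
noncomputable def uu (σ : ℝ) (ξ : X → ℝ) (p : ℝ) : X → ℝ := fun a => (ξ a - p) / (2 * σ)

/-- the sum of the two Gram matrices at a vertex, on the plane `p₀ + p₁ + p₂ = 0` -/
noncomputable def Gs (κ σ : ℝ) (ξ : X → ℝ) (η : Y → ℝ) (ζ : Z → ℝ) (F : Matrix X Y ℝ)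
    (F' : Matrix X Z ℝ) (p : ℝ × ℝ) : Matrix X X ℝ :=
  Gm σ (κ * σ) ξ η F p.1 p.2 + Gm σ (κ * σ) ξ ζ F' p.1 (-p.1 - p.2)

/-- the total energy at a vertex -/
noncomputable def EN (κ σ : ℝ) (ξ : X → ℝ) (η : Y → ℝ) (ζ : Z → ℝ) (F : Matrix X Y ℝ)
    (F' : Matrix X Z ℝ) : ℝ≥0∞ :=
  ∫⁻ p : ℝ × ℝ, (2 * EE (Gs κ σ ξ η ζ F F' p) + EE (Gm σ (κ * σ) ξ η F p.1 p.2) +
    EE (Gm σ (κ * σ) ξ ζ F' p.1 (-p.1 - p.2)))

/-- the total gain at a vertex -/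
noncomputable def GN (κ σ : ℝ) (ξ : X → ℝ) (η : Y → ℝ) (ζ : Z → ℝ) (F : Matrix X Y ℝ)
    (F' : Matrix X Z ℝ) : ℝ≥0∞ :=
  ∫⁻ p : ℝ × ℝ, GG (Gs κ σ ξ η ζ F F' p) (Gs κ σ ξ η ζ F F' p) (uu σ ξ p.1)

/-- the discrete trilinear form with a kernel depending on `(x₂, x₀)` -/
noncomputable def Tri (δ : ℝ) (ξ : X → ℝ) (η : Y → ℝ) (ζ : Z → ℝ) (f₀ : Matrix X Y ℝ)
    (f₁ : Matrix Y Z ℝ) (k : Z → X → ℝ → ℝ) : ℝ :=
  ∑ a, ∑ b, ∑ c, δ ^ 3 * (f₀ a b * f₁ b c * k c a (ξ a + η b + ζ c))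

end Win

/-- smooth truncation of `1/t` at scale `√σ` -/
noncomputable def LL (σ t : ℝ) : ℝ :=
  (1 - Real.exp (-t ^ 2 / (6 * σ))) / t + t / (3 * σ) * Real.exp (-t ^ 2 / (6 * σ))

/-- sharp truncation of `1/t` -/
noncomputable def TT (R t : ℝ) : ℝ := if R < |t| then 1 / t else 0

/-- the difference of the truncations -/
noncomputable def DD (R t : ℝ) : ℝ := TT R t - LL (R ^ 2) t

/-- Gaussian smoothing -/
noncomputable def sm (τ : ℝ) (E : ℝ → ℝ) (t : ℝ) : ℝ := ∫ s, E s * gs τ (t - s)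

/-- convolution with the derivative of a Gaussian -/
noncomputable def ee (σ : ℝ) (E : ℝ → ℝ) (r : ℝ) : ℝ := ∫ s, E s * d1 (3 * σ) (r - s)

/-- the regularised sharp truncation -/
noncomputable def KK (σ₀ σ₁ R t : ℝ) : ℝ :=
  LL (R ^ 2) t + (sm (6 * σ₀) (DD R) t - sm (6 * σ₁) (DD R) t)

/-- total variation of the sequence `0, α 0, …, α (m-1), α m` -/
def Var (m : ℕ) (α : ℕ → ℝ) : ℝ := |α 0| + ∑ i ∈ Finset.range m, |α (i + 1) - α i|

/-- bounded measurable functions with bounded support -/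
structure Nice (F : ℝ × ℝ → ℝ) : Prop where
  meas : Measurable F
  bdd : ∃ M, ∀ z, |F z| ≤ M
  supp : ∃ R, ∀ z, F z ≠ 0 → |z.1| ≤ R ∧ |z.2| ≤ R

/-- the real annular transform -/
noncomputable def BR (F G : ℝ × ℝ → ℝ) (ε R : ℝ) (z : ℝ × ℝ) : ℝ :=
  ∫ t in {t : ℝ | ε < |t| ∧ |t| < R}, F (z.1 + t, z.2) * G (z.1, z.2 + t) / t

end Crest.Agent.R72
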