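import Crest.Agent.R72.Kern

/-!
# Row 72: the weighted size of one truncation

PLAN.  `g = gs (3σ)`, `Δ s r = 2 g r - g (r-s) - g (r+s)`, `∂_s Δ = ψ (r-s) - ψ (r+s)`, `ψ = d1 (3σ)`.  By oddness and integration by
parts on `(0,R)` and `(R,∞)` (or by writing `DD R t = ∫_t^∞ λ - 1_{t ≤ R}/R` for `t > 0` and Fubini)
`ee σ (DD R) r = ∫₀^∞ λ s Δ s r ds - Δ R r / R`, `λ s = 1_{R<s}/s² + ∂_s LL (R²) s`; `|λ s| ≤ C/R²` for `s ≤ R` and
`|λ s| ≤ C R²/s⁴` for `s > R`, so `∫ s |λ s| ds ≤ C`.  `step`: for `σ ≤ s²` bound the three Gaussians separately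
(`∫ (1+|r|/√σ)^(3/4) g (r-s) dr ≤ C (s/√σ)^(3/4)`), for `σ > s²` use `Δ = -∫₀^s ∫_{-y}^{y} g'' (r+z)`, which gives `C s²/σ`.
-/

set_option autoImplicit false

namespace Crest.Agent.R72

open MeasureTheory Set Matrix Filter Topology
open scoped ENNReal

namespace K2

/-- the weight -/
noncomputable def wt (σ r : ℝ) : ℝ := (1 + |r| / √σ) ^ (3 / 4 : ℝ)

/-- the second difference of the Gaussian -/
noncomputable def De (σ s r : ℝ) : ℝ := 2 * gs (3 * σ) r - gs (3 * σ) (r - s) - gs (3 * σ) (r + s)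

theorem wt_nonneg (σ r : ℝ) : 0 ≤ wt σ r := by
  unfold wt
  positivity

theorem pow_gs (k : ℕ) : ∃ C > 0, ∀ σ > 0, ∀ x, (|x| / √σ) ^ k * gs σ x ≤ C * gs (2 * σ) x := by
  obtain ⟨C, hC⟩ := pow_mul_gs_le k
  refine ⟨|C| + 1, by positivity, fun σ hσ x => (hC σ hσ x).trans ?_⟩
  exact mul_le_mul_of_nonneg_right (by linarith [le_abs_self C]) (gs_nonneg _ _)

theorem wt_gs : ∃ C > 0, ∀ σ > 0, ∀ τ > 0, τ ≤ 16 * σ → ∀ a r,
    wt σ r * gs τ (r - a) ≤ C * wt σ a * gs (2 * τ) (r - a) := by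
  obtain ⟨C₀, h0, hC₀⟩ := pow_gs 0
  obtain ⟨C₁, h1, hC₁⟩ := pow_gs 1
  refine ⟨C₀ + 4 * C₁, by positivity, fun σ hσ τ hτ hστ a r => ?_⟩
  have hs : 0 < √σ := Real.sqrt_pos.mpr hσ
  have ht : 0 < √τ := Real.sqrt_pos.mpr hτ
  have a1 : 0 ≤ |a| / √σ := by positivity
  have a2 : 0 ≤ |r - a| / √σ := by positivity
  have a3 : |r| / √σ ≤ |a| / √σ + |r - a| / √σ := by
    rw [← add_div]
    gcongr
    have := abs_add_le a (r - a)
    rwa [add_sub_cancel] at this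
  have a4 : wt σ r ≤ wt σ a * (1 + |r - a| / √σ) := by
    unfold wt
    calc (1 + |r| / √σ) ^ (3 / 4 : ℝ) ≤ ((1 + |a| / √σ) * (1 + |r - a| / √σ)) ^ (3 / 4 : ℝ) :=
          Real.rpow_le_rpow (by positivity) (by nlinarith [mul_nonneg a1 a2]) (by norm_num)
      _ = (1 + |a| / √σ) ^ (3 / 4 : ℝ) * (1 + |r - a| / √σ) ^ (3 / 4 : ℝ) :=
          Real.mul_rpow (by positivity) (by positivity)
      _ ≤ _ := mul_le_mul_of_nonneg_left (Real.rpow_le_self_of_one_le (by linarith) (by norm_num)) (by positivity)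
  have a5 : √τ ≤ 4 * √σ := by
    rw [show (4 : ℝ) = √16 by rw [show (16 : ℝ) = 4 ^ 2 by norm_num, Real.sqrt_sq (by norm_num)],
      ← Real.sqrt_mul (by norm_num)]
    exact Real.sqrt_le_sqrt hστ
  have a6 : |r - a| / √σ ≤ 4 * (|r - a| / √τ) := by
    rw [← mul_div_assoc, div_le_div_iff₀ hs ht]
    nlinarith [abs_nonneg (r - a)]
  have b0 := hC₀ τ hτ (r - a)
  have b1 := hC₁ τ hτ (r - a)
  rw [pow_zero, one_mul] at b0
  rw [pow_one] at b1
  have b2 := gs_nonneg τ (r - a)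
  have b3 : (1 + |r - a| / √σ) * gs τ (r - a) ≤ (C₀ + 4 * C₁) * gs (2 * τ) (r - a) := by
    nlinarith [mul_le_mul_of_nonneg_right a6 b2]
  calc wt σ r * gs τ (r - a) ≤ wt σ a * (1 + |r - a| / √σ) * gs τ (r - a) := mul_le_mul_of_nonneg_right a4 b2
    _ = wt σ a * ((1 + |r - a| / √σ) * gs τ (r - a)) := mul_assoc _ _ _
    _ ≤ wt σ a * ((C₀ + 4 * C₁) * gs (2 * τ) (r - a)) := mul_le_mul_of_nonneg_left b3 (wt_nonneg _ _)
    _ = _ := by ring

theorem lint_le {μ : Measure ℝ} {f h : ℝ → ℝ} (hi : Integrable h μ) (h0 : ∀ᵐ x ∂μ, 0 ≤ h x)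
    (hle : ∀ᵐ x ∂μ, f x ≤ h x) : ∫⁻ x, ENNReal.ofReal (f x) ∂μ ≤ ENNReal.ofReal (∫ x, h x ∂μ) := by
  rw [ofReal_integral_eq_lintegral_ofReal hi h0]
  exact lintegral_mono_ae (hle.mono fun x hx => ENNReal.ofReal_le_ofReal hx)

theorem integral_gs_sub {τ : ℝ} (hτ : 0 < τ) (a : ℝ) : ∫ r, gs τ (r - a) = 1 := by
  rw [integral_sub_right_eq_self (gs τ), integral_gs hτ]

theorem inner_small : ∃ C > 0, ∀ s > 0, ∀ σ > 0, σ ≤ s ^ 2 →
    ∫⁻ r, ENNReal.ofReal ((√σ)⁻¹ * wt σ r * |De σ s r|) ≤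
      ENNReal.ofReal (C * s ^ (3 / 4 : ℝ) * σ ^ (-7 / 8 : ℝ)) := by
  obtain ⟨C, hC0, hC⟩ := wt_gs
  refine ⟨8 * C, by positivity, fun s hs σ hσ hσs => ?_⟩
  have hq : 0 < √σ := Real.sqrt_pos.mpr hσ
  have h1 : 1 ≤ s / √σ := by
    rw [le_div_iff₀ hq, one_mul]
    exact Real.sqrt_le_iff.mpr ⟨hs.le, hσs⟩
  set W := 2 * (s / √σ) ^ (3 / 4 : ℝ) with hW
  have hW0 : 0 ≤ W := by positivity
  have h2 : ∀ a, |a| ≤ s → wt σ a ≤ W := fun a ha => by
    have h3 : |a| / √σ ≤ s / √σ := by gcongr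
    unfold wt
    calc (1 + |a| / √σ) ^ (3 / 4 : ℝ) ≤ (2 * (s / √σ)) ^ (3 / 4 : ℝ) :=
          Real.rpow_le_rpow (by positivity) (by linarith) (by norm_num)
      _ = 2 ^ (3 / 4 : ℝ) * (s / √σ) ^ (3 / 4 : ℝ) := Real.mul_rpow (by norm_num) (by positivity)
      _ ≤ W := mul_le_mul_of_nonneg_right (Real.rpow_le_self_of_one_le (by norm_num) (by norm_num)) (by positivity)
  have h6 : 0 < 2 * (3 * σ) := by positivity
  have h4 : ∀ a, |a| ≤ s → ∀ r, wt σ r * gs (3 * σ) (r - a) ≤ C * W * gs (2 * (3 * σ)) (r - a) := fun a ha r =>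
    (hC σ hσ (3 * σ) (by positivity) (by linarith) a r).trans
      (mul_le_mul_of_nonneg_right (mul_le_mul_of_nonneg_left (h2 a ha) hC0.le) (gs_nonneg _ _))
  have i0 := ((integrable_gs h6).comp_sub_right 0).const_mul 2
  have i1 := (integrable_gs h6).comp_sub_right s
  have i2 := (integrable_gs h6).comp_sub_right (-s)
  have i01 : Integrable fun r => 2 * gs (2 * (3 * σ)) (r - 0) + gs (2 * (3 * σ)) (r - s) := i0.add i1
  have i012 : Integrable fun r => 2 * gs (2 * (3 * σ)) (r - 0) + gs (2 * (3 * σ)) (r - s) +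
      gs (2 * (3 * σ)) (r - -s) := i01.add i2
  refine (lint_le (i012.const_mul ((√σ)⁻¹ * (C * W))) (Eventually.of_forall fun r => ?_)
    (Eventually.of_forall fun r => ?_)).trans (le_of_eq ?_)
  · have := gs_nonneg (2 * (3 * σ)) (r - 0)
    have := gs_nonneg (2 * (3 * σ)) (r - s)
    have := gs_nonneg (2 * (3 * σ)) (r - -s)
    positivity
  · have b0 := h4 0 (by simpa using hs.le) r
    have b1 := h4 s (by rw [abs_of_pos hs]) r
    have b2 := h4 (-s) (by rw [abs_neg, abs_of_pos hs]) r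
    have b3 : |De σ s r| ≤ 2 * gs (3 * σ) (r - 0) + gs (3 * σ) (r - s) + gs (3 * σ) (r - -s) := by
      have := gs_nonneg (3 * σ) r
      have := gs_nonneg (3 * σ) (r - s)
      have := gs_nonneg (3 * σ) (r + s)
      rw [sub_zero, sub_neg_eq_add, De, abs_le]
      constructor <;> linarith
    have b4 := mul_le_mul_of_nonneg_left b3 (wt_nonneg σ r)
    rw [mul_assoc, mul_assoc]
    refine mul_le_mul_of_nonneg_left ?_ (by positivity)
    linarith
  · rw [integral_const_mul, integral_add i01 i2, integral_add i0 i1, integral_const_mul, integral_gs_sub h6,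
      integral_gs_sub h6, integral_gs_sub h6]
    congr 1
    have e : σ ^ (-7 / 8 : ℝ) = (√σ)⁻¹ * ((√σ) ^ (3 / 4 : ℝ))⁻¹ := by
      rw [Real.sqrt_eq_rpow, ← Real.rpow_mul hσ.le, ← Real.rpow_neg hσ.le, ← Real.rpow_neg hσ.le,
        ← Real.rpow_add hσ]
      norm_num
    rw [hW, Real.div_rpow hs.le hq.le, e]
    ring

theorem hasDerivAt_De {σ : ℝ} (hσ : 0 < σ) (r s : ℝ) :
    HasDerivAt (fun s => De σ s r) (d1 (3 * σ) (r - s) - d1 (3 * σ) (r + s)) s := by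
  have h3 : 0 < 3 * σ := by positivity
  have h1 := (hasDerivAt_gs h3 (r - s)).comp s ((hasDerivAt_id s).const_sub r)
  have h2 := (hasDerivAt_gs h3 (r + s)).comp s ((hasDerivAt_id s).const_add r)
  refine HasDerivAt.congr_deriv ((h1.const_sub (2 * gs (3 * σ) r)).sub h2) ?_
  ring

theorem De_zero (σ r : ℝ) : De σ 0 r = 0 := by
  simp only [De, sub_zero, add_zero]
  ring

theorem De_large : ∃ C > 0, ∀ s > 0, ∀ σ, s ^ 2 ≤ σ → ∀ r, |De σ s r| ≤ C * (s ^ 2 / σ) * gs (12 * σ) r := by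
  obtain ⟨C₀, h0, hC₀⟩ := pow_gs 0
  obtain ⟨C₂, h2, hC₂⟩ := pow_gs 2
  refine ⟨4 * (C₀ + C₂), by positivity, fun s hs σ hσs r => ?_⟩
  have hσ : 0 < σ := lt_of_lt_of_le (by positivity) hσs
  have h3 : 0 < 3 * σ := by positivity
  set M := 2 * (C₀ + C₂) / σ * gs (12 * σ) r with hM
  have hM0 : 0 ≤ M := by
    have := gs_nonneg (12 * σ) r
    positivity
  have a1 : ∀ x, |x - r| ≤ s → ‖(x ^ 2 / (3 * σ) ^ 2 - 1 / (3 * σ)) * gs (3 * σ) x‖ ≤ M := fun x hx => by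
    have b0 := hC₀ _ h3 x
    have b2 := hC₂ _ h3 x
    rw [pow_zero, one_mul] at b0
    rw [div_pow, sq_abs, Real.sq_sqrt h3.le] at b2
    have b3 := gs_cmp (a := 2 * (3 * σ)) (b := 12 * σ) (x := x) (y := r) (K := 2) (t := 1 / 2) (by positivity)
      (by positivity) (by nlinarith) (by norm_num) (by
        have h4 : (x - r) ^ 2 ≤ σ := le_trans (by rw [← sq_abs]; gcongr) hσs
        rw [div_add' _ _ _ (by positivity), div_le_div_iff₀ (by positivity) (by positivity)]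
        have h5 : r ^ 2 ≤ 2 * x ^ 2 + 2 * σ := by nlinarith [sq_nonneg (x - r + x)]
        nlinarith)
    have b4 : gs (2 * (3 * σ)) x ≤ 4 * gs (12 * σ) r := by
      nlinarith [exp_half_le, gs_nonneg (12 * σ) r]
    have b5 := gs_nonneg (3 * σ) x
    have b6 : 0 ≤ x ^ 2 / (3 * σ) * gs (3 * σ) x := by positivity
    have e : (x ^ 2 / (3 * σ) ^ 2 - 1 / (3 * σ)) * gs (3 * σ) x =
        (x ^ 2 / (3 * σ) * gs (3 * σ) x - gs (3 * σ) x) / (3 * σ) := by field_simp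
    have b7 : |x ^ 2 / (3 * σ) * gs (3 * σ) x - gs (3 * σ) x| ≤ (C₀ + C₂) * (4 * gs (12 * σ) r) := by
      have := mul_le_mul_of_nonneg_left b4 (add_pos h0 h2).le
      rw [abs_le]
      constructor <;> nlinarith
    rw [Real.norm_eq_abs, e, abs_div, abs_of_pos h3, div_le_iff₀ h3]
    refine b7.trans ?_
    have e2 : M * (3 * σ) = (C₀ + C₂) * (6 * gs (12 * σ) r) := by rw [hM]; field_simp; ring
    rw [e2]
    have := gs_nonneg (12 * σ) r
    gcongr
    norm_num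
  have a2 : ∀ y ∈ Ico 0 s, ‖d1 (3 * σ) (r - y) - d1 (3 * σ) (r + y)‖ ≤ M * (2 * s) := fun y hy => by
    have := norm_image_sub_le_of_norm_deriv_le_segment' (a := r - y) (b := r + y)
      (fun x _ => (hasDerivAt_d1 h3 x).hasDerivWithinAt)
      (fun x hx => a1 x (abs_le.mpr ⟨by linarith [hx.1, hy.2], by linarith [hx.2, hy.2]⟩)) (r + y)
      ⟨by linarith [hy.1], le_rfl⟩
    rw [norm_sub_rev]
    refine this.trans (mul_le_mul_of_nonneg_left (by linarith [hy.2]) hM0)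
  have a3 := norm_image_sub_le_of_norm_deriv_le_segment' (a := 0) (b := s)
    (fun y _ => (hasDerivAt_De hσ r y).hasDerivWithinAt) a2 s ⟨hs.le, le_rfl⟩
  rw [De_zero, sub_zero, sub_zero, Real.norm_eq_abs] at a3
  refine a3.trans (le_of_eq ?_)
  rw [hM]
  ring

theorem inner_large : ∃ C > 0, ∀ s > 0, ∀ σ, s ^ 2 ≤ σ →
    ∫⁻ r, ENNReal.ofReal ((√σ)⁻¹ * wt σ r * |De σ s r|) ≤ ENNReal.ofReal (C * s ^ 2 * σ ^ (-3 / 2 : ℝ)) := by
  obtain ⟨C, hC0, hC⟩ := wt_gs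
  obtain ⟨D, hD0, hD⟩ := De_large
  refine ⟨D * C, by positivity, fun s hs σ hσs => ?_⟩
  have hσ : 0 < σ := lt_of_lt_of_le (by positivity) hσs
  have h6 : 0 < 2 * (12 * σ) := by positivity
  refine (lint_le (((integrable_gs h6).comp_sub_right 0).const_mul ((√σ)⁻¹ * (D * (s ^ 2 / σ) * C)))
    (Eventually.of_forall fun r => ?_) (Eventually.of_forall fun r => ?_)).trans (le_of_eq ?_)
  · have := gs_nonneg (2 * (12 * σ)) (r - 0)
    positivity
  · have b0 := hC σ hσ (12 * σ) (by positivity) (by linarith) 0 r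
    have b1 : wt σ 0 = 1 := by simp [wt]
    rw [b1, mul_one] at b0
    have b2 := mul_le_mul_of_nonneg_left (hD s hs σ hσs r) (wt_nonneg σ r)
    have b3 := mul_le_mul_of_nonneg_left b0 (show 0 ≤ D * (s ^ 2 / σ) by positivity)
    rw [sub_zero] at b3 ⊢
    rw [mul_assoc, mul_assoc]
    refine mul_le_mul_of_nonneg_left ?_ (by positivity)
    linarith
  · rw [integral_const_mul, integral_gs_sub h6]
    congr 1
    have e : σ ^ (-3 / 2 : ℝ) = (√σ)⁻¹ * σ⁻¹ := by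
      rw [Real.sqrt_eq_rpow, ← Real.rpow_neg hσ.le, ← Real.rpow_neg_one, ← Real.rpow_add hσ]
      norm_num
    rw [e]
    ring

end K2

open K2

theorem step : ∃ K > 0, ∀ s > 0, ∫⁻ σ in Ioi (0 : ℝ), ∫⁻ r, ENNReal.ofReal
    ((√σ)⁻¹ * (1 + |r| / √σ) ^ (3 / 4 : ℝ) *
      |2 * gs (3 * σ) r - gs (3 * σ) (r - s) - gs (3 * σ) (r + s)|) ≤ ENNReal.ofReal (K * s) := by
  obtain ⟨C, hC0, hC⟩ := inner_small
  obtain ⟨D, hD0, hD⟩ := inner_large
  refine ⟨8 * C + 2 * D, by positivity, fun s hs => ?_⟩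
  have hs2 : 0 < s ^ 2 := by positivity
  change ∫⁻ σ in Ioi (0 : ℝ), ∫⁻ r, ENNReal.ofReal ((√σ)⁻¹ * wt σ r * |De σ s r|) ≤ _
  rw [← Ioc_union_Ioi_eq_Ioi hs2.le]
  refine (lintegral_union_le _ _ _).trans ?_
  have h1 : ∫⁻ σ in Ioc 0 (s ^ 2), ∫⁻ r, ENNReal.ofReal ((√σ)⁻¹ * wt σ r * |De σ s r|) ≤
      ENNReal.ofReal (8 * C * s) := by
    refine (setLIntegral_mono' measurableSet_Ioc fun σ hσ => hC s hs σ hσ.1 hσ.2).trans ?_
    have i1 : IntegrableOn (fun σ : ℝ => σ ^ (-7 / 8 : ℝ)) (Ioc 0 (s ^ 2)) :=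
      (intervalIntegral.intervalIntegrable_rpow' (by norm_num)).1
    refine (lint_le (i1.const_mul (C * s ^ (3 / 4 : ℝ))) ?_ (Eventually.of_forall fun _ => le_rfl)).trans
      (le_of_eq ?_)
    · refine (ae_restrict_iff' measurableSet_Ioc).mpr (Eventually.of_forall fun σ hσ => ?_)
      have := hσ.1
      positivity
    · rw [integral_const_mul, ← intervalIntegral.integral_of_le hs2.le, integral_rpow (Or.inl (by norm_num)),
        Real.zero_rpow (by norm_num), ← Real.rpow_natCast, ← Real.rpow_mul hs.le]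
      congr 1
      have e : s ^ (3 / 4 : ℝ) * s ^ (((2 : ℕ) : ℝ) * (-7 / 8 + 1)) = s := by
        rw [← Real.rpow_add hs]
        norm_num
      linear_combination 8 * C * e
  have h2 : ∫⁻ σ in Ioi (s ^ 2), ∫⁻ r, ENNReal.ofReal ((√σ)⁻¹ * wt σ r * |De σ s r|) ≤
      ENNReal.ofReal (2 * D * s) := by
    refine (setLIntegral_mono' measurableSet_Ioi fun σ hσ => hD s hs σ (le_of_lt hσ)).trans ?_
    have i1 := integrableOn_Ioi_rpow_of_lt (a := -3 / 2) (by norm_num) hs2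
    refine (lint_le (i1.const_mul (D * s ^ 2)) ?_ (Eventually.of_forall fun _ => le_rfl)).trans (le_of_eq ?_)
    · refine (ae_restrict_iff' measurableSet_Ioi).mpr (Eventually.of_forall fun σ hσ => ?_)
      have := hs2.trans hσ
      positivity
    · rw [integral_const_mul, integral_Ioi_rpow_of_lt (by norm_num) hs2, ← Real.rpow_natCast s 2,
        ← Real.rpow_mul hs.le]
      congr 1
      have e : s ^ ((2 : ℕ) : ℝ) * s ^ (((2 : ℕ) : ℝ) * (-3 / 2 + 1)) = s := by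
        rw [← Real.rpow_add hs]
        norm_num
      linear_combination 2 * D * e
  refine (add_le_add h1 h2).trans (le_of_eq ?_)
  rw [← ENNReal.ofReal_add (by positivity) (by positivity)]
  congr 1
  ring

namespace K2

/-- the derivative of `LL (R ^ 2)` -/
noncomputable def Ld (R s : ℝ) : ℝ :=
  2 * Real.exp (-s ^ 2 / (6 * R ^ 2)) / (3 * R ^ 2) - (1 - Real.exp (-s ^ 2 / (6 * R ^ 2))) / s ^ 2 -
    s ^ 2 * Real.exp (-s ^ 2 / (6 * R ^ 2)) / (9 * R ^ 4)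

noncomputable def lam (R s : ℝ) : ℝ := (Ioi R).indicator (fun s => 1 / s ^ 2) s + Ld R s

theorem hasDerivAt_L {R s : ℝ} (hR : 0 < R) (hs : s ≠ 0) : HasDerivAt (LL (R ^ 2)) (Ld R s) s := by
  have h1 := (((hasDerivAt_pow 2 s).neg).div_const (6 * R ^ 2)).exp
  have h2 := ((h1.const_sub 1).div (hasDerivAt_id s) hs).add (((hasDerivAt_id s).div_const (3 * R ^ 2)).mul h1)
  refine HasDerivAt.congr_deriv h2 ?_
  simp only [Ld, Pi.neg_apply, id]
  field_simp
  norm_num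
  ring

theorem measurable_lam (R : ℝ) : Measurable (lam R) := by
  unfold lam Ld
  exact Measurable.add (Measurable.indicator (by fun_prop) measurableSet_Ioi) (by fun_prop)

theorem lam_le {R s : ℝ} (hR : 0 < R) (hs : 0 < s) :
    |lam R s| ≤ 2 * (1 + s ^ 2 / R ^ 2) * Real.exp (-s ^ 2 / (6 * R ^ 2)) / R ^ 2 := by
  unfold lam Ld
  have h1 := Real.add_one_le_exp (-s ^ 2 / (6 * R ^ 2))
  have h2 : Real.exp (-s ^ 2 / (6 * R ^ 2)) ≤ 1 :=
    Real.exp_le_one_iff.mpr (div_nonpos_of_nonpos_of_nonneg (by nlinarith [sq_nonneg s]) (by positivity))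
  have h3 := Real.exp_pos (-s ^ 2 / (6 * R ^ 2))
  generalize Real.exp (-s ^ 2 / (6 * R ^ 2)) = e at h1 h2 h3 ⊢
  have e1 : 2 * (1 + s ^ 2 / R ^ 2) * e / R ^ 2 = 2 * (e / R ^ 2) + 2 * (s ^ 2 * e / R ^ 4) := by field_simp
  have e2 : 2 * e / (3 * R ^ 2) = 2 / 3 * (e / R ^ 2) := by field_simp
  have e3 : s ^ 2 * e / (9 * R ^ 4) = 1 / 9 * (s ^ 2 * e / R ^ 4) := by field_simp
  have hA : 0 ≤ e / R ^ 2 := by positivity
  have hB : 0 ≤ s ^ 2 * e / R ^ 4 := by positivity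
  rw [e1, e2, e3, abs_le]
  by_cases h : R < s
  · rw [indicator_of_mem (mem_Ioi.mpr h)]
    have e4 : (1 - e) / s ^ 2 = 1 / s ^ 2 - e / s ^ 2 := by ring
    have a1 : e / s ^ 2 ≤ e / R ^ 2 := by gcongr
    have a2 : 0 ≤ e / s ^ 2 := by positivity
    rw [e4]
    constructor <;> linarith
  · rw [indicator_of_notMem (by simpa using h)]
    have a0 : s ^ 2 / (6 * R ^ 2) ≤ 1 / 6 := by
      rw [div_le_div_iff₀ (by positivity) (by norm_num)]
      nlinarith [not_lt.mp h]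
    rw [neg_div] at h1
    have a1 : 0 ≤ (1 - e) / s ^ 2 := div_nonneg (by linarith) (by positivity)
    have a2 : (1 - e) / s ^ 2 ≤ e / R ^ 2 := by
      have a3 : (1 - e) / s ^ 2 ≤ s ^ 2 / (6 * R ^ 2) / s ^ 2 := by gcongr; linarith
      have a4 : s ^ 2 / (6 * R ^ 2) / s ^ 2 = 1 / 6 / R ^ 2 := by field_simp
      have a5 : 1 / 6 / R ^ 2 ≤ e / R ^ 2 := by gcongr; linarith
      linarith
    constructor <;> linarith

theorem exp_le_gs {R : ℝ} (hR : 0 < R) (s : ℝ) : Real.exp (-s ^ 2 / (6 * R ^ 2)) ≤ 5 * R * gs (3 * R ^ 2) s := by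
  have hp := Real.pi_pos
  have h1 : √(2 * Real.pi * (3 * R ^ 2)) ≤ 5 * R :=
    Real.sqrt_le_iff.mpr ⟨by positivity, by nlinarith [Real.pi_lt_four, sq_nonneg R]⟩
  have h2 : 0 < √(2 * Real.pi * (3 * R ^ 2)) := by positivity
  have h3 : 1 ≤ 5 * R * (√(2 * Real.pi * (3 * R ^ 2)))⁻¹ := by
    rw [← div_eq_mul_inv, le_div_iff₀ h2]
    linarith
  rw [gs, show 2 * (3 * R ^ 2) = 6 * R ^ 2 by ring, ← mul_assoc]
  exact le_mul_of_one_le_left (Real.exp_pos _).le h3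

theorem lam_gs {R s : ℝ} (hR : 0 < R) (hs : 0 < s) :
    |lam R s| ≤ 10 / R * ((1 + s ^ 2 / R ^ 2) * gs (3 * R ^ 2) s) := by
  refine (lam_le hR hs).trans ?_
  calc 2 * (1 + s ^ 2 / R ^ 2) * Real.exp (-s ^ 2 / (6 * R ^ 2)) / R ^ 2
      ≤ 2 * (1 + s ^ 2 / R ^ 2) * (5 * R * gs (3 * R ^ 2) s) / R ^ 2 := by
        gcongr
        exact exp_le_gs hR s
    _ = _ := by field_simp; ring

theorem integrableOn_lam {R : ℝ} (hR : 0 < R) : IntegrableOn (lam R) (Ioi 0) := by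
  have h3 : 0 < 3 * R ^ 2 := by positivity
  have i1 : Integrable fun s => 10 / R * (gs (3 * R ^ 2) s + 1 / R ^ 2 * (s ^ 2 * gs (3 * R ^ 2) s)) :=
    ((integrable_gs h3).add ((integrable_pow_mul_gs h3 2).const_mul _)).const_mul _
  refine Integrable.mono' i1.integrableOn (measurable_lam R).aestronglyMeasurable
    ((ae_restrict_iff' measurableSet_Ioi).mpr (Eventually.of_forall fun s hs => ?_))
  refine (lam_gs hR hs).trans (le_of_eq ?_)
  ring

theorem lam_mom : ∃ C > 0, ∀ R > 0, ∀ s > 0, |lam R s| * s ≤ C * gs (2 * (3 * R ^ 2)) s := by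
  obtain ⟨C₁, h1, hC₁⟩ := pow_gs 1
  obtain ⟨C₃, h3, hC₃⟩ := pow_gs 3
  refine ⟨20 * C₁ + 80 * C₃, by positivity, fun R hR s hs => ?_⟩
  have h0 : 0 < 3 * R ^ 2 := by positivity
  have b1 := hC₁ _ h0 s
  have b3 := hC₃ _ h0 s
  rw [abs_of_pos hs] at b1 b3
  have a1 : √(3 * R ^ 2) ≤ 2 * R := Real.sqrt_le_iff.mpr ⟨by positivity, by nlinarith [sq_nonneg R]⟩
  have a2 : s / R ≤ 2 * (s / √(3 * R ^ 2)) := by
    rw [← mul_div_assoc, div_le_div_iff₀ hR (Real.sqrt_pos.mpr h0)]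
    nlinarith
  have a3 : (s / R) ^ 3 ≤ (2 * (s / √(3 * R ^ 2))) ^ 3 := by gcongr
  have a4 := gs_nonneg (3 * R ^ 2) s
  have a5 := mul_le_mul_of_nonneg_right a2 a4
  have a6 := mul_le_mul_of_nonneg_right a3 a4
  calc |lam R s| * s ≤ 10 / R * ((1 + s ^ 2 / R ^ 2) * gs (3 * R ^ 2) s) * s :=
        mul_le_mul_of_nonneg_right (lam_gs hR hs) hs.le
    _ = 10 * (s / R * gs (3 * R ^ 2) s) + 10 * ((s / R) ^ 3 * gs (3 * R ^ 2) s) := by field_simp
    _ ≤ _ := by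
      rw [mul_pow] at a6
      rw [pow_one] at b1
      linarith

theorem ee_odd {E : ℝ → ℝ} (hE : Integrable E) (ho : ∀ t, E (-t) = -E t) {σ : ℝ} (hσ : 0 < σ) (r : ℝ) :
    ee σ E r = ∫ s in Ioi 0, E s * (d1 (3 * σ) (r - s) - d1 (3 * σ) (r + s)) := by
  have i1 := integrable_mul_d1 hE (σ := 3 * σ) (by positivity) r
  have i2 := i1.comp_neg
  have h1 := integral_comp_neg_Ioi 0 fun s => E s * d1 (3 * σ) (r - s)
  rw [neg_zero] at h1
  rw [ee, ← intervalIntegral.integral_Iic_add_Ioi (b := 0) i1.integrableOn i1.integrableOn, ← h1,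
    ← integral_add i2.integrableOn i1.integrableOn]
  congr 1
  funext s
  rw [ho, sub_neg_eq_add]
  ring

theorem abs_De_le {σ : ℝ} (hσ : 0 < σ) (s r : ℝ) : |De σ s r| ≤ 2 * (√(3 * σ))⁻¹ := by
  have h3 : 0 < 3 * σ := by positivity
  have := gs_nonneg (3 * σ) r
  have := gs_nonneg (3 * σ) (r - s)
  have := gs_nonneg (3 * σ) (r + s)
  have := gs_le h3 r
  have := gs_le h3 (r - s)
  have := gs_le h3 (r + s)
  rw [De, abs_le]
  constructor <;> linarith

theorem abs_L_le {R s : ℝ} (hR : 0 < R) (hs : 0 < s) : |LL (R ^ 2) s| ≤ 3 * s⁻¹ := by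
  unfold LL
  have h1 := Real.add_one_le_exp (s ^ 2 / (6 * R ^ 2))
  have h2 : Real.exp (-s ^ 2 / (6 * R ^ 2)) ≤ 1 :=
    Real.exp_le_one_iff.mpr (div_nonpos_of_nonpos_of_nonneg (by nlinarith [sq_nonneg s]) (by positivity))
  have h3 := Real.exp_pos (-s ^ 2 / (6 * R ^ 2))
  have h4 : s ^ 2 / (6 * R ^ 2) * Real.exp (-s ^ 2 / (6 * R ^ 2)) ≤ 1 := by
    rw [neg_div, Real.exp_neg, ← div_eq_mul_inv, div_le_one (Real.exp_pos _)]
    linarith
  generalize Real.exp (-s ^ 2 / (6 * R ^ 2)) = e at h2 h3 h4 ⊢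
  have e1 : (1 - e) / s + s / (3 * R ^ 2) * e = ((1 - e) + 2 * (s ^ 2 / (6 * R ^ 2) * e)) * s⁻¹ := by
    field_simp
    ring
  have h5 : 0 ≤ s ^ 2 / (6 * R ^ 2) * e := by positivity
  rw [e1, abs_mul, abs_of_pos (inv_pos.mpr hs), abs_of_nonneg (by linarith)]
  exact mul_le_mul_of_nonneg_right (by linarith) (by positivity)

theorem tendsto_zero_of_le {f : ℝ → ℝ} {C : ℝ} (h : ∀ s > 0, |f s| ≤ C * s⁻¹) : Tendsto f atTop (𝓝 0) := by
  have h1 : Tendsto (fun s : ℝ => C * s⁻¹) atTop (𝓝 0) := by simpa using tendsto_inv_atTop_zero.const_mul C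
  exact squeeze_zero_norm' ((eventually_gt_atTop 0).mono fun s hs => h s hs) h1

theorem int_indicator {R : ℝ} (hR : 0 < R) (f : ℝ → ℝ) :
    ∫ s in Ioi 0, (Ioi R).indicator f s = ∫ s in Ioi R, f s := by
  rw [setIntegral_indicator measurableSet_Ioi, Ioi_inter_Ioi, max_eq_right hR.le]

theorem ee_DD {R σ : ℝ} (hR : 0 < R) (hσ : 0 < σ) (r : ℝ) :
    ee σ (DD R) r = (∫ s in Ioi 0, lam R s * De σ s r) - De σ R r / R := by
  have h3 : 0 < 3 * σ := by positivity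
  set v : ℝ → ℝ := fun s => De σ s r with hv
  set v' : ℝ → ℝ := fun s => d1 (3 * σ) (r - s) - d1 (3 * σ) (r + s) with hv'
  have dv : ∀ s, HasDerivAt v (v' s) s := hasDerivAt_De hσ r
  have cv : Continuous v := continuous_iff_continuousAt.mpr fun s => (dv s).continuousAt
  have iv' : Integrable v' := ((integrable_d1 h3).comp_sub_left r).sub ((integrable_d1 h3).comp_add_left r)
  have bv : ∀ s, ‖v s‖ ≤ 2 * (√(3 * σ))⁻¹ := fun s => abs_De_le hσ s r
  have mL : Measurable (LL (R ^ 2)) := by unfold LL; fun_prop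
  have i1 : IntegrableOn (fun s => s⁻¹ * v' s) (Ioi R) :=
    Integrable.bdd_mul (c := R⁻¹) iv'.integrableOn measurable_inv.aestronglyMeasurable
      ((ae_restrict_iff' measurableSet_Ioi).mpr (Eventually.of_forall fun s hs => by
        rw [Real.norm_of_nonneg (inv_pos.mpr (hR.trans hs)).le]
        exact inv_anti₀ hR (le_of_lt hs)))
  have i2 : IntegrableOn (fun s => LL (R ^ 2) s * v' s) (Ioi 0) :=
    Integrable.bdd_mul (c := 2 / R) iv'.integrableOn mL.aestronglyMeasurable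
      (Eventually.of_forall fun s => abs_LL_le hR s)
  have i3 : IntegrableOn (fun s : ℝ => 1 / s ^ 2) (Ioi R) :=
    (integrableOn_Ioi_rpow_of_lt (a := -2) (by norm_num) hR).congr_fun
      (fun s hs => by
        have : 0 < s := hR.trans hs
        simp only
        rw [Real.rpow_neg this.le, one_div]
        norm_num) measurableSet_Ioi
  have i4 : IntegrableOn (fun s : ℝ => 1 / s ^ 2 * v s) (Ioi R) :=
    Integrable.mul_bdd i3 cv.aestronglyMeasurable (Eventually.of_forall bv)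
  have i5 : IntegrableOn (Ld R) (Ioi 0) := by
    have := (integrableOn_lam hR).sub (i3.integrable_indicator measurableSet_Ioi).integrableOn
    refine this.congr (Eventually.of_forall fun s => ?_)
    simp [lam]
  have i6 : IntegrableOn (fun s => Ld R s * v s) (Ioi 0) :=
    Integrable.mul_bdd i5 cv.aestronglyMeasurable (Eventually.of_forall bv)
  have p1 : ∫ s in Ioi R, s⁻¹ * v' s = 0 - R⁻¹ * v R - ∫ s in Ioi R, -(1 / s ^ 2) * v s := by
    refine integral_Ioi_mul_deriv_eq_deriv_mul (u := fun s => s⁻¹) (fun s hs => ?_) (fun s _ => dv s) i1 ?_ ?_ ?_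
    · have := hasDerivAt_inv (hR.trans hs).ne'
      rwa [one_div]
    · refine i4.neg.congr (Eventually.of_forall fun s => ?_)
      simp
    · exact ((continuousAt_inv₀ hR.ne').mul cv.continuousAt).tendsto.mono_left nhdsWithin_le_nhds
    · refine tendsto_zero_of_le (C := 2 * (√(3 * σ))⁻¹) fun s hs => ?_
      rw [Pi.mul_apply, abs_mul, abs_of_pos (inv_pos.mpr hs), mul_comm]
      exact mul_le_mul_of_nonneg_right (bv s) (by positivity)
  have p2 : ∫ s in Ioi 0, LL (R ^ 2) s * v' s = 0 - 0 - ∫ s in Ioi 0, Ld R s * v s := by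
    refine integral_Ioi_mul_deriv_eq_deriv_mul (fun s hs => hasDerivAt_L hR (ne_of_gt hs)) (fun s _ => dv s) i2 i6
      ?_ ?_
    · have h1 : Tendsto (fun s => 2 / R * ‖v s‖) (𝓝[>] 0) (𝓝 0) := by
        have := (cv.norm.tendsto 0).const_mul (2 / R)
        rw [show v 0 = 0 from De_zero σ r, norm_zero, mul_zero] at this
        exact this.mono_left nhdsWithin_le_nhds
      refine squeeze_zero_norm (fun s => ?_) h1
      rw [Pi.mul_apply, norm_mul]
      exact mul_le_mul_of_nonneg_right (abs_LL_le hR s) (norm_nonneg _)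
    · refine tendsto_zero_of_le (C := 3 * (2 * (√(3 * σ))⁻¹)) fun s hs => ?_
      rw [Pi.mul_apply, abs_mul, mul_right_comm]
      exact mul_le_mul (abs_L_le hR hs) (bv s) (abs_nonneg _) (by positivity)
  have q1 : ∫ s in Ioi 0, DD R s * v' s = (∫ s in Ioi R, s⁻¹ * v' s) - ∫ s in Ioi 0, LL (R ^ 2) s * v' s := by
    rw [← int_indicator hR, ← integral_sub (i1.integrable_indicator measurableSet_Ioi).integrableOn i2]
    refine setIntegral_congr_fun measurableSet_Ioi fun s hs => ?_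
    simp only [DD, TT, abs_of_pos (mem_Ioi.mp hs), indicator, mem_Ioi]
    split_ifs <;> ring
  have q2 : ∫ s in Ioi 0, lam R s * v s = (∫ s in Ioi R, 1 / s ^ 2 * v s) + ∫ s in Ioi 0, Ld R s * v s := by
    rw [← int_indicator hR, ← integral_add (i4.integrable_indicator measurableSet_Ioi).integrableOn i6]
    refine setIntegral_congr_fun measurableSet_Ioi fun s _ => ?_
    simp only [lam, indicator]
    split_ifs <;> ring
  rw [ee_odd (integrable_DD hR) (DD_neg R) hσ]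
  change ∫ s in Ioi 0, DD R s * v' s = (∫ s in Ioi 0, lam R s * v s) - v R / R
  rw [q1, q2, p1, p2]
  simp only [neg_mul, integral_neg]
  ring

/-- the integrand of `step` -/
noncomputable def FF (σ r s : ℝ) : ℝ≥0∞ := ENNReal.ofReal ((√σ)⁻¹ * wt σ r * |De σ s r|)

@[fun_prop] theorem measurable_FF {α : Type*} [MeasurableSpace α] {σ r s : α → ℝ} (hσ : Measurable σ)
    (hr : Measurable r) (hs : Measurable s) : Measurable fun t => FF (σ t) (r t) (s t) := by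
  unfold FF wt De
  fun_prop

theorem ee_DD_le {R σ : ℝ} (hR : 0 < R) (hσ : 0 < σ) (r : ℝ) :
    ENNReal.ofReal ((√σ)⁻¹ * wt σ r * |ee σ (DD R) r|) ≤
      (∫⁻ s in Ioi 0, ENNReal.ofReal |lam R s| * FF σ r s) + ENNReal.ofReal R⁻¹ * FF σ r R := by
  have hc : 0 ≤ (√σ)⁻¹ * wt σ r := mul_nonneg (by positivity) (wt_nonneg _ _)
  have h1 : (√σ)⁻¹ * wt σ r * |ee σ (DD R) r| ≤
      |∫ s in Ioi 0, (√σ)⁻¹ * wt σ r * (lam R s * De σ s r)| + R⁻¹ * ((√σ)⁻¹ * wt σ r * |De σ R r|) := by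
    rw [integral_const_mul, abs_mul, abs_of_nonneg hc, ee_DD hR hσ, mul_left_comm, ← mul_add]
    refine mul_le_mul_of_nonneg_left ((abs_sub _ _).trans (le_of_eq ?_)) hc
    rw [abs_div, abs_of_pos hR, div_eq_inv_mul]
  refine (ENNReal.ofReal_le_ofReal h1).trans (ENNReal.ofReal_add_le.trans (add_le_add ?_ (le_of_eq ?_)))
  · rw [← Real.enorm_eq_ofReal_abs]
    refine (enorm_integral_le_lintegral_enorm _).trans (le_of_eq ?_)
    congr 1
    funext s
    rw [Real.enorm_eq_ofReal_abs, FF, ← ENNReal.ofReal_mul (abs_nonneg _), abs_mul, abs_of_nonneg hc, abs_mul]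
    congr 1
    ring
  · rw [FF, ENNReal.ofReal_mul (by positivity)]

end K2

theorem size_DD : ∃ K > 0, ∀ R > 0, ∫⁻ σ in Ioi (0 : ℝ), ∫⁻ r, ENNReal.ofReal
    ((√σ)⁻¹ * (1 + |r| / √σ) ^ (3 / 4 : ℝ) * |ee σ (DD R) r|) ≤ ENNReal.ofReal K := by
  obtain ⟨K, hK0, hK⟩ := step
  obtain ⟨C, hC0, hC⟩ := lam_mom
  replace hK : ∀ s > 0, ∫⁻ σ in Ioi (0 : ℝ), ∫⁻ r, FF σ r s ≤ ENNReal.ofReal (K * s) := hK
  refine ⟨K * C + K, by positivity, fun R hR => ?_⟩
  have ml := measurable_lam R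
  have h6 : 0 < 2 * (3 * R ^ 2) := by positivity
  have h1 : ∫⁻ σ in Ioi (0 : ℝ), ∫⁻ r, ∫⁻ s in Ioi 0, ENNReal.ofReal |lam R s| * FF σ r s ≤
      ENNReal.ofReal (K * C) := by
    have e1 : ∀ σ : ℝ, ∫⁻ r, ∫⁻ s in Ioi 0, ENNReal.ofReal |lam R s| * FF σ r s =
        ∫⁻ s in Ioi 0, ∫⁻ r, ENNReal.ofReal |lam R s| * FF σ r s := fun σ =>
      lintegral_lintegral_swap (Measurable.aemeasurable (by unfold Function.uncurry; fun_prop))
    simp only [e1]
    rw [lintegral_lintegral_swap (Measurable.aemeasurable (Measurable.lintegral_prod_right'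
      (f := fun q : (ℝ × ℝ) × ℝ => ENNReal.ofReal |lam R q.1.2| * FF q.1.1 q.2 q.1.2) (by fun_prop)))]
    simp only [lintegral_const_mul' _ _ ENNReal.ofReal_ne_top]
    calc ∫⁻ s in Ioi 0, ENNReal.ofReal |lam R s| * ∫⁻ σ in Ioi (0 : ℝ), ∫⁻ r, FF σ r s
        ≤ ∫⁻ s in Ioi 0, ENNReal.ofReal (K * C * gs (2 * (3 * R ^ 2)) s) := by
          refine setLIntegral_mono' measurableSet_Ioi fun s hs => ?_
          refine (mul_le_mul_right (hK s hs) _).trans ?_
          rw [← ENNReal.ofReal_mul (abs_nonneg _)]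
          refine ENNReal.ofReal_le_ofReal ?_
          have := mul_le_mul_of_nonneg_left (hC R hR s hs) hK0.le
          linarith
      _ ≤ ∫⁻ s, ENNReal.ofReal (K * C * gs (2 * (3 * R ^ 2)) s) := setLIntegral_le_lintegral _ _
      _ ≤ _ := by
          refine (lint_le ((integrable_gs h6).const_mul (K * C)) (Eventually.of_forall fun s => ?_)
            (Eventually.of_forall fun _ => le_rfl)).trans (le_of_eq ?_)
          · have := gs_nonneg (2 * (3 * R ^ 2)) s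
            positivity
          · rw [integral_const_mul, integral_gs h6, mul_one]
  have h2 : ∫⁻ σ in Ioi (0 : ℝ), ∫⁻ r, ENNReal.ofReal R⁻¹ * FF σ r R ≤ ENNReal.ofReal K := by
    simp only [lintegral_const_mul' _ _ ENNReal.ofReal_ne_top]
    refine (mul_le_mul_right (hK R hR) _).trans (le_of_eq ?_)
    rw [← ENNReal.ofReal_mul (by positivity)]
    congr 1
    field_simp
  calc _ ≤ ∫⁻ σ in Ioi (0 : ℝ), ∫⁻ r, ((∫⁻ s in Ioi 0, ENNReal.ofReal |lam R s| * FF σ r s) +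
        ENNReal.ofReal R⁻¹ * FF σ r R) :=
        setLIntegral_mono' measurableSet_Ioi fun σ hσ => lintegral_mono fun r => ee_DD_le hR hσ r
    _ = (∫⁻ σ in Ioi (0 : ℝ), ∫⁻ r, ∫⁻ s in Ioi 0, ENNReal.ofReal |lam R s| * FF σ r s) +
        ∫⁻ σ in Ioi (0 : ℝ), ∫⁻ r, ENNReal.ofReal R⁻¹ * FF σ r R := by
        rw [← lintegral_add_right _ (Measurable.lintegral_prod_right'
          (f := fun q : ℝ × ℝ => ENNReal.ofReal R⁻¹ * FF q.1 q.2 R) (by fun_prop))]
        congr 1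
        funext σ
        exact lintegral_add_right _ (by fun_prop)
    _ ≤ ENNReal.ofReal (K * C) + ENNReal.ofReal K := add_le_add h1 h2
    _ = _ := (ENNReal.ofReal_add (by positivity) hK0.le).symm

end Crest.Agent.R72
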