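import Crest.Agent.R72.Energy

/-!
# Row 72: single scale estimates

PLAN.  `v = |r|/√σ`, `Wt σ r = (√σ)⁻¹ (1+v)^(-5/4)`.
* `omega`: `Wt σ r ≤ K' ∑_l 2^(-l) gs (2 ρ_l σ) r`, `ρ_l = 256^l` (take `l ≥ 1` with `16^(l-1) ≤ 1+v < 16^l`).  Substitute
  `p₂ = r - p₀ - p₁`, write `gs (2ρσ) (p₀+p₁+p₂) = ∫ gs (ρσ) (p₀ - q) gs (ρσ) (p₂ + p₁ + q) dq`, use `GG_jensen` in `p₀` and in
  `p₂` (the averages are `Gm σ ((1+ρ)σ) η ξ F₀ᵀ p₁ q` and `Gm σ ((1+ρ)σ) η ζ F₁ p₁ (-p₁-q)`, `Gm_apply`), `GG_mono`; this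
  gives `GN (1+ρ) σ η ξ ζ F₀ᵀ F₁`; `flowE`, `EN_le`.
* `short`: `A = Wm σ σ ξ η (δ•f₀) p₀ p₁`, `B = Wm σ σ η ζ (δ•f₁) p₁ p₂`, `C = Wm σ σ ζ ξ (δ•e) p₂ p₀`; `d1 σ x = -2 u gs σ x`,
  `plane1`: `Tri = -2 ∫ tr (A D_u B C) dp`.  `one` with `θ = (√V Wt)⁻¹`.  With `s = 1/(σ(1+v))`, `l = √(1+v)` the error at
  `(c,a)` is `δ² g₀ g₂ |e| s (√α √β + √α' √β') ≤ δ² g₀ g₂ |e| s (l (α + α') + (β + β')/l)/2`; integrate over `p`
  (`lintegral_gs_mul_gs`), `gs_shift`, `le_MM`; then `s l / Wt = (√σ)⁻¹ (1+v)^(3/4)`; hypothesis, `young32`, `MM_bound`.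
-/

set_option autoImplicit false

namespace Crest.Agent.R72

open MeasureTheory Set Matrix Filter Topology
open scoped ENNReal

namespace Sh

section
variable {X Y Z : Type*} [Fintype X] [DecidableEq X] [Fintype Y] [DecidableEq Y] [Fintype Z]
  [DecidableEq Z]

theorem jensenG {σ σ' τ : ℝ} (hσ' : 0 < σ') (hτ : 0 < τ) (η : Y → ℝ) (ξ : X → ℝ) (F : Matrix Y X ℝ)
    (p₁ q : ℝ) {Q : Matrix Y Y ℝ} (hQ : Q.PosSemidef) (u : Y → ℝ) :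
    ∫⁻ p₀, ENNReal.ofReal (gs τ (p₀ - q)) * GG (Gm σ σ' η ξ F p₁ p₀) Q u ≤
      GG (Gm σ (σ' + τ) η ξ F p₁ q) Q u := by
  have e : ∀ a a' p₀, gs τ (p₀ - q) * Gm σ σ' η ξ F p₁ p₀ a a' =
      ∑ b, √(gs σ (η a - p₁)) * √(gs σ (η a' - p₁)) * (F a b * F a' b) *
        (gs σ' (ξ b - p₀) * gs τ (-q + p₀)) := by
    intro a a' p₀
    rw [Gm_apply, neg_add_eq_sub, Finset.mul_sum, Finset.mul_sum]
    exact Finset.sum_congr rfl fun b _ => by ring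
  have hi : ∀ (c : ℝ) b, Integrable fun p₀ => c * (gs σ' (ξ b - p₀) * gs τ (-q + p₀)) :=
    fun c b => (integrable_gs_mul_gs hσ' hτ _ _).const_mul c
  convert GG_jensen (w := fun p₀ => gs τ (p₀ - q)) (fun _ => gs_nonneg _ _) (by fun_prop)
    ((integrable_gs hτ).comp_sub_right q) (by rw [integral_sub_right_eq_self, integral_gs hτ])
    (P := fun p₀ => Gm σ σ' η ξ F p₁ p₀) (fun _ => Gm_psd ..)
    (measurable_Gm measurable_const measurable_const measurable_const measurable_id _ _ _)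
    (fun a a' => by simp only [e]; exact integrable_finset_sum _ fun b _ => hi _ b) hQ u using 2
  ext a a'
  simp only [of_apply, e]
  rw [integral_finset_sum _ fun b _ => hi _ b, Gm_apply, Finset.mul_sum]
  refine Finset.sum_congr rfl fun b _ => ?_
  rw [integral_const_mul, integral_gs_mul_gs hσ' hτ, ← sub_eq_add_neg]; ring

theorem fub {τ : ℝ} (hτ : 0 < τ) {Φ : ℝ → ℝ → ℝ≥0∞} (hΦ : Measurable fun p : ℝ × ℝ => Φ p.1 p.2) (c : ℝ) :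
    ∫⁻ r, ∫⁻ p₀, ENNReal.ofReal (gs (τ + τ) r) * Φ p₀ (r - p₀ - c) =
      ∫⁻ q, ∫⁻ p₂, ENNReal.ofReal (gs τ (p₂ - (-c - q))) *
        ∫⁻ p₀, ENNReal.ofReal (gs τ (p₀ - q)) * Φ p₀ p₂ := by
  have hΦ' : ∀ {α : Type} [MeasurableSpace α] {f g : α → ℝ}, Measurable f → Measurable g →
      Measurable fun t => Φ (f t) (g t) := fun hf hg => hΦ.comp (hf.prodMk hg)
  let Ψ : ℝ → ℝ → ℝ → ℝ≥0∞ := fun p₀ p₂ q =>
    ENNReal.ofReal (gs τ (p₂ - (-c - q))) * (ENNReal.ofReal (gs τ (p₀ - q)) * Φ p₀ p₂)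
  have hΨ : ∀ {α : Type} [MeasurableSpace α] {f g h : α → ℝ}, Measurable f → Measurable g →
      Measurable h → Measurable fun t => Ψ (f t) (g t) (h t) := fun hf hg hh =>
    Measurable.mul (by fun_prop) (Measurable.mul (by fun_prop) (hΦ' hf hg))
  calc _ = ∫⁻ p₀, ∫⁻ r, ENNReal.ofReal (gs (τ + τ) r) * Φ p₀ (r - p₀ - c) :=
        lintegral_lintegral_swap
          (Measurable.mul (by fun_prop) (hΦ' (by fun_prop) (by fun_prop))).aemeasurable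
    _ = ∫⁻ p₀, ∫⁻ p₂, ∫⁻ q, Ψ p₀ p₂ q := by
        refine lintegral_congr fun p₀ => ?_
        rw [← lintegral_add_right_eq_self _ (p₀ + c)]
        refine lintegral_congr fun p₂ => ?_
        rw [show p₂ + (p₀ + c) = p₀ + (p₂ + c) by ring, ← lintegral_gs_mul_gs hτ hτ,
          ← lintegral_mul_const _ (by fun_prop)]
        refine lintegral_congr fun q => ?_
        simp only [Ψ]
        rw [ENNReal.ofReal_mul (gs_nonneg _ _), ← mul_assoc, mul_comm (ENNReal.ofReal _)]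
        congr 3 <;> ring_nf
    _ = ∫⁻ p₂, ∫⁻ p₀, ∫⁻ q, Ψ p₀ p₂ q :=
        lintegral_lintegral_swap (Measurable.lintegral_prod_right'
          (f := fun t : (ℝ × ℝ) × ℝ => Ψ t.1.1 t.1.2 t.2)
          (hΨ (by fun_prop) (by fun_prop) (by fun_prop))).aemeasurable
    _ = ∫⁻ p₂, ∫⁻ q, ∫⁻ p₀, Ψ p₀ p₂ q := lintegral_congr fun p₂ =>
        lintegral_lintegral_swap (hΨ (by fun_prop) (by fun_prop) (by fun_prop)).aemeasurable
    _ = ∫⁻ q, ∫⁻ p₂, ∫⁻ p₀, Ψ p₀ p₂ q :=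
        lintegral_lintegral_swap (Measurable.lintegral_prod_right'
          (f := fun t : (ℝ × ℝ) × ℝ => Ψ t.2 t.1.1 t.1.2)
          (hΨ (by fun_prop) (by fun_prop) (by fun_prop))).aemeasurable
    _ = _ := lintegral_congr fun q => lintegral_congr fun p₂ =>
        lintegral_const_mul' _ _ ENNReal.ofReal_ne_top

theorem fub3 {τ : ℝ} (hτ : 0 < τ) {Φ : ℝ → ℝ → ℝ → ℝ≥0∞}
    (hΦ : ∀ {α : Type} [MeasurableSpace α] {f g h : α → ℝ}, Measurable f → Measurable g →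
      Measurable h → Measurable fun t => Φ (f t) (g t) (h t)) :
    ∫⁻ r, ∫⁻ p : ℝ × ℝ, ENNReal.ofReal (gs (τ + τ) r) * Φ p.1 p.2 (r - p.1 - p.2) =
      ∫⁻ p₁, ∫⁻ q, ∫⁻ p₂, ENNReal.ofReal (gs τ (p₂ - (-p₁ - q))) *
        ∫⁻ p₀, ENNReal.ofReal (gs τ (p₀ - q)) * Φ p₀ p₁ p₂ :=
  calc _ = ∫⁻ r, ∫⁻ p₁, ∫⁻ p₀, ENNReal.ofReal (gs (τ + τ) r) * Φ p₀ p₁ (r - p₀ - p₁) :=
        lintegral_congr fun r => lintegral_prod_symm' _
          (Measurable.const_mul (hΦ (by fun_prop) (by fun_prop) (by fun_prop)) _)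
    _ = ∫⁻ p₁, ∫⁻ r, ∫⁻ p₀, ENNReal.ofReal (gs (τ + τ) r) * Φ p₀ p₁ (r - p₀ - p₁) :=
        lintegral_lintegral_swap (Measurable.lintegral_prod_right' (f := fun t : (ℝ × ℝ) × ℝ =>
          ENNReal.ofReal (gs (τ + τ) t.1.1) * Φ t.2 t.1.2 (t.1.1 - t.2 - t.1.2))
          (Measurable.mul (by fun_prop) (hΦ (by fun_prop) (by fun_prop) (by fun_prop)))).aemeasurable
    _ = _ := lintegral_congr fun p₁ => fub hτ (Φ := fun p₀ p₂ => Φ p₀ p₁ p₂)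
          (hΦ measurable_fst measurable_const measurable_snd) p₁

theorem measurable_Φ {α : Type*} [MeasurableSpace α] (σ κ : ℝ) (ξ : X → ℝ) (η : Y → ℝ) (ζ : Z → ℝ)
    (F : Matrix Y X ℝ) (F' : Matrix Y Z ℝ) {p₀ p₁ p₂ : α → ℝ} (h₀ : Measurable p₀) (h₁ : Measurable p₁)
    (h₂ : Measurable p₂) : Measurable fun t =>
      GG (Gm σ κ η ξ F (p₁ t) (p₀ t)) (Gm σ κ η ζ F' (p₁ t) (p₂ t)) (uu σ η (p₁ t)) :=
  measurable_GG (measurable_Gm measurable_const measurable_const h₁ h₀ _ _ _)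
    (measurable_Gm measurable_const measurable_const h₁ h₂ _ _ _) fun a => by unfold uu; fun_prop

theorem single {σ ρ : ℝ} (hσ : 0 < σ) (hρ : 0 < ρ) (ξ : X → ℝ) (η : Y → ℝ) (ζ : Z → ℝ)
    (F : Matrix Y X ℝ) (F' : Matrix Y Z ℝ) :
    ∫⁻ r, ∫⁻ p : ℝ × ℝ, ENNReal.ofReal (gs (ρ * σ + ρ * σ) r) *
      GG (Gm σ σ η ξ F p.2 p.1) (Gm σ σ η ζ F' p.2 (r - p.1 - p.2)) (uu σ η p.2) ≤
      GN (1 + ρ) σ η ξ ζ F F' := by
  have hτ := mul_pos hρ hσ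
  have h : ∀ a b, Measurable fun p : ℝ × ℝ => Gs (1 + ρ) σ η ξ ζ F F' p a b := fun a b =>
    (measurable_Gm measurable_const measurable_const measurable_fst measurable_snd _ _ _ a b).add
      (measurable_Gm measurable_const measurable_const measurable_fst (by fun_prop) _ _ _ a b)
  refine (fub3 hτ (Φ := fun p₀ p₁ p₂ => GG (Gm σ σ η ξ F p₁ p₀) (Gm σ σ η ζ F' p₁ p₂) (uu σ η p₁))
    fun hf hg hh => measurable_Φ _ _ _ _ _ _ _ hf hg hh).trans_le (le_trans ?_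
      (lintegral_prod _ (measurable_GG h h fun a => by unfold uu; fun_prop).aemeasurable).ge)
  refine lintegral_mono fun p₁ => lintegral_mono fun q => ?_
  refine (lintegral_mono fun p₂ => mul_le_mul_right
    ((jensenG hσ hτ η ξ F p₁ q (Gm_psd ..) _).trans_eq (GG_comm ..)) _).trans ?_
  refine (jensenG hσ hτ η ζ F' p₁ _ (Gm_psd ..) _).trans ?_
  rw [show σ + ρ * σ = (1 + ρ) * σ by ring]
  exact GG_mono (Gm_psd ..) (Gm_psd ..) (by simpa [Gs] using Gm_psd ..)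
    (by simpa [Gs] using Gm_psd ..) _

end

theorem wt_le {σ : ℝ} (hσ : 0 < σ) (r : ℝ) : ∃ n : ℕ, (√σ)⁻¹ * (1 + |r| / √σ) ^ (-5 / 4 : ℝ) ≤
    128 * 2⁻¹ ^ n * gs (256 ^ (n + 1) * σ + 256 ^ (n + 1) * σ) r := by
  have hs := Real.sqrt_pos.2 hσ
  have hv : 0 ≤ |r| / √σ := by positivity
  obtain ⟨n, h1, h2⟩ := exists_nat_pow_near (x := 1 + |r| / √σ) (y := 16) (by linarith) (by norm_num)
  refine ⟨n, ?_⟩
  have e1 : (1 + |r| / √σ) ^ (-5 / 4 : ℝ) ≤ (32 ^ n)⁻¹ := by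
    refine (Real.rpow_le_rpow_of_nonpos (by positivity) h1 (by norm_num)).trans_eq ?_
    rw [show (16 : ℝ) = 2 ^ 4 by norm_num, show (32 : ℝ) = 2 ^ 5 by norm_num, ← pow_mul, ← pow_mul,
      ← Real.rpow_natCast, ← Real.rpow_natCast, ← Real.rpow_mul (by norm_num),
      ← Real.rpow_neg (by norm_num)]
    congr 1; push_cast; ring
  have e0 : (256 : ℝ) ^ (n + 1) = (16 ^ (n + 1)) ^ 2 := by rw [← pow_mul, mul_comm, pow_mul]; norm_num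
  have e2 : √(2 * Real.pi * (256 ^ (n + 1) * σ + 256 ^ (n + 1) * σ)) ≤ 4 * 16 ^ (n + 1) * √σ := by
    refine Real.sqrt_le_iff.2 ⟨by positivity, ?_⟩
    rw [mul_pow, mul_pow, Real.sq_sqrt hσ.le, ← e0]
    have : 0 < (256 : ℝ) ^ (n + 1) * σ := by positivity
    nlinarith [Real.pi_le_four]
  have e3 : 2⁻¹ ≤ Real.exp (-r ^ 2 / (2 * (256 ^ (n + 1) * σ + 256 ^ (n + 1) * σ))) := by
    refine le_trans ?_ (Real.add_one_le_exp _)
    have h3 : |r| ≤ 16 ^ (n + 1) * √σ := (div_le_iff₀ hs).1 (by linarith)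
    have h4 : r ^ 2 ≤ 256 ^ (n + 1) * σ := by
      rw [← sq_abs, e0, ← Real.sq_sqrt hσ.le, ← mul_pow]; gcongr
    have : r ^ 2 / (2 * (256 ^ (n + 1) * σ + 256 ^ (n + 1) * σ)) ≤ 2⁻¹ := by
      rw [div_le_iff₀ (by positivity)]; nlinarith [sq_nonneg r]
    rw [neg_div]; linarith
  calc _ ≤ (√σ)⁻¹ * (32 ^ n)⁻¹ := by gcongr
    _ = 128 * 2⁻¹ ^ n * ((4 * 16 ^ (n + 1) * √σ)⁻¹ * 2⁻¹) := by
        rw [show (32 : ℝ) = 2 * 16 by norm_num, mul_pow, inv_pow]; field_simp; ring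
    _ ≤ _ := by unfold gs; gcongr

theorem N3_nonneg {X Y : Type*} [Fintype X] [Fintype Y] (δ : ℝ) (f : Matrix X Y ℝ) : 0 ≤ N3 δ f := by
  unfold N3; positivity

theorem N3_transpose {X Y : Type*} [Fintype X] [Fintype Y] (δ : ℝ) (f : Matrix X Y ℝ) :
    N3 δ fᵀ = N3 δ f := Finset.sum_comm

/-- upper bounds for integrals over the plane -/
structure LB (f : ℝ × ℝ → ℝ) (B : ℝ) : Prop where
  meas : Measurable f
  nonneg : 0 ≤ B
  le : ∫⁻ p, ENNReal.ofReal (f p) ≤ ENNReal.ofReal B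

theorem LB.add {f g : ℝ × ℝ → ℝ} {B C : ℝ} (h : LB f B) (h' : LB g C) :
    LB (fun p => f p + g p) (B + C) :=
  ⟨h.meas.add h'.meas, add_nonneg h.nonneg h'.nonneg, by
    rw [ENNReal.ofReal_add h.nonneg h'.nonneg]
    exact (lintegral_mono fun p => ENNReal.ofReal_add_le).trans
      ((lintegral_add_left h.meas.ennreal_ofReal _).trans_le (add_le_add h.le h'.le))⟩

theorem LB.mul {f : ℝ × ℝ → ℝ} {B c : ℝ} (hc : 0 ≤ c) (h : LB f B) : LB (fun p => c * f p) (c * B) :=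
  ⟨h.meas.const_mul c, mul_nonneg hc h.nonneg, by
    simp only [ENNReal.ofReal_mul hc, lintegral_const_mul' _ _ ENNReal.ofReal_ne_top]
    exact mul_le_mul_right h.le _⟩

theorem LB.sum {ι : Type*} (s : Finset ι) {f : ι → ℝ × ℝ → ℝ} {B : ι → ℝ} (h : ∀ i, LB (f i) (B i)) :
    LB (fun p => ∑ i ∈ s, f i p) (∑ i ∈ s, B i) := by
  classical
  induction s using Finset.induction_on with
  | empty => exact ⟨measurable_const, le_rfl, by simp⟩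
  | insert a s ha ih => simpa only [Finset.sum_insert ha] using (h a).add ih

theorem LB.mono {f : ℝ × ℝ → ℝ} {B C : ℝ} (h : LB f B) (h' : B ≤ C) : LB f C :=
  ⟨h.meas, h.nonneg.trans h', h.le.trans (ENNReal.ofReal_le_ofReal h')⟩

theorem lb_prod {f g : ℝ → ℝ} (hf : Measurable f) (hg : Measurable g) (h0 : ∀ x, 0 ≤ f x) (r : ℝ) :
    ∫⁻ p : ℝ × ℝ, ENNReal.ofReal (f p.1 * g (r - p.1 - p.2)) =
      (∫⁻ x, ENNReal.ofReal (f x)) * ∫⁻ x, ENNReal.ofReal (g x) := by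
  rw [← lintegral_prod_mul hf.ennreal_ofReal.aemeasurable hg.ennreal_ofReal.aemeasurable]
  simp only [ENNReal.ofReal_mul (h0 _)]
  exact (measurePreserving_rot r).lintegral_comp
    (f := fun p => ENNReal.ofReal (f p.1) * ENNReal.ofReal (g p.2)) (by fun_prop)

theorem lb1 {σ : ℝ} (hσ : 0 < σ) (x z z' r : ℝ) : LB (fun p => gs σ (x - p.1) *
    (gs σ (z' - (r - p.1 - p.2)) * gs σ (z - (r - p.1 - p.2)))) (gs (σ + σ) (z' - z)) :=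
  ⟨by fun_prop, gs_nonneg _ _, by
    rw [lb_prod (f := fun p => gs σ (x - p)) (g := fun p => gs σ (z' - p) * gs σ (z - p)) (by fun_prop)
      (by fun_prop) (fun _ => gs_nonneg _ _), lintegral_gs hσ, lintegral_gs_mul_gs' hσ hσ, one_mul]⟩

theorem lb2 {σ : ℝ} (hσ : 0 < σ) (x x' z r : ℝ) : LB (fun p => gs σ (x' - p.1) * gs σ (x - p.1) *
    gs σ (z - (r - p.1 - p.2))) (gs (σ + σ) (x' - x)) :=
  ⟨by fun_prop, gs_nonneg _ _, by
    rw [lb_prod (f := fun p => gs σ (x' - p) * gs σ (x - p)) (g := fun p => gs σ (z - p)) (by fun_prop)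
      (by fun_prop) (fun _ => mul_nonneg (gs_nonneg _ _) (gs_nonneg _ _)), lintegral_gs hσ,
      lintegral_gs_mul_gs' hσ hσ, mul_one]⟩

theorem lb3 {σ : ℝ} (hσ : 0 < σ) (x y z r : ℝ) : LB (fun p => gs σ (x - p.1) *
    (gs σ (y - p.2) * gs σ (z - (r - p.1 - p.2))))
    (5 * (1 + |r| / √σ) * gs (2 * (σ + (σ + σ)) + r ^ 2) (y - (-x - z))) := by
  refine LB.mono (B := gs (σ + (σ + σ)) (y - (-x - z) - r)) ⟨by fun_prop, gs_nonneg _ _, ?_⟩ ?_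
  · rw [show y - (-x - z) - r = x + (y + z - r) by ring, ← lintegral_gs_mul_gs hσ (by positivity)]
    refine (lintegral_prod _ (by fun_prop)).trans_le (lintegral_mono fun p => le_of_eq ?_)
    simp only [ENNReal.ofReal_mul (gs_nonneg σ (x - p)),
      lintegral_const_mul' _ _ ENNReal.ofReal_ne_top]
    rw [show y + z - r + p = y + (z - r + p) by ring, ← lintegral_gs_mul_gs hσ hσ]
    congr 2; ext q; congr 3; ring
  · refine (gs_shift (by positivity) _ _).trans ?_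
    have := gs_nonneg (2 * (σ + (σ + σ)) + r ^ 2) (y - (-x - z))
    gcongr
    linarith

theorem amgm {S₁ S₂ W α β l : ℝ} (h₁ : 0 ≤ S₁) (hW : 0 ≤ W) (hα : 0 ≤ α) (hβ : 0 ≤ β) (hl : 0 < l)
    (h : S₁ * S₂ ≤ W ^ 2 * (α * β)) : √S₁ * √S₂ ≤ W * ((l * α + l⁻¹ * β) / 2) := by
  rw [← Real.sqrt_mul h₁]
  refine Real.sqrt_le_iff.2 ⟨by positivity, h.trans ?_⟩
  rw [mul_pow]
  refine mul_le_mul_of_nonneg_left ?_ (sq_nonneg _)
  have : α * β = (l * α) * (l⁻¹ * β) := by field_simp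
  nlinarith [sq_nonneg (l * α - l⁻¹ * β)]

section
variable {X Y Z : Type*} [Fintype X] [DecidableEq X] [Fintype Y] [DecidableEq Y] [Fintype Z]
  [DecidableEq Z]

theorem Wm_sq (σ δ : ℝ) (ξ : X → ℝ) (η : Y → ℝ) (F : Matrix X Y ℝ) (p q : ℝ) (a : X) (b : Y) :
    Wm σ σ ξ η (δ • F) p q a b ^ 2 = gs σ (ξ a - p) * gs σ (η b - q) * δ ^ 2 * F a b ^ 2 := by
  simp only [Wm, of_apply, mul_pow, Real.sq_sqrt (gs_nonneg _ _), Matrix.smul_apply, smul_eq_mul]; ring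

/-- the error term -/
noncomputable def er (σ δ s l : ℝ) (ξ : X → ℝ) (η : Y → ℝ) (ζ : Z → ℝ) (f₀ : Matrix X Y ℝ)
    (f₁ : Matrix Y Z ℝ) (E H : Matrix Z X ℝ) (p₀ p₁ p₂ : ℝ) (c : Z) (a : X) : ℝ :=
    δ ^ 2 * |E c a| * s / 2 *
      (l * ((∑ c', δ * H c' a ^ 2 * (gs σ (ξ a - p₀) * (gs σ (ζ c' - p₂) * gs σ (ζ c - p₂)))) +
        ∑ a', δ * H c a' ^ 2 * (gs σ (ξ a' - p₀) * gs σ (ξ a - p₀) * gs σ (ζ c - p₂))) +
      l⁻¹ * ((∑ b, δ * f₁ b c ^ 2 * (gs σ (ξ a - p₀) * (gs σ (η b - p₁) * gs σ (ζ c - p₂)))) +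
        ∑ b, δ * f₀ a b ^ 2 * (gs σ (ξ a - p₀) * (gs σ (η b - p₁) * gs σ (ζ c - p₂)))))

theorem err_le {σ δ s l : ℝ} (hδ : 0 < δ) (hs : 0 ≤ s) (hl : 0 < l) (ξ : X → ℝ) (η : Y → ℝ) (ζ : Z → ℝ)
    (f₀ : Matrix X Y ℝ) (f₁ : Matrix Y Z ℝ) {E H : Matrix Z X ℝ} (hE : ∀ c a, |E c a| ≤ s * H c a)
    (p₀ p₁ p₂ : ℝ) (c : Z) (a : X) :
    |Wm σ σ ζ ξ (δ • E) p₂ p₀ c a| *
      (√(∑ c', Wm σ σ ζ ξ (δ • E) p₂ p₀ c' a ^ 2) * √(∑ b, Wm σ σ η ζ (δ • f₁) p₁ p₂ b c ^ 2) +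
        √(∑ a', Wm σ σ ζ ξ (δ • E) p₂ p₀ c a' ^ 2) * √(∑ b, Wm σ σ ξ η (δ • f₀) p₀ p₁ a b ^ 2)) ≤
    er σ δ s l ξ η ζ f₀ f₁ E H p₀ p₁ p₂ c a := by
  have hg := gs_nonneg σ
  have hE2 : ∀ c a, E c a ^ 2 ≤ s ^ 2 * H c a ^ 2 := fun c a => by
    rw [← sq_abs, ← mul_pow]; exact pow_le_pow_left₀ (abs_nonneg _) (hE c a) 2
  obtain ⟨g₀, hg₀, e₀⟩ : ∃ g, 0 ≤ g ∧ √(gs σ (ξ a - p₀)) = g := ⟨_, Real.sqrt_nonneg _, rfl⟩
  obtain ⟨g₂, hg₂, e₂⟩ : ∃ g, 0 ≤ g ∧ √(gs σ (ζ c - p₂)) = g := ⟨_, Real.sqrt_nonneg _, rfl⟩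
  have e₀' : gs σ (ξ a - p₀) = g₀ ^ 2 := by rw [← e₀, Real.sq_sqrt (hg _)]
  have e₂' : gs σ (ζ c - p₂) = g₂ ^ 2 := by rw [← e₂, Real.sq_sqrt (hg _)]
  have h1 := amgm (S₁ := ∑ c', Wm σ σ ζ ξ (δ • E) p₂ p₀ c' a ^ 2)
    (S₂ := ∑ b, Wm σ σ η ζ (δ • f₁) p₁ p₂ b c ^ 2) (W := g₀ * g₂ * δ * s)
    (α := ∑ c', δ * H c' a ^ 2 * gs σ (ζ c' - p₂)) (β := ∑ b, δ * f₁ b c ^ 2 * gs σ (η b - p₁))
    (by positivity) (by positivity) (Finset.sum_nonneg fun _ _ => mul_nonneg (by positivity) (hg _))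
    (Finset.sum_nonneg fun _ _ => mul_nonneg (by positivity) (hg _)) hl (by
      rw [Finset.sum_mul_sum, Finset.sum_mul_sum]
      simp only [Finset.mul_sum, Wm_sq, e₀', e₂']
      refine Finset.sum_le_sum fun c' _ => Finset.sum_le_sum fun b _ => ?_
      have := hg (ζ c' - p₂); have := hg (η b - p₁)
      exact (mul_le_mul_of_nonneg_right (mul_le_mul_of_nonneg_left (hE2 c' a) (by positivity))
        (by positivity)).trans_eq (by ring))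
  have h2 := amgm (S₁ := ∑ a', Wm σ σ ζ ξ (δ • E) p₂ p₀ c a' ^ 2)
    (S₂ := ∑ b, Wm σ σ ξ η (δ • f₀) p₀ p₁ a b ^ 2) (W := g₀ * g₂ * δ * s)
    (α := ∑ a', δ * H c a' ^ 2 * gs σ (ξ a' - p₀)) (β := ∑ b, δ * f₀ a b ^ 2 * gs σ (η b - p₁))
    (by positivity) (by positivity) (Finset.sum_nonneg fun _ _ => mul_nonneg (by positivity) (hg _))
    (Finset.sum_nonneg fun _ _ => mul_nonneg (by positivity) (hg _)) hl (by
      rw [Finset.sum_mul_sum, Finset.sum_mul_sum]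
      simp only [Finset.mul_sum, Wm_sq, e₀', e₂']
      refine Finset.sum_le_sum fun a' _ => Finset.sum_le_sum fun b _ => ?_
      have := hg (ξ a' - p₀); have := hg (η b - p₁)
      exact (mul_le_mul_of_nonneg_right (mul_le_mul_of_nonneg_left (hE2 c a') (by positivity))
        (by positivity)).trans_eq (by ring))
  refine (mul_le_mul_of_nonneg_left (add_le_add h1 h2) (abs_nonneg _)).trans_eq ?_
  simp only [er, Wm, of_apply, Matrix.smul_apply, smul_eq_mul, abs_mul, e₀, e₂, e₀', e₂', abs_of_nonneg hg₀,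
    abs_of_nonneg hg₂, abs_of_pos hδ, Real.sqrt_sq hg₀, Real.sqrt_sq hg₂, mul_left_comm (g₀ ^ 2),
    ← mul_assoc (δ * _), ← Finset.sum_mul]
  ring

theorem tri_le {σ : ℝ} (hσ : 0 < σ) (δ r : ℝ) (ξ : X → ℝ) (η : Y → ℝ) (ζ : Z → ℝ)
    (f₀ : Matrix X Y ℝ) (f₁ : Matrix Y Z ℝ) (E : Matrix Z X ℝ) :
    ENNReal.ofReal |Tri δ ξ η ζ f₀ f₁ fun c a t => E c a * d1 (3 * σ) (t - r)| ≤
      2 * ∫⁻ p : ℝ × ℝ, ENNReal.ofReal |(Wm σ σ ξ η (δ • f₀) p.1 p.2 * diagonal (uu σ η p.2) *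
        Wm σ σ η ζ (δ • f₁) p.2 (r - p.1 - p.2) * Wm σ σ ζ ξ (δ • E) (r - p.1 - p.2) p.1).trace| := by
  have hi : ∀ (k : ℝ) a b c, Integrable fun p : ℝ × ℝ =>
      k * (gs σ (ξ a - p.1) * d1 σ (η b - p.2) * gs σ (ζ c - (r - p.1 - p.2))) :=
    fun k a b c => (plane1 hσ ..).1.const_mul k
  have e : (Tri δ ξ η ζ f₀ f₁ fun c a t => E c a * d1 (3 * σ) (t - r)) =
      ∫ p : ℝ × ℝ, -2 * (Wm σ σ ξ η (δ • f₀) p.1 p.2 * diagonal (uu σ η p.2) *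
        Wm σ σ η ζ (δ • f₁) p.2 (r - p.1 - p.2) * Wm σ σ ζ ξ (δ • E) (r - p.1 - p.2) p.1).trace := by
    trans ∫ p : ℝ × ℝ, ∑ a, ∑ b, ∑ c, δ ^ 3 * (f₀ a b * f₁ b c * E c a) *
      (gs σ (ξ a - p.1) * d1 σ (η b - p.2) * gs σ (ζ c - (r - p.1 - p.2)))
    · rw [integral_finset_sum _ fun a _ => integrable_finset_sum _ fun b _ =>
        integrable_finset_sum _ fun c _ => hi _ a b c]
      refine Finset.sum_congr rfl fun a _ => ?_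
      rw [integral_finset_sum _ fun b _ => integrable_finset_sum _ fun c _ => hi _ a b c]
      refine Finset.sum_congr rfl fun b _ => ?_
      rw [integral_finset_sum _ fun c _ => hi _ a b c]
      refine Finset.sum_congr rfl fun c _ => ?_
      rw [integral_const_mul, (plane1 hσ ..).2]; ring
    · congr 1; ext p
      simp only [trace, diag, mul_apply (M := _ * _), mul_diagonal, Finset.mul_sum, Finset.sum_mul]
      refine Finset.sum_congr rfl fun a _ => Finset.sum_comm.trans ?_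
      refine Finset.sum_congr rfl fun c _ => Finset.sum_congr rfl fun b _ => ?_
      simp only [Wm, of_apply, Matrix.smul_apply, smul_eq_mul, d1, uu]
      rw [← Real.mul_self_sqrt (gs_nonneg σ (ξ a - p.1)), ← Real.mul_self_sqrt (gs_nonneg σ (η b - p.2)),
        ← Real.mul_self_sqrt (gs_nonneg σ (ζ c - _))]
      simp only [Real.sqrt_mul_self (Real.sqrt_nonneg _)]
      field_simp
  rw [e, ← Real.enorm_eq_ofReal_abs, ← lintegral_const_mul' _ _ (by norm_num)]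
  refine (enorm_integral_le_lintegral_enorm _).trans_eq (lintegral_congr fun p => ?_)
  rw [Real.enorm_eq_ofReal_abs, abs_mul, ENNReal.ofReal_mul (abs_nonneg _)]
  norm_num

theorem le_MM' {δ τ : ℝ} (hδ : 0 < δ) (hτ : δ ^ 2 ≤ τ) (ξ : X → ℝ) (f : X → ℝ) (y : ℝ) :
    ∑ a, δ * f a ^ 2 * gs τ (ξ a - y) ≤ MM δ ξ (fun a => f a ^ 2) y :=
  le_trans (le_of_eq (Finset.sum_congr rfl fun _ _ => by ring))
    (le_MM hδ ξ (fun _ => sq_nonneg _) y hτ)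

/-- the maximal functions in the error term -/
noncomputable def mx (δ : ℝ) (ξ : X → ℝ) (η : Y → ℝ) (ζ : Z → ℝ) (f₀ : Matrix X Y ℝ)
    (f₁ : Matrix Y Z ℝ) (H : Matrix Z X ℝ) (c : Z) (a : X) : ℝ :=
  MM δ ζ (fun c' => H c' a ^ 2) (ζ c) + MM δ ξ (fun a' => H c a' ^ 2) (ξ a) +
    (MM δ η (fun b => f₁ b c ^ 2) (-ξ a - ζ c) + MM δ η (fun b => f₀ a b ^ 2) (-ξ a - ζ c))

theorem lb_er {σ δ w r : ℝ} (hδ : 0 < δ) (hσδ : δ ^ 2 ≤ σ) (hw : 0 < w) (ew : 1 + |r| / √σ = w ^ 4)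
    (ξ : X → ℝ) (η : Y → ℝ) (ζ : Z → ℝ) (f₀ : Matrix X Y ℝ) (f₁ : Matrix Y Z ℝ) (E H : Matrix Z X ℝ)
    (c : Z) (a : X) :
    LB (fun p => er σ δ (σ * w ^ 4)⁻¹ (w ^ 2) ξ η ζ f₀ f₁ E H p.1 p.2 (r - p.1 - p.2) c a)
      (δ ^ 2 * |E c a| * (σ * w ^ 4)⁻¹ / 2 *
        (w ^ 2 * (MM δ ζ (fun c' => H c' a ^ 2) (ζ c) + MM δ ξ (fun a' => H c a' ^ 2) (ξ a)) +
        (w ^ 2)⁻¹ * (5 * w ^ 4 * MM δ η (fun b => f₁ b c ^ 2) (-ξ a - ζ c) +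
          5 * w ^ 4 * MM δ η (fun b => f₀ a b ^ 2) (-ξ a - ζ c)))) := by
  have hσ : 0 < σ := lt_of_lt_of_le (by positivity) hσδ
  have h2 : δ ^ 2 ≤ σ + σ := by linarith
  have h34 : ∀ (f : Y → ℝ) (y : ℝ), ∑ b, δ * f b ^ 2 *
      (5 * (1 + |r| / √σ) * gs (2 * (σ + (σ + σ)) + r ^ 2) (η b - y)) ≤
      5 * w ^ 4 * MM δ η (fun a => f a ^ 2) y := fun f y =>
    le_trans (le_of_eq (by rw [Finset.mul_sum, ew]; exact Finset.sum_congr rfl fun _ _ => by ring))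
      (mul_le_mul_of_nonneg_left (le_MM hδ η (fun _ => sq_nonneg _) y
        (τ := 2 * (σ + (σ + σ)) + r ^ 2) (by nlinarith [sq_nonneg r])) (by positivity))
  exact
    LB.mul (c := δ ^ 2 * |E c a| * (σ * w ^ 4)⁻¹ / 2) (by positivity) (LB.add
      (LB.mul (c := w ^ 2) (by positivity) (LB.add
        ((LB.sum Finset.univ fun c' => LB.mul (c := δ * H c' a ^ 2) (by positivity)
          (lb1 hσ (ξ a) (ζ c) (ζ c') r)).mono (le_MM' hδ h2 ζ (fun c' => H c' a) _))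
        ((LB.sum Finset.univ fun a' => LB.mul (c := δ * H c a' ^ 2) (by positivity)
          (lb2 hσ (ξ a) (ξ a') (ζ c) r)).mono (le_MM' hδ h2 ξ (H c) _))))
      (LB.mul (c := (w ^ 2)⁻¹) (by positivity) (LB.add
        ((LB.sum Finset.univ fun b => LB.mul (c := δ * f₁ b c ^ 2) (by positivity)
          (lb3 hσ (ξ a) (η b) (ζ c) r)).mono (h34 (fun b => f₁ b c) _))
        ((LB.sum Finset.univ fun b => LB.mul (c := δ * f₀ a b ^ 2) (by positivity)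
          (lb3 hσ (ξ a) (η b) (ζ c) r)).mono (h34 (fun b => f₀ a b) _)))))

theorem point {σ δ V : ℝ} (hδ : 0 < δ) (hσδ : δ ^ 2 ≤ σ) (hV : 0 < V) (r : ℝ) (ξ : X → ℝ) (η : Y → ℝ)
    (ζ : Z → ℝ) (f₀ : Matrix X Y ℝ) (f₁ : Matrix Y Z ℝ) {E H : Matrix Z X ℝ}
    (hE : ∀ c a, |E c a| ≤ H c a / (σ * (1 + |r| / √σ))) :
    ENNReal.ofReal |Tri δ ξ η ζ f₀ f₁ fun c a t => E c a * d1 (3 * σ) (t - r)| ≤
      2 * (ENNReal.ofReal V * ∫⁻ p : ℝ × ℝ, ENNReal.ofReal ((√σ)⁻¹ * (1 + |r| / √σ) ^ (-5 / 4 : ℝ)) *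
        GG (Gm σ σ η ξ (δ • f₀ᵀ) p.2 p.1) (Gm σ σ η ζ (δ • f₁) p.2 (r - p.1 - p.2)) (uu σ η p.2)) +
      ∑ c, ∑ a, ENNReal.ofReal (10 * V⁻¹ * δ ^ 2 * mx δ ξ η ζ f₀ f₁ H c a) *
        ENNReal.ofReal ((√σ)⁻¹ * (1 + |r| / √σ) ^ (3 / 4 : ℝ) * |E c a|) := by
  have hσ : 0 < σ := lt_of_lt_of_le (by positivity) hσδ
  have hs := Real.sqrt_pos.2 hσ
  obtain ⟨w, hw, ew⟩ : ∃ w, 0 < w ∧ 1 + |r| / √σ = w ^ 4 :=
    ⟨(1 + |r| / √σ) ^ ((4 : ℕ) : ℝ)⁻¹, by positivity,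
      (Real.rpow_inv_natCast_pow (by positivity) (by norm_num)).symm⟩
  have e5 : (w ^ 4) ^ (-5 / 4 : ℝ) = (w ^ 5)⁻¹ := by
    rw [← Real.rpow_natCast, ← Real.rpow_natCast, ← Real.rpow_mul hw.le, ← Real.rpow_neg hw.le]
    norm_num
  have e3 : (w ^ 4) ^ (3 / 4 : ℝ) = w ^ 3 := by
    rw [← Real.rpow_natCast, ← Real.rpow_natCast, ← Real.rpow_mul hw.le]
    norm_num
  have hM : ∀ c a, 0 ≤ MM δ ζ (fun c' => H c' a ^ 2) (ζ c) ∧ 0 ≤ MM δ ξ (fun a' => H c a' ^ 2) (ξ a) ∧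
      0 ≤ MM δ η (fun b => f₁ b c ^ 2) (-ξ a - ζ c) ∧ 0 ≤ MM δ η (fun b => f₀ a b ^ 2) (-ξ a - ζ c) :=
    fun c a => by refine ⟨?_, ?_, ?_, ?_⟩ <;> exact MM_nonneg hδ _ (fun _ => sq_nonneg _) _
  have hθ : 0 < (V * ((√σ)⁻¹ * (w ^ 5)⁻¹))⁻¹ := by positivity
  have hL := LB.mul (mul_pos hθ Real.pi_div_two_pos).le (LB.sum Finset.univ fun c =>
    LB.sum Finset.univ fun a => lb_er hδ hσδ hw ew ξ η ζ f₀ f₁ E H c a)
  rw [ew] at hE ⊢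
  rw [e5, e3]
  refine (tri_le hσ δ r ξ η ζ f₀ f₁ E).trans ?_
  have h1 : ∀ p : ℝ × ℝ, ENNReal.ofReal |(Wm σ σ ξ η (δ • f₀) p.1 p.2 * diagonal (uu σ η p.2) *
      Wm σ σ η ζ (δ • f₁) p.2 (r - p.1 - p.2) * Wm σ σ ζ ξ (δ • E) (r - p.1 - p.2) p.1).trace| ≤
      ENNReal.ofReal V * (ENNReal.ofReal ((√σ)⁻¹ * (w ^ 5)⁻¹) *
        GG (Gm σ σ η ξ (δ • f₀ᵀ) p.2 p.1) (Gm σ σ η ζ (δ • f₁) p.2 (r - p.1 - p.2)) (uu σ η p.2)) +
      ENNReal.ofReal ((V * ((√σ)⁻¹ * (w ^ 5)⁻¹))⁻¹ * (Real.pi / 2) * ∑ c, ∑ a,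
        er σ δ (σ * w ^ 4)⁻¹ (w ^ 2) ξ η ζ f₀ f₁ E H p.1 p.2 (r - p.1 - p.2) c a) := by
    intro p
    refine (one _ _ _ _ hθ).trans (add_le_add (le_of_eq ?_) (ENNReal.ofReal_le_ofReal
      (mul_le_mul_of_nonneg_left (Finset.sum_le_sum fun c _ => Finset.sum_le_sum fun a _ =>
        err_le hδ (by positivity) (by positivity) ξ η ζ f₀ f₁
          (fun c a => (hE c a).trans_eq (by ring)) _ _ _ c a) (mul_pos hθ Real.pi_div_two_pos).le)))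
    rw [inv_inv, ENNReal.ofReal_mul hV.le, mul_assoc, Gm, Gm, ← transpose_smul, ← Wm_transpose,
      transpose_transpose]
  refine (mul_le_mul_right (lintegral_mono h1) _).trans ?_
  rw [lintegral_add_right _ hL.meas.ennreal_ofReal, lintegral_const_mul' _ _ ENNReal.ofReal_ne_top,
    mul_add]
  refine add_le_add_right ((mul_le_mul_right hL.le _).trans ?_) _
  · rw [← ENNReal.ofReal_ofNat, ← ENNReal.ofReal_mul (by norm_num)]
    have hm : ∀ c a, 0 ≤ 10 * V⁻¹ * δ ^ 2 * mx δ ξ η ζ f₀ f₁ H c a := fun c a => by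
      obtain ⟨h1, h2, h3, h4⟩ := hM c a
      unfold mx; positivity
    simp only [← ENNReal.ofReal_mul (hm _ _)]
    rw [Finset.sum_congr rfl fun c _ => (ENNReal.ofReal_sum_of_nonneg fun a _ =>
        mul_nonneg (hm c a) (by positivity)).symm, ← ENNReal.ofReal_sum_of_nonneg fun c _ =>
        Finset.sum_nonneg fun a _ => mul_nonneg (hm c a) (by positivity)]
    refine ENNReal.ofReal_le_ofReal ?_
    simp only [Finset.mul_sum]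
    refine Finset.sum_le_sum fun c _ => Finset.sum_le_sum fun a _ => ?_
    obtain ⟨h1, h2, h3, h4⟩ := hM c a
    unfold mx
    generalize MM δ ζ _ _ = m₁ at *
    generalize MM δ ξ _ _ = m₂ at *
    generalize MM δ η (fun b => f₁ b c ^ 2) _ = m₃ at *
    generalize MM δ η _ _ = m₄ at *
    calc _ = V⁻¹ * δ ^ 2 * ((√σ)⁻¹ * w ^ 3 * |E c a|) * (Real.pi / 2 * (m₁ + m₂ + 5 * (m₃ + m₄))) := by
          nth_rw 2 [← Real.mul_self_sqrt hσ.le]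
          field_simp
      _ ≤ V⁻¹ * δ ^ 2 * ((√σ)⁻¹ * w ^ 3 * |E c a|) * (2 * (5 * (m₁ + m₂) + 5 * (m₃ + m₄))) := by
          gcongr <;> linarith [Real.pi_le_four]
      _ = _ := by ring

end

end Sh

open Sh

theorem omega : ∃ K > 0, ∀ (X Y Z : Type) [Fintype X] [DecidableEq X] [Fintype Y] [DecidableEq Y]
    [Fintype Z] [DecidableEq Z] (δ : ℝ), 0 < δ → ∀ (ξ : X → ℝ) (η : Y → ℝ) (ζ : Z → ℝ), Sep δ ξ →
    Sep δ η → Sep δ ζ → ∀ (f₀ : Matrix X Y ℝ) (f₁ : Matrix Y Z ℝ) (σ₀ σ₁ : ℝ), δ ^ 2 ≤ σ₀ → σ₀ ≤ σ₁ →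
    ∫⁻ σ in Ioc σ₀ σ₁, ∫⁻ r, ∫⁻ p : ℝ × ℝ,
      ENNReal.ofReal ((√σ)⁻¹ * (1 + |r| / √σ) ^ (-5 / 4 : ℝ)) *
        GG (Gm σ σ η ξ (δ • f₀ᵀ) p.2 p.1) (Gm σ σ η ζ (δ • f₁) p.2 (r - p.1 - p.2)) (uu σ η p.2) ≤
      ENNReal.ofReal (K * (N3 δ f₀ + N3 δ f₁)) := by
  refine ⟨256 * 30, by norm_num, ?_⟩
  intro X Y Z _ _ _ _ _ _ δ hδ ξ η ζ hξ hη hζ f₀ f₁ σ₀ σ₁ h₀ h₁
  have hσ₀ : 0 < σ₀ := lt_of_lt_of_le (by positivity) h₀
  have hN := add_nonneg (N3_nonneg δ f₀) (N3_nonneg δ f₁)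
  calc _ ≤ ∫⁻ σ in Ioc σ₀ σ₁, ∑' n : ℕ, ENNReal.ofReal (128 * 2⁻¹ ^ n) *
          GN (1 + 256 ^ (n + 1)) σ η ξ ζ (δ • f₀ᵀ) (δ • f₁) := by
        refine setLIntegral_mono' measurableSet_Ioc fun σ hσ => ?_
        have hσ := hσ₀.trans hσ.1
        refine le_trans ?_ (ENNReal.tsum_le_tsum fun n => mul_le_mul_right
          (single hσ (by positivity) ξ η ζ _ _) _)
        simp only [← lintegral_const_mul' _ _ ENNReal.ofReal_ne_top]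
        refine le_trans (lintegral_mono fun r => ?_) (lintegral_tsum fun n =>
          (Measurable.lintegral_prod_right (Measurable.const_mul (Measurable.mul (by fun_prop)
            (measurable_Φ _ _ _ _ _ _ _ (by fun_prop) (by fun_prop) (by fun_prop))) _)).aemeasurable).le
        obtain ⟨n, hn⟩ := wt_le hσ r
        refine le_trans (lintegral_mono fun p => ?_) (ENNReal.le_tsum n)
        rw [← mul_assoc, ← ENNReal.ofReal_mul (by positivity)]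
        exact mul_le_mul_left (ENNReal.ofReal_le_ofReal hn) _
    _ = ∑' n : ℕ, ENNReal.ofReal (128 * 2⁻¹ ^ n) *
          ∫⁻ σ in Ioc σ₀ σ₁, GN (1 + 256 ^ (n + 1)) σ η ξ ζ (δ • f₀ᵀ) (δ • f₁) := by
        rw [lintegral_tsum fun n => ((measurable_GN ..).const_mul _).aemeasurable]
        simp only [lintegral_const_mul' _ _ ENNReal.ofReal_ne_top]
    _ ≤ ∑' n : ℕ, ENNReal.ofReal (128 * 2⁻¹ ^ n) * ENNReal.ofReal (30 * (N3 δ f₀ + N3 δ f₁)) := by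
        refine ENNReal.tsum_le_tsum fun n => mul_le_mul_right ?_ _
        have hκ : (1 : ℝ) ≤ 1 + 256 ^ (n + 1) := le_add_of_nonneg_right (by positivity)
        have := EN_le hκ hδ h₀ hη hξ hζ f₀ᵀ f₁
        rw [N3_transpose] at this
        refine le_trans ?_ ((le_self_add.trans (flowE hκ hσ₀ h₁ ..)).trans this)
        exact le_mul_of_one_le_left' (by norm_num)
    _ = _ := by
        rw [ENNReal.tsum_mul_right, ← ENNReal.ofReal_tsum_of_nonneg (fun _ => by positivity)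
          ((summable_geometric_of_lt_one (by norm_num) (by norm_num)).mul_left _), tsum_mul_left,
          tsum_geometric_of_lt_one (by norm_num) (by norm_num), ← ENNReal.ofReal_mul (by norm_num)]
        congr 1; ring

theorem short : ∃ K > 0, ∀ (X Y Z : Type) [Fintype X] [DecidableEq X] [Fintype Y] [DecidableEq Y] [Fintype Z]
    [DecidableEq Z] (δ : ℝ), 0 < δ → ∀ (ξ : X → ℝ) (η : Y → ℝ) (ζ : Z → ℝ), Sep δ ξ → Sep δ η → Sep δ ζ →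
    ∀ (f₀ : Matrix X Y ℝ) (f₁ : Matrix Y Z ℝ) (H : Matrix Z X ℝ) (V : ℝ), 1 ≤ V →
    ∀ (e : Z → X → ℝ → ℝ → ℝ), (∀ c a, Measurable fun q : ℝ × ℝ => e c a q.1 q.2) →
    (∀ c a σ r, 0 < σ → |e c a σ r| ≤ H c a / (σ * (1 + |r| / √σ))) →
    (∀ c a, ∫⁻ σ in Ioi (0 : ℝ), ∫⁻ r, ENNReal.ofReal
      ((√σ)⁻¹ * (1 + |r| / √σ) ^ (3 / 4 : ℝ) * |e c a σ r|) ≤ ENNReal.ofReal (V * H c a)) →
    ∀ σ₀ σ₁ : ℝ, δ ^ 2 ≤ σ₀ → σ₀ ≤ σ₁ →
    ∫⁻ σ in Ioc σ₀ σ₁, ∫⁻ r, ENNReal.ofReal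
      |Tri δ ξ η ζ f₀ f₁ fun c a t => e c a σ r * d1 (3 * σ) (t - r)| ≤
      ENNReal.ofReal (K * √V * (N3 δ f₀ + N3 δ f₁ + N3 δ H)) := by
  obtain ⟨K₁, hK₁, h₁⟩ := omega
  obtain ⟨K₂, hK₂, h₂⟩ := MM_bound
  refine ⟨2 * K₁ + 10 * (4 + 2 * K₂), by positivity, ?_⟩
  intro X Y Z _ _ _ _ _ _ δ hδ ξ η ζ hξ hη hζ f₀ f₁ H V hV e he he₁ he₂ σ₀ σ₁ h₀ h01
  have hσ₀ : 0 < σ₀ := lt_of_lt_of_le (by positivity) h₀
  have hV' : 0 < √V := Real.sqrt_pos.2 (by linarith)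
  have hH : ∀ c a, 0 ≤ H c a := fun c a => by simpa using (abs_nonneg _).trans (he₁ c a 1 0 one_pos)
  have hM : ∀ c a, 0 ≤ MM δ ζ (fun c' => H c' a ^ 2) (ζ c) ∧ 0 ≤ MM δ ξ (fun a' => H c a' ^ 2) (ξ a) ∧
      0 ≤ MM δ η (fun b => f₁ b c ^ 2) (-ξ a - ζ c) ∧ 0 ≤ MM δ η (fun b => f₀ a b ^ 2) (-ξ a - ζ c) :=
    fun c a => by refine ⟨?_, ?_, ?_, ?_⟩ <;> exact MM_nonneg hδ _ (fun _ => sq_nonneg _) _
  have hm : ∀ c a, 0 ≤ 10 * (√V)⁻¹ * δ ^ 2 * mx δ ξ η ζ f₀ f₁ H c a := fun c a => by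
    obtain ⟨h1, h2, h3, h4⟩ := hM c a
    unfold mx; positivity
  have hY : ∀ c a, Measurable fun q : ℝ × ℝ =>
      ENNReal.ofReal ((√q.1)⁻¹ * (1 + |q.2| / √q.1) ^ (3 / 4 : ℝ) * |e c a q.1 q.2|) := fun c a =>
    (Measurable.mul (by fun_prop) (he c a).abs).ennreal_ofReal
  have hY1 : ∀ c a σ k, Measurable fun r : ℝ =>
      k * ENNReal.ofReal ((√σ)⁻¹ * (1 + |r| / √σ) ^ (3 / 4 : ℝ) * |e c a σ r|) := fun c a σ k =>
    ((hY c a).comp measurable_prodMk_left).const_mul k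
  have hY2 : ∀ c a k, Measurable fun σ : ℝ =>
      k * ∫⁻ r, ENNReal.ofReal ((√σ)⁻¹ * (1 + |r| / √σ) ^ (3 / 4 : ℝ) * |e c a σ r|) := fun c a k =>
    (hY c a).lintegral_prod_right'.const_mul k
  refine (setLIntegral_mono' measurableSet_Ioc fun σ hσ => lintegral_mono fun r =>
    point hδ (h₀.trans hσ.1.le) hV' r ξ η ζ f₀ f₁ (E := fun c a => e c a σ r) (H := H)
      fun c a => he₁ c a σ r (hσ₀.trans hσ.1)).trans ?_
  simp only [lintegral_add_right _ (Finset.measurable_fun_sum _ fun c _ =>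
      Finset.measurable_fun_sum _ fun a _ => hY1 c a _ _),
    lintegral_finset_sum _ fun c _ => Finset.measurable_fun_sum _ fun a _ => hY1 c a _ _,
    lintegral_finset_sum _ fun a _ => hY1 _ a _ _, lintegral_const_mul' _ _ ENNReal.ofReal_ne_top,
    lintegral_const_mul' 2 _ ENNReal.ofNat_ne_top]
  simp only [lintegral_add_right _ (Finset.measurable_fun_sum _ fun c _ =>
      Finset.measurable_fun_sum _ fun a _ => hY2 c a _),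
    lintegral_finset_sum _ fun c _ => Finset.measurable_fun_sum _ fun a _ => hY2 c a _,
    lintegral_finset_sum _ fun a _ => hY2 _ a _, lintegral_const_mul' _ _ ENNReal.ofReal_ne_top,
    lintegral_const_mul' 2 _ ENNReal.ofNat_ne_top]
  have hN₀ := N3_nonneg δ f₀
  have hN₁ := N3_nonneg δ f₁
  have hN₂ := N3_nonneg δ H
  have h₃ := h₁ X Y Z δ hδ ξ η ζ hξ hη hζ f₀ f₁ σ₀ σ₁ h₀ h01
  simp only [lintegral_const_mul' _ _ ENNReal.ofReal_ne_top] at h₃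
  refine (add_le_add (mul_le_mul_right (mul_le_mul_right h₃ _) _)
    (Finset.sum_le_sum fun c _ => Finset.sum_le_sum fun a _ => mul_le_mul_right
      ((lintegral_mono_set (Ioc_subset_Ioi_self.trans (Ioi_subset_Ioi hσ₀.le))).trans (he₂ c a)) _)).trans ?_
  have hVH := fun c a => mul_nonneg (hm c a) (mul_nonneg (zero_le_one.trans hV) (hH c a))
  simp only [← ENNReal.ofReal_mul (hm _ _)]
  rw [Finset.sum_congr rfl fun c _ => (ENNReal.ofReal_sum_of_nonneg fun a _ => hVH c a).symm,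
    ← ENNReal.ofReal_sum_of_nonneg fun c _ => Finset.sum_nonneg fun a _ => hVH c a,
    ← ENNReal.ofReal_mul hV'.le, ← ENNReal.ofReal_ofNat, ← ENNReal.ofReal_mul (by norm_num),
    ← ENNReal.ofReal_add (by positivity)
      (Finset.sum_nonneg fun c _ => Finset.sum_nonneg fun a _ => hVH c a)]
  refine ENNReal.ofReal_le_ofReal ?_
  have s1 : ∑ c, ∑ a, δ ^ 2 * MM δ ζ (fun c' => H c' a ^ 2) (ζ c) ^ (3 / 2 : ℝ) ≤ K₂ * N3 δ H := by
    rw [Finset.sum_comm, ← N3_transpose, N3, Finset.mul_sum]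
    refine Finset.sum_le_sum fun a _ => ?_
    rw [← Finset.mul_sum, ← Finset.mul_sum, mul_left_comm]
    exact mul_le_mul_of_nonneg_left (h₂ Z Z δ hδ ζ ζ hζ hζ fun c => H c a) (sq_nonneg _)
  have s2 : ∑ c, ∑ a, δ ^ 2 * MM δ ξ (fun a' => H c a' ^ 2) (ξ a) ^ (3 / 2 : ℝ) ≤ K₂ * N3 δ H := by
    rw [N3, Finset.mul_sum]
    refine Finset.sum_le_sum fun c _ => ?_
    rw [← Finset.mul_sum, ← Finset.mul_sum, mul_left_comm]
    exact mul_le_mul_of_nonneg_left (h₂ X X δ hδ ξ ξ hξ hξ (H c)) (sq_nonneg _)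
  have s3 : ∑ c, ∑ a, δ ^ 2 * MM δ η (fun b => f₁ b c ^ 2) (-ξ a - ζ c) ^ (3 / 2 : ℝ) ≤
      K₂ * N3 δ f₁ := by
    rw [← N3_transpose, N3, Finset.mul_sum]
    refine Finset.sum_le_sum fun c _ => ?_
    rw [← Finset.mul_sum, ← Finset.mul_sum, mul_left_comm]
    refine mul_le_mul_of_nonneg_left (h₂ Y X δ hδ η (fun a => -ξ a - ζ c) hη
      (fun a b h => (hξ b a h.symm).trans_eq ?_) fun b => f₁ b c) (sq_nonneg _)
    congr 1; ring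
  have s4 : ∑ c, ∑ a, δ ^ 2 * MM δ η (fun b => f₀ a b ^ 2) (-ξ a - ζ c) ^ (3 / 2 : ℝ) ≤
      K₂ * N3 δ f₀ := by
    rw [Finset.sum_comm, N3, Finset.mul_sum]
    refine Finset.sum_le_sum fun a _ => ?_
    rw [← Finset.mul_sum, ← Finset.mul_sum, mul_left_comm]
    refine mul_le_mul_of_nonneg_left (h₂ Y Z δ hδ η (fun c => -ξ a - ζ c) hη
      (fun a b h => (hζ b a h.symm).trans_eq ?_) (f₀ a)) (sq_nonneg _)
    congr 1; ring
  have s5 : ∑ c, ∑ a, δ ^ 2 * (H c a * mx δ ξ η ζ f₀ f₁ H c a) ≤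
      4 * N3 δ H + (K₂ * N3 δ H + K₂ * N3 δ H + (K₂ * N3 δ f₁ + K₂ * N3 δ f₀)) := by
    refine le_trans ?_ (add_le_add_right (add_le_add (add_le_add s1 s2) (add_le_add s3 s4)) _)
    simp only [N3, Finset.mul_sum, ← Finset.sum_add_distrib]
    refine Finset.sum_le_sum fun c _ => Finset.sum_le_sum fun a _ => ?_
    obtain ⟨h1, h2, h3, h4⟩ := hM c a
    have := mul_le_mul_of_nonneg_left (add_le_add (add_le_add (young32 (hH c a) h1)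
      (young32 (hH c a) h2)) (add_le_add (young32 (hH c a) h3) (young32 (hH c a) h4))) (sq_nonneg δ)
    rw [abs_of_nonneg (hH c a), mx]
    linarith
  have e1 : ∑ c, ∑ a, 10 * (√V)⁻¹ * δ ^ 2 * mx δ ξ η ζ f₀ f₁ H c a * (V * H c a) =
      10 * √V * ∑ c, ∑ a, δ ^ 2 * (H c a * mx δ ξ η ζ f₀ f₁ H c a) := by
    simp only [Finset.mul_sum]
    refine Finset.sum_congr rfl fun c _ => Finset.sum_congr rfl fun a _ => ?_
    nth_rw 2 [← Real.mul_self_sqrt (zero_le_one.trans hV)]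
    field_simp
  rw [e1]
  have := mul_le_mul_of_nonneg_left s5 (show 0 ≤ 10 * √V by positivity)
  have a1 := mul_nonneg hV'.le hN₀
  have a2 := mul_nonneg hV'.le hN₁
  have a3 := mul_nonneg hV'.le hN₂
  nlinarith [mul_nonneg hK₁.le a3, mul_nonneg hK₂.le a1, mul_nonneg hK₂.le a2]

end Crest.Agent.R72
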