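import Crest.Agent.R72.Long
import Crest.Agent.R72.Short
import Crest.Agent.R72.Kern2

/-!
# Row 72: the discrete estimate

PLAN.  `E c a t = ∑_{i<m} α i c a (DD (ρ i) t - DD (ρ (i+1)) t) = α 0 DD (ρ 0) + ∑_{i<m} (α (i+1) - α i) DD (ρ (i+1))`.
`long` for `s = ρ²`; `sm_sub`, `short` for `e c a σ r = ee σ (E c a) r` and a multiple of `H` (`var_DD`, `ee_le`, `size_DD`).
-/

set_option autoImplicit false

namespace Crest.Agent.R72

open MeasureTheory Set Matrix Filter Topology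
open scoped ENNReal

namespace Dc

section Tri

variable {X Y Z : Type*} [Fintype X] [Fintype Y] [Fintype Z] (δ : ℝ) (ξ : X → ℝ) (η : Y → ℝ) (ζ : Z → ℝ)
  (f₀ : Matrix X Y ℝ) (f₁ : Matrix Y Z ℝ)

theorem tri_add (k k' : Z → X → ℝ → ℝ) :
    Tri δ ξ η ζ f₀ f₁ (fun c a t => k c a t + k' c a t) = Tri δ ξ η ζ f₀ f₁ k + Tri δ ξ η ζ f₀ f₁ k' := by
  simp only [Tri, mul_add, Finset.sum_add_distrib]

theorem tri_smul (x : ℝ) (k : Z → X → ℝ → ℝ) :
    Tri δ ξ η ζ f₀ f₁ (fun c a t => x * k c a t) = x * Tri δ ξ η ζ f₀ f₁ k := by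
  simp only [Tri, Finset.mul_sum]
  refine Finset.sum_congr rfl fun a _ => Finset.sum_congr rfl fun b _ => Finset.sum_congr rfl fun c _ => ?_
  ring

theorem tri_integral {μ : Measure ℝ} (k : ℝ → Z → X → ℝ → ℝ) (hk : ∀ c a t, Integrable (fun x => k x c a t) μ) :
    Tri δ ξ η ζ f₀ f₁ (fun c a t => ∫ x, k x c a t ∂μ) = ∫ x, Tri δ ξ η ζ f₀ f₁ (k x) ∂μ := by
  have h1 : ∀ a b c, Integrable (fun x => δ ^ 3 * (f₀ a b * f₁ b c * k x c a (ξ a + η b + ζ c))) μ :=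
    fun a b c => ((hk c a _).const_mul _).const_mul _
  unfold Tri
  rw [integral_finset_sum _ fun a _ => integrable_finset_sum _ fun b _ => integrable_finset_sum _ fun c _ =>
    h1 a b c]
  refine Finset.sum_congr rfl fun a _ => ?_
  rw [integral_finset_sum _ fun b _ => integrable_finset_sum _ fun c _ => h1 a b c]
  refine Finset.sum_congr rfl fun b _ => ?_
  rw [integral_finset_sum _ fun c _ => h1 a b c]
  refine Finset.sum_congr rfl fun c _ => ?_
  rw [integral_const_mul, integral_const_mul]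

theorem N3_nonneg (f : Matrix X Y ℝ) : 0 ≤ N3 δ f := by
  unfold N3
  positivity

theorem N3_smul {c : ℝ} (hc : 0 ≤ c) (f : Matrix X Y ℝ) : N3 δ (c • f) = c ^ 3 * N3 δ f := by
  simp only [N3, Finset.mul_sum, Matrix.smul_apply, smul_eq_mul, abs_mul, abs_of_nonneg hc]
  refine Finset.sum_congr rfl fun a _ => Finset.sum_congr rfl fun b _ => ?_
  ring

end Tri

/-- the coefficients after summation by parts -/
def jump (α : ℕ → ℝ) : ℕ → ℝ
  | 0 => α 0
  | i + 1 => α (i + 1) - α i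

theorem abel (α D : ℕ → ℝ) (m : ℕ) : ∑ i ∈ Finset.range m, α i * (D i - D (i + 1)) =
    ∑ j ∈ Finset.range (m + 1), jump α j * D j - α m * D m := by
  induction m with
  | zero => simp [jump]
  | succ m ih =>
    rw [Finset.sum_range_succ, ih, Finset.sum_range_succ _ (m + 1), jump]
    ring

theorem var_eq (α : ℕ → ℝ) (m : ℕ) : Var m α = ∑ j ∈ Finset.range (m + 1), |jump α j| := by
  rw [Finset.sum_range_succ', Var, add_comm]
  rfl

theorem integral_sum_mul {S : Finset ℕ} {β : ℕ → ℝ} {F : ℕ → ℝ → ℝ} {g : ℝ → ℝ}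
    (h : ∀ j, Integrable fun s => F j s * g s) :
    ∫ s, (∑ j ∈ S, β j * F j s) * g s = ∑ j ∈ S, β j * ∫ s, F j s * g s := by
  simp only [Finset.sum_mul, mul_assoc]
  rw [integral_finset_sum _ fun j _ => (h j).const_mul _]
  simp only [integral_const_mul]

theorem size_sum : ∃ K > 0, ∀ (S : Finset ℕ) (β ρ : ℕ → ℝ), (∀ j, 0 < ρ j) →
    ∫⁻ σ in Ioi (0 : ℝ), ∫⁻ r, ENNReal.ofReal ((√σ)⁻¹ * (1 + |r| / √σ) ^ (3 / 4 : ℝ) *
      |ee σ (fun t => ∑ j ∈ S, β j * DD (ρ j) t) r|) ≤ ENNReal.ofReal (K * ∑ j ∈ S, |β j|) := by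
  obtain ⟨K, hK0, hK⟩ := size_DD
  refine ⟨K, hK0, fun S β ρ hρ => ?_⟩
  set G : ℕ → ℝ × ℝ → ℝ≥0∞ := fun j q => ENNReal.ofReal |β j| *
    ENNReal.ofReal ((√q.1)⁻¹ * (1 + |q.2| / √q.1) ^ (3 / 4 : ℝ) * |ee q.1 (DD (ρ j)) q.2|) with hG
  have mG : ∀ j, Measurable (G j) := fun j => by
    have := measurable_ee (measurable_DD (ρ j))
    simp only [hG]
    fun_prop
  calc _ ≤ ∫⁻ σ in Ioi (0 : ℝ), ∫⁻ r, ∑ j ∈ S, G j (σ, r) := by
        refine setLIntegral_mono' measurableSet_Ioi fun σ hσ => lintegral_mono fun r => ?_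
        have h3 : 0 < 3 * σ := mul_pos (by norm_num) hσ
        have hc : 0 ≤ (√σ)⁻¹ * (1 + |r| / √σ) ^ (3 / 4 : ℝ) := by positivity
        have e : ee σ (fun t => ∑ j ∈ S, β j * DD (ρ j) t) r = ∑ j ∈ S, β j * ee σ (DD (ρ j)) r :=
          integral_sum_mul fun j => integrable_mul_d1 (integrable_DD (hρ j)) h3 r
        simp only [hG, ← ENNReal.ofReal_mul (abs_nonneg _)]
        rw [← ENNReal.ofReal_sum_of_nonneg fun j _ => by positivity, e]
        refine ENNReal.ofReal_le_ofReal ?_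
        refine (mul_le_mul_of_nonneg_left (Finset.abs_sum_le_sum_abs _ _) hc).trans (le_of_eq ?_)
        rw [Finset.mul_sum]
        refine Finset.sum_congr rfl fun j _ => ?_
        rw [abs_mul]
        ring
    _ = ∑ j ∈ S, ∫⁻ σ in Ioi (0 : ℝ), ∫⁻ r, G j (σ, r) := by
        rw [← lintegral_finset_sum _ fun j _ => (mG j).lintegral_prod_right']
        congr 1
        funext σ
        exact lintegral_finset_sum _ fun j _ => (mG j).comp measurable_prodMk_left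
    _ ≤ ∑ j ∈ S, ENNReal.ofReal (K * |β j|) := by
        refine Finset.sum_le_sum fun j _ => ?_
        simp only [hG, lintegral_const_mul' _ _ ENNReal.ofReal_ne_top]
        refine (mul_le_mul_right (hK _ (hρ j)) _).trans (le_of_eq ?_)
        rw [← ENNReal.ofReal_mul (abs_nonneg _), mul_comm]
    _ = _ := by rw [← ENNReal.ofReal_sum_of_nonneg fun j _ => by positivity, Finset.mul_sum]

end Dc

open Dc

theorem disc : ∃ K > 0, ∀ (X Y Z : Type) [Fintype X] [DecidableEq X] [Fintype Y] [DecidableEq Y] [Fintype Z]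
    [DecidableEq Z] (δ : ℝ), 0 < δ → ∀ (ξ : X → ℝ) (η : Y → ℝ) (ζ : Z → ℝ), Sep δ ξ → Sep δ η → Sep δ ζ →
    ∀ (f₀ : Matrix X Y ℝ) (f₁ : Matrix Y Z ℝ) (H : Matrix Z X ℝ) (V : ℝ), 1 ≤ V →
    ∀ (m : ℕ) (ρ : ℕ → ℝ) (α : ℕ → Matrix Z X ℝ), Monotone ρ → δ ≤ ρ 0 → α m = 0 →
    (∀ i c a, |α i c a| ≤ H c a) → (∀ c a, Var m (fun i => α i c a) ≤ V * H c a) →
    ∀ σ₀ σ₁ : ℝ, δ ^ 2 ≤ σ₀ → σ₀ ≤ σ₁ →
    |Tri δ ξ η ζ f₀ f₁ fun c a t => ∑ i ∈ Finset.range m,
      α i c a * (KK σ₀ σ₁ (ρ i) t - KK σ₀ σ₁ (ρ (i + 1)) t)| ≤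
      K * √V * (N3 δ f₀ + N3 δ f₁ + N3 δ H) := by
  obtain ⟨Kl, hl0, hl⟩ := long
  obtain ⟨Ks, hs0, hs⟩ := short
  obtain ⟨Kd, hd0, hd⟩ := size_sum
  obtain ⟨C, hC0, hC⟩ := ee_le
  set c₀ : ℝ := 6 * C + Kd + 1 with hc₀
  have hc1 : 1 ≤ c₀ := by rw [hc₀]; linarith
  refine ⟨Kl + 3 * (Ks * c₀ ^ 3), by positivity, ?_⟩
  intro X Y Z _ _ _ _ _ _ δ hδ ξ η ζ hξ hη hζ f₀ f₁ H V hV m ρ α hρ hρ0 hαm hα hvar σ₀ σ₁ h₀ h₁
  have hpos : ∀ j, 0 < ρ j := fun j => (hδ.trans_le hρ0).trans_le (hρ (Nat.zero_le j))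
  have hσ₀ : 0 < σ₀ := lt_of_lt_of_le (by positivity) h₀
  have hσ₁ : 0 < σ₁ := hσ₀.trans_le h₁
  have hH : ∀ c a, 0 ≤ H c a := fun c a => (abs_nonneg _).trans (hα 0 c a)
  set E : Z → X → ℝ → ℝ := fun c a t => ∑ i ∈ Finset.range m, α i c a * (DD (ρ i) t - DD (ρ (i + 1)) t) with hE
  have iD : ∀ i, Integrable fun t => DD (ρ i) t - DD (ρ (i + 1)) t := fun i =>
    (integrable_DD (hpos i)).sub (integrable_DD (hpos _))
  have iE : ∀ c a, Integrable (E c a) := fun c a => integrable_finset_sum _ fun i _ => (iD i).const_mul _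
  have mE : ∀ c a, Measurable (E c a) := fun c a =>
    Finset.measurable_sum _ fun i _ => ((measurable_DD _).sub (measurable_DD _)).const_mul _
  have oE : ∀ c a t, E c a (-t) = -E c a t := fun c a t => by
    simp only [hE, DD_neg, ← Finset.sum_neg_distrib]
    refine Finset.sum_congr rfl fun i _ => ?_
    ring
  have bE : ∀ c a t, |E c a t| ≤ 6 * H c a / |t| := fun c a t => by
    refine (Finset.abs_sum_le_sum_abs _ _).trans ?_
    calc ∑ i ∈ Finset.range m, |α i c a * (DD (ρ i) t - DD (ρ (i + 1)) t)|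
        ≤ ∑ i ∈ Finset.range m, H c a * |DD (ρ i) t - DD (ρ (i + 1)) t| := Finset.sum_le_sum fun i _ => by
          rw [abs_mul]
          exact mul_le_mul_of_nonneg_right (hα i c a) (abs_nonneg _)
      _ ≤ H c a * (6 / |t|) := by
          rw [← Finset.mul_sum]
          exact mul_le_mul_of_nonneg_left (var_DD hρ (hpos 0) m t) (hH c a)
      _ = _ := by ring
  have aE : ∀ c a, E c a = fun t => ∑ j ∈ Finset.range (m + 1), jump (fun i => α i c a) j * DD (ρ j) t :=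
    fun c a => funext fun t => by
      have := abel (fun i => α i c a) (fun i => DD (ρ i) t) m
      simpa only [hαm, Matrix.zero_apply, zero_mul, sub_zero] using this
  have sE : ∀ τ > 0, ∀ c a t, sm τ (E c a) t =
      ∑ i ∈ Finset.range m, α i c a * (sm τ (DD (ρ i)) t - sm τ (DD (ρ (i + 1))) t) := fun τ hτ c a t => by
    rw [sm, integral_sum_mul fun i => integrable_mul_gs (iD i) hτ t]
    refine Finset.sum_congr rfl fun i _ => ?_
    simp only [sub_mul]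
    rw [integral_sub (integrable_mul_gs (integrable_DD (hpos i)) hτ t)
      (integrable_mul_gs (integrable_DD (hpos _)) hτ t)]
    rfl
  have e1 : (fun c a t => ∑ i ∈ Finset.range m, α i c a * (KK σ₀ σ₁ (ρ i) t - KK σ₀ σ₁ (ρ (i + 1)) t)) =
      fun c a t => ∑ i ∈ Finset.range m, α i c a * (LL (ρ i ^ 2) t - LL (ρ (i + 1) ^ 2) t) +
        -3 * ∫ σ in Ioc σ₀ σ₁, ∫ r, ee σ (E c a) r * d1 (3 * σ) (t - r) := by
    funext c a t
    rw [← (sm_sub (iE c a) hσ₀ h₁ t).2.2, sE _ (by positivity), sE _ (by positivity), ← Finset.sum_sub_distrib,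
      ← Finset.sum_add_distrib]
    refine Finset.sum_congr rfl fun i _ => ?_
    simp only [KK]
    ring
  have b1 := hl X Y Z δ hδ ξ η ζ hξ hη hζ f₀ f₁ H V hV m (fun i => ρ i ^ 2) α
    (fun i j hij => pow_le_pow_left₀ (hpos i).le (hρ hij) 2) (pow_le_pow_left₀ hδ.le hρ0 2) hα hvar
  have b2 := hs X Y Z δ hδ ξ η ζ hξ hη hζ f₀ f₁ (c₀ • H) V hV (fun c a σ r => ee σ (E c a) r)
    (fun c a => measurable_ee (mE c a))
    (fun c a σ r hσ => (hC (E c a) (6 * H c a) (by have := hH c a; positivity) (iE c a) (oE c a) (bE c a) σ hσ r).trans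
      (by
        have := hH c a
        rw [Matrix.smul_apply, smul_eq_mul]
        refine div_le_div_of_nonneg_right ?_ (by positivity)
        rw [hc₀]
        nlinarith))
    (fun c a => by
      rw [aE]
      refine (hd _ _ ρ hpos).trans (ENNReal.ofReal_le_ofReal ?_)
      rw [← var_eq, Matrix.smul_apply, smul_eq_mul]
      have h2 : 0 ≤ V * H c a := mul_nonneg (by linarith) (hH c a)
      have h3 := mul_le_mul_of_nonneg_left (hvar c a) hd0.le
      have h4 : Kd * (V * H c a) ≤ c₀ * (V * H c a) := mul_le_mul_of_nonneg_right (by rw [hc₀]; linarith) h2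
      linarith) σ₀ σ₁ h₀ h₁
  have n0 := N3_nonneg δ f₀
  have n1 := N3_nonneg δ f₁
  have n2 := N3_nonneg δ H
  have b3 : |Tri δ ξ η ζ f₀ f₁ fun c a t => ∫ σ in Ioc σ₀ σ₁, ∫ r, ee σ (E c a) r * d1 (3 * σ) (t - r)| ≤
      Ks * c₀ ^ 3 * √V * (N3 δ f₀ + N3 δ f₁ + N3 δ H) := by
    rw [tri_integral δ ξ η ζ f₀ f₁ (fun σ c a t => ∫ r, ee σ (E c a) r * d1 (3 * σ) (t - r))
      fun c a t => (sm_sub (iE c a) hσ₀ h₁ t).2.1]
    rw [← ENNReal.ofReal_le_ofReal_iff (by positivity), ← Real.enorm_eq_ofReal_abs]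
    refine (enorm_integral_le_lintegral_enorm _).trans (le_trans ?_ (b2.trans (ENNReal.ofReal_le_ofReal ?_)))
    · refine setLIntegral_mono' measurableSet_Ioc fun σ hσ => ?_
      rw [tri_integral δ ξ η ζ f₀ f₁ (fun r c a t => ee σ (E c a) r * d1 (3 * σ) (t - r))
        fun c a t => (sm_sub (iE c a) hσ₀ h₁ t).1 σ (hσ₀.trans hσ.1)]
      refine (enorm_integral_le_lintegral_enorm _).trans (le_of_eq ?_)
      simp only [Real.enorm_eq_ofReal_abs]
    · rw [N3_smul δ (by linarith)]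
      have h3 : 1 ≤ c₀ ^ 3 := one_le_pow₀ hc1
      have h4 : N3 δ f₀ + N3 δ f₁ + c₀ ^ 3 * N3 δ H ≤ c₀ ^ 3 * (N3 δ f₀ + N3 δ f₁ + N3 δ H) := by nlinarith
      calc Ks * √V * (N3 δ f₀ + N3 δ f₁ + c₀ ^ 3 * N3 δ H)
          ≤ Ks * √V * (c₀ ^ 3 * (N3 δ f₀ + N3 δ f₁ + N3 δ H)) := mul_le_mul_of_nonneg_left h4 (by positivity)
        _ = _ := by ring
  rw [e1, tri_add, tri_smul]
  refine (abs_add_le _ _).trans ?_
  rw [abs_mul, abs_neg, abs_of_pos (by norm_num : (0 : ℝ) < 3)]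
  linarith

end Crest.Agent.R72
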