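import Crest.Agent.R72.Mat2

/-!
# Row 72: the discrete dyadic model

PLAN.  All matrices are indexed by `Fin (2^J)`.  For level `j` and indices `n, n'` let
`blk j n n' f = 2^(-j) • (f restricted to block j n × block j n')` (entries `if x / 2^j = n ∧ y / 2^j = n'`),
`G j n₀ n₁ = A Aᵀ + C Cᵀ` with `A = blk j n₀ n₁ f`, `C = blk j n₀ (n₀ ^^^ n₁) f'`.  With `h = diagonal (hs j)`:
`G + h G h = 2 P₀ G P₀ + 2 P₁ G P₁` for `G = G (j+1) n₀ n₁`, and `2 P_a G P_a` is the midpoint of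
`G j (2n₀+a) (2n₁)` and `G j (2n₀+a) (2n₁+1)`.  `ell_add`, `ell_add_of_mul_eq_zero`, `ell_mid`, `ell (hGh) = ell G`,
`ph (hGh) = h (ph G) h` give `4 ell G + 2 gn G G h ≤ ∑_{a,b} ell (G j (2n₀+a) (2n₁+b))`; the same for `EE, GG`.
So `e j = ∑_{n₀,n₁ < 2^(J-j)} 4^j EE (G j n₀ n₁)` satisfies `e (j+1) + ∑ 4^(j+1) GG/2 ≤ e j`; `e 0` is bounded by
`EE_le`, `(s+t)^(3/2) ≤ √2 (s^(3/2) + t^(3/2))`.  `Lam j n₀ n₁ = 4^(j+1) tr (A h B h C h)`; use `three` with `M = 1`,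
`GG_mono`, and the vertex estimate for `(f₀, f₂ᵀ)`, `(f₁, f₀ᵀ)`, `(f₂, f₁ᵀ)` after reindexing by the bijections
`(n₀,n₁) ↦ (n₁, n₀ ^^^ n₁)`, `(n₀ ^^^ n₁, n₀)` of `range (2^i) × range (2^i)` (`Nat.xor_lt_two_pow`).
-/

set_option autoImplicit false

namespace Crest.Agent.R72

open MeasureTheory Set Matrix Filter Topology
open scoped ENNReal

/-- the Haar sign at level `j + 1` -/
def hs (j x : ℕ) : ℝ := if x.testBit j then -1 else 1

/-- the dyadic block -/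
def blk (j n : ℕ) : Finset ℕ := Finset.Ico (2 ^ j * n) (2 ^ j * (n + 1))

/-- the discrete local form at level `j + 1` -/
noncomputable def Lam (f₀ f₁ f₂ : ℕ → ℕ → ℝ) (j n₀ n₁ : ℕ) : ℝ :=
  (2 ^ (j + 1))⁻¹ * ∑ x₀ ∈ blk (j + 1) n₀, ∑ x₁ ∈ blk (j + 1) n₁, ∑ x₂ ∈ blk (j + 1) (n₀ ^^^ n₁),
    f₀ x₀ x₁ * f₁ x₁ x₂ * f₂ x₂ x₀ * (hs j x₀ * hs j x₁ * hs j x₂)

namespace DyadAux

section abstr

variable {X : Type*} [Fintype X] [DecidableEq X]

theorem dd_one {u : X → ℝ} (hu : ∀ a, u a * u a = 1) : diagonal u * diagonal u = 1 := by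
  rw [diagonal_mul_diagonal]; simp only [hu, diagonal_one]

theorem one_add_conj {u : X → ℝ} (hu : ∀ a, u a * u a = 1) (G : Matrix X X ℝ) :
    1 + diagonal u * G * diagonal u = diagonal u * (1 + G) * diagonal u := by
  rw [Matrix.mul_add, Matrix.add_mul, Matrix.mul_one, dd_one hu]

theorem ell_conj {u : X → ℝ} (hu : ∀ a, u a * u a = 1) (G : Matrix X X ℝ) :
    ell (diagonal u * G * diagonal u) = ell G := by
  unfold ell
  rw [one_add_conj hu, trace_mul_cycle, dd_one hu, Matrix.one_mul, det_mul, det_mul, mul_right_comm,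
    ← det_mul, dd_one hu, det_one, one_mul]

theorem ph_conj' {u : X → ℝ} (hu : ∀ a, u a * u a = 1) (G : Matrix X X ℝ) :
    ph (diagonal u * G * diagonal u) = diagonal u * ph G * diagonal u := by
  unfold ph Rs
  rw [one_add_conj hu, Matrix.mul_inv_rev, Matrix.mul_inv_rev, Matrix.inv_eq_right_inv (dd_one hu),
    Matrix.mul_sub, Matrix.sub_mul, Matrix.mul_one, dd_one hu, Matrix.mul_assoc]

theorem psd_conj {u : X → ℝ} {G : Matrix X X ℝ} (hG : G.PosSemidef) :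
    (diagonal u * G * diagonal u).PosSemidef := by
  have := hG.conjTranspose_mul_mul_same (diagonal u)
  rwa [diagonal_conjTranspose, star_trivial] at this

theorem ell_step {u : X → ℝ} (hu : ∀ a, u a * u a = 1) {G Q₁ Q₂ Q₃ Q₄ : Matrix X X ℝ}
    (hG : G.PosSemidef) (h₁ : Q₁.PosSemidef) (h₂ : Q₂.PosSemidef) (h₃ : Q₃.PosSemidef)
    (h₄ : Q₄.PosSemidef)
    (he : G + diagonal u * G * diagonal u = (2⁻¹ : ℝ) • (Q₁ + Q₂) + (2⁻¹ : ℝ) • (Q₃ + Q₄))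
    (h0 : (Q₁ + Q₂) * (Q₃ + Q₄) = 0) :
    4 * ell G + 2 * gn G G u ≤ ell Q₁ + ell Q₂ + ell Q₃ + ell Q₄ := by
  have a1 := ell_add hG (psd_conj (u := u) hG)
  rw [ell_conj hu, ph_conj' hu, he,
    ell_add_of_mul_eq_zero ((h₁.add h₂).smul (by norm_num)) ((h₃.add h₄).smul (by norm_num))
      (by rw [Matrix.smul_mul, Matrix.mul_smul, h0, smul_zero, smul_zero]),
    ← Matrix.mul_assoc, ← Matrix.mul_assoc] at a1
  have a2 := ell_mid h₁ h₂
  have a3 := ell_mid h₃ h₄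
  unfold gn
  linarith

theorem meas_ell (G : Matrix X X ℝ) :
    Measurable fun v : ℝ => ENNReal.ofReal (2 * v ^ 2 * ell ((v ^ 2)⁻¹ • G)) := by
  have : Measurable fun v : ℝ => ell ((v ^ 2)⁻¹ • G) :=
    measurable_ell fun a b => by simp only [Matrix.smul_apply, smul_eq_mul]; fun_prop
  fun_prop

theorem EE_step {u : X → ℝ} (hu : ∀ a, u a * u a = 1) {G Q₁ Q₂ Q₃ Q₄ : Matrix X X ℝ}
    (hG : G.PosSemidef) (h₁ : Q₁.PosSemidef) (h₂ : Q₂.PosSemidef) (h₃ : Q₃.PosSemidef)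
    (h₄ : Q₄.PosSemidef)
    (he : G + diagonal u * G * diagonal u = (2⁻¹ : ℝ) • (Q₁ + Q₂) + (2⁻¹ : ℝ) • (Q₃ + Q₄))
    (h0 : (Q₁ + Q₂) * (Q₃ + Q₄) = 0) :
    4 * EE G + 2 * GG G G u ≤ EE Q₁ + EE Q₂ + EE Q₃ + EE Q₄ := by
  unfold EE GG
  rw [← lintegral_const_mul' _ _ (by norm_num), ← lintegral_const_mul' _ _ (by norm_num),
    ← lintegral_add_left ((meas_ell G).const_mul _), ← lintegral_add_left (meas_ell Q₁),
    ← lintegral_add_right _ (meas_ell Q₃), ← lintegral_add_right _ (meas_ell Q₄)]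
  refine lintegral_mono fun v => ?_
  have hc : (0 : ℝ) ≤ (v ^ 2)⁻¹ := by positivity
  have hv : (0 : ℝ) ≤ 2 * v ^ 2 := by positivity
  have key := ell_step hu (hG.smul hc) (h₁.smul hc) (h₂.smul hc) (h₃.smul hc) (h₄.smul hc)
    (by
      rw [Matrix.mul_smul, Matrix.smul_mul, ← smul_add, he]
      module)
    (by rw [← smul_add, ← smul_add, Matrix.smul_mul, Matrix.mul_smul, h0, smul_zero, smul_zero])
  have n0 := mul_nonneg hv (ell_nonneg (hG.smul hc))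
  have n1 := mul_nonneg hv (ell_nonneg (h₁.smul hc))
  have n2 := mul_nonneg hv (ell_nonneg (h₂.smul hc))
  have n3 := mul_nonneg hv (ell_nonneg (h₃.smul hc))
  have n4 := mul_nonneg hv (ell_nonneg (h₄.smul hc))
  have n5 := mul_nonneg hv (gn_nonneg (hG.smul hc) (hG.smul hc) u)
  have e4 : (4 : ℝ≥0∞) = ENNReal.ofReal 4 := by simp
  have e2 : (2 : ℝ≥0∞) = ENNReal.ofReal 2 := by simp
  simp only
  rw [e4, e2, ← ENNReal.ofReal_mul (by norm_num), ← ENNReal.ofReal_mul (by norm_num),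
    ← ENNReal.ofReal_add (by positivity) (by positivity), ← ENNReal.ofReal_add n1 n2,
    ← ENNReal.ofReal_add (by positivity) n3, ← ENNReal.ofReal_add (by positivity) n4]
  refine ENNReal.ofReal_le_ofReal ?_
  nlinarith [mul_le_mul_of_nonneg_left key hv]

omit [DecidableEq X] in
theorem psd_gram (A : Matrix X X ℝ) : (A * Aᵀ).PosSemidef := by
  have := posSemidef_self_mul_conjTranspose A
  rwa [conjTranspose_eq_transpose_of_trivial] at this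

theorem GG_le_add {P Q : Matrix X X ℝ} (hP : P.PosSemidef) (hQ : Q.PosSemidef) (u : X → ℝ) :
    GG P Q u ≤ GG (P + Q) (P + Q) u :=
  GG_mono hP hQ (by rwa [add_sub_cancel_left]) (by rwa [add_sub_cancel_right]) u

theorem trace_three (A B C : Matrix X X ℝ) (u : X → ℝ) :
    (A * diagonal u * B * diagonal u * C * diagonal u).trace =
      ∑ a, ∑ b, ∑ c, A a b * B b c * C c a * (u a * u b * u c) := by
  simp only [Matrix.trace, diag_apply, mul_diagonal]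
  refine Finset.sum_congr rfl fun a _ => ?_
  rw [Finset.sum_comm, Matrix.mul_apply, Finset.sum_mul]
  refine Finset.sum_congr rfl fun c _ => ?_
  rw [mul_diagonal, Matrix.mul_apply, Finset.sum_mul, Finset.sum_mul, Finset.sum_mul]
  refine Finset.sum_congr rfl fun b _ => ?_
  rw [mul_diagonal]; ring

end abstr

/-- indicator of a dyadic block -/
def ind (j n x : ℕ) : ℝ := if x / 2 ^ j = n then 1 else 0

theorem ind_sq (j n x : ℕ) : ind j n x * ind j n x = ind j n x := by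
  unfold ind; split_ifs <;> simp

theorem ind_succ (j n x : ℕ) : ind (j + 1) n x = ind j (2 * n) x + ind j (2 * n + 1) x := by
  unfold ind
  rw [pow_succ, ← Nat.div_div_eq_div_mul]
  generalize x / 2 ^ j = y
  split_ifs <;> first | omega | simp

theorem hs_ind (j n x : ℕ) : hs j x * ind (j + 1) n x = ind j (2 * n) x - ind j (2 * n + 1) x := by
  unfold ind hs
  rw [pow_succ, ← Nat.div_div_eq_div_mul, Nat.testBit_eq_decide_div_mod_eq]
  generalize x / 2 ^ j = y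
  simp only [decide_eq_true_eq]
  split_ifs <;> first | omega | simp

theorem ind_disj (j n x : ℕ) : ind j (2 * n) x * ind j (2 * n + 1) x = 0 := by
  unfold ind
  split_ifs <;> first | omega | simp

theorem hs_sq (j x : ℕ) : hs j x * hs j x = 1 := by
  unfold hs; split_ifs <;> simp

theorem abs_hs (j x : ℕ) : |hs j x| ≤ 1 := by
  unfold hs; split_ifs <;> simp

variable {J : ℕ}

/-- a localised matrix -/
noncomputable def Bm (J j n n' : ℕ) (f : ℕ → ℕ → ℝ) : Matrix (Fin (2 ^ J)) (Fin (2 ^ J)) ℝ :=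
  Matrix.of fun x y => (2 ^ j : ℝ)⁻¹ * ind j n x * ind j n' y * f x y

theorem Bm_transpose (j n n' : ℕ) (f : ℕ → ℕ → ℝ) :
    (Bm J j n n' f)ᵀ = Bm J j n' n fun x y => f y x := by
  ext x y; simp only [Bm, transpose_apply, of_apply]; ring

/-- the kernel of the Gram matrix -/
noncomputable def KK' (J j n' : ℕ) (f : ℕ → ℕ → ℝ) (x x' : ℕ) : ℝ :=
  ∑ y : Fin (2 ^ J), ind j n' y * (f x y * f x' y)

theorem KK'_succ (j n : ℕ) (f : ℕ → ℕ → ℝ) (x x' : ℕ) :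
    KK' J (j + 1) n f x x' = KK' J j (2 * n) f x x' + KK' J j (2 * n + 1) f x x' := by
  simp only [KK', ind_succ, add_mul, Finset.sum_add_distrib]

theorem gram_apply (j n n' : ℕ) (f : ℕ → ℕ → ℝ) (x x' : Fin (2 ^ J)) :
    (Bm J j n n' f * (Bm J j n n' f)ᵀ) x x' =
      ((2 ^ j : ℝ)⁻¹) ^ 2 * (ind j n x * ind j n x') * KK' J j n' f x x' := by
  simp only [Matrix.mul_apply, Bm, transpose_apply, of_apply, KK', Finset.mul_sum]
  refine Finset.sum_congr rfl fun y _ => ?_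
  conv_rhs => rw [← ind_sq j n' y]
  ring

/-- the Gram matrix at a vertex -/
noncomputable def Gv (J : ℕ) (f f' : ℕ → ℕ → ℝ) (j n₀ n₁ : ℕ) :
    Matrix (Fin (2 ^ J)) (Fin (2 ^ J)) ℝ :=
  Bm J j n₀ n₁ f * (Bm J j n₀ n₁ f)ᵀ + Bm J j n₀ (n₀ ^^^ n₁) f' * (Bm J j n₀ (n₀ ^^^ n₁) f')ᵀ

variable {f f' : ℕ → ℕ → ℝ}

theorem Gv_psd (j n₀ n₁ : ℕ) : (Gv J f f' j n₀ n₁).PosSemidef := (psd_gram _).add (psd_gram _)

theorem Gv_apply (j n₀ n₁ : ℕ) (x x' : Fin (2 ^ J)) :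
    Gv J f f' j n₀ n₁ x x' = ((2 ^ j : ℝ)⁻¹) ^ 2 * (ind j n₀ x * ind j n₀ x') *
      (KK' J j n₁ f x x' + KK' J j (n₀ ^^^ n₁) f' x x') := by
  rw [Gv, Matrix.add_apply, gram_apply, gram_apply, mul_add]

theorem xor00 (a b : ℕ) : (2 * a) ^^^ (2 * b) = 2 * (a ^^^ b) := by
  simpa [Nat.bit] using Nat.xor_bit false a false b

theorem xor01 (a b : ℕ) : (2 * a) ^^^ (2 * b + 1) = 2 * (a ^^^ b) + 1 := by
  simpa [Nat.bit] using Nat.xor_bit false a true b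

theorem xor10 (a b : ℕ) : (2 * a + 1) ^^^ (2 * b) = 2 * (a ^^^ b) + 1 := by
  simpa [Nat.bit] using Nat.xor_bit true a false b

theorem xor11 (a b : ℕ) : (2 * a + 1) ^^^ (2 * b + 1) = 2 * (a ^^^ b) := by
  simpa [Nat.bit] using Nat.xor_bit true a true b

theorem Gv_pair0 (j n₀ n₁ : ℕ) (x x' : Fin (2 ^ J)) :
    (Gv J f f' j (2 * n₀) (2 * n₁) + Gv J f f' j (2 * n₀) (2 * n₁ + 1)) x x' =
      ((2 ^ j : ℝ)⁻¹) ^ 2 * (ind j (2 * n₀) x * ind j (2 * n₀) x') *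
        (KK' J (j + 1) n₁ f x x' + KK' J (j + 1) (n₀ ^^^ n₁) f' x x') := by
  rw [Matrix.add_apply, Gv_apply, Gv_apply, xor00, xor01, KK'_succ, KK'_succ]; ring

theorem Gv_pair1 (j n₀ n₁ : ℕ) (x x' : Fin (2 ^ J)) :
    (Gv J f f' j (2 * n₀ + 1) (2 * n₁) + Gv J f f' j (2 * n₀ + 1) (2 * n₁ + 1)) x x' =
      ((2 ^ j : ℝ)⁻¹) ^ 2 * (ind j (2 * n₀ + 1) x * ind j (2 * n₀ + 1) x') *
        (KK' J (j + 1) n₁ f x x' + KK' J (j + 1) (n₀ ^^^ n₁) f' x x') := by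
  rw [Matrix.add_apply, Gv_apply, Gv_apply, xor10, xor11, KK'_succ, KK'_succ]; ring

theorem Gv_step (j n₀ n₁ : ℕ) :
    4 * EE (Gv J f f' (j + 1) n₀ n₁) +
      2 * GG (Gv J f f' (j + 1) n₀ n₁) (Gv J f f' (j + 1) n₀ n₁) (fun x => hs j x) ≤
      EE (Gv J f f' j (2 * n₀) (2 * n₁)) + EE (Gv J f f' j (2 * n₀) (2 * n₁ + 1)) +
        EE (Gv J f f' j (2 * n₀ + 1) (2 * n₁)) + EE (Gv J f f' j (2 * n₀ + 1) (2 * n₁ + 1)) := by
  refine EE_step (u := fun x : Fin (2 ^ J) => hs j x) (fun x => hs_sq j x) (Gv_psd _ _ _)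
    (Gv_psd _ _ _) (Gv_psd _ _ _) (Gv_psd _ _ _) (Gv_psd _ _ _) ?_ ?_
  · ext x x'
    rw [Matrix.add_apply, Matrix.add_apply _ (_ • _), Matrix.smul_apply, Matrix.smul_apply, Gv_pair0,
      Gv_pair1, mul_diagonal, diagonal_mul, Gv_apply, smul_eq_mul, smul_eq_mul]
    generalize KK' J (j + 1) n₁ f x x' + KK' J (j + 1) (n₀ ^^^ n₁) f' x x' = k
    have h1 := hs_ind j n₀ x
    have h2 := hs_ind j n₀ x'
    have h3 := ind_succ j n₀ x
    have h4 := ind_succ j n₀ x'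
    have h5 : ((2 : ℝ) ^ (j + 1))⁻¹ = (2 ^ j)⁻¹ * 2⁻¹ := by rw [pow_succ, mul_inv]
    calc _ = ((2 : ℝ) ^ (j + 1))⁻¹ ^ 2 * k * (ind (j + 1) n₀ x * ind (j + 1) n₀ x' +
          (hs j x * ind (j + 1) n₀ x) * (hs j x' * ind (j + 1) n₀ x')) := by ring
      _ = _ := by rw [h1, h2, h3, h4, h5]; ring
  · ext x x'
    rw [Matrix.mul_apply, Matrix.zero_apply]
    refine Finset.sum_eq_zero fun z _ => ?_
    rw [Gv_pair0, Gv_pair1]
    have := ind_disj j n₀ z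
    generalize KK' J (j + 1) n₁ f x z + KK' J (j + 1) (n₀ ^^^ n₁) f' x z = k
    generalize KK' J (j + 1) n₁ f z x' + KK' J (j + 1) (n₀ ^^^ n₁) f' z x' = k'
    calc _ = (ind j (2 * n₀) z * ind j (2 * n₀ + 1) z) * (((2 ^ j : ℝ)⁻¹) ^ 4 * ind j (2 * n₀) x *
          ind j (2 * n₀ + 1) x' * k * k') := by ring
      _ = 0 := by rw [this, zero_mul]

theorem sum_two {M : Type*} [AddCommMonoid M] (F : ℕ → M) (m : ℕ) :
    ∑ n ∈ Finset.range (2 * m), F n = ∑ n ∈ Finset.range m, (F (2 * n) + F (2 * n + 1)) := by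
  induction m with
  | zero => simp
  | succ m ih =>
    rw [show 2 * (m + 1) = 2 * m + 1 + 1 by ring, Finset.sum_range_succ, Finset.sum_range_succ, ih,
      Finset.sum_range_succ, add_assoc]

theorem sum_xor {M : Type*} [AddCommMonoid M] (F : ℕ → M) {i a : ℕ} (ha : a < 2 ^ i) :
    ∑ n ∈ Finset.range (2 ^ i), F (a ^^^ n) = ∑ n ∈ Finset.range (2 ^ i), F n := by
  refine Finset.sum_nbij' (fun n => a ^^^ n) (fun n => a ^^^ n) ?_ ?_ ?_ ?_ fun _ _ => rfl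
  · exact fun n hn => Finset.mem_range.2 (Nat.xor_lt_two_pow ha (Finset.mem_range.1 hn))
  · exact fun n hn => Finset.mem_range.2 (Nat.xor_lt_two_pow ha (Finset.mem_range.1 hn))
  · exact fun n _ => Nat.xor_xor_cancel_left a n
  · exact fun n _ => Nat.xor_xor_cancel_left a n

/-- the energy at level `j` -/
noncomputable def en (J : ℕ) (f f' : ℕ → ℕ → ℝ) (j : ℕ) : ℝ≥0∞ :=
  ∑ n₀ ∈ Finset.range (2 ^ (J - j)), ∑ n₁ ∈ Finset.range (2 ^ (J - j)), 4 ^ j * EE (Gv J f f' j n₀ n₁)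

/-- the gain at level `j + 1` -/
noncomputable def ga (J : ℕ) (f f' : ℕ → ℕ → ℝ) (j : ℕ) : ℝ≥0∞ :=
  ∑ n₀ ∈ Finset.range (2 ^ (J - j - 1)), ∑ n₁ ∈ Finset.range (2 ^ (J - j - 1)),
    4 ^ j * (2 * GG (Gv J f f' (j + 1) n₀ n₁) (Gv J f f' (j + 1) n₀ n₁) (fun x => hs j x))

theorem en_step {j : ℕ} (hj : j < J) : en J f f' (j + 1) + ga J f f' j ≤ en J f f' j := by
  unfold en ga
  have e1 : 2 ^ (J - j) = 2 * 2 ^ (J - j - 1) := by
    rw [← pow_succ']; congr 1; omega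
  rw [e1, sum_two, ← Nat.sub_sub, ← Finset.sum_add_distrib]
  refine Finset.sum_le_sum fun n₀ _ => ?_
  rw [sum_two, sum_two, ← Finset.sum_add_distrib, ← Finset.sum_add_distrib]
  refine Finset.sum_le_sum fun n₁ _ => ?_
  rw [pow_succ, mul_assoc, ← mul_add, ← mul_add, ← mul_add, ← mul_add, ← add_assoc]
  exact mul_le_mul_right (Gv_step j n₀ n₁) _

theorem ga_sum {k : ℕ} (hk : k ≤ J) :
    en J f f' k + ∑ j ∈ Finset.range k, ga J f f' j ≤ en J f f' 0 := by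
  induction k with
  | zero => simp
  | succ k ih =>
    rw [Finset.sum_range_succ, add_comm (∑ j ∈ Finset.range k, ga J f f' j), ← add_assoc]
    exact le_trans (by gcongr; exact en_step (by omega)) (ih (by omega))

theorem sum_ind0 {n : ℕ} (hn : n < 2 ^ J) (g : ℕ → ℝ) :
    ∑ y : Fin (2 ^ J), ind 0 n y * g y = g n := by
  rw [Finset.sum_eq_single (⟨n, hn⟩ : Fin (2 ^ J))]
  · simp [ind]
  · intro b _ hb
    have : b.val ≠ n := fun h => hb (Fin.ext h)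
    simp [ind, this]
  · simp

theorem trace_Gv0 {n₀ n₁ : ℕ} (h₀ : n₀ < 2 ^ J) (h₁ : n₁ < 2 ^ J) :
    (Gv J f f' 0 n₀ n₁).trace = f n₀ n₁ ^ 2 + f' n₀ (n₀ ^^^ n₁) ^ 2 := by
  simp only [Matrix.trace, diag_apply, Gv_apply, ind_sq, pow_zero, inv_one, one_pow, one_mul]
  rw [sum_ind0 h₀ fun x => KK' J 0 n₁ f x x + KK' J 0 (n₀ ^^^ n₁) f' x x, KK', KK',
    sum_ind0 h₁ fun y => f n₀ y * f n₀ y,
    sum_ind0 (Nat.xor_lt_two_pow h₀ h₁) fun y => f' n₀ y * f' n₀ y]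
  ring

theorem rpow_le (a b : ℝ) : (a ^ 2 + b ^ 2) ^ (3 / 2 : ℝ) ≤ √2 * (|a| ^ 3 + |b| ^ 3) := by
  have h0 : 0 ≤ a ^ 2 + b ^ 2 := by positivity
  have h1 : ((a ^ 2 + b ^ 2) ^ (3 / 2 : ℝ)) ^ 2 = (a ^ 2 + b ^ 2) ^ 3 := by
    rw [← Real.rpow_natCast, ← Real.rpow_mul h0, ← Real.rpow_natCast]; norm_num
  refine (pow_le_pow_iff_left₀ (by positivity) (by positivity) two_ne_zero).1 ?_
  rw [h1, mul_pow, Real.sq_sqrt (by norm_num), ← sq_abs a, ← sq_abs b]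
  have hx := abs_nonneg a
  have hy := abs_nonneg b
  generalize |a| = x at *
  generalize |b| = y at *
  have e : 2 * (x ^ 3 + y ^ 3) ^ 2 - (x ^ 2 + y ^ 2) ^ 3 =
      (x - y) ^ 2 * (x ^ 4 + 2 * x ^ 3 * y + 2 * x * y ^ 3 + y ^ 4) := by ring
  have : 0 ≤ (x - y) ^ 2 * (x ^ 4 + 2 * x ^ 3 * y + 2 * x * y ^ 3 + y ^ 4) := by positivity
  linarith

/-- the cubed norm -/
noncomputable def nn (J : ℕ) (f : ℕ → ℕ → ℝ) : ℝ :=
  ∑ a ∈ Finset.range (2 ^ J), ∑ b ∈ Finset.range (2 ^ J), |f a b| ^ 3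

theorem nn_nonneg (f : ℕ → ℕ → ℝ) : 0 ≤ nn J f := by unfold nn; positivity

theorem nn_swap (f : ℕ → ℕ → ℝ) : nn J (fun x y => f y x) = nn J f := Finset.sum_comm

theorem en_zero : en J f f' 0 ≤ ENNReal.ofReal (Real.pi * (nn J f + nn J f')) := by
  have e : Real.pi * (nn J f + nn J f') = ∑ a ∈ Finset.range (2 ^ J), ∑ b ∈ Finset.range (2 ^ J),
      Real.pi * (|f a b| ^ 3 + |f' a (a ^^^ b)| ^ 3) := by
    simp only [nn, ← Finset.mul_sum, Finset.sum_add_distrib]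
    congr 2
    exact Finset.sum_congr rfl fun a ha =>
      (sum_xor (fun b => |f' a b| ^ 3) (Finset.mem_range.1 ha)).symm
  rw [e, en, Nat.sub_zero, ENNReal.ofReal_sum_of_nonneg fun _ _ => by positivity]
  refine Finset.sum_le_sum fun a ha => ?_
  rw [ENNReal.ofReal_sum_of_nonneg fun _ _ => by positivity]
  refine Finset.sum_le_sum fun b hb => ?_
  rw [pow_zero, one_mul]
  refine (EE_le (Gv_psd _ _ _)).trans (ENNReal.ofReal_le_ofReal ?_)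
  rw [trace_Gv0 (Finset.mem_range.1 ha) (Finset.mem_range.1 hb)]
  have h2 : (0 : ℝ) < √2 := by positivity
  calc _ ≤ Real.pi / √2 * (√2 * (|f a b| ^ 3 + |f' a (a ^^^ b)| ^ 3)) := by
        gcongr; exact rpow_le _ _
    _ = _ := by field_simp

theorem ga_le : ∑ j ∈ Finset.range J, ga J f f' j ≤ ENNReal.ofReal (Real.pi * (nn J f + nn J f')) :=
  (le_add_self.trans (ga_sum le_rfl)).trans en_zero

theorem sum_blk {k n : ℕ} (hk : k ≤ J) (hn : n < 2 ^ (J - k)) (g : ℕ → ℝ) :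
    ∑ x ∈ blk k n, g x = ∑ x : Fin (2 ^ J), ind k n x * g x := by
  rw [Fin.sum_univ_eq_sum_range (fun x => ind k n x * g x)]
  simp only [ind, ite_mul, one_mul, zero_mul]
  rw [← Finset.sum_filter]
  refine Finset.sum_congr ?_ fun _ _ => rfl
  ext x
  have hp : 0 < 2 ^ k := Nat.two_pow_pos k
  have e : 2 ^ J = 2 ^ k * 2 ^ (J - k) := by rw [← pow_add]; congr 1; omega
  simp only [blk, Finset.mem_Ico, Finset.mem_filter, Finset.mem_range]
  constructor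
  · rintro ⟨h1, h2⟩
    refine ⟨lt_of_lt_of_le h2 (e ▸ Nat.mul_le_mul_left _ hn), ?_⟩
    exact Nat.div_eq_of_lt_le (by rwa [mul_comm]) (by rwa [mul_comm])
  · rintro ⟨-, rfl⟩
    exact ⟨Nat.mul_div_le x _, Nat.lt_mul_div_succ x hp⟩

theorem Lam_eq (f₀ f₁ f₂ : ℕ → ℕ → ℝ) {j n₀ n₁ : ℕ} (hj : j < J) (h₀ : n₀ < 2 ^ (J - j - 1))
    (h₁ : n₁ < 2 ^ (J - j - 1)) :
    Lam f₀ f₁ f₂ j n₀ n₁ = 4 ^ (j + 1) *
      (Bm J (j + 1) n₀ n₁ f₀ * diagonal (fun x : Fin (2 ^ J) => hs j x) *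
        Bm J (j + 1) n₁ (n₀ ^^^ n₁) f₁ * diagonal (fun x : Fin (2 ^ J) => hs j x) *
        Bm J (j + 1) (n₀ ^^^ n₁) n₀ f₂ * diagonal (fun x : Fin (2 ^ J) => hs j x)).trace := by
  have h₂ := Nat.xor_lt_two_pow h₀ h₁
  rw [Nat.sub_sub] at h₀ h₁ h₂
  unfold Lam
  rw [trace_three]
  simp only [sum_blk (J := J) hj h₀, sum_blk (J := J) hj h₁, sum_blk (J := J) hj h₂,
    Finset.mul_sum]
  refine Finset.sum_congr rfl fun x₀ _ => Finset.sum_congr rfl fun x₁ _ =>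
    Finset.sum_congr rfl fun x₂ _ => ?_
  simp only [Bm, of_apply]
  have e : (4 : ℝ) ^ (j + 1) = (2 ^ (j + 1)) ^ 2 := by rw [← pow_mul, mul_comm, pow_mul]; norm_num
  have hp : (2 : ℝ) ^ (j + 1) ≠ 0 := by positivity
  conv_lhs => rw [← ind_sq (j + 1) n₀ x₀, ← ind_sq (j + 1) n₁ x₁, ← ind_sq (j + 1) (n₀ ^^^ n₁) x₂]
  rw [e]
  field_simp

theorem Lam_le (f₀ f₁ f₂ : ℕ → ℕ → ℝ) {j n₀ n₁ : ℕ} (hj : j < J) (h₀ : n₀ < 2 ^ (J - j - 1))
    (h₁ : n₁ < 2 ^ (J - j - 1)) :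
    ENNReal.ofReal |Lam f₀ f₁ f₂ j n₀ n₁| ≤
      2 * (4 ^ j * (2 * GG (Gv J f₀ (fun x y => f₂ y x) (j + 1) n₀ n₁)
          (Gv J f₀ (fun x y => f₂ y x) (j + 1) n₀ n₁) (fun x => hs j x)) +
        4 ^ j * (2 * GG (Gv J f₁ (fun x y => f₀ y x) (j + 1) n₁ (n₁ ^^^ n₀))
          (Gv J f₁ (fun x y => f₀ y x) (j + 1) n₁ (n₁ ^^^ n₀)) (fun x => hs j x)) +
        4 ^ j * (2 * GG (Gv J f₂ (fun x y => f₁ y x) (j + 1) (n₀ ^^^ n₁) n₀)
          (Gv J f₂ (fun x y => f₁ y x) (j + 1) (n₀ ^^^ n₁) n₀) (fun x => hs j x))) := by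
  rw [Lam_eq f₀ f₁ f₂ hj h₀ h₁, abs_mul, abs_of_nonneg (by positivity : (0 : ℝ) ≤ 4 ^ (j + 1)),
    ENNReal.ofReal_mul (by positivity), ENNReal.ofReal_pow (by norm_num), ENNReal.ofReal_ofNat]
  set A := Bm J (j + 1) n₀ n₁ f₀ with hA
  set B := Bm J (j + 1) n₁ (n₀ ^^^ n₁) f₁ with hB
  set C := Bm J (j + 1) (n₀ ^^^ n₁) n₀ f₂ with hC
  have h3 := three A B C (m₀ := fun x : Fin (2 ^ J) => hs j x) (m₁ := fun x : Fin (2 ^ J) => hs j x)
    (m₂ := fun x : Fin (2 ^ J) => hs j x) zero_le_one (fun a => abs_hs j a) (fun a => abs_hs j a)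
    (fun a => abs_hs j a)
  rw [ENNReal.ofReal_one, one_mul] at h3
  have g0 : Gv J f₀ (fun x y => f₂ y x) (j + 1) n₀ n₁ = A * Aᵀ + Cᵀ * Cᵀᵀ := by
    rw [Gv, hA, hC, Bm_transpose _ _ _ f₂]
  have g1 : Gv J f₁ (fun x y => f₀ y x) (j + 1) n₁ (n₁ ^^^ n₀) = Aᵀ * Aᵀᵀ + B * Bᵀ := by
    rw [Gv, hA, hB, Bm_transpose _ _ _ f₀, Nat.xor_xor_cancel_left, Nat.xor_comm n₁ n₀, add_comm]
  have g2 : Gv J f₂ (fun x y => f₁ y x) (j + 1) (n₀ ^^^ n₁) n₀ = Bᵀ * Bᵀᵀ + C * Cᵀ := by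
    rw [Gv, hC, hB, Bm_transpose _ _ _ f₁, Nat.xor_comm (n₀ ^^^ n₁) n₀, Nat.xor_xor_cancel_left,
      add_comm]
  have k0 := GG_le_add (psd_gram A) (psd_gram Cᵀ) fun x : Fin (2 ^ J) => hs j x
  have k1 := GG_le_add (psd_gram Aᵀ) (psd_gram B) fun x : Fin (2 ^ J) => hs j x
  have k2 := GG_le_add (psd_gram Bᵀ) (psd_gram C) fun x : Fin (2 ^ J) => hs j x
  rw [← g0, transpose_transpose] at k0
  rw [← g1, transpose_transpose] at k1
  rw [← g2, transpose_transpose] at k2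
  refine le_trans (mul_le_mul_right (h3.trans (add_le_add (add_le_add k0 k1) k2)) _) (le_of_eq ?_)
  ring

end DyadAux

open DyadAux in
theorem dyad_disc (f₀ f₁ f₂ : ℕ → ℕ → ℝ) (J : ℕ) :
    ∑ j ∈ Finset.range J, ∑ n₀ ∈ Finset.range (2 ^ (J - j - 1)), ∑ n₁ ∈ Finset.range (2 ^ (J - j - 1)),
      |Lam f₀ f₁ f₂ j n₀ n₁| ≤ 4 * Real.pi * ∑ a ∈ Finset.range (2 ^ J), ∑ b ∈ Finset.range (2 ^ J),
        (|f₀ a b| ^ 3 + |f₁ a b| ^ 3 + |f₂ a b| ^ 3) := by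
  have e : ∑ a ∈ Finset.range (2 ^ J), ∑ b ∈ Finset.range (2 ^ J),
      (|f₀ a b| ^ 3 + |f₁ a b| ^ 3 + |f₂ a b| ^ 3) = nn J f₀ + nn J f₁ + nn J f₂ := by
    simp only [nn, Finset.sum_add_distrib]
  have n0 := nn_nonneg (J := J) f₀
  have n1 := nn_nonneg (J := J) f₁
  have n2 := nn_nonneg (J := J) f₂
  have hπ := Real.pi_pos
  rw [e, ← ENNReal.ofReal_le_ofReal_iff (by positivity),
    ENNReal.ofReal_sum_of_nonneg fun _ _ => by positivity]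
  have h1 : ∀ j ∈ Finset.range J, ENNReal.ofReal (∑ n₀ ∈ Finset.range (2 ^ (J - j - 1)),
      ∑ n₁ ∈ Finset.range (2 ^ (J - j - 1)), |Lam f₀ f₁ f₂ j n₀ n₁|) ≤
      2 * (ga J f₀ (fun x y => f₂ y x) j + ga J f₁ (fun x y => f₀ y x) j +
        ga J f₂ (fun x y => f₁ y x) j) := by
    intro j hj
    have b1 : ga J f₁ (fun x y => f₀ y x) j = ∑ n₀ ∈ Finset.range (2 ^ (J - j - 1)),
        ∑ n₁ ∈ Finset.range (2 ^ (J - j - 1)),
          4 ^ j * (2 * GG (Gv J f₁ (fun x y => f₀ y x) (j + 1) n₁ (n₁ ^^^ n₀))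
          (Gv J f₁ (fun x y => f₀ y x) (j + 1) n₁ (n₁ ^^^ n₀)) (fun x => hs j x)) := by
      rw [Finset.sum_comm, ga]
      exact Finset.sum_congr rfl fun a ha => (sum_xor (fun m => 4 ^ j *
        (2 * GG (Gv J f₁ (fun x y => f₀ y x) (j + 1) a m) (Gv J f₁ (fun x y => f₀ y x) (j + 1) a m)
          (fun x => hs j x))) (Finset.mem_range.1 ha)).symm
    have b2 : ga J f₂ (fun x y => f₁ y x) j = ∑ n₀ ∈ Finset.range (2 ^ (J - j - 1)),
        ∑ n₁ ∈ Finset.range (2 ^ (J - j - 1)),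
          4 ^ j * (2 * GG (Gv J f₂ (fun x y => f₁ y x) (j + 1) (n₀ ^^^ n₁) n₀)
          (Gv J f₂ (fun x y => f₁ y x) (j + 1) (n₀ ^^^ n₁) n₀) (fun x => hs j x)) := by
      rw [ga, Finset.sum_comm]
      exact Finset.sum_congr rfl fun a ha => (sum_xor (fun m => 4 ^ j *
        (2 * GG (Gv J f₂ (fun x y => f₁ y x) (j + 1) m a) (Gv J f₂ (fun x y => f₁ y x) (j + 1) m a)
          (fun x => hs j x))) (Finset.mem_range.1 ha)).symm
    rw [b1, b2, ga, ← Finset.sum_add_distrib, ← Finset.sum_add_distrib, Finset.mul_sum,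
      ENNReal.ofReal_sum_of_nonneg fun _ _ => by positivity]
    refine Finset.sum_le_sum fun a ha => ?_
    rw [← Finset.sum_add_distrib, ← Finset.sum_add_distrib, Finset.mul_sum,
      ENNReal.ofReal_sum_of_nonneg fun _ _ => by positivity]
    exact Finset.sum_le_sum fun b hb =>
      Lam_le f₀ f₁ f₂ (Finset.mem_range.1 hj) (Finset.mem_range.1 ha) (Finset.mem_range.1 hb)
  refine (Finset.sum_le_sum h1).trans ?_
  rw [← Finset.mul_sum, Finset.sum_add_distrib, Finset.sum_add_distrib]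
  refine le_trans (mul_le_mul_right (add_le_add (add_le_add ga_le ga_le) ga_le) _) (le_of_eq ?_)
  rw [nn_swap f₀, nn_swap f₁, nn_swap f₂, ← ENNReal.ofReal_add (by positivity) (by positivity),
    ← ENNReal.ofReal_add (by positivity) (by positivity), ← ENNReal.ofReal_ofNat 2,
    ← ENNReal.ofReal_mul (by norm_num)]
  congr 1
  ring

end Crest.Agent.R72
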