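import Crest.Agent.R72.Dyad
import Crest.Agent.R72.Transfer

/-!
# Row 72: the dyadic model (S0097)

PLAN.  Choose `k₀ : ℤ` below all scales of `𝓘`, `δ = 2^k₀`, and `J` so large that every `(k, n₀, n₁) ∈ 𝓘` has
`j = k - k₀ - 1 < J`, `n₀, n₁ < 2^(J-j-1)`.  `localForm` is the integral over `[0, δ 2^J)³` of
`Ψ i x = 2^(-k) F₀ F₁ F₂ h h h` (the Haar signs vanish off their intervals; Fubini).  On the lattice point
`δ (n + θ)` the Haar sign is `hs j n` if `n ∈ blk (j+1) n₀` and `0` otherwise, so the lattice sum is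
`δ² Lam f₀ f₁ f₂ j n₀ n₁`.  `transfer` and `dyad_disc` give the additive bound with `K = 4π`; apply it to
`a F₀, b F₁, c F₂`; `le_of_scale`, `12 π ≤ 40`.
-/

set_option autoImplicit false

namespace Crest.Agent.R72

open MeasureTheory Set Matrix Filter Topology
open scoped ENNReal

namespace Dy2A

open Crest.AnalysisR.TriangularDyadic TrA

theorem haar_meas (k : ℤ) (n : ℕ) : Measurable (haarSign k n) := by
  unfold haarSign
  exact Measurable.ite measurableSet_Ico measurable_const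
    (Measurable.ite measurableSet_Ico measurable_const measurable_const)

theorem haar_abs (k : ℤ) (n : ℕ) (x : ℝ) : |haarSign k n x| ≤ 1 := by
  unfold haarSign
  split_ifs <;> simp

theorem haar_off {k : ℤ} {n : ℕ} {x : ℝ} (h : x ∉ interval k n) : haarSign k n x = 0 := by
  have h1 : (0 : ℝ) < 2 ^ (k - 1) := by positivity
  have h2 : (2 : ℝ) ^ k = 2 * 2 ^ (k - 1) := by
    rw [← zpow_one_add₀ two_ne_zero]; congr 1; ring
  simp only [interval, mem_Ico, not_and, not_lt] at h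
  unfold haarSign
  rw [if_neg, if_neg]
  · rintro ⟨a1, a2⟩
    exact absurd a2 (not_lt.mpr (h (by linarith)))
  · rintro ⟨a1, a2⟩
    have := h a1
    rw [mul_add, mul_one] at this
    linarith

theorem mem_lat {δ θ : ℝ} (hδ : 0 < δ) (hθ : θ ∈ Ico (0 : ℝ) 1) (x p q : ℕ) :
    δ * (x + θ) ∈ Ico (δ * p) (δ * q) ↔ p ≤ x ∧ x < q := by
  simp only [mem_Ico, mul_le_mul_iff_right₀ hδ, mul_lt_mul_iff_right₀ hδ]
  constructor
  · rintro ⟨h1, h2⟩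
    refine ⟨Nat.lt_succ_iff.mp ?_, ?_⟩
    · have : (p : ℝ) < x + 1 := by linarith [hθ.2]
      exact_mod_cast this
    · have : (x : ℝ) < q := by linarith [hθ.1]
      exact_mod_cast this
  · rintro ⟨h1, h2⟩
    have a1 : (p : ℝ) ≤ x := by exact_mod_cast h1
    have a2 : (x : ℝ) + 1 ≤ q := by exact_mod_cast h2
    constructor <;> linarith [hθ.1, hθ.2]

theorem haar_lat (k₀ : ℤ) (j n x : ℕ) {θ : ℝ} (hθ : θ ∈ Ico (0 : ℝ) 1) :
    haarSign (k₀ + (j + 1 : ℕ)) n (2 ^ k₀ * (x + θ)) = if x ∈ blk (j + 1) n then hs j x else 0 := by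
  have hδ : (0 : ℝ) < 2 ^ k₀ := by positivity
  have e1 : (2 : ℝ) ^ (k₀ + (j + 1 : ℕ)) = 2 ^ k₀ * 2 ^ (j + 1) := by
    rw [zpow_add₀ two_ne_zero, zpow_natCast]
  have e2 : (2 : ℝ) ^ (k₀ + (j + 1 : ℕ) - 1) = 2 ^ k₀ * 2 ^ j := by
    rw [show k₀ + (j + 1 : ℕ) - 1 = k₀ + (j : ℕ) by push_cast; ring, zpow_add₀ two_ne_zero,
      zpow_natCast]
  have f1 : (2 : ℝ) ^ k₀ * 2 ^ (j + 1) * n = 2 ^ k₀ * ((2 ^ (j + 1) * n : ℕ) : ℝ) := by
    push_cast; ring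
  have f2 : (2 : ℝ) ^ k₀ * ((2 ^ (j + 1) * n : ℕ) : ℝ) + 2 ^ k₀ * 2 ^ j =
      2 ^ k₀ * ((2 ^ (j + 1) * n + 2 ^ j : ℕ) : ℝ) := by push_cast; ring
  have f3 : (2 : ℝ) ^ k₀ * 2 ^ (j + 1) * (n + 1) = 2 ^ k₀ * ((2 ^ (j + 1) * (n + 1) : ℕ) : ℝ) := by
    push_cast; ring
  have hp := Nat.two_pow_pos j
  have g1 : 2 ^ (j + 1) * n = 2 * n * 2 ^ j := by ring
  have g2 : 2 ^ (j + 1) * (n + 1) = 2 * n * 2 ^ j + 2 * 2 ^ j := by ring
  unfold haarSign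
  rw [e1, e2, f1, f2, f3]
  simp only [mem_lat hδ hθ, blk, Finset.mem_Ico, hs, Nat.testBit_eq_decide_div_mod_eq, g1, g2,
    decide_eq_true_eq]
  by_cases c1 : 2 * n * 2 ^ j ≤ x ∧ x < 2 * n * 2 ^ j + 2 ^ j
  · have : x / 2 ^ j = 2 * n := Nat.div_eq_of_lt_le c1.1 (by rw [add_mul]; omega)
    rw [if_pos c1, if_pos (by omega), this, if_neg (by omega)]
  · rw [if_neg c1]
    by_cases c2 : 2 * n * 2 ^ j + 2 ^ j ≤ x ∧ x < 2 * n * 2 ^ j + 2 * 2 ^ j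
    · have : x / 2 ^ j = 2 * n + 1 :=
        Nat.div_eq_of_lt_le (by rw [add_mul]; omega) (by rw [add_mul, add_mul]; omega)
      rw [if_pos c2, if_pos (by omega), this, if_pos (by omega)]
    · rw [if_neg c2, if_neg (by omega)]

/-- the integrand of the local form -/
noncomputable def Ps (F₀ F₁ F₂ : ℝ × ℝ → ℝ) (i : ℤ × ℕ × ℕ) (x : ℝ × ℝ × ℝ) : ℝ :=
  (2 : ℝ) ^ (-i.1) * (F₀ (x.1, x.2.1) * F₁ (x.2.1, x.2.2) * F₂ (x.2.2, x.1) *
    (haarSign i.1 i.2.1 x.1 * haarSign i.1 i.2.2 x.2.1 * haarSign i.1 (i.2.1 ^^^ i.2.2) x.2.2))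

variable {F₀ F₁ F₂ : ℝ × ℝ → ℝ}

theorem Ps_meas (hF₀ : Measurable F₀) (hF₁ : Measurable F₁) (hF₂ : Measurable F₂) (i : ℤ × ℕ × ℕ) :
    Measurable (Ps F₀ F₁ F₂ i) := by
  have := haar_meas
  unfold Ps
  fun_prop

theorem Ps_bdd {M : ℝ} (hM : ∀ z, |F₀ z| ≤ M ∧ |F₁ z| ≤ M ∧ |F₂ z| ≤ M) (i : ℤ × ℕ × ℕ)
    (x : ℝ × ℝ × ℝ) : |Ps F₀ F₁ F₂ i x| ≤ (2 : ℝ) ^ (-i.1) * (M * M * M * (1 * 1 * 1)) := by
  have h0 : 0 ≤ M := (abs_nonneg _).trans (hM 0).1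
  simp only [Ps, abs_mul]
  rw [abs_of_pos (by positivity : (0 : ℝ) < 2 ^ (-i.1))]
  gcongr
  exacts [(hM _).1, (hM _).2.1, (hM _).2.2, haar_abs _ _ _, haar_abs _ _ _, haar_abs _ _ _]

theorem local_eq (hF₀ : Measurable F₀) (hF₁ : Measurable F₁) (hF₂ : Measurable F₂) {M : ℝ}
    (hM : ∀ z, |F₀ z| ≤ M ∧ |F₁ z| ≤ M ∧ |F₂ z| ≤ M) (i : ℤ × ℕ × ℕ) {B : Set ℝ}
    (hB : MeasurableSet B) (h₀ : interval i.1 i.2.1 ⊆ B) (h₁ : interval i.1 i.2.2 ⊆ B)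
    (h₂ : interval i.1 (i.2.1 ^^^ i.2.2) ⊆ B) :
    localForm i.1 i.2.1 i.2.2 (i.2.1 ^^^ i.2.2) F₀ F₁ F₂ = ∫ x in B ×ˢ B ×ˢ B, Ps F₀ F₁ F₂ i x := by
  have hfin : ∀ n, IsFiniteMeasure (volume.restrict (interval i.1 n)) := fun n => by
    unfold interval; infer_instance
  rw [setIntegral_eq_of_subset_of_forall_sdiff_eq_zero (hB.prod (hB.prod hB))
    (prod_mono h₀ (prod_mono h₁ h₂)), Measure.volume_eq_prod, ← Measure.prod_restrict,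
    Measure.volume_eq_prod, ← Measure.prod_restrict,
    integral_prod _ (int_bdd (Ps_meas hF₀ hF₁ hF₂ i) (Ps_bdd hM i)), localForm, ← integral_const_mul]
  · refine integral_congr_ae (Eventually.of_forall fun x => ?_)
    beta_reduce
    rw [integral_prod (fun y => Ps F₀ F₁ F₂ i (x, y)) (int_bdd ((Ps_meas hF₀ hF₁ hF₂ i).comp measurable_prodMk_left)
      fun y => Ps_bdd hM i (x, y)), ← integral_const_mul]
    refine integral_congr_ae (Eventually.of_forall fun y => ?_)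
    beta_reduce
    rw [← integral_const_mul]
    rfl
  · rintro x ⟨-, hx⟩
    simp only [mem_prod, not_and_or] at hx
    rcases hx with hx | hx | hx <;> simp [Ps, haar_off hx]

theorem sum_Ico_int (N : ℕ) (g : ℤ → ℝ) :
    ∑ n ∈ Finset.Ico (0 : ℤ) (N : ℤ), g n = ∑ x ∈ Finset.range N, g x := by
  induction N with
  | zero => simp
  | succ N ih =>
    rw [Finset.sum_range_succ, ← ih, Nat.cast_succ,
      ← Finset.insert_Ico_right_eq_Ico_add_one (Int.natCast_nonneg N), Finset.sum_insert (by simp),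
      add_comm]

theorem blk_sub {J j n : ℕ} (hj : j < J) (hn : n < 2 ^ (J - j - 1)) :
    blk (j + 1) n ⊆ Finset.range (2 ^ J) := by
  intro x hx
  simp only [blk, Finset.mem_Ico] at hx
  have h1 : 2 ^ (j + 1) * (n + 1) ≤ 2 ^ (j + 1) * 2 ^ (J - j - 1) := Nat.mul_le_mul_left _ hn
  rw [← pow_add, show j + 1 + (J - j - 1) = J by omega] at h1
  exact Finset.mem_range.mpr (hx.2.trans_le h1)

theorem sum_blk {S T : Finset ℕ} (h : S ⊆ T) (g : ℕ → ℝ) (hg : ∀ x, x ∉ S → g x = 0) :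
    ∑ x ∈ T, g x = ∑ x ∈ S, g x := (Finset.sum_subset h fun x _ hx => hg x hx).symm

theorem lat_sum (k₀ : ℤ) {J j n₀ n₁ : ℕ} (hj : j < J) (h₀ : n₀ < 2 ^ (J - j - 1))
    (h₁ : n₁ < 2 ^ (J - j - 1)) {θ₀ θ₁ θ₂ : ℝ} (t₀ : θ₀ ∈ Ico (0 : ℝ) 1) (t₁ : θ₁ ∈ Ico (0 : ℝ) 1)
    (t₂ : θ₂ ∈ Ico (0 : ℝ) 1) :
    ∑ x₀ ∈ Finset.range (2 ^ J), ∑ x₁ ∈ Finset.range (2 ^ J), ∑ x₂ ∈ Finset.range (2 ^ J),
      ((2 : ℝ) ^ k₀) ^ 3 * Ps F₀ F₁ F₂ (k₀ + (j + 1 : ℕ), n₀, n₁)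
        (2 ^ k₀ * (x₀ + θ₀), 2 ^ k₀ * (x₁ + θ₁), 2 ^ k₀ * (x₂ + θ₂)) =
      ((2 : ℝ) ^ k₀) ^ 2 * Lam (fun a b => F₀ (2 ^ k₀ * (a + θ₀), 2 ^ k₀ * (b + θ₁)))
        (fun a b => F₁ (2 ^ k₀ * (a + θ₁), 2 ^ k₀ * (b + θ₂)))
        (fun a b => F₂ (2 ^ k₀ * (a + θ₂), 2 ^ k₀ * (b + θ₀))) j n₀ n₁ := by
  have e : ((2 : ℝ) ^ k₀) ^ 3 * 2 ^ (-(k₀ + (j + 1 : ℕ))) = (2 ^ k₀) ^ 2 * (2 ^ (j + 1))⁻¹ := by
    rw [_root_.zpow_neg, zpow_add₀ two_ne_zero, zpow_natCast]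
    field_simp
  simp only [Ps, haar_lat k₀ _ _ _ t₀, haar_lat k₀ _ _ _ t₁, haar_lat k₀ _ _ _ t₂, Lam,
    Finset.mul_sum, ← mul_assoc (((2 : ℝ) ^ k₀) ^ 3), e]
  rw [sum_blk (blk_sub hj h₀) _ fun x hx => by simp [hx]]
  refine Finset.sum_congr rfl fun x₀ hx₀ => ?_
  rw [sum_blk (blk_sub hj h₁) _ fun x hx => by simp [hx]]
  refine Finset.sum_congr rfl fun x₁ hx₁ => ?_
  rw [sum_blk (blk_sub hj (Nat.xor_lt_two_pow h₀ h₁)) _ fun x hx => by simp [hx]]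
  refine Finset.sum_congr rfl fun x₂ hx₂ => ?_
  rw [if_pos hx₀, if_pos hx₁, if_pos hx₂]
  ring

theorem int_cube {F : ℝ × ℝ → ℝ} (hF : Measurable F) {M : ℝ} (hM : ∀ z, |F z| ≤ M)
    (hc : HasCompactSupport F) : Integrable fun z => |F z| ^ 3 := by
  have h1 : Function.support (fun z => |F z| ^ 3) ⊆ tsupport F := fun z hz =>
    subset_tsupport F fun h => hz (by simp [h])
  refine (integrableOn_iff_integrable_of_support_subset h1).mp ?_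
  have : IsFiniteMeasure (volume.restrict (tsupport F)) := ⟨by simpa using hc.measure_lt_top⟩
  refine int_bdd (M := M ^ 3) (by fun_prop) fun z => ?_
  rw [abs_pow, abs_abs]
  gcongr
  exact hM z

theorem dyadic_add (hF₀ : Measurable F₀) (hF₁ : Measurable F₁) (hF₂ : Measurable F₂) {M : ℝ}
    (hM : ∀ z, |F₀ z| ≤ M ∧ |F₁ z| ≤ M ∧ |F₂ z| ≤ M)
    (i₀ : Integrable fun z => |F₀ z| ^ 3) (i₁ : Integrable fun z => |F₁ z| ^ 3)
    (i₂ : Integrable fun z => |F₂ z| ^ 3) (𝓘 : Finset (ℤ × ℕ × ℕ)) :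
    ∑ i ∈ 𝓘, |localForm i.1 i.2.1 i.2.2 (i.2.1 ^^^ i.2.2) F₀ F₁ F₂| ≤
      4 * Real.pi * ((∫ z in Ici 0 ×ˢ Ici 0, |F₀ z| ^ 3) + (∫ z in Ici 0 ×ˢ Ici 0, |F₁ z| ^ 3) +
        ∫ z in Ici 0 ×ˢ Ici 0, |F₂ z| ^ 3) := by
  obtain ⟨k₀, hk₀⟩ : ∃ k₀ : ℤ, ∀ i ∈ 𝓘, k₀ < i.1 := by
    obtain ⟨m, hm⟩ := (𝓘.image fun i => -i.1).exists_le
    refine ⟨-m - 1, fun i hi => ?_⟩
    have := hm _ (Finset.mem_image_of_mem _ hi)
    omega
  set jf : ℤ × ℕ × ℕ → ℕ := fun i => (i.1 - k₀ - 1).toNat with hjf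
  have hj : ∀ i ∈ 𝓘, i.1 = k₀ + (jf i + 1 : ℕ) := fun i hi => by
    have := hk₀ i hi
    simp only [hjf]; omega
  obtain ⟨J, hJ⟩ : ∃ J : ℕ, ∀ i ∈ 𝓘, jf i < J ∧ i.2.1 < 2 ^ (J - jf i - 1) ∧
      i.2.2 < 2 ^ (J - jf i - 1) := by
    obtain ⟨m, hm⟩ := (𝓘.image fun i => jf i + 1 + i.2.1 + i.2.2).exists_le
    refine ⟨m, fun i hi => ?_⟩
    have h1 := hm _ (Finset.mem_image_of_mem _ hi)
    have h2 := Nat.lt_two_pow_self (n := m - jf i - 1)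
    omega
  have hδ : (0 : ℝ) < 2 ^ k₀ := by positivity
  set B : Set ℝ := Ico ((2 : ℝ) ^ k₀ * (0 : ℤ)) (2 ^ k₀ * ((2 ^ J : ℕ) : ℤ)) with hB
  have hsub : ∀ i ∈ 𝓘, ∀ n, n < 2 ^ (J - jf i - 1) → interval i.1 n ⊆ B := by
    intro i hi n hn
    refine Ico_subset_Ico (by simp only [Int.cast_zero, mul_zero]; positivity) ?_
    have h1 : 2 ^ (jf i + 1) * (n + 1) ≤ 2 ^ (jf i + 1) * 2 ^ (J - jf i - 1) :=
      Nat.mul_le_mul_left _ hn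
    rw [← pow_add, show jf i + 1 + (J - jf i - 1) = J by have := (hJ i hi).1; omega] at h1
    rw [hj i hi, zpow_add₀ two_ne_zero, zpow_natCast, mul_assoc, Int.cast_natCast]
    gcongr
    exact_mod_cast h1
  have hpi := Real.pi_pos
  have h0 : 0 ≤ M := (abs_nonneg _).trans (hM 0).1
  have hbd : ∀ t : ℝ, |t| ≤ M → |4 * Real.pi * |t| ^ 3| ≤ 4 * Real.pi * M ^ 3 := fun t ht => by
    rw [abs_of_nonneg (by positivity)]; gcongr
  have key := transfer 𝓘 hδ 0 ((2 ^ J : ℕ) : ℤ) (Ps F₀ F₁ F₂) (Ps_meas hF₀ hF₁ hF₂)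
    (fun i => ⟨_, Ps_bdd hM i⟩) (fun z => 4 * Real.pi * |F₀ z| ^ 3) (fun z => 4 * Real.pi * |F₁ z| ^ 3)
    (fun z => 4 * Real.pi * |F₂ z| ^ 3) (by fun_prop) (by fun_prop) (by fun_prop)
    ⟨_, fun z => ⟨hbd _ (hM z).1, hbd _ (hM z).2.1, hbd _ (hM z).2.2⟩⟩ ?_
  · rw [Finset.sum_congr rfl fun i hi => congrArg abs (local_eq hF₀ hF₁ hF₂ hM i measurableSet_Ico
      (hsub i hi _ (hJ i hi).2.1) (hsub i hi _ (hJ i hi).2.2)
      (hsub i hi _ (Nat.xor_lt_two_pow (hJ i hi).2.1 (hJ i hi).2.2)))]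
    refine key.trans ?_
    rw [← integral_add i₀.integrableOn i₁.integrableOn,
      ← integral_add (i₀.fun_add i₁).integrableOn i₂.integrableOn, ← integral_const_mul]
    simp only [← mul_add]
    refine setIntegral_mono_set (((i₀.fun_add i₁).fun_add i₂).const_mul _).integrableOn
      (Eventually.of_forall fun z => by positivity) (LE.le.eventuallyLE ?_)
    have : B ⊆ Ici 0 := fun x hx => by simpa using hx.1
    exact prod_mono this this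
  · intro θ₀ t₀ θ₁ t₁ θ₂ t₂
    simp only [sum_Ico_int, Int.cast_natCast]
    set f₀ : ℕ → ℕ → ℝ := fun a b => F₀ (2 ^ k₀ * (a + θ₀), 2 ^ k₀ * (b + θ₁)) with hf₀
    set f₁ : ℕ → ℕ → ℝ := fun a b => F₁ (2 ^ k₀ * (a + θ₁), 2 ^ k₀ * (b + θ₂)) with hf₁
    set f₂ : ℕ → ℕ → ℝ := fun a b => F₂ (2 ^ k₀ * (a + θ₂), 2 ^ k₀ * (b + θ₀)) with hf₂
    have hd := dyad_disc f₀ f₁ f₂ J
    rw [Finset.sum_sigma', Finset.sum_sigma'] at hd
    calc _ = ∑ i ∈ 𝓘, ((2 : ℝ) ^ k₀) ^ 2 * |Lam f₀ f₁ f₂ (jf i) i.2.1 i.2.2| := by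
          refine Finset.sum_congr rfl fun i hi => ?_
          have e : i = (k₀ + (jf i + 1 : ℕ), i.2.1, i.2.2) := Prod.ext (hj i hi) rfl
          conv_lhs => rw [e]
          rw [lat_sum k₀ (hJ i hi).1 (hJ i hi).2.1 (hJ i hi).2.2 t₀ t₁ t₂, abs_mul,
            abs_of_pos (by positivity)]
      _ ≤ ((2 : ℝ) ^ k₀) ^ 2 * (4 * Real.pi * ∑ a ∈ Finset.range (2 ^ J), ∑ b ∈ Finset.range (2 ^ J),
          (|f₀ a b| ^ 3 + |f₁ a b| ^ 3 + |f₂ a b| ^ 3)) := by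
          rw [← Finset.mul_sum]
          refine mul_le_mul_of_nonneg_left (le_trans ?_ hd) (by positivity)
          have hinj : Set.InjOn (fun i : ℤ × ℕ × ℕ => (⟨⟨jf i, i.2.1⟩, i.2.2⟩ : Σ _ : (Σ _ : ℕ, ℕ), ℕ))
              𝓘 := by
            intro i hi i' hi' h
            simp only [Sigma.mk.injEq, heq_eq_eq] at h
            refine Prod.ext ?_ (Prod.ext h.1.2 h.2)
            rw [hj i hi, hj i' hi', h.1.1]
          rw [← Finset.sum_image (f := fun y : Σ _ : (Σ _ : ℕ, ℕ), ℕ => |Lam f₀ f₁ f₂ y.1.1 y.1.2 y.2|)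
            hinj]
          refine Finset.sum_le_sum_of_subset_of_nonneg (fun y hy => ?_) fun _ _ _ => abs_nonneg _
          obtain ⟨i, hi, rfl⟩ := Finset.mem_image.mp hy
          simpa [and_assoc] using hJ i hi
      _ = _ := by
          simp only [Finset.mul_sum]
          refine Finset.sum_congr rfl fun a _ => Finset.sum_congr rfl fun b _ => ?_
          ring

theorem local_smul (a b c : ℝ) (k : ℤ) (n₀ n₁ n₂ : ℕ) :
    localForm k n₀ n₁ n₂ (fun z => a * F₀ z) (fun z => b * F₁ z) (fun z => c * F₂ z) =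
      a * b * c * localForm k n₀ n₁ n₂ F₀ F₁ F₂ := by
  unfold localForm
  rw [mul_left_comm]
  simp only [← integral_const_mul (a * b * c)]
  congr 1
  refine integral_congr_ae (Eventually.of_forall fun x => integral_congr_ae
    (Eventually.of_forall fun y => integral_congr_ae (Eventually.of_forall fun z => ?_)))
  beta_reduce
  ring

end Dy2A

open Dy2A

theorem dyadic
    (F₀ F₁ F₂ : ℝ × ℝ → ℝ) (hF₀ : Measurable F₀) (hF₁ : Measurable F₁) (hF₂ : Measurable F₂)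
    (hb : ∃ M : ℝ, ∀ z, abs (F₀ z) ≤ M ∧ abs (F₁ z) ≤ M ∧ abs (F₂ z) ≤ M)
    (hc₀ : HasCompactSupport F₀) (hc₁ : HasCompactSupport F₁) (hc₂ : HasCompactSupport F₂)
    (𝓘 : Finset (ℤ × ℕ × ℕ)) :
    ∑ i ∈ 𝓘, abs (Crest.AnalysisR.TriangularDyadic.localForm i.1 i.2.1 i.2.2 (i.2.1 ^^^ i.2.2) F₀ F₁ F₂) ≤
      40 * (∫ z in Set.Ici 0 ×ˢ Set.Ici 0, abs (F₀ z) ^ 3) ^ (1 / 3 : ℝ) *
        (∫ z in Set.Ici 0 ×ˢ Set.Ici 0, abs (F₁ z) ^ 3) ^ (1 / 3 : ℝ) *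
        (∫ z in Set.Ici 0 ×ˢ Set.Ici 0, abs (F₂ z) ^ 3) ^ (1 / 3 : ℝ) := by
  obtain ⟨M, hM⟩ := hb
  have h0 : 0 ≤ M := (abs_nonneg _).trans (hM 0).1
  have i₀ := int_cube hF₀ (fun z => (hM z).1) hc₀
  have i₁ := int_cube hF₁ (fun z => (hM z).2.1) hc₁
  have i₂ := int_cube hF₂ (fun z => (hM z).2.2) hc₂
  have hp : ∀ F : ℝ × ℝ → ℝ, 0 ≤ ∫ z in Set.Ici 0 ×ˢ Set.Ici 0, |F z| ^ 3 := fun F =>
    integral_nonneg fun z => by positivity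
  have hpi := Real.pi_pos
  refine (le_of_scale (K := 4 * Real.pi) (by positivity) (hp F₀) (hp F₁) (hp F₂)
    fun a b c ha hb hc => ?_).trans ?_
  · have e : ∀ (t : ℝ) (F : ℝ × ℝ → ℝ), 0 < t → (fun z => |t * F z| ^ 3) = fun z => t ^ 3 * |F z| ^ 3 :=
      fun t F ht => by ext z; rw [abs_mul, abs_of_pos ht, mul_pow]
    have bd : ∀ t x : ℝ, 0 < t → t ≤ a + b + c → |x| ≤ M → |t * x| ≤ (a + b + c) * M :=
      fun t x h1 h2 h3 => by rw [abs_mul, abs_of_pos h1]; gcongr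
    have := dyadic_add (F₀ := fun z => a * F₀ z) (F₁ := fun z => b * F₁ z) (F₂ := fun z => c * F₂ z)
      (by fun_prop) (by fun_prop) (by fun_prop) (M := (a + b + c) * M)
      (fun z => ⟨bd _ _ ha (by linarith) (hM z).1, bd _ _ hb (by linarith) (hM z).2.1,
        bd _ _ hc (by linarith) (hM z).2.2⟩)
      (by rw [e a F₀ ha]; exact i₀.const_mul _) (by rw [e b F₁ hb]; exact i₁.const_mul _)
      (by rw [e c F₂ hc]; exact i₂.const_mul _) 𝓘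
    rw [e a F₀ ha, e b F₁ hb, e c F₂ hc, integral_const_mul, integral_const_mul,
      integral_const_mul] at this
    simp only [local_smul, abs_mul, abs_of_pos ha, abs_of_pos hb, abs_of_pos hc,
      ← Finset.mul_sum] at this
    exact this
  · have := Real.pi_lt_d2
    have p0 := Real.rpow_nonneg (hp F₀) (1 / 3)
    have p1 := Real.rpow_nonneg (hp F₁) (1 / 3)
    have p2 := Real.rpow_nonneg (hp F₂) (1 / 3)
    gcongr
    linarith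

end Crest.Agent.R72
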