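import Crest.Agent.R72.Mat

/-!
# Row 72, helpers for `Mat2`: diagonalisation, scalar integrals, derivatives in the spectral scale
-/

set_option autoImplicit false
set_option linter.unusedSectionVars false
set_option maxHeartbeats 400000

namespace Crest.Agent.R72.M2

open MeasureTheory Set Matrix Filter Topology
open scoped ENNReal

variable {X Y Z : Type*} [Fintype X] [DecidableEq X] [Fintype Y] [DecidableEq Y] [Fintype Z]
  [DecidableEq Z]

omit [DecidableEq X] [DecidableEq Y] in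
theorem psd_tm (A : Matrix X Y ℝ) : (Aᵀ * A).PosSemidef := by
  simpa using posSemidef_conjTranspose_mul_self A

omit [DecidableEq X] [DecidableEq Y] in
theorem psd_mt (A : Matrix X Y ℝ) : (A * Aᵀ).PosSemidef := by
  simpa using posSemidef_self_mul_conjTranspose A

omit [DecidableEq X] [Fintype X] in
theorem psd_symm {N : Matrix X X ℝ} (hN : N.PosSemidef) : Nᵀ = N := by
  simpa using hN.isHermitian.eq

theorem exists_diag {N : Matrix X X ℝ} (hN : N.PosSemidef) :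
    ∃ (U : Matrix X X ℝ) (lam : X → ℝ), (∀ i, 0 ≤ lam i) ∧ U * Uᵀ = 1 ∧ Uᵀ * U = 1 ∧
      N = U * diagonal lam * Uᵀ := by
  refine ⟨hN.1.eigenvectorUnitary, hN.1.eigenvalues, hN.eigenvalues_nonneg, ?_, ?_, ?_⟩
  · have := (Matrix.mem_unitaryGroup_iff.1 hN.1.eigenvectorUnitary.2)
    simpa [star_eq_conjTranspose] using this
  · have := (Matrix.mem_unitaryGroup_iff'.1 hN.1.eigenvectorUnitary.2)
    simpa [star_eq_conjTranspose] using this
  · have := hN.1.spectral_theorem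
    simpa [Unitary.conjStarAlgAut_apply, star_eq_conjTranspose] using this

theorem conj_mul {U : Matrix X X ℝ} (h : Uᵀ * U = 1) (d e : X → ℝ) :
    U * diagonal d * Uᵀ * (U * diagonal e * Uᵀ) = U * diagonal (fun i => d i * e i) * Uᵀ := by
  calc U * diagonal d * Uᵀ * (U * diagonal e * Uᵀ)
      = U * (diagonal d * (Uᵀ * U) * diagonal e) * Uᵀ := by simp only [Matrix.mul_assoc]
    _ = _ := by rw [h, Matrix.mul_one, diagonal_mul_diagonal]

theorem conj_add (U : Matrix X X ℝ) (d e : X → ℝ) :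
    U * diagonal d * Uᵀ + U * diagonal e * Uᵀ = U * diagonal (fun i => d i + e i) * Uᵀ := by
  rw [← Matrix.add_mul, ← Matrix.mul_add, diagonal_add]

theorem conj_sub (U : Matrix X X ℝ) (d e : X → ℝ) :
    U * diagonal d * Uᵀ - U * diagonal e * Uᵀ = U * diagonal (fun i => d i - e i) * Uᵀ := by
  rw [← Matrix.sub_mul, ← Matrix.mul_sub, diagonal_sub]

theorem conj_smul (U : Matrix X X ℝ) (c : ℝ) (d : X → ℝ) :
    c • (U * diagonal d * Uᵀ) = U * diagonal (fun i => c * d i) * Uᵀ := by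
  rw [← Matrix.smul_mul, ← Matrix.mul_smul, ← diagonal_smul]
  rfl

theorem conj_one {U : Matrix X X ℝ} (h : U * Uᵀ = 1) :
    (1 : Matrix X X ℝ) = U * Matrix.diagonal (fun _ : X => (1 : ℝ)) * Uᵀ := by
  rw [diagonal_one, Matrix.mul_one, h]

theorem conj_apply (U : Matrix X X ℝ) (d : X → ℝ) (a b : X) :
    (U * diagonal d * Uᵀ) a b = ∑ i, U a i * d i * U b i := by
  simp [Matrix.mul_apply, diagonal_apply]

theorem trace_conj_mul (U K : Matrix X X ℝ) (d : X → ℝ) :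
    (U * diagonal d * Uᵀ * K).trace = ∑ i, d i * (Uᵀ * K * U) i i := by
  rw [Matrix.mul_assoc, Matrix.mul_assoc, trace_mul_comm, Matrix.mul_assoc]
  simp [trace, diagonal_mul]

theorem Rs_conj {U : Matrix X X ℝ} (h : U * Uᵀ = 1) (h' : Uᵀ * U = 1) {lam : X → ℝ}
    (hl : ∀ i, 0 ≤ lam i) {c : ℝ} (hc : 0 ≤ c) :
    Rs (c • (U * diagonal lam * Uᵀ)) = U * diagonal (fun i => (1 + c * lam i)⁻¹) * Uᵀ := by
  unfold Rs
  apply Matrix.inv_eq_right_inv
  rw [conj_smul, conj_one h, conj_add, conj_mul h']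
  congr 3
  funext i
  have : 0 < 1 + c * lam i := by have := mul_nonneg hc (hl i); linarith
  field_simp

theorem ph_conj' {U : Matrix X X ℝ} (h : U * Uᵀ = 1) (h' : Uᵀ * U = 1) {lam : X → ℝ}
    (hl : ∀ i, 0 ≤ lam i) {c : ℝ} (hc : 0 ≤ c) :
    ph (c • (U * diagonal lam * Uᵀ)) = U * diagonal (fun i => 1 - (1 + c * lam i)⁻¹) * Uᵀ := by
  unfold ph
  rw [Rs_conj h h' hl hc, conj_one h, conj_sub]

/-! ## scalar integrals -/

theorem int_scalar {l : ℝ} (hl : 0 ≤ l) :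
    IntegrableOn (fun v : ℝ => 1 - (1 + (v ^ 2)⁻¹ * l)⁻¹) (Ioi 0) ∧
      ∫ v in Ioi (0 : ℝ), (1 - (1 + (v ^ 2)⁻¹ * l)⁻¹) = Real.pi / 2 * √l := by
  rcases hl.eq_or_lt with rfl | hl
  · simp
  have hs : 0 < √l := Real.sqrt_pos.2 hl
  have hs' : 0 < (√l)⁻¹ := inv_pos.2 hs
  have heq : EqOn (fun v : ℝ => (1 + ((√l)⁻¹ * v) ^ 2)⁻¹) (fun v : ℝ => 1 - (1 + (v ^ 2)⁻¹ * l)⁻¹)
      (Ioi 0) := by
    intro v hv
    have hv : 0 < v := hv
    simp only
    rw [mul_pow, inv_pow, Real.sq_sqrt hl.le]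
    field_simp
    ring
  constructor
  · refine IntegrableOn.congr_fun ?_ heq measurableSet_Ioi
    exact (integrableOn_Ioi_comp_mul_left_iff (fun x : ℝ => (1 + x ^ 2)⁻¹) 0 hs').2
      integrable_inv_one_add_sq.integrableOn
  · rw [← setIntegral_congr_fun measurableSet_Ioi heq,
      integral_comp_mul_left_Ioi (fun x : ℝ => (1 + x ^ 2)⁻¹) 0 hs']
    simp [integral_Ioi_inv_one_add_sq, mul_comm]

theorem ftc_bound {T T' : ℝ → ℝ} {L : ℝ} (hT : ∀ v, 0 < v → HasDerivAt T (T' v) v)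
    (h0 : Tendsto T (𝓝[>] 0) (𝓝 0)) (h1 : Tendsto T atTop (𝓝 L)) :
    ENNReal.ofReal |L| ≤ ∫⁻ v in Ioi (0 : ℝ), ENNReal.ofReal |T' v| := by
  by_cases hfin : ∫⁻ v in Ioi (0 : ℝ), ENNReal.ofReal |T' v| = ∞
  · rw [hfin]; exact le_top
  have hm : AEStronglyMeasurable T' (volume.restrict (Ioi (0 : ℝ))) := by
    refine (measurable_deriv T).aestronglyMeasurable.congr ?_
    filter_upwards [ae_restrict_mem measurableSet_Ioi] with v hv using (hT v hv).deriv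
  have hi : IntegrableOn T' (Ioi 0) := by
    refine ⟨hm, ?_⟩
    rw [hasFiniteIntegral_iff_norm]
    exact lt_top_iff_ne_top.2 hfin
  have heq : ∀ v, 0 < v → Function.update T 0 0 =ᶠ[𝓝 v] T := by
    intro v hv
    filter_upwards [lt_mem_nhds hv] with w hw using Function.update_of_ne hw.ne' _ _
  have h := integral_Ioi_of_hasDerivAt_of_tendsto (f := Function.update T 0 0) (a := 0) (m := L)
    (by
      rw [← continuousWithinAt_Ioi_iff_Ici, ContinuousWithinAt, Function.update_self]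
      refine h0.congr' ?_
      filter_upwards [self_mem_nhdsWithin] with w hw using (Function.update_of_ne (ne_of_gt hw) _ _).symm)
    (fun v hv => (hT v hv).congr_of_eventuallyEq (heq v hv)) hi
    (by
      refine h1.congr' ?_
      filter_upwards [eventually_gt_atTop 0] with w hw using (Function.update_of_ne hw.ne' _ _).symm)
  rw [Function.update_self, sub_zero] at h
  rw [← h]
  have := enorm_integral_le_lintegral_enorm (μ := volume.restrict (Ioi (0 : ℝ))) T'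
  simpa only [← Real.norm_eq_abs, ofReal_norm] using this

/-! ## entrywise derivatives -/

/-- entrywise derivative of a matrix path -/
def MD (F : ℝ → Matrix X Y ℝ) (F' : Matrix X Y ℝ) (v : ℝ) : Prop :=
  ∀ i j, HasDerivAt (fun w => F w i j) (F' i j) v

omit [Fintype X] [DecidableEq X] [DecidableEq Y] [Fintype Z] [DecidableEq Z] in
theorem MD.mul {F : ℝ → Matrix X Y ℝ} {F' : Matrix X Y ℝ} {G : ℝ → Matrix Y Z ℝ} {G' : Matrix Y Z ℝ}
    {v : ℝ} (hF : MD F F' v) (hG : MD G G' v) :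
    MD (fun w => F w * G w) (F' * G v + F v * G') v := by
  intro i j
  simp only [Matrix.mul_apply, Matrix.add_apply, ← Finset.sum_add_distrib]
  exact HasDerivAt.fun_sum fun k _ => (hF i k).mul (hG k j)

omit [Fintype X] [DecidableEq X] [DecidableEq Y] [Fintype Z] [DecidableEq Z] in
theorem MD.mul_const {F : ℝ → Matrix X Y ℝ} {F' : Matrix X Y ℝ} {v : ℝ} (hF : MD F F' v)
    (G : Matrix Y Z ℝ) : MD (fun w => F w * G) (F' * G) v := by
  intro i j
  simp only [Matrix.mul_apply]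
  exact HasDerivAt.fun_sum fun k _ => (hF i k).mul_const _

omit [Fintype X] [DecidableEq X] [DecidableEq Y] [Fintype Z] [DecidableEq Z] in
theorem MD.const_mul {G : ℝ → Matrix Y Z ℝ} {G' : Matrix Y Z ℝ} {v : ℝ} (hG : MD G G' v)
    (F : Matrix X Y ℝ) : MD (fun w => F * G w) (F * G') v := by
  intro i j
  simp only [Matrix.mul_apply]
  exact HasDerivAt.fun_sum fun k _ => (hG k j).const_mul _

omit [DecidableEq X] in
theorem MD.trace {F : ℝ → Matrix X X ℝ} {F' : Matrix X X ℝ} {v : ℝ} (hF : MD F F' v) :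
    HasDerivAt (fun w => (F w).trace) F'.trace v := by
  simp only [Matrix.trace, diag_apply]
  exact HasDerivAt.fun_sum fun k _ => hF k k

theorem md_Rs {N : Matrix X X ℝ} (hN : N.PosSemidef) {v : ℝ} (hv : 0 < v) :
    MD (fun w => Rs ((w ^ 2)⁻¹ • N)) ((2 / v) • (Rs ((v ^ 2)⁻¹ • N) * ph ((v ^ 2)⁻¹ • N))) v := by
  obtain ⟨U, lam, hl, h, h', rfl⟩ := exists_diag hN
  intro a b
  have hc : ∀ w : ℝ, 0 ≤ (w ^ 2)⁻¹ := fun w => by positivity
  simp only [Rs_conj h h' hl (hc _)]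
  rw [ph_conj' h h' hl (hc _), conj_mul h', conj_smul]
  simp only [conj_apply]
  refine HasDerivAt.fun_sum fun i _ => HasDerivAt.mul_const (HasDerivAt.const_mul _ ?_) _
  have hp : 0 < 1 + (v ^ 2)⁻¹ * lam i := by have := mul_nonneg (hc v) (hl i); linarith
  have h1 : HasDerivAt (fun w : ℝ => w ^ 2) (2 * v) v := by simpa using hasDerivAt_pow 2 v
  have h2 := ((h1.fun_inv (by positivity)).mul_const (lam i)).const_add 1
  have h3 := h2.fun_inv hp.ne'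
  refine h3.congr_deriv ?_
  have hq : 0 < v ^ 2 + lam i := by have := hl i; positivity
  field_simp
  ring

theorem tendsto_Rs {N : Matrix X X ℝ} (hN : N.PosSemidef) :
    Tendsto (fun w : ℝ => Rs ((w ^ 2)⁻¹ • N)) atTop (𝓝 1) := by
  obtain ⟨U, lam, hl, h, h', rfl⟩ := exists_diag hN
  have hc : ∀ w : ℝ, 0 ≤ (w ^ 2)⁻¹ := fun w => by positivity
  simp only [Rs_conj h h' hl (hc _)]
  have h1 : Tendsto (fun w : ℝ => (w ^ 2)⁻¹) atTop (𝓝 0) :=
    tendsto_inv_atTop_zero.comp (tendsto_pow_atTop two_ne_zero)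
  have h2 : Tendsto (fun w : ℝ => fun i => (1 + (w ^ 2)⁻¹ * lam i)⁻¹) atTop (𝓝 fun _ => (1 : ℝ)) := by
    refine tendsto_pi_nhds.2 fun i => ?_
    have := ((h1.mul_const (lam i)).const_add 1).inv₀ (by simp)
    simpa using this
  have h3 : Continuous fun d : X → ℝ => U * diagonal d * Uᵀ := by fun_prop
  have := (h3.tendsto _).comp h2
  rw [← conj_one h] at this
  exact this

/-! ## inequalities at scale one -/

theorem Rs_symm {N : Matrix X X ℝ} (hN : N.PosSemidef) : (Rs N)ᵀ = Rs N := psd_symm (Rs_psd hN)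

theorem ph_symm {N : Matrix X X ℝ} (hN : N.PosSemidef) : (ph N)ᵀ = ph N := psd_symm (ph_psd hN)

theorem push (A : Matrix X Y ℝ) : A * Rs (Aᵀ * A) = Rs (A * Aᵀ) * A := by
  have h1 := mul_Rs (psd_tm A)
  have h2 := Rs_mul (psd_mt A)
  calc A * Rs (Aᵀ * A) = Rs (A * Aᵀ) * (1 + A * Aᵀ) * (A * Rs (Aᵀ * A)) := by
        rw [h2, Matrix.one_mul]
    _ = Rs (A * Aᵀ) * A * ((1 + Aᵀ * A) * Rs (Aᵀ * A)) := by
        simp only [Matrix.mul_add, Matrix.add_mul, Matrix.mul_assoc, Matrix.mul_one, Matrix.one_mul]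
    _ = _ := by rw [h1, Matrix.mul_one]

theorem psd1 (A : Matrix X Y ℝ) :
    (ph (Aᵀ * A) - (A * Rs (Aᵀ * A))ᵀ * (A * Rs (Aᵀ * A))).PosSemidef := by
  have h := ph_eq (psd_tm A)
  have : ph (Aᵀ * A) - (A * Rs (Aᵀ * A))ᵀ * (A * Rs (Aᵀ * A)) =
      (1 - Rs (Aᵀ * A))ᵀ * (1 - Rs (Aᵀ * A)) := by
    rw [← h, transpose_mul]
    simp only [Matrix.mul_assoc, add_sub_cancel_right]
  rw [this]
  exact psd_tm _

theorem psd2 (A : Matrix X Y ℝ) :
    (ph (A * Aᵀ) - (A * Rs (Aᵀ * A)) * (A * Rs (Aᵀ * A))ᵀ).PosSemidef := by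
  have h := psd1 Aᵀ
  rw [transpose_transpose] at h
  rw [push A]
  convert h using 2
  rw [transpose_mul, transpose_mul, transpose_transpose, Rs_symm (psd_mt A)]

theorem psd3 {N : Matrix X X ℝ} (hN : N.PosSemidef) : (ph N - (ph N)ᵀ * ph N).PosSemidef := by
  have h := ph_eq hN
  have : ph N - (ph N)ᵀ * ph N = (Rs N)ᵀ * N * Rs N := by
    rw [sub_eq_iff_eq_add, add_comm]
    exact h.symm
  rw [this]
  simpa using hN.conjTranspose_mul_mul_same (Rs N)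

theorem abs_P_le (A : Matrix X Y ℝ) (a : X) (b : Y) : |(A * Rs (Aᵀ * A)) a b| ≤ 1 := by
  have h1 := (psd1 A).diag_nonneg (i := b)
  have h2 := abs_ph_le (psd_tm A) b b
  rw [Matrix.sub_apply, Matrix.mul_apply] at h1
  have h3 : (A * Rs (Aᵀ * A)) a b * (A * Rs (Aᵀ * A)) a b ≤
      ∑ j, (A * Rs (Aᵀ * A))ᵀ b j * (A * Rs (Aᵀ * A)) j b :=
    Finset.single_le_sum (f := fun j => (A * Rs (Aᵀ * A))ᵀ b j * (A * Rs (Aᵀ * A)) j b)
      (fun j _ => mul_self_nonneg _) (Finset.mem_univ a)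
  have h4 := le_abs_self (ph (Aᵀ * A) b b)
  exact abs_le_one_iff_mul_self_le_one.2 (by linarith)

omit [DecidableEq X] [Fintype Y] [DecidableEq Y] in
theorem scale_tm (A : Matrix X Y ℝ) (v : ℝ) :
    (v ^ 2)⁻¹ • (Aᵀ * A) = (v⁻¹ • A)ᵀ * (v⁻¹ • A) := by
  rw [transpose_smul, Matrix.smul_mul, Matrix.mul_smul, smul_smul, ← mul_inv, sq]

omit [DecidableEq X] [Fintype X] [DecidableEq Y] in
theorem scale_mt (A : Matrix X Y ℝ) (v : ℝ) :
    (v ^ 2)⁻¹ • (A * Aᵀ) = (v⁻¹ • A) * (v⁻¹ • A)ᵀ := by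
  rw [transpose_smul, Matrix.smul_mul, Matrix.mul_smul, smul_smul, ← mul_inv, sq]

/-- the regularised matrix -/
noncomputable def PP (A : Matrix X Y ℝ) (v : ℝ) : Matrix X Y ℝ := A * Rs ((v ^ 2)⁻¹ • (Aᵀ * A))

omit [DecidableEq X] in
theorem PP_eq (A : Matrix X Y ℝ) {v : ℝ} (hv : 0 < v) :
    PP A v = v • ((v⁻¹ • A) * Rs ((v⁻¹ • A)ᵀ * (v⁻¹ • A))) := by
  rw [PP, scale_tm, Matrix.smul_mul (v⁻¹) A, smul_smul, mul_inv_cancel₀ hv.ne', one_smul]

theorem tendsto_PP_zero (A : Matrix X Y ℝ) : Tendsto (PP A) (𝓝[>] 0) (𝓝 0) := by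
  refine tendsto_pi_nhds.2 fun a => tendsto_pi_nhds.2 fun b => ?_
  refine squeeze_zero_norm' (a := fun v => v) ?_ (tendsto_nhdsWithin_of_tendsto_nhds tendsto_id)
  filter_upwards [self_mem_nhdsWithin] with v hv
  have hv : 0 < v := hv
  rw [PP_eq A hv, Matrix.smul_apply, smul_eq_mul, Real.norm_eq_abs, abs_mul, abs_of_pos hv]
  exact mul_le_of_le_one_right hv.le (abs_P_le _ a b)

omit [DecidableEq X] in
theorem tendsto_PP_top (A : Matrix X Y ℝ) : Tendsto (PP A) atTop (𝓝 A) := by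
  have h : Continuous fun R : Matrix Y Y ℝ => A * R := by fun_prop
  have := (h.tendsto _).comp (tendsto_Rs (psd_tm A))
  rw [Matrix.mul_one] at this
  exact this

omit [DecidableEq X] in
theorem md_PP (A : Matrix X Y ℝ) {v : ℝ} (hv : 0 < v) :
    MD (PP A) ((2 / v) • (PP A v * ph ((v ^ 2)⁻¹ • (Aᵀ * A)))) v := by
  have := (md_Rs (psd_tm A) hv).const_mul A
  rw [Matrix.mul_smul, ← Matrix.mul_assoc] at this
  exact this

/-- the Frobenius norm of `P D Q` -/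
theorem frob1 (A : Matrix X Y ℝ) (B : Matrix Y Z ℝ) (u : Y → ℝ) :
    ((A * Rs (Aᵀ * A) * diagonal u * (B * Rs (Bᵀ * B))) *
      (A * Rs (Aᵀ * A) * diagonal u * (B * Rs (Bᵀ * B)))ᵀ).trace ≤ gn (Aᵀ * A) (B * Bᵀ) u := by
  have h := trace_quad_mono (psd_tm (A * Rs (Aᵀ * A))) (psd_mt (B * Rs (Bᵀ * B))) (psd1 A) (psd2 B)
    (diagonal u)
  rw [diagonal_transpose] at h
  refine le_of_eq_of_le ?_ h
  generalize A * Rs (Aᵀ * A) = P
  generalize B * Rs (Bᵀ * B) = Q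
  rw [transpose_mul, transpose_mul, diagonal_transpose]
  simp only [← Matrix.mul_assoc]
  rw [trace_mul_comm]
  simp only [← Matrix.mul_assoc]

/-- the Frobenius norm of `φ D R D₀` -/
theorem frob2 (B : Matrix Y Z ℝ) (C : Matrix Z X ℝ) (u : Z → ℝ) {m : X → ℝ} {M : ℝ}
    (h : ∀ a, |m a| ≤ M) :
    ((ph (Bᵀ * B) * diagonal u * (C * Rs (Cᵀ * C)) * diagonal m)ᵀ *
      (ph (Bᵀ * B) * diagonal u * (C * Rs (Cᵀ * C)) * diagonal m)).trace ≤
      M ^ 2 * gn (Bᵀ * B) (C * Cᵀ) u := by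
  set R := C * Rs (Cᵀ * C) with hR
  have h1 : (M ^ 2 • (1 : Matrix X X ℝ) - diagonal m * diagonal m).PosSemidef := by
    rw [diagonal_mul_diagonal, ← diagonal_one, ← diagonal_smul, diagonal_sub]
    refine PosSemidef.diagonal fun a => ?_
    have := sq_le_sq' (abs_le.1 (h a)).1 (abs_le.1 (h a)).2
    simp only [Pi.smul_apply, smul_eq_mul, Pi.zero_apply]
    nlinarith
  have h2 : (M ^ 2 • ph (C * Cᵀ) - (R * diagonal m) * (R * diagonal m)ᵀ).PosSemidef := by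
    have h3 := ((psd2 C).smul (sq_nonneg M)).add (by simpa using h1.mul_mul_conjTranspose_same R)
    convert h3 using 1
    rw [← hR, transpose_mul, diagonal_transpose, ← diagonal_mul_diagonal]
    simp only [smul_sub, Matrix.mul_sub, Matrix.sub_mul, Matrix.mul_smul, Matrix.smul_mul,
      Matrix.mul_one, Matrix.mul_assoc]
    abel
  have h4 := trace_quad_mono (psd_tm (ph (Bᵀ * B))) (psd_mt (R * diagonal m)) (psd3 (psd_tm B)) h2
    (diagonal u)
  rw [diagonal_transpose, Matrix.mul_smul, Matrix.smul_mul, trace_smul, smul_eq_mul] at h4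
  refine le_of_eq_of_le ?_ h4
  generalize ph (Bᵀ * B) = F
  rw [Matrix.mul_assoc (F * diagonal u) R]
  generalize R * diagonal m = R'
  rw [transpose_mul, transpose_mul, diagonal_transpose]
  simp only [Matrix.mul_assoc]
  rw [trace_mul_comm]
  simp only [Matrix.mul_assoc]
  rw [trace_mul_comm]
  simp only [Matrix.mul_assoc]

theorem key3 (A : Matrix X Y ℝ) (B : Matrix Y Z ℝ) (C : Matrix Z X ℝ) {m₀ : X → ℝ} (m₁ : Y → ℝ)
    (m₂ : Z → ℝ) {M : ℝ} (hM : 0 ≤ M) (h₀ : ∀ a, |m₀ a| ≤ M) {v : ℝ} (hv : 0 < v) :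
    |(PP A v * diagonal m₁ * (PP B v * ph ((v ^ 2)⁻¹ • (Bᵀ * B))) * diagonal m₂ * PP C v *
      diagonal m₀).trace| ≤ v ^ 3 * M * (√(gn ((v ^ 2)⁻¹ • (Aᵀ * A)) ((v ^ 2)⁻¹ • (B * Bᵀ)) m₁) *
        √(gn ((v ^ 2)⁻¹ • (Bᵀ * B)) ((v ^ 2)⁻¹ • (C * Cᵀ)) m₂)) := by
  rw [PP_eq A hv, PP_eq B hv, PP_eq C hv, scale_tm A, scale_tm B, scale_mt B, scale_mt C]
  generalize v⁻¹ • A = A'
  generalize v⁻¹ • B = B'
  generalize v⁻¹ • C = C'
  have h1 := abs_trace_le (A' * Rs (A'ᵀ * A') * diagonal m₁ * (B' * Rs (B'ᵀ * B')))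
    (ph (B'ᵀ * B') * diagonal m₂ * (C' * Rs (C'ᵀ * C')) * diagonal m₀)
  have h2 := Real.sqrt_le_sqrt (frob1 A' B' m₁)
  have h3 := Real.sqrt_le_sqrt (frob2 B' C' m₂ h₀)
  rw [Real.sqrt_mul (sq_nonneg M), Real.sqrt_sq hM] at h3
  have h4 := h1.trans (mul_le_mul h2 h3 (Real.sqrt_nonneg _) (Real.sqrt_nonneg _))
  simp only [Matrix.smul_mul, Matrix.mul_smul, trace_smul, smul_eq_mul, abs_mul, abs_of_pos hv]
  simp only [Matrix.mul_assoc] at h4 ⊢
  have := mul_le_mul_of_nonneg_left h4 (pow_pos hv 3).le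
  nlinarith

theorem key1 (A : Matrix X Y ℝ) (B : Matrix Y Z ℝ) (C : Matrix Z X ℝ) (u : Y → ℝ) {v : ℝ}
    (hv : 0 < v) :
    |(PP A v * diagonal u * (PP B v * ph ((v ^ 2)⁻¹ • (Bᵀ * B))) * C).trace| ≤
      v ^ 2 * (√(gn ((v ^ 2)⁻¹ • (Aᵀ * A)) ((v ^ 2)⁻¹ • (B * Bᵀ)) u) *
        √((ph ((v ^ 2)⁻¹ • (Bᵀ * B)) * (C * Cᵀ)).trace)) := by
  rw [PP_eq A hv, PP_eq B hv, scale_tm A, scale_tm B, scale_mt B]
  generalize v⁻¹ • A = A'
  generalize v⁻¹ • B = B'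
  have h1 := abs_trace_le (A' * Rs (A'ᵀ * A') * diagonal u * (B' * Rs (B'ᵀ * B')))
    (ph (B'ᵀ * B') * C)
  have h2 := Real.sqrt_le_sqrt (frob1 A' B' u)
  have h3 : ((ph (B'ᵀ * B') * C)ᵀ * (ph (B'ᵀ * B') * C)).trace ≤
      (ph (B'ᵀ * B') * (C * Cᵀ)).trace := by
    have := trace_mul_nonneg (psd3 (psd_tm B')) (psd_mt C)
    rw [Matrix.sub_mul, trace_sub, sub_nonneg] at this
    refine le_of_eq_of_le ?_ this
    rw [transpose_mul, Matrix.mul_assoc, trace_mul_comm]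
    simp only [Matrix.mul_assoc]
  have h4 := h1.trans (mul_le_mul h2 (Real.sqrt_le_sqrt h3) (Real.sqrt_nonneg _) (Real.sqrt_nonneg _))
  simp only [Matrix.smul_mul, Matrix.mul_smul, trace_smul, smul_eq_mul, abs_mul, abs_of_pos hv]
  simp only [Matrix.mul_assoc] at h4 ⊢
  have := mul_le_mul_of_nonneg_left h4 (pow_pos hv 2).le
  nlinarith

theorem key1' (A : Matrix X Y ℝ) (B : Matrix Y Z ℝ) (C : Matrix Z X ℝ) (u : Y → ℝ) {v : ℝ}
    (hv : 0 < v) :
    |(PP A v * ph ((v ^ 2)⁻¹ • (Aᵀ * A)) * diagonal u * PP B v * C).trace| ≤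
      v ^ 2 * (√(gn ((v ^ 2)⁻¹ • (Aᵀ * A)) ((v ^ 2)⁻¹ • (B * Bᵀ)) u) *
        √((ph ((v ^ 2)⁻¹ • (A * Aᵀ)) * (Cᵀ * C)).trace)) := by
  rw [PP_eq A hv, PP_eq B hv, scale_tm A, scale_mt A, scale_mt B]
  generalize v⁻¹ • A = A'
  generalize v⁻¹ • B = B'
  have h0 : A' * Rs (A'ᵀ * A') * ph (A'ᵀ * A') = ph (A' * A'ᵀ) * (A' * Rs (A'ᵀ * A')) := by
    unfold ph
    rw [Matrix.mul_sub, Matrix.sub_mul, Matrix.mul_one, Matrix.one_mul, ← Matrix.mul_assoc, ← push]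
  have h1 := abs_trace_le (A' * Rs (A'ᵀ * A') * diagonal u * (B' * Rs (B'ᵀ * B')))
    (C * ph (A' * A'ᵀ))
  have h2 := Real.sqrt_le_sqrt (frob1 A' B' u)
  have h3 : ((C * ph (A' * A'ᵀ))ᵀ * (C * ph (A' * A'ᵀ))).trace ≤
      (ph (A' * A'ᵀ) * (Cᵀ * C)).trace := by
    have := trace_mul_nonneg (psd3 (psd_mt A')) (psd_tm C)
    rw [Matrix.sub_mul, trace_sub, sub_nonneg] at this
    refine le_of_eq_of_le ?_ this
    rw [transpose_mul, ph_symm (psd_mt A'), ← Matrix.mul_assoc, trace_mul_comm]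
    simp only [Matrix.mul_assoc]
  have h4 := h1.trans (mul_le_mul h2 (Real.sqrt_le_sqrt h3) (Real.sqrt_nonneg _) (Real.sqrt_nonneg _))
  rw [← Matrix.mul_assoc, trace_mul_comm] at h4
  simp only [Matrix.smul_mul, Matrix.mul_smul, trace_smul, smul_eq_mul, abs_mul, abs_of_pos hv, h0]
  simp only [Matrix.mul_assoc] at h4 ⊢
  have := mul_le_mul_of_nonneg_left h4 (pow_pos hv 2).le
  nlinarith

omit [DecidableEq X] [DecidableEq Z] in
theorem trace_sqrt_le {S N : Matrix X X ℝ} (hS : Sᵀ = S) (hN : S * S = N) (J W : Matrix X Z ℝ) :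
    (S * (J * Wᵀ)).trace ≤ ∑ a, ∑ c, |J a c| * (√(∑ a', W a' c ^ 2) * √(N a a)) := by
  have h1 : (S * (J * Wᵀ)).trace = ∑ a, ∑ c, J a c * ∑ a', W a' c * S a' a := by
    rw [trace_mul_comm, Matrix.mul_assoc]
    simp only [trace, diag_apply, Matrix.mul_apply, transpose_apply]
  rw [h1]
  refine Finset.sum_le_sum fun a _ => Finset.sum_le_sum fun c _ => ?_
  refine (le_abs_self _).trans ?_
  rw [abs_mul]
  refine mul_le_mul_of_nonneg_left ?_ (abs_nonneg _)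
  have h2 : N a a = ∑ a', S a' a ^ 2 := by
    rw [← hN, Matrix.mul_apply]
    refine Finset.sum_congr rfl fun a' _ => ?_
    rw [sq]
    congr 1
    exact congrFun (congrFun hS a') a
  rw [h2, ← Real.sqrt_mul (Finset.sum_nonneg fun _ _ => sq_nonneg _)]
  exact Real.abs_le_sqrt (Finset.sum_mul_sq_le_sq_mul_sq _ _ _)

theorem tendsto_mmul {l : Filter ℝ} {P : ℝ → Matrix X Y ℝ} {Q : ℝ → Matrix Y Z ℝ}
    {A : Matrix X Y ℝ} {B : Matrix Y Z ℝ} (hP : Tendsto P l (𝓝 A)) (hQ : Tendsto Q l (𝓝 B)) :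
    Tendsto (fun v => P v * Q v) l (𝓝 (A * B)) := by
  refine tendsto_pi_nhds.2 fun a => tendsto_pi_nhds.2 fun c => ?_
  simp only [Matrix.mul_apply]
  exact tendsto_finsetSum _ fun b _ => (tendsto_pi_nhds.1 (tendsto_pi_nhds.1 hP a) b).mul
    (tendsto_pi_nhds.1 (tendsto_pi_nhds.1 hQ b) c)

theorem tendsto_tr {l : Filter ℝ} {P : ℝ → Matrix X X ℝ} {A : Matrix X X ℝ}
    (hP : Tendsto P l (𝓝 A)) : Tendsto (fun v => (P v).trace) l (𝓝 A.trace) := by
  simp only [trace, diag_apply]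
  exact tendsto_finsetSum _ fun a _ => tendsto_pi_nhds.1 (tendsto_pi_nhds.1 hP a) a

theorem tendsto_tri {l : Filter ℝ} {P : ℝ → Matrix X Y ℝ} {Q : ℝ → Matrix Y Z ℝ}
    {R : ℝ → Matrix Z X ℝ} {A : Matrix X Y ℝ} {B : Matrix Y Z ℝ} {C : Matrix Z X ℝ}
    (hP : Tendsto P l (𝓝 A)) (hQ : Tendsto Q l (𝓝 B)) (hR : Tendsto R l (𝓝 C))
    (D₁ : Matrix Y Y ℝ) (D₂ : Matrix Z Z ℝ) (D₀ : Matrix X X ℝ) :
    Tendsto (fun v => (P v * D₁ * Q v * D₂ * R v * D₀).trace) l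
      (𝓝 (A * D₁ * B * D₂ * C * D₀).trace) :=
  tendsto_tr (tendsto_mmul (tendsto_mmul (tendsto_mmul (tendsto_mmul
    (tendsto_mmul hP tendsto_const_nhds) hQ) tendsto_const_nhds) hR) tendsto_const_nhds)

theorem tendsto_bi {l : Filter ℝ} {P : ℝ → Matrix X Y ℝ} {Q : ℝ → Matrix Y Z ℝ}
    {A : Matrix X Y ℝ} {B : Matrix Y Z ℝ} (hP : Tendsto P l (𝓝 A)) (hQ : Tendsto Q l (𝓝 B))
    (D : Matrix Y Y ℝ) (C : Matrix Z X ℝ) :
    Tendsto (fun v => (P v * D * Q v * C).trace) l (𝓝 (A * D * B * C).trace) :=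
  tendsto_tr (tendsto_mmul (tendsto_mmul (tendsto_mmul hP tendsto_const_nhds) hQ)
    tendsto_const_nhds)

theorem ftc_tri (A : Matrix X Y ℝ) (B : Matrix Y Z ℝ) (C : Matrix Z X ℝ)
    (D₁ : Matrix Y Y ℝ) (D₂ : Matrix Z Z ℝ) (D₀ : Matrix X X ℝ) :
    ENNReal.ofReal |(A * D₁ * B * D₂ * C * D₀).trace| ≤ ∫⁻ v in Ioi (0 : ℝ), ENNReal.ofReal
      |2 / v * ((PP A v * ph ((v ^ 2)⁻¹ • (Aᵀ * A)) * D₁ * PP B v * D₂ * PP C v * D₀).trace +
        (PP A v * D₁ * (PP B v * ph ((v ^ 2)⁻¹ • (Bᵀ * B))) * D₂ * PP C v * D₀).trace +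
        (PP A v * D₁ * PP B v * D₂ * (PP C v * ph ((v ^ 2)⁻¹ • (Cᵀ * C))) * D₀).trace)| := by
  have hlim0 := tendsto_tri (tendsto_PP_zero A) (tendsto_PP_zero B) (tendsto_PP_zero C) D₁ D₂ D₀
  have hlim1 := tendsto_tri (tendsto_PP_top A) (tendsto_PP_top B) (tendsto_PP_top C) D₁ D₂ D₀
  simp only [Matrix.zero_mul, trace_zero] at hlim0
  refine ftc_bound (fun v hv => ?_) hlim0 hlim1
  refine ((((((md_PP A hv).mul_const D₁).mul (md_PP B hv)).mul_const D₂).mul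
    (md_PP C hv)).mul_const D₀).trace.congr_deriv ?_
  simp only [Matrix.add_mul, Matrix.smul_mul, Matrix.mul_smul, trace_add, trace_smul, smul_eq_mul,
    mul_add]

theorem ftc_bi (A : Matrix X Y ℝ) (B : Matrix Y Z ℝ) (C : Matrix Z X ℝ) (D : Matrix Y Y ℝ) :
    ENNReal.ofReal |(A * D * B * C).trace| ≤ ∫⁻ v in Ioi (0 : ℝ), ENNReal.ofReal
      |2 / v * ((PP A v * ph ((v ^ 2)⁻¹ • (Aᵀ * A)) * D * PP B v * C).trace +
        (PP A v * D * (PP B v * ph ((v ^ 2)⁻¹ • (Bᵀ * B))) * C).trace)| := by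
  have hlim0 := tendsto_bi (tendsto_PP_zero A) (tendsto_PP_zero B) D C
  have hlim1 := tendsto_bi (tendsto_PP_top A) (tendsto_PP_top B) D C
  simp only [Matrix.zero_mul, trace_zero] at hlim0
  refine ftc_bound (fun v hv => ?_) hlim0 hlim1
  refine ((((md_PP A hv).mul_const D).mul (md_PP B hv)).mul_const C).trace.congr_deriv ?_
  simp only [Matrix.add_mul, Matrix.smul_mul, Matrix.mul_smul, trace_add, trace_smul, smul_eq_mul,
    mul_add]

theorem measurable_gg (P Q : Matrix X X ℝ) (u : X → ℝ) : Measurable fun v : ℝ =>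
    ENNReal.ofReal (2 * v ^ 2 * gn ((v ^ 2)⁻¹ • P) ((v ^ 2)⁻¹ • Q) u) := by
  refine Measurable.ennreal_ofReal (Measurable.mul (by fun_prop)
    (measurable_gn (fun a b => ?_) (fun a b => ?_) fun a => measurable_const))
  · simp only [Matrix.smul_apply, smul_eq_mul]; fun_prop
  · simp only [Matrix.smul_apply, smul_eq_mul]; fun_prop

end Crest.Agent.R72.M2
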