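import Crest.Agent.R72.Mat
import Crest.Agent.R72.Mat2_A

/-!
# Row 72: matrix inequalities integrated over the spectral scale

PLANS.  Write `μ = v²`, `ρ_μ N = Rs (μ⁻¹ • N) = μ (μ + N)⁻¹`, `φ_μ N = ph (μ⁻¹ • N) = 1 - ρ_μ N`.
* `EE_le`: `ell_le` and `∫₀^∞ 2t²/(2v²+t) dv = π t^(3/2)/√2` (`arctan`).
* `exists_sqrt`: spectral theorem, `∫₀^∞ 2λ/(v²+λ) dv = π √λ`.
* `GG_jensen`: `ph_le` with `Y = Rs (μ⁻¹ P̄)`, `trace_mul_nonneg`, `ph_eq`; Tonelli.
* `three`: `T(v) = tr (A ρ(AᵀA) D₁ B ρ(BᵀB) D₂ C ρ(CᵀC) D₀)` tends to the trace at `∞` and to `0` at `0`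
  (`(Aρ)ᵀ(Aρ) = N ρ² ≤ μ φ ≤ μ`); `d/dμ ρ_μ N = μ⁻¹ φ ρ`.  The term with the derivative at `B` is
  `μ⁻¹ tr ((Aρ) D₁ (Bρ) · φ(BᵀB) D₂ (Cρ) D₀)`; by `abs_trace_le`, `trace_quad_mono` and
  `(Aρ)ᵀ(Aρ) ≤ μ φ(AᵀA)`, `(Bρ)(Bρ)ᵀ ≤ μ φ(BBᵀ)` (push-through `B ρ(BᵀB) = ρ(BBᵀ) B`), `φ² ≤ φ`, `D₀² ≤ M²`
  it is at most `√μ M W₁ W₂` with `W₁² = gn (AᵀA/μ) (BBᵀ/μ) m₁`, ...; `W₁W₂ + W₂W₀ + W₀W₁ ≤ ∑ Wᵢ²`, `dμ = 2v dv`.
  (Alternatively diagonalise the three Gram matrices and do the `μ`-integral on scalars.)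
* `one`: the same with `T(v) = tr (A ρ(AᵀA) D ρ(BBᵀ) B C)`; the terms are at most `W ‖φ(BᵀB) C‖₂` and
  `W ‖C φ(AAᵀ)‖₂`; `2 v W Y ≤ θ⁻¹ v² W² + θ Y²`; `∫ tr (φ(N) C Cᵀ) dv = π/2 tr (S C Cᵀ)`, `S² = N`,
  `tr (S C Cᵀ) = ∑ C i j (S C) i j ≤ ∑ |C i j| √(N i i) ‖C · j‖`.
* `EE_jump`: `ell_tangent` at `G' = P + W'W'ᵀ`, `W'W'ᵀ - WWᵀ = J W'ᵀ + W Jᵀ`, `exists_sqrt`.
-/

set_option autoImplicit false
set_option linter.unusedSectionVars false
set_option maxHeartbeats 400000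

namespace Crest.Agent.R72

open MeasureTheory Set Matrix Filter Topology
open scoped ENNReal

variable {X Y Z : Type*} [Fintype X] [DecidableEq X] [Fintype Y] [DecidableEq Y] [Fintype Z]
  [DecidableEq Z]

theorem EE_le {G : Matrix X X ℝ} (hG : G.PosSemidef) :
    EE G ≤ ENNReal.ofReal (Real.pi / √2 * G.trace ^ (3 / 2 : ℝ)) := by
  have ht := hG.trace_nonneg
  set t := G.trace with htd
  obtain ⟨hi, hv⟩ := M2.int_scalar (l := t / 2) (by positivity)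
  have hle : EE G ≤ ∫⁻ v in Ioi (0 : ℝ), ENNReal.ofReal (2 * t * (1 - (1 + (v ^ 2)⁻¹ * (t / 2))⁻¹)) := by
    refine setLIntegral_mono' measurableSet_Ioi fun v hv => ENNReal.ofReal_le_ofReal ?_
    have hv : 0 < v := hv
    have h1 := ell_le (hG.smul (a := (v ^ 2)⁻¹) (by positivity))
    rw [trace_smul, smul_eq_mul, ← htd] at h1
    refine (mul_le_mul_of_nonneg_left h1 (by positivity)).trans_eq ?_
    field_simp
    ring
  refine hle.trans ?_
  rw [← ofReal_integral_eq_lintegral_ofReal (hi.const_mul _), integral_const_mul, hv]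
  · refine ENNReal.ofReal_le_ofReal (le_of_eq ?_)
    rw [Real.sqrt_div ht, show (3 / 2 : ℝ) = 1 + 1 / 2 by norm_num,
      Real.rpow_add' ht (by norm_num), Real.rpow_one, ← Real.sqrt_eq_rpow]
    ring
  · refine Eventually.of_forall fun v => ?_
    have h1 : 0 ≤ (v ^ 2)⁻¹ * (t / 2) := by positivity
    have h2 : (1 + (v ^ 2)⁻¹ * (t / 2))⁻¹ ≤ 1 := inv_le_one_of_one_le₀ (by linarith)
    exact mul_nonneg (by positivity) (by linarith)

theorem exists_sqrt {N : Matrix X X ℝ} (hN : N.PosSemidef) :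
    ∃ S : Matrix X X ℝ, Sᵀ = S ∧ S * S = N ∧ ∀ K : Matrix X X ℝ,
      IntegrableOn (fun v : ℝ => (ph ((v ^ 2)⁻¹ • N) * K).trace) (Ioi 0) ∧
      ∫ v in Ioi (0 : ℝ), (ph ((v ^ 2)⁻¹ • N) * K).trace = Real.pi / 2 * (S * K).trace := by
  obtain ⟨U, lam, hl, h, h', rfl⟩ := M2.exists_diag hN
  refine ⟨U * diagonal (fun i => √(lam i)) * Uᵀ, ?_, ?_, fun K => ?_⟩
  · simp only [transpose_mul, transpose_transpose, diagonal_transpose, Matrix.mul_assoc]
  · rw [M2.conj_mul h']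
    congr 3
    funext i
    exact Real.mul_self_sqrt (hl i)
  · have hc : ∀ w : ℝ, 0 ≤ (w ^ 2)⁻¹ := fun w => by positivity
    simp only [M2.ph_conj' h h' hl (hc _), M2.trace_conj_mul]
    have hi : ∀ i ∈ (Finset.univ : Finset X), IntegrableOn
        (fun v : ℝ => (1 - (1 + (v ^ 2)⁻¹ * lam i)⁻¹) * (Uᵀ * K * U) i i) (Ioi 0) :=
      fun i _ => (M2.int_scalar (hl i)).1.mul_const _
    refine ⟨integrable_finsetSum _ hi, ?_⟩
    rw [integral_finsetSum _ hi, Finset.mul_sum]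
    refine Finset.sum_congr rfl fun i _ => ?_
    rw [integral_mul_const, (M2.int_scalar (hl i)).2, mul_assoc]

theorem GG_comm (P Q : Matrix X X ℝ) (u : X → ℝ) : GG P Q u = GG Q P u := by
  simp only [GG, gn_comm ((_ : ℝ) • P)]

theorem GG_mono {P Q P' Q' : Matrix X X ℝ} (hP : P.PosSemidef) (hQ : Q.PosSemidef)
    (h : (P' - P).PosSemidef) (h' : (Q' - Q).PosSemidef) (u : X → ℝ) : GG P Q u ≤ GG P' Q' u := by
  refine lintegral_mono fun v => ENNReal.ofReal_le_ofReal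
    (mul_le_mul_of_nonneg_left ?_ (by positivity))
  have hc : 0 ≤ (v ^ 2)⁻¹ := by positivity
  refine gn_mono (hP.smul hc) (hQ.smul hc) ?_ ?_ u
  · rw [← smul_sub]; exact h.smul hc
  · rw [← smul_sub]; exact h'.smul hc

theorem GG_conj {P Q : Matrix X X ℝ} (hP : P.PosSemidef) (hQ : Q.PosSemidef) {χ : X → ℝ}
    (hχ : ∀ a, |χ a| ≤ 1) (u : X → ℝ) : GG P Q (fun a => χ a ^ 2 * u a) ≤
      GG (diagonal χ * P * diagonal χ) (diagonal χ * Q * diagonal χ) u := by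
  refine lintegral_mono fun v => ENNReal.ofReal_le_ofReal
    (mul_le_mul_of_nonneg_left ?_ (by positivity))
  have hc : 0 ≤ (v ^ 2)⁻¹ := by positivity
  have := gn_conj (hP.smul hc) (hQ.smul hc) hχ u
  simpa only [Matrix.mul_smul, Matrix.smul_mul] using this

theorem GG_jensen {w : ℝ → ℝ} (hw0 : ∀ p, 0 ≤ w p) (hwm : Measurable w) (hw : Integrable w)
    (hw1 : ∫ p, w p = 1) {P : ℝ → Matrix X X ℝ} (hP : ∀ p, (P p).PosSemidef)
    (hm : ∀ a b, Measurable fun p => P p a b) (hi : ∀ a b, Integrable fun p => w p * P p a b)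
    {Q : Matrix X X ℝ} (hQ : Q.PosSemidef) (u : X → ℝ) :
    ∫⁻ p, ENNReal.ofReal (w p) * GG (P p) Q u ≤
      GG (Matrix.of fun a b => ∫ p, w p * P p a b) Q u := by
  set Pb : Matrix X X ℝ := Matrix.of fun a b => ∫ p, w p * P p a b with hPb
  have hlin : ∀ K : Matrix X X ℝ, Integrable (fun p => w p * (P p * K).trace) ∧
      ∫ p, w p * (P p * K).trace = (Pb * K).trace := by
    intro K
    have h1 : ∀ p, w p * (P p * K).trace = ∑ a, ∑ b, w p * P p a b * K b a := by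
      intro p
      simp only [trace, diag_apply, Matrix.mul_apply, Finset.mul_sum, mul_assoc]
    simp only [h1]
    have h2 : ∀ a, Integrable fun p => ∑ b, w p * P p a b * K b a :=
      fun a => integrable_finsetSum _ fun b _ => (hi a b).mul_const _
    refine ⟨integrable_finsetSum _ fun a _ => h2 a, ?_⟩
    rw [integral_finsetSum _ fun a _ => h2 a]
    simp only [trace, diag_apply, Matrix.mul_apply]
    refine Finset.sum_congr rfl fun a _ => ?_
    rw [integral_finsetSum _ fun b _ => (hi a b).mul_const _]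
    refine Finset.sum_congr rfl fun b _ => ?_
    rw [integral_mul_const, hPb, Matrix.of_apply]
  have hPbs : Pb.PosSemidef := by
    refine PosSemidef.of_dotProduct_mulVec_nonneg ?_ fun x => ?_
    · ext a b
      simp only [hPb, conjTranspose_apply, Matrix.of_apply, star_trivial]
      congr 1
      funext p
      rw [← congrFun (congrFun (M2.psd_symm (hP p)) a) b, transpose_apply]
    · have h1 : ∀ N : Matrix X X ℝ, star x ⬝ᵥ N *ᵥ x = (N * vecMulVec x x).trace := by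
        intro N
        simp only [star_trivial, dotProduct, mulVec, trace, diag_apply, Matrix.mul_apply,
          vecMulVec_apply, Finset.mul_sum]
        refine Finset.sum_congr rfl fun a _ => Finset.sum_congr rfl fun b _ => by ring
      rw [h1, ← (hlin _).2]
      refine integral_nonneg fun p => mul_nonneg (hw0 p) ?_
      rw [← h1]
      exact (hP p).dotProduct_mulVec_nonneg x
  unfold GG
  have hmeas : Measurable fun q : ℝ × ℝ => ENNReal.ofReal (w q.1) *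
      ENNReal.ofReal (2 * q.2 ^ 2 * gn ((q.2 ^ 2)⁻¹ • P q.1) ((q.2 ^ 2)⁻¹ • Q) u) := by
    refine (hwm.comp measurable_fst).ennreal_ofReal.mul (Measurable.ennreal_ofReal ?_)
    refine Measurable.mul (by fun_prop) (measurable_gn (fun a b => ?_) (fun a b => ?_) fun a => ?_)
    · simp only [Matrix.smul_apply, smul_eq_mul]
      exact Measurable.mul (by fun_prop) ((hm a b).comp measurable_fst)
    · simp only [Matrix.smul_apply, smul_eq_mul]
      fun_prop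
    · exact measurable_const
  simp only [← lintegral_const_mul' _ _ ENNReal.ofReal_ne_top]
  rw [lintegral_lintegral_swap hmeas.aemeasurable]
  refine lintegral_mono fun v => ?_
  have hc : 0 ≤ (v ^ 2)⁻¹ := by positivity
  set c := (v ^ 2)⁻¹
  set H := diagonal u * ph (c • Q) * diagonal u with hH
  have hHs : H.PosSemidef := by
    simpa using (ph_psd (hQ.smul hc)).mul_mul_conjTranspose_same (diagonal u)
  set Y := Rs (c • Pb) with hY
  have hgn : ∀ N : Matrix X X ℝ, gn N (c • Q) u = (ph N * H).trace := by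
    intro N
    simp only [gn, hH, Matrix.mul_assoc]
  have hq : ∀ N : Matrix X X ℝ, (((1 - Y)ᵀ * (1 - Y) + Yᵀ * (c • N) * Y) * H).trace =
      ((1 - Y)ᵀ * (1 - Y) * H).trace + c * (N * (Y * H * Yᵀ)).trace := by
    intro N
    rw [Matrix.add_mul, trace_add, Matrix.mul_smul, Matrix.smul_mul, Matrix.smul_mul, trace_smul,
      smul_eq_mul, Matrix.mul_assoc Yᵀ, Matrix.mul_assoc Yᵀ, trace_mul_comm Yᵀ]
    simp only [Matrix.mul_assoc]
  have hle : ∀ p, gn (c • P p) (c • Q) u ≤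
      ((1 - Y)ᵀ * (1 - Y) * H).trace + c * (P p * (Y * H * Yᵀ)).trace := by
    intro p
    have := trace_mul_nonneg (ph_le ((hP p).smul hc) Y) hHs
    rw [Matrix.sub_mul, trace_sub, hq, ← hgn] at this
    linarith
  have heq : gn (c • Pb) (c • Q) u =
      ((1 - Y)ᵀ * (1 - Y) * H).trace + c * (Pb * (Y * H * Yᵀ)).trace := by
    rw [← hq, hY, ph_eq (hPbs.smul hc), hgn]
  set α := ((1 - Y)ᵀ * (1 - Y) * H).trace
  obtain ⟨hi1, hv1⟩ := hlin (Y * H * Yᵀ)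
  have hint : Integrable fun p => 2 * v ^ 2 * (w p * α + c * (w p * (P p * (Y * H * Yᵀ)).trace)) :=
    ((hw.mul_const _).add (hi1.const_mul _)).const_mul _
  have hnn : ∀ p, 0 ≤ 2 * v ^ 2 * (w p * α + c * (w p * (P p * (Y * H * Yᵀ)).trace)) := by
    intro p
    have h1 := (gn_nonneg ((hP p).smul hc) (hQ.smul hc) u).trans (hle p)
    have h2 := mul_nonneg (hw0 p) h1
    exact mul_nonneg (by positivity) (by linarith)
  calc ∫⁻ p, ENNReal.ofReal (w p) * ENNReal.ofReal (2 * v ^ 2 * gn (c • P p) (c • Q) u)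
      ≤ ∫⁻ p, ENNReal.ofReal
        (2 * v ^ 2 * (w p * α + c * (w p * (P p * (Y * H * Yᵀ)).trace))) := by
        refine lintegral_mono fun p => ?_
        rw [← ENNReal.ofReal_mul (hw0 p)]
        refine ENNReal.ofReal_le_ofReal ?_
        have h1 := mul_le_mul_of_nonneg_left (hle p)
          (mul_nonneg (hw0 p) (by positivity : 0 ≤ 2 * v ^ 2))
        linarith
    _ = _ := by
        rw [← ofReal_integral_eq_lintegral_ofReal hint (Eventually.of_forall hnn),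
          integral_const_mul, integral_add (hw.mul_const _) (hi1.const_mul _), integral_mul_const,
          integral_const_mul, hw1, hv1, heq, one_mul]

theorem three (A : Matrix X Y ℝ) (B : Matrix Y Z ℝ) (C : Matrix Z X ℝ) {m₀ : X → ℝ} {m₁ : Y → ℝ}
    {m₂ : Z → ℝ} {M : ℝ} (hM : 0 ≤ M) (h₀ : ∀ a, |m₀ a| ≤ M) (h₁ : ∀ a, |m₁ a| ≤ M)
    (h₂ : ∀ a, |m₂ a| ≤ M) :
    ENNReal.ofReal |(A * diagonal m₁ * B * diagonal m₂ * C * diagonal m₀).trace| ≤
      ENNReal.ofReal M * (GG (A * Aᵀ) (Cᵀ * C) m₀ + GG (Aᵀ * A) (B * Bᵀ) m₁ +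
        GG (Bᵀ * B) (C * Cᵀ) m₂) := by
  refine (M2.ftc_tri A B C _ _ _).trans ?_
  have hm0 := M2.measurable_gg (A * Aᵀ) (Cᵀ * C) m₀
  have hm1 := M2.measurable_gg (Aᵀ * A) (B * Bᵀ) m₁
  unfold GG
  rw [← lintegral_add_left hm0, ← lintegral_add_left (hm0.fun_add hm1),
    ← lintegral_const_mul' _ _ ENNReal.ofReal_ne_top]
  refine setLIntegral_mono' measurableSet_Ioi fun v hv => ?_
  have hv : 0 < v := hv
  have hc : 0 ≤ (v ^ 2)⁻¹ := by positivity
  have g0 := gn_nonneg ((M2.psd_tm C).smul hc) ((M2.psd_mt A).smul hc) m₀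
  have g1 := gn_nonneg ((M2.psd_tm A).smul hc) ((M2.psd_mt B).smul hc) m₁
  have g2 := gn_nonneg ((M2.psd_tm B).smul hc) ((M2.psd_mt C).smul hc) m₂
  have k0 := M2.key3 C A B m₀ m₁ hM h₂ hv
  have k1 := M2.key3 A B C m₁ m₂ hM h₀ hv
  have k2 := M2.key3 B C A m₂ m₀ hM h₁ hv
  rw [gn_comm ((v ^ 2)⁻¹ • (A * Aᵀ))]
  set G0 := gn ((v ^ 2)⁻¹ • (Cᵀ * C)) ((v ^ 2)⁻¹ • (A * Aᵀ)) m₀
  set G1 := gn ((v ^ 2)⁻¹ • (Aᵀ * A)) ((v ^ 2)⁻¹ • (B * Bᵀ)) m₁
  set G2 := gn ((v ^ 2)⁻¹ • (Bᵀ * B)) ((v ^ 2)⁻¹ • (C * Cᵀ)) m₂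
  rw [← ENNReal.ofReal_add (by positivity) (by positivity),
    ← ENNReal.ofReal_add (by positivity) (by positivity), ← ENNReal.ofReal_mul hM]
  refine ENNReal.ofReal_le_ofReal ?_
  generalize ph ((v ^ 2)⁻¹ • (Aᵀ * A)) = FA at *
  generalize ph ((v ^ 2)⁻¹ • (Bᵀ * B)) = FB at *
  generalize ph ((v ^ 2)⁻¹ • (Cᵀ * C)) = FC at *
  generalize M2.PP A v = P at *
  generalize M2.PP B v = Q at *
  generalize M2.PP C v = R at *
  have e0 : (R * diagonal m₀ * (P * FA) * diagonal m₁ * Q * diagonal m₂).trace =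
      (P * FA * diagonal m₁ * Q * diagonal m₂ * R * diagonal m₀).trace := by
    simp only [Matrix.mul_assoc]
    rw [← Matrix.mul_assoc R, trace_mul_comm]
    simp only [Matrix.mul_assoc]
  have e2 : (Q * diagonal m₂ * (R * FC) * diagonal m₀ * P * diagonal m₁).trace =
      (P * diagonal m₁ * Q * diagonal m₂ * (R * FC) * diagonal m₀).trace := by
    simp only [Matrix.mul_assoc]
    rw [← Matrix.mul_assoc P, trace_mul_comm (P * _)]
    simp only [Matrix.mul_assoc]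
  rw [e0] at k0
  rw [e2] at k2
  rw [abs_mul, abs_of_pos (by positivity : 0 < 2 / v)]
  have s0 := Real.sq_sqrt g0
  have s1 := Real.sq_sqrt g1
  have s2 := Real.sq_sqrt g2
  have hs : √G0 * √G1 + √G1 * √G2 + √G2 * √G0 ≤ G0 + G1 + G2 := by
    nlinarith [sq_nonneg (√G0 - √G1), sq_nonneg (√G1 - √G2), sq_nonneg (√G2 - √G0)]
  have h3 := (abs_add_three _ _ _).trans (add_le_add (add_le_add k0 k1) k2)
  refine (mul_le_mul_of_nonneg_left h3 (by positivity)).trans ?_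
  have h4 := mul_le_mul_of_nonneg_left hs (by positivity : 0 ≤ 2 * v ^ 2 * M)
  refine le_trans (le_of_eq ?_) (h4.trans_eq (by ring))
  field_simp

theorem one (A : Matrix X Y ℝ) (B : Matrix Y Z ℝ) (C : Matrix Z X ℝ) (u : Y → ℝ) {θ : ℝ}
    (hθ : 0 < θ) :
    ENNReal.ofReal |(A * diagonal u * B * C).trace| ≤
      ENNReal.ofReal θ⁻¹ * GG (Aᵀ * A) (B * Bᵀ) u +
      ENNReal.ofReal (θ * (Real.pi / 2) * ∑ c, ∑ a, |C c a| *
        (√(∑ c', C c' a ^ 2) * √(∑ b, B b c ^ 2) + √(∑ a', C c a' ^ 2) * √(∑ b, A a b ^ 2))) := by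
  refine (M2.ftc_bi A B C _).trans ?_
  obtain ⟨S, hS, hSN, hSK⟩ := exists_sqrt (M2.psd_tm B)
  obtain ⟨S', hS', hSN', hSK'⟩ := exists_sqrt (M2.psd_mt A)
  obtain ⟨i2, v2⟩ := hSK (C * Cᵀ)
  obtain ⟨i1, v1⟩ := hSK' (Cᵀ * C)
  have hc : ∀ v : ℝ, 0 ≤ (v ^ 2)⁻¹ := fun v => by positivity
  have y1 := fun v => trace_mul_nonneg (ph_psd ((M2.psd_mt A).smul (hc v))) (M2.psd_tm C)
  have y2 := fun v => trace_mul_nonneg (ph_psd ((M2.psd_tm B).smul (hc v))) (M2.psd_mt C)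
  have hm1 := (M2.measurable_gg (Aᵀ * A) (B * Bᵀ) u).const_mul (ENNReal.ofReal θ⁻¹)
  have hint : IntegrableOn (fun v : ℝ => θ * ((ph ((v ^ 2)⁻¹ • (A * Aᵀ)) * (Cᵀ * C)).trace +
      (ph ((v ^ 2)⁻¹ • (Bᵀ * B)) * (C * Cᵀ)).trace)) (Ioi 0) := (i1.add i2).const_mul _
  have hfin : ∫⁻ v in Ioi (0 : ℝ), ENNReal.ofReal
      (θ * ((ph ((v ^ 2)⁻¹ • (A * Aᵀ)) * (Cᵀ * C)).trace +
      (ph ((v ^ 2)⁻¹ • (Bᵀ * B)) * (C * Cᵀ)).trace)) ≤
      ENNReal.ofReal (θ * (Real.pi / 2) * ∑ c, ∑ a, |C c a| *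
        (√(∑ c', C c' a ^ 2) * √(∑ b, B b c ^ 2) + √(∑ a', C c a' ^ 2) * √(∑ b, A a b ^ 2))) := by
    rw [← ofReal_integral_eq_lintegral_ofReal hint (Eventually.of_forall fun v =>
      mul_nonneg hθ.le (add_nonneg (y1 v) (y2 v))), integral_const_mul, integral_add i1 i2, v1, v2]
    refine ENNReal.ofReal_le_ofReal ?_
    have t2 := M2.trace_sqrt_le hS hSN C C
    have t1 := M2.trace_sqrt_le hS' hSN' Cᵀ Cᵀ
    rw [transpose_transpose, Finset.sum_comm] at t1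
    simp only [Matrix.mul_apply, transpose_apply, ← sq] at t1 t2
    rw [← mul_add, ← mul_assoc]
    refine mul_le_mul_of_nonneg_left ?_ (by positivity)
    simp only [mul_add, Finset.sum_add_distrib]
    linarith
  refine le_trans ?_ (add_le_add le_rfl hfin)
  unfold GG
  rw [← lintegral_const_mul' _ _ ENNReal.ofReal_ne_top, ← lintegral_add_left hm1]
  refine setLIntegral_mono' measurableSet_Ioi fun v hv => ?_
  have hv : 0 < v := hv
  have g1 := gn_nonneg ((M2.psd_tm A).smul (hc v)) ((M2.psd_mt B).smul (hc v)) u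
  have k1 := M2.key1' A B C u hv
  have k2 := M2.key1 A B C u hv
  have z1 := y1 v
  have z2 := y2 v
  set G := gn ((v ^ 2)⁻¹ • (Aᵀ * A)) ((v ^ 2)⁻¹ • (B * Bᵀ)) u
  set Y1 := (ph ((v ^ 2)⁻¹ • (A * Aᵀ)) * (Cᵀ * C)).trace
  set Y2 := (ph ((v ^ 2)⁻¹ • (Bᵀ * B)) * (C * Cᵀ)).trace
  rw [← ENNReal.ofReal_mul (by positivity), ← ENNReal.ofReal_add (by positivity) (by positivity)]
  refine ENNReal.ofReal_le_ofReal ?_
  rw [abs_mul, abs_of_pos (by positivity : 0 < 2 / v)]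
  have h3 := (abs_add_le _ _).trans (add_le_add k1 k2)
  refine (mul_le_mul_of_nonneg_left h3 (by positivity)).trans ?_
  have s0 := Real.sq_sqrt g1
  have s1 := Real.sq_sqrt z1
  have s2 := Real.sq_sqrt z2
  have am : ∀ y : ℝ, 2 * v * (√G * y) ≤ θ⁻¹ * (v ^ 2 * G) + θ * y ^ 2 := by
    intro y
    have h5 : 0 ≤ θ⁻¹ * (v * √G - θ * y) ^ 2 := by positivity
    have h6 : θ⁻¹ * (v * √G - θ * y) ^ 2 =
        θ⁻¹ * (v ^ 2 * √G ^ 2) + θ * y ^ 2 - 2 * v * (√G * y) := by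
      field_simp
      ring
    rw [h6, s0] at h5
    linarith
  have a1 := am (√Y1)
  have a2 := am (√Y2)
  rw [s1] at a1
  rw [s2] at a2
  have h7 : 2 / v * (v ^ 2 * (√G * √Y1) + v ^ 2 * (√G * √Y2)) =
      2 * v * (√G * √Y1) + 2 * v * (√G * √Y2) := by
    field_simp
  rw [h7]
  linarith

theorem EE_jump {P : Matrix X X ℝ} (hP : P.PosSemidef) (W W' : Matrix X Z ℝ) :
    EE (P + W' * W'ᵀ) ≤ EE (P + W * Wᵀ) + ENNReal.ofReal (Real.pi * ∑ a, ∑ c, |W' a c - W a c| *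
      ((√(∑ a', W' a' c ^ 2) + √(∑ a', W a' c ^ 2)) * √(P a a + ∑ c', W' a c' ^ 2))) := by
  have hG := hP.add (M2.psd_mt W)
  have hG' := hP.add (M2.psd_mt W')
  set G := P + W * Wᵀ with hGd
  set G' := P + W' * W'ᵀ with hGd'
  have hc : ∀ v : ℝ, 0 ≤ (v ^ 2)⁻¹ := fun v => by positivity
  have hint : ∀ N : Matrix X X ℝ, N.PosSemidef →
      IntegrableOn (fun v : ℝ => 2 * v ^ 2 * ell ((v ^ 2)⁻¹ • N)) (Ioi 0) ∧
      EE N = ENNReal.ofReal (∫ v in Ioi (0 : ℝ), 2 * v ^ 2 * ell ((v ^ 2)⁻¹ • N)) := by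
    intro N hN
    have h0 : 0 ≤ᵐ[volume.restrict (Ioi (0 : ℝ))] fun v : ℝ => 2 * v ^ 2 * ell ((v ^ 2)⁻¹ • N) :=
      Eventually.of_forall fun v => mul_nonneg (by positivity) (ell_nonneg (hN.smul (hc v)))
    have hm : Measurable fun v : ℝ => 2 * v ^ 2 * ell ((v ^ 2)⁻¹ • N) :=
      Measurable.mul (by fun_prop) (measurable_ell fun a b => by
        simp only [Matrix.smul_apply, smul_eq_mul]; fun_prop)
    have hi := (lintegral_ofReal_ne_top_iff_integrable hm.aestronglyMeasurable h0).1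
      (ne_top_of_le_ne_top ENNReal.ofReal_ne_top (EE_le hN))
    exact ⟨hi, (ofReal_integral_eq_lintegral_ofReal hi h0).symm⟩
  obtain ⟨S, hS, hSN, hSK⟩ := exists_sqrt hG'
  obtain ⟨i1, v1⟩ := hSK (G' - G)
  rw [(hint G hG).2, (hint G' hG').2]
  refine le_trans (ENNReal.ofReal_le_ofReal ?_) ENNReal.ofReal_add_le
  have h1 : ∫ v in Ioi (0 : ℝ), 2 * v ^ 2 * ell ((v ^ 2)⁻¹ • G') ≤
      ∫ v in Ioi (0 : ℝ), (2 * v ^ 2 * ell ((v ^ 2)⁻¹ • G) +
        2 * (ph ((v ^ 2)⁻¹ • G') * (G' - G)).trace) := by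
    refine setIntegral_mono_on (hint G' hG').1 ((hint G hG).1.add (i1.const_mul _))
      measurableSet_Ioi fun v hv => ?_
    have hv : 0 < v := hv
    have h2 := ell_tangent (hG'.smul (hc v)) (hG.smul (hc v))
    rw [← smul_sub, Matrix.mul_smul, trace_smul, smul_eq_mul, ← neg_sub G' G, Matrix.mul_neg,
      trace_neg] at h2
    have h3 := mul_le_mul_of_nonneg_left h2 (by positivity : 0 ≤ 2 * v ^ 2)
    have h4 : 2 * v ^ 2 * ((v ^ 2)⁻¹ * -(ph ((v ^ 2)⁻¹ • G') * (G' - G)).trace) =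
        -(2 * (ph ((v ^ 2)⁻¹ • G') * (G' - G)).trace) := by
      field_simp
    rw [mul_add, h4] at h3
    linarith
  rw [integral_add (hint G hG).1 (i1.const_mul _), integral_const_mul, v1] at h1
  refine h1.trans (add_le_add le_rfl ?_)
  have h5 : (S * (G' - G)).trace = (S * ((W' - W) * W'ᵀ)).trace + (S * ((W' - W) * Wᵀ)).trace := by
    have h6 : (S * ((W' - W) * Wᵀ)).trace = (S * (W * (W' - W)ᵀ)).trace := by
      rw [← trace_transpose, transpose_mul, transpose_mul, transpose_transpose, hS, trace_mul_comm]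
    rw [h6, ← trace_add, ← Matrix.mul_add, hGd, hGd']
    congr 2
    simp only [transpose_sub, Matrix.sub_mul, Matrix.mul_sub]
    abel
  have t1 := M2.trace_sqrt_le hS hSN (W' - W) W'
  have t2 := M2.trace_sqrt_le hS hSN (W' - W) W
  simp only [hGd', Matrix.add_apply, Matrix.mul_apply, transpose_apply, ← sq,
    Matrix.sub_apply] at t1 t2
  rw [h5, ← mul_assoc, show 2 * (Real.pi / 2) = Real.pi by ring]
  refine mul_le_mul_of_nonneg_left ?_ Real.pi_pos.le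
  simp only [add_mul, mul_add, Finset.sum_add_distrib]
  linarith

end Crest.Agent.R72
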