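import Crest.Agent.R72.Gauss

/-!
# Row 72: the maximal inequality

PLAN.  Send the points to the integers `k a = ⌊ξ a / δ⌋`, `l b = ⌊η b / δ⌋` (injective).  For `g : ℤ → ℝ≥0` finitely
supported let `M g n = sup_N (1/(N+1)) ∑_{0 ≤ j ≤ N} g (n + j)` and similarly to the left.  Weak type:
`λ #{M g > λ} ≤ ∑ g` (rising sun: induction from the left on a finite set, jumping over the good interval; or use
centred intervals and Vitali covering `Vitali.exists_disjoint_subfamily_covering_enlargement`).  Strong type: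
apply it to `g 1_{g > λ/2}` for `λ = 2^i` (or layer cake).  Gaussian averages are bounded by a constant times
`M g`: split into the shells `|ξ - y| ≤ √τ`, `i √τ < |ξ - y| ≤ (i+1) √τ`, with weights `e^{-i²/2}`.
-/

set_option autoImplicit false

namespace Crest.Agent.R72

open MeasureTheory Set Matrix Filter Topology
open scoped ENNReal

variable {X Y : Type*} [Fintype X] [Fintype Y]

theorem le_MM {δ : ℝ} (hδ : 0 < δ) (ξ : X → ℝ) {f : X → ℝ} (hf : ∀ a, 0 ≤ f a) (y : ℝ) {τ : ℝ}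
    (hτ : δ ^ 2 ≤ τ) : ∑ a, δ * gs τ (ξ a - y) * f a ≤ MM δ ξ f y := by
  refine le_ciSup (f := fun τ : Ici (δ ^ 2) => ∑ a, δ * gs τ (ξ a - y) * f a) ⟨∑ a, f a, ?_⟩ ⟨τ, hτ⟩
  rintro _ ⟨⟨σ, hσ⟩, rfl⟩
  refine Finset.sum_le_sum fun a _ => mul_le_of_le_one_left (hf a) ?_
  have hσ' : δ ^ 2 ≤ σ := hσ
  have h0 : 0 < σ := lt_of_lt_of_le (by positivity) hσ'
  have h1 : δ ≤ √σ := Real.le_sqrt_of_sq_le hσ'
  calc δ * gs σ (ξ a - y) ≤ √σ * (√σ)⁻¹ :=
        mul_le_mul h1 (gs_le h0 _) (gs_nonneg _ _) (Real.sqrt_nonneg _)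
    _ = 1 := mul_inv_cancel₀ (Real.sqrt_pos.mpr h0).ne'

theorem MM_nonneg {δ : ℝ} (hδ : 0 < δ) (ξ : X → ℝ) {f : X → ℝ} (hf : ∀ a, 0 ≤ f a) (y : ℝ) :
    0 ≤ MM δ ξ f y :=
  (Finset.sum_nonneg fun a _ => mul_nonneg (mul_nonneg hδ.le (gs_nonneg _ _)) (hf a)).trans
    (le_MM hδ ξ hf y le_rfl)

namespace MaxAux

theorem rpow32 {m : ℝ} (hm : 0 ≤ m) : m ^ (3 / 2 : ℝ) = √m ^ 3 := by
  rw [Real.sqrt_eq_rpow, ← Real.rpow_natCast, ← Real.rpow_mul hm]
  norm_num

theorem exp_le {r x : ℝ} (hr : 0 < r) {N : ℕ} (hN : |x| ≤ 2 ^ N * r) :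
    Real.exp (-x ^ 2 / (2 * r ^ 2)) ≤
      8 * ∑ i ∈ Finset.range (N + 1), if |x| ≤ 2 ^ i * r then (1 / 4 : ℝ) ^ i else 0 := by
  classical
  have hex : ∃ i : ℕ, |x| ≤ 2 ^ i * r := ⟨N, hN⟩
  have h1 := Nat.find_spec hex
  have h2 : Nat.find hex ≤ N := Nat.find_min' hex hN
  have h3 : (1 / 4 : ℝ) ^ Nat.find hex ≤
      ∑ i ∈ Finset.range (N + 1), if |x| ≤ 2 ^ i * r then (1 / 4 : ℝ) ^ i else 0 := by
    have := Finset.single_le_sum (s := Finset.range (N + 1))
      (f := fun i => if |x| ≤ 2 ^ i * r then (1 / 4 : ℝ) ^ i else 0)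
      (fun i _ => by split_ifs <;> positivity) (Finset.mem_range.mpr (Nat.lt_succ_of_le h2))
    rwa [if_pos h1] at this
  refine le_trans ?_ (mul_le_mul_of_nonneg_left h3 (by norm_num))
  have h4 : ∀ j, j < Nat.find hex → 2 ^ j * r < |x| := fun j hj => not_le.mp (Nat.find_min hex hj)
  generalize Nat.find hex = k at h4
  rcases k with _ | j
  · have : Real.exp (-x ^ 2 / (2 * r ^ 2)) ≤ 1 :=
      Real.exp_le_one_iff.mpr (div_nonpos_of_nonpos_of_nonneg (neg_nonpos.mpr (sq_nonneg x)) (by positivity))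
    simp only [pow_zero]
    linarith
  · have h5 := h4 j (Nat.lt_succ_self j)
    have h6 : (2 ^ j * r) ^ 2 ≤ x ^ 2 := by
      rw [← sq_abs x]
      exact pow_le_pow_left₀ (by positivity) h5.le 2
    have h7 : (4 : ℝ) ^ j / 2 ≤ x ^ 2 / (2 * r ^ 2) := by
      rw [div_le_div_iff₀ (by norm_num) (by positivity)]
      have : ((2 : ℝ) ^ j * r) ^ 2 = 4 ^ j * r ^ 2 := by
        rw [mul_pow, ← pow_mul, mul_comm j 2, pow_mul]; norm_num
      rw [this] at h6
      linarith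
    have h8 : (4 : ℝ) ^ j / 2 ≤ Real.exp (x ^ 2 / (2 * r ^ 2)) := by
      have := Real.add_one_le_exp (x ^ 2 / (2 * r ^ 2))
      linarith
    rw [neg_div, Real.exp_neg]
    calc (Real.exp (x ^ 2 / (2 * r ^ 2)))⁻¹ ≤ ((4 : ℝ) ^ j / 2)⁻¹ := inv_anti₀ (by positivity) h8
      _ = 8 * (1 / 4 : ℝ) ^ (j + 1) := by
        rw [one_div, inv_pow, pow_succ]
        field_simp
        norm_num

theorem gs_le_exp {τ : ℝ} (hτ : 0 < τ) (x : ℝ) :
    gs τ x ≤ (√τ)⁻¹ * Real.exp (-x ^ 2 / (2 * √τ ^ 2)) := by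
  rw [Real.sq_sqrt hτ.le, gs]
  refine mul_le_mul_of_nonneg_right (inv_anti₀ (Real.sqrt_pos.mpr hτ) (Real.sqrt_le_sqrt ?_))
    (Real.exp_pos _).le
  have := Real.pi_gt_three
  nlinarith

open Classical in
/-- Gaussian averages are controlled by the averages over intervals -/
theorem gauss_le {δ : ℝ} (hδ : 0 < δ) (ξ : X → ℝ) {g : X → ℝ} (hg : ∀ a, 0 ≤ g a) (y : ℝ) {lam : ℝ}
    (hlam : 0 ≤ lam) (H : ∀ r, δ ≤ r → δ * ∑ a with |ξ a - y| ≤ r, g a ≤ lam * r) {τ : ℝ}
    (hτ : δ ^ 2 ≤ τ) : ∑ a, δ * gs τ (ξ a - y) * g a ≤ 16 * lam := by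
  have h0 : 0 < τ := lt_of_lt_of_le (by positivity) hτ
  have h1 : δ ≤ √τ := Real.le_sqrt_of_sq_le hτ
  have hr : 0 < √τ := Real.sqrt_pos.mpr h0
  obtain ⟨N, hN⟩ := pow_unbounded_of_one_lt ((∑ a, |ξ a - y|) / √τ) (by norm_num : (1 : ℝ) < 2)
  have hN' : ∀ a, |ξ a - y| ≤ 2 ^ N * √τ := fun a => by
    rw [div_lt_iff₀ hr] at hN
    exact (Finset.single_le_sum (f := fun a => |ξ a - y|) (fun a _ => abs_nonneg _)
      (Finset.mem_univ a)).trans hN.le
  calc ∑ a, δ * gs τ (ξ a - y) * g a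
      ≤ ∑ a, δ * ((√τ)⁻¹ * (8 * ∑ i ∈ Finset.range (N + 1),
          if |ξ a - y| ≤ 2 ^ i * √τ then (1 / 4 : ℝ) ^ i else 0)) * g a := by
        refine Finset.sum_le_sum fun a _ => mul_le_mul_of_nonneg_right
          (mul_le_mul_of_nonneg_left ((gs_le_exp h0 _).trans ?_) hδ.le) (hg a)
        exact mul_le_mul_of_nonneg_left (exp_le hr (hN' a)) (by positivity)
    _ = ∑ i ∈ Finset.range (N + 1), 8 * (√τ)⁻¹ * (1 / 4 : ℝ) ^ i *
          (δ * ∑ a with |ξ a - y| ≤ 2 ^ i * √τ, g a) := by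
        simp only [Finset.mul_sum, Finset.sum_mul, Finset.sum_filter]
        rw [Finset.sum_comm]
        refine Finset.sum_congr rfl fun i _ => Finset.sum_congr rfl fun a _ => ?_
        split_ifs <;> ring
    _ ≤ ∑ i ∈ Finset.range (N + 1), 8 * lam * (1 / 2 : ℝ) ^ i := by
        refine Finset.sum_le_sum fun i _ => ?_
        have h2 : δ ≤ 2 ^ i * √τ := h1.trans (le_mul_of_one_le_left hr.le (one_le_pow₀ (by norm_num)))
        refine (mul_le_mul_of_nonneg_left (H _ h2) (by positivity)).trans (le_of_eq ?_)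
        have : (1 / 2 : ℝ) ^ i = (1 / 4 : ℝ) ^ i * 2 ^ i := by rw [← mul_pow]; norm_num
        rw [this]
        field_simp
    _ ≤ 16 * lam := by
        rw [← Finset.mul_sum]
        have := sum_geometric_two_le (N + 1)
        nlinarith

open Classical in
/-- the number of separated points in an interval -/
theorem card_le {δ : ℝ} (hδ : 0 < δ) {η : Y → ℝ} (hη : Sep δ η) (c : ℝ) {R : ℝ} (hR : 0 ≤ R) :
    ((Finset.univ.filter fun b => |η b - c| ≤ R).card : ℝ) ≤ 2 * R / δ + 1 := by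
  have h1 : (Finset.univ.filter fun b => |η b - c| ≤ R).card ≤ (Finset.range (⌊2 * R / δ⌋₊ + 1)).card := by
    refine Finset.card_le_card_of_injOn (fun b => ⌊(η b - c + R) / δ⌋₊) (fun b hb => ?_) fun b hb b' hb' e => ?_
    · have hb' : |η b - c| ≤ R := by simpa using hb
      have := (abs_le.mp hb').2
      simp only [Finset.coe_range, mem_Iio]
      exact Nat.lt_succ_of_le (Nat.floor_le_floor (div_le_div_of_nonneg_right (by linarith) hδ.le))
    · by_contra hne
      have h2 := hη b b' hne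
      have h3 : |η b - c| ≤ R := by simpa using hb
      have h4 : |η b' - c| ≤ R := by simpa using hb'
      have h5 : 0 ≤ (η b - c + R) / δ := div_nonneg (by linarith [(abs_le.mp h3).1]) hδ.le
      have h6 : 0 ≤ (η b' - c + R) / δ := div_nonneg (by linarith [(abs_le.mp h4).1]) hδ.le
      have e' : ⌊(η b - c + R) / δ⌋₊ = ⌊(η b' - c + R) / δ⌋₊ := e
      have a1 := Nat.floor_le h5
      have a2 := Nat.lt_floor_add_one ((η b - c + R) / δ)
      have a3 := Nat.floor_le h6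
      have a4 := Nat.lt_floor_add_one ((η b' - c + R) / δ)
      rw [e'] at a1 a2
      have a5 : |(η b - c + R) / δ - (η b' - c + R) / δ| < 1 := abs_lt.mpr ⟨by linarith, by linarith⟩
      rw [← sub_div, abs_div, abs_of_pos hδ, div_lt_one hδ,
        show η b - c + R - (η b' - c + R) = η b - η b' by ring] at a5
      linarith
  rw [Finset.card_range] at h1
  have h2 : (⌊2 * R / δ⌋₊ : ℝ) ≤ 2 * R / δ := Nat.floor_le (by positivity)
  have h3 : ((Finset.univ.filter fun b => |η b - c| ≤ R).card : ℝ) ≤ (⌊2 * R / δ⌋₊ + 1 : ℕ) := by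
    exact_mod_cast h1
  push_cast at h3
  linarith

open Classical in
/-- the weak type inequality for averages over intervals -/
theorem weak {δ : ℝ} (hδ : 0 < δ) (ξ : X → ℝ) {η : Y → ℝ} (hη : Sep δ η) {g : X → ℝ} (hg : ∀ a, 0 ≤ g a)
    {lam : ℝ} (hlam : 0 ≤ lam) (T : Finset Y)
    (hT : ∀ b ∈ T, ∃ r, δ ≤ r ∧ lam * r < δ * ∑ a with |ξ a - η b| ≤ r, g a) :
    lam * T.card ≤ 11 * ∑ a, g a := by
  choose! r hr1 hr2 using hT
  obtain ⟨u, hu1, hu2, hu3⟩ := Vitali.exists_disjoint_subfamily_covering_enlargement_closedBall (T : Set Y) η r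
    (∑ b ∈ T, r b) (fun b hb => Finset.single_le_sum (f := r) (fun b hb => hδ.le.trans (hr1 b hb)) hb) 5
    (by norm_num)
  have hsub : T ⊆ u.toFinset.biUnion fun c => Finset.univ.filter fun b => |η b - η c| ≤ 5 * r c := by
    intro b hb
    obtain ⟨c, hc, h⟩ := hu3 b hb
    have := h (Metric.mem_closedBall_self (hδ.le.trans (hr1 b hb)))
    rw [Metric.mem_closedBall, Real.dist_eq] at this
    simp only [Finset.mem_biUnion, mem_toFinset, Finset.mem_filter, Finset.mem_univ, true_and]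
    exact ⟨c, hc, this⟩
  have h1 : (T.card : ℝ) ≤ ∑ c ∈ u.toFinset, 11 * r c / δ := by
    have h2 := (Finset.card_le_card hsub).trans Finset.card_biUnion_le
    have h3 : (T.card : ℝ) ≤
        ∑ c ∈ u.toFinset, ((Finset.univ.filter fun b => |η b - η c| ≤ 5 * r c).card : ℝ) := by
      exact_mod_cast h2
    refine h3.trans (Finset.sum_le_sum fun c hc => ?_)
    have h4 := hr1 c (hu1 (mem_toFinset.mp hc))
    refine (card_le hδ hη (η c) (by linarith)).trans ?_
    rw [div_add_one hδ.ne']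
    exact div_le_div_of_nonneg_right (by linarith) hδ.le
  calc lam * T.card ≤ lam * ∑ c ∈ u.toFinset, 11 * r c / δ := mul_le_mul_of_nonneg_left h1 hlam
    _ = 11 * ∑ c ∈ u.toFinset, lam * r c / δ := by
        simp only [Finset.mul_sum]
        exact Finset.sum_congr rfl fun c _ => by ring
    _ ≤ 11 * ∑ c ∈ u.toFinset, ∑ a with |ξ a - η c| ≤ r c, g a := by
        refine mul_le_mul_of_nonneg_left (Finset.sum_le_sum fun c hc => ?_) (by norm_num)
        rw [div_le_iff₀' hδ]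
        exact (hr2 c (hu1 (mem_toFinset.mp hc))).le
    _ ≤ 11 * ∑ a, g a := by
        refine mul_le_mul_of_nonneg_left ?_ (by norm_num)
        rw [← Finset.sum_biUnion]
        · exact Finset.sum_le_sum_of_subset_of_nonneg (Finset.subset_univ _) fun a _ _ => hg a
        · intro c hc c' hc' hne
          have h5 := hu2 (by simpa using hc) (by simpa using hc') hne
          refine Finset.disjoint_left.mpr fun a ha ha' => ?_
          refine (Set.disjoint_left.mp h5) (show ξ a ∈ _ from ?_) ?_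
          · rw [Metric.mem_closedBall, Real.dist_eq]; simpa using ha
          · rw [Metric.mem_closedBall, Real.dist_eq]; simpa using ha'

open Classical in
/-- the weak type inequality for the Gaussian maximal function -/
theorem weak_MM {δ : ℝ} (hδ : 0 < δ) {ξ : X → ℝ} {η : Y → ℝ} (hξ : Sep δ ξ) (hη : Sep δ η) {g : X → ℝ}
    (hg : ∀ a, 0 ≤ g a) {lam : ℝ} (hlam : 0 ≤ lam) :
    lam * (Finset.univ.filter fun b => 19 * lam < MM δ ξ g (η b)).card ≤
      11 * ∑ a, if lam < g a then g a else 0 := by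
  have hg' : ∀ a, 0 ≤ if lam < g a then g a else 0 := fun a => by
    split_ifs
    exacts [hg a, le_rfl]
  refine weak hδ ξ hη hg' hlam _ fun b hb => ?_
  by_contra hcon
  push Not at hcon
  have hb' : 19 * lam < MM δ ξ g (η b) := by simpa using hb
  refine absurd hb' (not_lt.mpr ?_)
  have : Nonempty (Ici (δ ^ 2)) := ⟨⟨δ ^ 2, mem_Ici.mpr le_rfl⟩⟩
  refine ciSup_le fun τ => ?_
  have h1 := gauss_le hδ ξ hg' (η b) hlam hcon τ.2
  have h2 := sum_gs_le hδ τ.2 hξ (η b)
  calc ∑ a, δ * gs τ (ξ a - η b) * g a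
      ≤ ∑ a, (δ * gs τ (ξ a - η b) * (if lam < g a then g a else 0) + lam * (δ * gs τ (ξ a - η b))) := by
        refine Finset.sum_le_sum fun a _ => ?_
        have h3 : 0 ≤ δ * gs τ (ξ a - η b) := mul_nonneg hδ.le (gs_nonneg _ _)
        split_ifs with h4
        · exact le_add_of_nonneg_right (mul_nonneg hlam h3)
        · rw [mul_zero, zero_add, mul_comm lam]
          exact mul_le_mul_of_nonneg_left (not_lt.mp h4) h3
    _ ≤ 16 * lam + lam * 3 := by
        rw [Finset.sum_add_distrib, ← Finset.mul_sum]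
        exact add_le_add h1 (mul_le_mul_of_nonneg_left h2 hlam)
    _ = 19 * lam := by ring

theorem integrable_ind {F : ℝ → ℝ} (hF : Continuous F) (μ : ℝ) : Integrable ((Ioo 0 μ).indicator F) :=
  (hF.integrableOn_Icc.mono_set Ioo_subset_Icc_self).integrable_indicator measurableSet_Ioo

theorem integral_ind (F : ℝ → ℝ) {μ : ℝ} (hμ : 0 ≤ μ) :
    ∫ s, (Ioo 0 μ).indicator F s = ∫ s in (0 : ℝ)..μ, F s := by
  rw [integral_indicator measurableSet_Ioo, intervalIntegral.integral_of_le hμ, integral_Ioc_eq_integral_Ioo]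

open Classical in
/-- layer cake -/
theorem layer {μ : Y → ℝ} (hμ : ∀ b, 0 ≤ μ b) {f : X → ℝ} {C : ℝ}
    (h : ∀ s, 0 < s → s ^ 2 * (Finset.univ.filter fun b => s < μ b).card ≤
      C * ∑ a, if s < |f a| then f a ^ 2 else 0) :
    ∑ b, μ b ^ 3 ≤ 3 * C * ∑ a, |f a| ^ 3 := by
  have h1 : ∀ s, ∑ b, (Ioo 0 (μ b)).indicator (fun s => s ^ 2) s ≤
      C * ∑ a, (Ioo 0 |f a|).indicator (fun _ => f a ^ 2) s := by
    intro s
    rcases le_or_gt s 0 with hs | hs
    · simp [indicator, hs.not_gt]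
    · have := h s hs
      simp only [indicator, mem_Ioo, hs, true_and]
      rw [← Finset.sum_filter, Finset.sum_const, nsmul_eq_mul, mul_comm]
      exact this
  have h2 := integral_mono
    (integrable_finsetSum _ fun b _ => integrable_ind (continuous_pow 2) (μ b))
    ((integrable_finsetSum _ fun a _ => integrable_ind continuous_const |f a|).const_mul C) h1
  rw [integral_finsetSum _ fun b _ => integrable_ind (continuous_pow 2) (μ b), integral_const_mul,
    integral_finsetSum _ fun a _ => integrable_ind continuous_const |f a|] at h2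
  simp only [integral_ind _ (hμ _), integral_ind _ (abs_nonneg _), integral_pow, intervalIntegral.integral_const,
    sub_zero, smul_eq_mul] at h2
  have h3 : ∑ a, |f a| * f a ^ 2 = ∑ a, |f a| ^ 3 := Finset.sum_congr rfl fun a _ => by
    rw [← sq_abs]; ring
  have h4 : ∑ b, μ b ^ 3 = 3 * ∑ b, (μ b ^ (2 + 1) - 0 ^ (2 + 1)) / ((2 : ℕ) + 1) := by
    rw [Finset.mul_sum]
    exact Finset.sum_congr rfl fun b _ => by push_cast; ring
  rw [h3] at h2
  rw [h4, mul_assoc]
  exact mul_le_mul_of_nonneg_left h2 (by norm_num)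

end MaxAux

open MaxAux in
theorem MM_bound : ∃ K > 0, ∀ (X Y : Type) [Fintype X] [Fintype Y] (δ : ℝ), 0 < δ →
    ∀ (ξ : X → ℝ) (η : Y → ℝ), Sep δ ξ → Sep δ η → ∀ f : X → ℝ,
      ∑ b, MM δ ξ (fun a => f a ^ 2) (η b) ^ (3 / 2 : ℝ) ≤ K * ∑ a, |f a| ^ 3 := by
  classical
  refine ⟨√19 ^ 3 * (3 * 11), by positivity, fun X Y _ _ δ hδ ξ η hξ hη f => ?_⟩
  have hm : ∀ b, 0 ≤ MM δ ξ (fun a => f a ^ 2) (η b) := fun b => MM_nonneg hδ ξ (fun a => sq_nonneg _) _
  have h := layer (μ := fun b => √(MM δ ξ (fun a => f a ^ 2) (η b) / 19)) (fun b => Real.sqrt_nonneg _)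
    (f := f) (C := 11) fun s hs => by
      have h1 := weak_MM hδ hξ hη (g := fun a => f a ^ 2) (fun a => sq_nonneg _) (sq_nonneg s)
      have e1 : (Finset.univ.filter fun b => s < √(MM δ ξ (fun a => f a ^ 2) (η b) / 19)) =
          Finset.univ.filter fun b => 19 * s ^ 2 < MM δ ξ (fun a => f a ^ 2) (η b) :=
        Finset.filter_congr fun b _ => by rw [Real.lt_sqrt hs.le, lt_div_iff₀' (by norm_num)]
      have e2 : ∀ a, s < |f a| ↔ s ^ 2 < f a ^ 2 := fun a => by
        rw [sq_lt_sq, abs_of_pos hs]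
      simp only [e1, e2]
      exact h1
  rw [mul_assoc]
  refine le_trans (le_of_eq ?_) (mul_le_mul_of_nonneg_left h (by positivity))
  rw [Finset.mul_sum]
  refine Finset.sum_congr rfl fun b _ => ?_
  rw [rpow32 (hm b), ← mul_pow, ← Real.sqrt_mul (by norm_num), mul_div_cancel₀ _ (by norm_num)]

/-- Young's inequality in the form used below -/
theorem young32 {h m : ℝ} (hh : 0 ≤ h) (hm : 0 ≤ m) : h * m ≤ h ^ 3 + m ^ (3 / 2 : ℝ) := by
  rw [MaxAux.rpow32 hm]
  obtain ⟨t, ht, rfl⟩ : ∃ t, 0 ≤ t ∧ m = t ^ 2 := ⟨√m, Real.sqrt_nonneg _, (Real.sq_sqrt hm).symm⟩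
  rw [Real.sqrt_sq ht]
  rcases le_total t h with h1 | h1
  · have : h * t ^ 2 ≤ h * h ^ 2 := mul_le_mul_of_nonneg_left (pow_le_pow_left₀ ht h1 2) hh
    have : 0 ≤ t ^ 3 := by positivity
    linarith
  · have : h * t ^ 2 ≤ t * t ^ 2 := mul_le_mul_of_nonneg_right h1 (sq_nonneg _)
    have : 0 ≤ h ^ 3 := by positivity
    linarith

end Crest.Agent.R72
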