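import Crest.Agent.R72.Flow
import Crest.Agent.R72.Mat2
import Crest.Agent.R72.Max

/-!
# Row 72: the total energy

PLANS.
* `flowE`: `flow` for `v⁻¹ • F`, `v⁻¹ • F'` (`Gm (v⁻¹ • F) = (v²)⁻¹ • Gm F`), multiply by `2v²`, Tonelli.
* `EN_le`: `EE_le`; `tr Gm = ∑ δ² g g f²`, `(tr)^(3/2) ≤ (∑ δ² g g)^(1/2) ∑ δ² g g |f|³ ≤ 3 ∑ δ² g g |f|³` (Hölder, `sum_gs_le`),
  `(s+t)^(3/2) ≤ √2 (s^(3/2) + t^(3/2))`, `lintegral_gs`.
* `EN_jump`: `EE_jump` with `P = Gm … f` resp. `P = 0`.  With `g₀ = gs σ (ξ a - p₀)`, `g₂ = gs (κσ) (ζ c - p₂)` the error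
  at `(a,c)` is at most `2 δ² g₀ g₂ |Δ| √α √β ≤ δ² g₀ g₂ |Δ| (α/l + l β)`, `α = ∑_{a'} δ gs σ (ξ a' - p₀) H a' c²`,
  `β = ∑_b δ gs (κσ) (η b - p₁) f a b² + ∑_{c'} δ gs (κσ) (ζ c' - p₂) H a c'²`; integrate over the plane
  (`lintegral_gs_mul_gs`, `lintegral_gs_mul_gs'`, `measurePreserving_rot`) and use `le_MM` at the variances
  `2σ`, `(1+2κ)σ`, `2κσ`.
-/

set_option autoImplicit false
set_option linter.unusedSectionVars false

namespace Crest.Agent.R72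

open MeasureTheory Set Matrix Filter Topology
open scoped ENNReal

variable {X Y Z : Type*} [Fintype X] [DecidableEq X] [Fintype Y] [DecidableEq Y] [Fintype Z]
  [DecidableEq Z]

theorem Gm_psd (σ τ : ℝ) (ξ : X → ℝ) (η : Y → ℝ) (F : Matrix X Y ℝ) (p q : ℝ) :
    (Gm σ τ ξ η F p q).PosSemidef := by
  have := posSemidef_self_mul_conjTranspose (Wm σ τ ξ η F p q)
  rwa [conjTranspose_eq_transpose_of_trivial] at this

theorem Gm_apply (σ τ : ℝ) (ξ : X → ℝ) (η : Y → ℝ) (F : Matrix X Y ℝ) (p q : ℝ) (a a' : X) :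
    Gm σ τ ξ η F p q a a' =
      √(gs σ (ξ a - p)) * √(gs σ (ξ a' - p)) * ∑ b, gs τ (η b - q) * (F a b * F a' b) := by
  simp only [Gm, Wm, mul_apply, transpose_apply, of_apply, Finset.mul_sum]
  refine Finset.sum_congr rfl fun b _ => ?_
  have := Real.mul_self_sqrt (gs_nonneg τ (η b - q))
  linear_combination (√(gs σ (ξ a - p)) * √(gs σ (ξ a' - p)) * (F a b * F a' b)) * this

theorem Wm_transpose (σ τ : ℝ) (ξ : X → ℝ) (η : Y → ℝ) (F : Matrix X Y ℝ) (p q : ℝ) :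
    (Wm σ τ ξ η F p q)ᵀ = Wm τ σ η ξ Fᵀ q p := by
  ext b a
  simp only [Wm, transpose_apply, of_apply]; ring

theorem measurable_Gm {α : Type*} [MeasurableSpace α] {σ τ p q : α → ℝ} (hσ : Measurable σ)
    (hτ : Measurable τ) (hp : Measurable p) (hq : Measurable q) (ξ : X → ℝ) (η : Y → ℝ)
    (F : Matrix X Y ℝ) (a a' : X) : Measurable fun t => Gm (σ t) (τ t) ξ η F (p t) (q t) a a' := by
  simp only [Gm_apply]
  fun_prop

namespace EnergyA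

theorem measurable_Gs {α : Type*} [MeasurableSpace α] {σ : α → ℝ} {p : α → ℝ × ℝ}
    (hσ : Measurable σ) (hp : Measurable p) (κ : ℝ) (ξ : X → ℝ) (η : Y → ℝ) (ζ : Z → ℝ)
    (F : Matrix X Y ℝ) (F' : Matrix X Z ℝ) (a a' : X) :
    Measurable fun t => Gs κ (σ t) ξ η ζ F F' (p t) a a' :=
  (measurable_Gm hσ (hσ.const_mul κ) hp.fst hp.snd ξ η F a a').add
    (measurable_Gm hσ (hσ.const_mul κ) hp.fst (hp.fst.neg.sub hp.snd) ξ ζ F' a a')

theorem measurable_uu {α : Type*} [MeasurableSpace α] {σ p : α → ℝ}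
    (hσ : Measurable σ) (hp : Measurable p) (ξ : X → ℝ) (a : X) :
    Measurable fun t => uu (σ t) ξ (p t) a := by
  simp only [uu]; fun_prop

theorem Gs_psd (κ σ : ℝ) (ξ : X → ℝ) (η : Y → ℝ) (ζ : Z → ℝ) (F : Matrix X Y ℝ)
    (F' : Matrix X Z ℝ) (p : ℝ × ℝ) : (Gs κ σ ξ η ζ F F' p).PosSemidef :=
  (Gm_psd _ _ _ _ _ _ _).add (Gm_psd _ _ _ _ _ _ _)

theorem Gm_smul (σ τ : ℝ) (ξ : X → ℝ) (η : Y → ℝ) (F : Matrix X Y ℝ) (p q v : ℝ) :
    (v ^ 2)⁻¹ • Gm σ τ ξ η F p q = Gm σ τ ξ η (v⁻¹ • F) p q := by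
  ext a a'
  simp only [Matrix.smul_apply, Gm_apply, smul_eq_mul, Finset.mul_sum]
  exact Finset.sum_congr rfl fun b _ => by ring

theorem Gs_smul (κ σ : ℝ) (ξ : X → ℝ) (η : Y → ℝ) (ζ : Z → ℝ) (F : Matrix X Y ℝ)
    (F' : Matrix X Z ℝ) (p : ℝ × ℝ) (v : ℝ) :
    (v ^ 2)⁻¹ • Gs κ σ ξ η ζ F F' p = Gs κ σ ξ η ζ (v⁻¹ • F) (v⁻¹ • F') p := by
  simp only [Gs, smul_add, Gm_smul]

theorem measurable_smul_entry {α : Type*} [MeasurableSpace α] {P : α → Matrix X X ℝ} {v : α → ℝ}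
    (hP : ∀ a b, Measurable fun t => P t a b) (hv : Measurable v) (a b : X) :
    Measurable fun t => ((v t ^ 2)⁻¹ • P t) a b :=
  ((hv.pow_const 2).inv).mul (hP a b)

theorem EE_three {A B C : Matrix X X ℝ} (hA : A.PosSemidef) (hB : B.PosSemidef)
    (hC : C.PosSemidef) : 2 * EE A + EE B + EE C = ∫⁻ v in Ioi (0 : ℝ), ENNReal.ofReal (2 * v ^ 2) *
      ENNReal.ofReal (2 * ell ((v ^ 2)⁻¹ • A) + ell ((v ^ 2)⁻¹ • B) + ell ((v ^ 2)⁻¹ • C)) := by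
  have hm : ∀ A : Matrix X X ℝ, Measurable fun v : ℝ =>
      ENNReal.ofReal (2 * v ^ 2 * ell ((v ^ 2)⁻¹ • A)) := fun A =>
    (((measurable_id.pow_const 2).const_mul 2).mul (measurable_ell (measurable_smul_entry
      (P := fun _ => A) (fun _ _ => measurable_const) measurable_id))).ennreal_ofReal
  rw [EE, EE, EE, ← lintegral_const_mul _ (hm A), ← lintegral_add_right _ (hm B),
    ← lintegral_add_right _ (hm C)]
  refine lintegral_congr fun v => ?_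
  have hv : (0 : ℝ) ≤ (v ^ 2)⁻¹ := by positivity
  have a1 := ell_nonneg (hA.smul hv)
  have a2 := ell_nonneg (hB.smul hv)
  have a3 := ell_nonneg (hC.smul hv)
  rw [← ENNReal.ofReal_ofNat 2, ← ENNReal.ofReal_mul (by norm_num),
    ← ENNReal.ofReal_add (by positivity) (by positivity),
    ← ENNReal.ofReal_add (by positivity) (by positivity), ← ENNReal.ofReal_mul (by positivity)]
  congr 1; ring

theorem EN_eq (κ σ : ℝ) (ξ : X → ℝ) (η : Y → ℝ) (ζ : Z → ℝ) (F : Matrix X Y ℝ)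
    (F' : Matrix X Z ℝ) : EN κ σ ξ η ζ F F' = ∫⁻ v in Ioi (0 : ℝ), ENNReal.ofReal (2 * v ^ 2) *
      ∫⁻ p : ℝ × ℝ, ENNReal.ofReal (2 * ell (Gs κ σ ξ η ζ (v⁻¹ • F) (v⁻¹ • F') p) +
        ell (Gm σ (κ * σ) ξ η (v⁻¹ • F) p.1 p.2) +
          ell (Gm σ (κ * σ) ξ ζ (v⁻¹ • F') p.1 (-p.1 - p.2))) := by
  simp only [EN, EE_three (Gs_psd _ _ _ _ _ _ _ _) (Gm_psd _ _ _ _ _ _ _) (Gm_psd _ _ _ _ _ _ _)]
  rw [lintegral_lintegral_swap]
  · refine lintegral_congr fun v => ?_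
    rw [lintegral_const_mul' _ _ ENNReal.ofReal_ne_top]
    simp only [Gm_smul, Gs_smul]
  · refine Measurable.aemeasurable (Measurable.mul
      ((measurable_snd.pow_const 2).const_mul 2).ennreal_ofReal (Measurable.ennreal_ofReal ?_))
    refine (((measurable_ell (measurable_smul_entry ?_ measurable_snd)).const_mul 2).add
      (measurable_ell (measurable_smul_entry ?_ measurable_snd))).add
      (measurable_ell (measurable_smul_entry ?_ measurable_snd))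
    · exact measurable_Gs measurable_const measurable_fst κ ξ η ζ F F'
    · exact measurable_Gm measurable_const measurable_const measurable_fst.fst measurable_fst.snd
        ξ η F
    · exact measurable_Gm measurable_const measurable_const measurable_fst.fst
        (measurable_fst.fst.neg.sub measurable_fst.snd) ξ ζ F'

theorem GN_eq (κ : ℝ) (s : Set ℝ) (ξ : X → ℝ) (η : Y → ℝ) (ζ : Z → ℝ) (F : Matrix X Y ℝ)
    (F' : Matrix X Z ℝ) : 4 * ∫⁻ σ in s, GN κ σ ξ η ζ F F' =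
      ∫⁻ v in Ioi (0 : ℝ), ENNReal.ofReal (2 * v ^ 2) * ∫⁻ σ in s, ∫⁻ p : ℝ × ℝ, ENNReal.ofReal
        (4 * gn (Gs κ σ ξ η ζ (v⁻¹ • F) (v⁻¹ • F') p) (Gs κ σ ξ η ζ (v⁻¹ • F) (v⁻¹ • F') p)
          (uu σ ξ p.1)) := by
  obtain ⟨f, hf⟩ : ∃ f : (ℝ × ℝ) × ℝ × ℝ → ℝ≥0∞, ∀ σ v p, f ((σ, v), p) = ENNReal.ofReal
      (2 * v ^ 2 * gn ((v ^ 2)⁻¹ • Gs κ σ ξ η ζ F F' p) ((v ^ 2)⁻¹ • Gs κ σ ξ η ζ F F' p)
        (uu σ ξ p.1)) ∧ Measurable f := by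
    refine ⟨fun t => ENNReal.ofReal (2 * t.1.2 ^ 2 * gn ((t.1.2 ^ 2)⁻¹ • Gs κ t.1.1 ξ η ζ F F' t.2)
      ((t.1.2 ^ 2)⁻¹ • Gs κ t.1.1 ξ η ζ F F' t.2) (uu t.1.1 ξ t.2.1)), fun σ v p => ⟨rfl, ?_⟩⟩
    have h1 := measurable_smul_entry (measurable_Gs (α := (ℝ × ℝ) × ℝ × ℝ) measurable_fst.fst
      measurable_snd κ ξ η ζ F F') measurable_fst.snd
    exact (((measurable_fst.snd.pow_const 2).const_mul 2).mul (measurable_gn h1 h1
      (measurable_uu measurable_fst.fst measurable_snd.fst ξ))).ennreal_ofReal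
  have hm : Measurable f := (hf 0 0 0).2
  have e1 : ∀ σ, GN κ σ ξ η ζ F F' = ∫⁻ v in Ioi (0 : ℝ), ∫⁻ p, f ((σ, v), p) := by
    intro σ
    rw [lintegral_lintegral_swap]
    · simp only [GN, GG, (hf _ _ _).1]
    · exact (hm.comp ((measurable_const.prodMk measurable_fst).prodMk measurable_snd)).aemeasurable
  simp only [e1]
  rw [lintegral_lintegral_swap hm.lintegral_prod_right'.aemeasurable,
    ← lintegral_const_mul' _ _ (by simp)]
  refine lintegral_congr fun v => ?_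
  rw [← lintegral_const_mul' _ _ (by simp), ← lintegral_const_mul' _ _ ENNReal.ofReal_ne_top]
  refine lintegral_congr fun σ => ?_
  rw [← lintegral_const_mul' _ _ (by simp), ← lintegral_const_mul' _ _ ENNReal.ofReal_ne_top]
  refine lintegral_congr fun p => ?_
  rw [(hf _ _ _).1, Gs_smul, ← ENNReal.ofReal_ofNat 4, ← ENNReal.ofReal_mul (by norm_num),
    ← ENNReal.ofReal_mul (by positivity)]
  congr 1; ring

/-- `g ≥ 0` is measurable with integral at most `I` -/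
structure LB (g : ℝ × ℝ → ℝ) (I : ℝ) : Prop where
  meas : Measurable g
  nonneg : ∀ p, 0 ≤ g p
  nonneg' : 0 ≤ I
  le : ∫⁻ p, ENNReal.ofReal (g p) ≤ ENNReal.ofReal I

theorem LB.add {g g' : ℝ × ℝ → ℝ} {I I' : ℝ} (h : LB g I) (h' : LB g' I') :
    LB (fun p => g p + g' p) (I + I') := by
  refine ⟨h.meas.add h'.meas, fun p => add_nonneg (h.nonneg p) (h'.nonneg p),
    add_nonneg h.nonneg' h'.nonneg', ?_⟩
  simp only [ENNReal.ofReal_add (h.nonneg _) (h'.nonneg _)]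
  rw [lintegral_add_left h.meas.ennreal_ofReal, ENNReal.ofReal_add h.nonneg' h'.nonneg']
  exact add_le_add h.le h'.le

theorem LB.sum {ι : Type*} (s : Finset ι) {g : ι → ℝ × ℝ → ℝ} {I : ι → ℝ}
    (h : ∀ i, LB (g i) (I i)) : LB (fun p => ∑ i ∈ s, g i p) (∑ i ∈ s, I i) := by
  classical
  induction s using Finset.induction_on with
  | empty => exact ⟨by simp, by simp, by simp, by simp⟩
  | insert a s ha ih => simp only [Finset.sum_insert ha]; exact (h a).add ih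

theorem LB.const_mul {g : ℝ × ℝ → ℝ} {I c : ℝ} (hc : 0 ≤ c) (h : LB g I) :
    LB (fun p => c * g p) (c * I) := by
  refine ⟨h.meas.const_mul c, fun p => mul_nonneg hc (h.nonneg p), mul_nonneg hc h.nonneg', ?_⟩
  simp only [ENNReal.ofReal_mul hc]
  rw [lintegral_const_mul _ h.meas.ennreal_ofReal]
  exact mul_le_mul_right h.le _

theorem LB.mono {g : ℝ × ℝ → ℝ} {I I' : ℝ} (h : LB g I) (hI : I ≤ I') : LB g I' :=
  ⟨h.meas, h.nonneg, h.nonneg'.trans hI, h.le.trans (ENNReal.ofReal_le_ofReal hI)⟩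

theorem LB.rot {g : ℝ × ℝ → ℝ} {I : ℝ} (h : LB g I) : LB (fun p => g (p.1, -p.1 - p.2)) I := by
  refine ⟨h.meas.comp (by fun_prop), fun p => h.nonneg _, h.nonneg', ?_⟩
  have := (measurePreserving_rot 0).lintegral_comp h.meas.ennreal_ofReal
  simp only [zero_sub] at this
  rw [this]; exact h.le

theorem LB.prod {u v : ℝ → ℝ} {I J : ℝ} (hu : Measurable u) (hv : Measurable v)
    (hu0 : ∀ x, 0 ≤ u x) (hv0 : ∀ x, 0 ≤ v x) (hI0 : 0 ≤ I) (hJ0 : 0 ≤ J)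
    (hI : ∫⁻ x, ENNReal.ofReal (u x) = ENNReal.ofReal I)
    (hJ : ∫⁻ x, ENNReal.ofReal (v x) = ENNReal.ofReal J) :
    LB (fun p => u p.1 * v p.2) (I * J) := by
  refine ⟨by fun_prop, fun p => mul_nonneg (hu0 _) (hv0 _), mul_nonneg hI0 hJ0, le_of_eq ?_⟩
  simp only [ENNReal.ofReal_mul (hu0 _)]
  rw [Measure.volume_eq_prod, lintegral_prod_mul hu.ennreal_ofReal.aemeasurable
    hv.ennreal_ofReal.aemeasurable, hI, hJ, ENNReal.ofReal_mul hI0]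

theorem LB_gg {σ τ : ℝ} (hσ : 0 < σ) (hτ : 0 < τ) (x y : ℝ) :
    LB (fun p => gs σ (x - p.1) * gs τ (y - p.2)) 1 := by
  simpa using LB.prod (u := fun p => gs σ (x - p)) (v := fun p => gs τ (y - p)) (I := 1) (J := 1)
    (by fun_prop) (by fun_prop) (fun _ => gs_nonneg _ _) (fun _ => gs_nonneg _ _) zero_le_one
    zero_le_one (by rw [lintegral_gs hσ, ENNReal.ofReal_one])
    (by rw [lintegral_gs hτ, ENNReal.ofReal_one])

theorem LB_a {σ τ : ℝ} (hσ : 0 < σ) (hτ : 0 < τ) (x x' z : ℝ) :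
    LB (fun p => gs σ (x' - p.1) * gs σ (x - p.1) * gs τ (z - (-p.1 - p.2)))
      (gs (σ + σ) (x' - x)) := by
  simpa using (LB.prod (u := fun p => gs σ (x' - p) * gs σ (x - p)) (v := fun p => gs τ (z - p))
    (J := 1) (by fun_prop) (by fun_prop) (fun _ => mul_nonneg (gs_nonneg _ _) (gs_nonneg _ _))
    (fun _ => gs_nonneg _ _) (gs_nonneg _ _) zero_le_one (lintegral_gs_mul_gs' hσ hσ x' x)
    (by rw [lintegral_gs hτ, ENNReal.ofReal_one])).rot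

theorem LB_c {σ τ : ℝ} (hσ : 0 < σ) (hτ : 0 < τ) (x z z' : ℝ) :
    LB (fun p => gs σ (x - p.1) * (gs τ (z' - (-p.1 - p.2)) * gs τ (z - (-p.1 - p.2))))
      (gs (τ + τ) (z' - z)) := by
  simpa using (LB.prod (u := fun p => gs σ (x - p)) (v := fun p => gs τ (z' - p) * gs τ (z - p))
    (I := 1) (by fun_prop) (by fun_prop) (fun _ => gs_nonneg _ _)
    (fun _ => mul_nonneg (gs_nonneg _ _) (gs_nonneg _ _)) zero_le_one (gs_nonneg _ _)
    (by rw [lintegral_gs hσ, ENNReal.ofReal_one]) (lintegral_gs_mul_gs' hτ hτ z' z)).rot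

theorem LB_b {σ τ : ℝ} (hσ : 0 < σ) (hτ : 0 < τ) (x y z : ℝ) :
    LB (fun p => gs σ (x - p.1) * (gs τ (y - p.2) * gs τ (z - (-p.1 - p.2))))
      (gs (σ + (τ + τ)) (y - (-x - z))) := by
  refine ⟨by fun_prop, fun p => mul_nonneg (gs_nonneg _ _)
    (mul_nonneg (gs_nonneg _ _) (gs_nonneg _ _)), gs_nonneg _ _, le_of_eq ?_⟩
  rw [Measure.volume_eq_prod, lintegral_prod _ (Measurable.aemeasurable (by fun_prop))]
  have e : ∀ p₀ : ℝ, ∫⁻ p₁ : ℝ, ENNReal.ofReal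
      (gs σ (x - p₀) * (gs τ (y - p₁) * gs τ (z - (-p₀ - p₁)))) =
      ENNReal.ofReal (gs σ (x - p₀) * gs (τ + τ) (y + z + p₀)) := by
    intro p₀
    simp only [ENNReal.ofReal_mul (gs_nonneg σ _)]
    rw [lintegral_const_mul' _ _ ENNReal.ofReal_ne_top, add_assoc y,
      ← lintegral_gs_mul_gs hτ hτ y (z + p₀)]
    congr 2; funext p₁; congr 3; ring
  simp only [e]
  rw [lintegral_gs_mul_gs hσ (add_pos hτ hτ)]
  congr 2; ring

theorem hold {ι : Type*} [Fintype ι] {w : ι → ℝ} (hw : ∀ i, 0 ≤ w i) (x : ι → ℝ) {r c W : ℝ}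
    (hr : 0 ≤ r) (hc : 0 < c) (hW : ∑ i, w i ≤ W) :
    r * ∑ i, w i * x i ^ 2 ≤ 2 * c / 3 * ∑ i, w i * |x i| ^ 3 + r ^ 3 / (3 * c ^ 2) * W := by
  refine le_trans ?_ (add_le_add_right (mul_le_mul_of_nonneg_left hW (by positivity)) _)
  rw [Finset.mul_sum, Finset.mul_sum, Finset.mul_sum, ← Finset.sum_add_distrib]
  refine Finset.sum_le_sum fun i _ => ?_
  have h : 0 ≤ w i * ((|x i| - r / c) ^ 2 * (2 * |x i| + r / c) * (c / 3)) := by
    have := hw i; positivity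
  have e : w i * ((|x i| - r / c) ^ 2 * (2 * |x i| + r / c) * (c / 3)) =
      2 * c / 3 * (w i * |x i| ^ 3) + r ^ 3 / (3 * c ^ 2) * w i - r * (w i * |x i| ^ 2) := by
    field_simp; ring
  rw [e, sq_abs] at h
  linarith

theorem rpow_three_half {s : ℝ} (hs : 0 ≤ s) : s ^ (3 / 2 : ℝ) = √s ^ 3 := by
  rw [Real.sqrt_eq_rpow, ← Real.rpow_natCast, ← Real.rpow_mul hs]; norm_num

/-- the local `L³` norm -/
noncomputable def T3 (δ σ τ : ℝ) (ξ : X → ℝ) (η : Y → ℝ) (f : Matrix X Y ℝ) (p q : ℝ) : ℝ :=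
  ∑ a, ∑ b, δ ^ 2 * |f a b| ^ 3 * (gs σ (ξ a - p) * gs τ (η b - q))

theorem T3_nonneg (δ σ τ : ℝ) (ξ : X → ℝ) (η : Y → ℝ) (f : Matrix X Y ℝ) (p q : ℝ) :
    0 ≤ T3 δ σ τ ξ η f p q :=
  Finset.sum_nonneg fun _ _ => Finset.sum_nonneg fun _ _ =>
    mul_nonneg (by positivity) (mul_nonneg (gs_nonneg _ _) (gs_nonneg _ _))

theorem trace_hold {δ σ τ : ℝ} (hδ : 0 < δ) (hσ : δ ^ 2 ≤ σ) (hτ : δ ^ 2 ≤ τ) {ξ : X → ℝ}
    {η : Y → ℝ} (hξ : Sep δ ξ) (hη : Sep δ η) (f : Matrix X Y ℝ) (p q : ℝ) {r c : ℝ} (hr : 0 ≤ r)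
    (hc : 0 < c) : r * (Gm σ τ ξ η (δ • f) p q).trace ≤
      2 * c / 3 * T3 δ σ τ ξ η f p q + r ^ 3 / (3 * c ^ 2) * 9 := by
  have h := hold (ι := X × Y) (w := fun i => δ * gs σ (ξ i.1 - p) * (δ * gs τ (η i.2 - q)))
    (fun i => mul_nonneg (mul_nonneg hδ.le (gs_nonneg _ _)) (mul_nonneg hδ.le (gs_nonneg _ _)))
    (fun i => f i.1 i.2) hr hc (W := 9) (by
      simp only [Fintype.sum_prod_type]
      rw [← Finset.sum_mul_sum]
      refine (mul_le_mul (sum_gs_le hδ hσ hξ p) (sum_gs_le hδ hτ hη q)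
        (Finset.sum_nonneg fun _ _ => mul_nonneg hδ.le (gs_nonneg _ _)) (by norm_num)).trans ?_
      norm_num)
  convert h using 3
  · simp only [trace, diag_apply, Gm_apply, Fintype.sum_prod_type, Finset.mul_sum,
      Real.mul_self_sqrt (gs_nonneg _ _), Matrix.smul_apply, smul_eq_mul]
    exact Finset.sum_congr rfl fun a _ => Finset.sum_congr rfl fun b _ => by ring
  · simp only [T3, Fintype.sum_prod_type]
    exact Finset.sum_congr rfl fun a _ => Finset.sum_congr rfl fun b _ => by ring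

theorem EE_le' {G : Matrix X X ℝ} (hG : G.PosSemidef) {T : ℝ}
    (h : ∀ r, 0 ≤ r → r * G.trace ≤ 2 / 3 * T + r ^ 3 / 3) : EE G ≤ ENNReal.ofReal ((5 / 2) * T) := by
  refine (EE_le hG).trans (ENNReal.ofReal_le_ofReal ?_)
  have h0 : 0 ≤ G.trace := hG.trace_nonneg
  have h1 := h _ (Real.sqrt_nonneg G.trace)
  have h2 : √G.trace * G.trace = √G.trace ^ 3 := by
    conv_lhs => rw [← Real.sq_sqrt h0, Real.sqrt_sq (Real.sqrt_nonneg _)]
    ring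
  rw [rpow_three_half h0]
  have h3 : Real.pi / √2 ≤ (5 / 2) := by
    have h4 : (1.4 : ℝ) ≤ √2 := Real.le_sqrt_of_sq_le (by norm_num)
    rw [div_le_iff₀ (by linarith)]
    have := Real.pi_lt_d2
    linarith
  exact mul_le_mul h3 (by linarith) (by positivity) (by norm_num)

theorem jump_pt {g₀ g₂ δ D A A' B α β l : ℝ} (h₀ : 0 ≤ g₀) (h₂ : 0 ≤ g₂) (hδ : 0 ≤ δ) (hD : 0 ≤ D)
    (hα : 0 ≤ α) (hβ : 0 ≤ β) (hl : 0 < l) (hA : A ≤ δ * g₂ * α) (hA' : A' ≤ δ * g₂ * α)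
    (hB : B ≤ δ * g₀ * β) :
    √g₀ * (δ * D) * √g₂ * ((√A' + √A) * √B) ≤ δ ^ 2 * D * (g₀ * g₂ * (l⁻¹ * α + l * β)) := by
  have a1 := Real.sqrt_le_sqrt hA
  have a2 := Real.sqrt_le_sqrt hA'
  have a3 := Real.sqrt_le_sqrt hB
  rw [Real.sqrt_mul (by positivity), Real.sqrt_mul hδ] at a1 a2 a3
  have a4 : (√A' + √A) * √B ≤ (2 * (√δ * √g₂ * √α)) * (√δ * √g₀ * √β) :=
    mul_le_mul (by linarith) a3 (Real.sqrt_nonneg _) (by positivity)
  refine (mul_le_mul_of_nonneg_left a4 (by positivity)).trans ?_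
  have a5 : 2 * (√α * √β) ≤ l⁻¹ * α + l * β := by
    have h1 : 0 ≤ l⁻¹ * (√α - l * √β) ^ 2 := by positivity
    have h2 : l⁻¹ * (√α - l * √β) ^ 2 = l⁻¹ * √α ^ 2 + l * √β ^ 2 - 2 * (√α * √β) := by
      field_simp; ring
    rw [h2, Real.sq_sqrt hα, Real.sq_sqrt hβ] at h1
    linarith
  have e : √g₀ * (δ * D) * √g₂ * (2 * (√δ * √g₂ * √α) * (√δ * √g₀ * √β)) =
      δ * √δ ^ 2 * D * (√g₀ ^ 2 * √g₂ ^ 2 * (2 * (√α * √β))) := by ring
  rw [e, Real.sq_sqrt hδ, Real.sq_sqrt h₀, Real.sq_sqrt h₂, ← sq]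
  gcongr

theorem Wm_sq_le {σ τ δ : ℝ} (ξ : X → ℝ) (ζ : Z → ℝ) {c H : Matrix X Z ℝ}
    (hc : ∀ a z, |c a z| ≤ H a z) (p q : ℝ) (a : X) (z : Z) :
    Wm σ τ ξ ζ (δ • c) p q a z ^ 2 ≤ δ ^ 2 * (gs σ (ξ a - p) * gs τ (ζ z - q)) * H a z ^ 2 := by
  have h : c a z ^ 2 ≤ H a z ^ 2 := by
    rw [← sq_abs]; exact pow_le_pow_left₀ (abs_nonneg _) (hc a z) 2
  simp only [Wm, of_apply, Matrix.smul_apply, smul_eq_mul, mul_pow, Real.sq_sqrt (gs_nonneg _ _)]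
  have := mul_le_mul_of_nonneg_left h (mul_nonneg (sq_nonneg δ)
    (mul_nonneg (gs_nonneg σ (ξ a - p)) (gs_nonneg τ (ζ z - q))))
  linarith

theorem EE_jump' {σ τ δ l : ℝ} (hδ : 0 < δ) (hl : 0 < l) (ξ : X → ℝ) (ζ : Z → ℝ)
    {c c' H : Matrix X Z ℝ} (hc : ∀ a z, |c a z| ≤ H a z) (hc' : ∀ a z, |c' a z| ≤ H a z)
    (p q : ℝ) {P : Matrix X X ℝ} (hP : P.PosSemidef) {β : X → ℝ} (hβ : ∀ a, 0 ≤ β a)
    (hPβ : ∀ a, P a a ≤ δ * gs σ (ξ a - p) * β a) :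
    EE (P + Gm σ τ ξ ζ (δ • c') p q) ≤ EE (P + Gm σ τ ξ ζ (δ • c) p q) +
      ENNReal.ofReal (Real.pi * ∑ a, ∑ z, δ ^ 2 * |c' a z - c a z| *
        (gs σ (ξ a - p) * gs τ (ζ z - q) * (l⁻¹ * (∑ a', δ * gs σ (ξ a' - p) * H a' z ^ 2) +
          l * (β a + ∑ z', δ * gs τ (ζ z' - q) * H a z' ^ 2)))) := by
  refine (EE_jump hP _ _).trans (add_le_add_right (ENNReal.ofReal_le_ofReal
    (mul_le_mul_of_nonneg_left ?_ Real.pi_pos.le)) _)
  refine Finset.sum_le_sum fun a _ => Finset.sum_le_sum fun z _ => ?_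
  have e : |Wm σ τ ξ ζ (δ • c') p q a z - Wm σ τ ξ ζ (δ • c) p q a z| =
      √(gs σ (ξ a - p)) * (δ * |c' a z - c a z|) * √(gs τ (ζ z - q)) := by
    simp only [Wm, of_apply, Matrix.smul_apply, smul_eq_mul]
    rw [← sub_mul, ← mul_sub, ← mul_sub, abs_mul, abs_mul, abs_mul, abs_of_pos hδ,
      abs_of_nonneg (Real.sqrt_nonneg _), abs_of_nonneg (Real.sqrt_nonneg _)]
  have hcol : ∀ {c : Matrix X Z ℝ}, (∀ a z, |c a z| ≤ H a z) →
      ∑ a', Wm σ τ ξ ζ (δ • c) p q a' z ^ 2 ≤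
        δ * gs τ (ζ z - q) * ∑ a', δ * gs σ (ξ a' - p) * H a' z ^ 2 := by
    intro c hc
    rw [Finset.mul_sum]
    exact Finset.sum_le_sum fun a' _ => (Wm_sq_le ξ ζ hc p q a' z).trans (le_of_eq (by ring))
  rw [e]
  refine jump_pt (gs_nonneg _ _) (gs_nonneg _ _) hδ.le (abs_nonneg _)
    (Finset.sum_nonneg fun _ _ => mul_nonneg (mul_nonneg hδ.le (gs_nonneg _ _)) (sq_nonneg _))
    (add_nonneg (hβ a) (Finset.sum_nonneg fun _ _ =>
      mul_nonneg (mul_nonneg hδ.le (gs_nonneg _ _)) (sq_nonneg _))) hl (hcol hc) (hcol hc') ?_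
  rw [mul_add, Finset.mul_sum]
  exact add_le_add (hPβ a) (Finset.sum_le_sum fun z' _ =>
    (Wm_sq_le ξ ζ hc' p q a z').trans (le_of_eq (by ring)))

end EnergyA

open EnergyA

theorem measurable_GN (κ : ℝ) (ξ : X → ℝ) (η : Y → ℝ) (ζ : Z → ℝ) (F : Matrix X Y ℝ)
    (F' : Matrix X Z ℝ) : Measurable fun σ => GN κ σ ξ η ζ F F' := by
  have h1 := measurable_Gs (α := ℝ × ℝ × ℝ) measurable_fst measurable_snd κ ξ η ζ F F'
  exact (measurable_GG h1 h1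
    (measurable_uu measurable_fst measurable_snd.fst ξ)).lintegral_prod_right'

theorem flowE {κ σ₀ σ₁ : ℝ} (hκ : 1 ≤ κ) (h₀ : 0 < σ₀) (h₁ : σ₀ ≤ σ₁) (ξ : X → ℝ) (η : Y → ℝ)
    (ζ : Z → ℝ) (F : Matrix X Y ℝ) (F' : Matrix X Z ℝ) :
    4 * (∫⁻ σ in Ioc σ₀ σ₁, GN κ σ ξ η ζ F F') + EN κ σ₁ ξ η ζ F F' ≤ EN κ σ₀ ξ η ζ F F' := by
  rw [GN_eq, EN_eq, EN_eq]
  refine (le_lintegral_add _ _).trans (lintegral_mono fun v => ?_)
  rw [← mul_add]
  exact mul_le_mul_right (flow hκ h₀ h₁ ξ η ζ _ _) _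

theorem EN_le {κ σ δ : ℝ} (hκ : 1 ≤ κ) (hδ : 0 < δ) (hσ : δ ^ 2 ≤ σ) {ξ : X → ℝ} {η : Y → ℝ}
    {ζ : Z → ℝ} (hξ : Sep δ ξ) (hη : Sep δ η) (hζ : Sep δ ζ) (f : Matrix X Y ℝ) (f' : Matrix X Z ℝ) :
    EN κ σ ξ η ζ (δ • f) (δ • f') ≤ ENNReal.ofReal (30 * (N3 δ f + N3 δ f')) := by
  have hσ0 : 0 < σ := lt_of_lt_of_le (by positivity) hσ
  have hτ : δ ^ 2 ≤ κ * σ := hσ.trans (le_mul_of_one_le_left hσ0.le hκ)
  have hτ0 : 0 < κ * σ := lt_of_lt_of_le (by positivity) hτ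
  have hL : LB (fun p => 30 * (T3 δ σ (κ * σ) ξ η f p.1 p.2 +
      T3 δ σ (κ * σ) ξ ζ f' p.1 (-p.1 - p.2))) (30 * (N3 δ f + N3 δ f')) := by
    refine LB.const_mul (by norm_num) (LB.add ?_ ?_)
    · exact LB.sum _ fun a => LB.sum _ fun b =>
        ((LB_gg hσ0 hτ0 (ξ a) (η b)).const_mul (by positivity)).mono (mul_one _).le
    · exact LB.sum _ fun a => LB.sum _ fun b =>
        ((LB_gg hσ0 hτ0 (ξ a) (ζ b)).rot.const_mul (by positivity)).mono (mul_one _).le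
  refine le_trans (lintegral_mono fun p => ?_) hL.le
  have n1 := T3_nonneg δ σ (κ * σ) ξ η f p.1 p.2
  have n2 := T3_nonneg δ σ (κ * σ) ξ ζ f' p.1 (-p.1 - p.2)
  have b1 := EE_le' (Gm_psd σ (κ * σ) ξ η (δ • f) p.1 p.2)
    (T := 3 * T3 δ σ (κ * σ) ξ η f p.1 p.2) fun r hr => by
      have := trace_hold hδ hσ hτ hξ hη f p.1 p.2 hr (c := 3) (by norm_num)
      linarith
  have b2 := EE_le' (Gm_psd σ (κ * σ) ξ ζ (δ • f') p.1 (-p.1 - p.2))
    (T := 3 * T3 δ σ (κ * σ) ξ ζ f' p.1 (-p.1 - p.2)) fun r hr => by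
      have := trace_hold hδ hσ hτ hξ hζ f' p.1 (-p.1 - p.2) hr (c := 3) (by norm_num)
      linarith
  have b3 := EE_le' (Gs_psd κ σ ξ η ζ (δ • f) (δ • f') p)
    (T := (9 / 2) * (T3 δ σ (κ * σ) ξ η f p.1 p.2 + T3 δ σ (κ * σ) ξ ζ f' p.1 (-p.1 - p.2)))
    fun r hr => by
      have a1 := trace_hold hδ hσ hτ hξ hη f p.1 p.2 hr (c := (9 / 2)) (by norm_num)
      have a2 := trace_hold hδ hσ hτ hξ hζ f' p.1 (-p.1 - p.2) hr (c := (9 / 2)) (by norm_num)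
      have a3 : 0 ≤ r ^ 3 := by positivity
      have e : r ^ 3 / (3 * (9 / 2) ^ 2) * 9 = 4 / 27 * r ^ 3 := by ring
      rw [e] at a1 a2
      rw [Gs, trace_add, mul_add]
      linarith
  refine (add_le_add (add_le_add (mul_le_mul_right b3 2) b1) b2).trans ?_
  rw [← ENNReal.ofReal_ofNat 2, ← ENNReal.ofReal_mul (by norm_num),
    ← ENNReal.ofReal_add (by positivity) (by positivity),
    ← ENNReal.ofReal_add (by positivity) (by positivity)]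
  exact ENNReal.ofReal_le_ofReal (by linarith)

theorem EN_jump {κ σ δ l : ℝ} (hκ : 1 ≤ κ) (hδ : 0 < δ) (hσ : δ ^ 2 ≤ σ) (hl : 0 < l) (ξ : X → ℝ)
    (η : Y → ℝ) (ζ : Z → ℝ) (f : Matrix X Y ℝ) {c c' H : Matrix X Z ℝ} (hc : ∀ a z, |c a z| ≤ H a z)
    (hc' : ∀ a z, |c' a z| ≤ H a z) :
    EN κ σ ξ η ζ (δ • f) (δ • c') ≤ EN κ σ ξ η ζ (δ • f) (δ • c) +
      ENNReal.ofReal (10 * ∑ a, ∑ z, δ ^ 2 * |c' a z - c a z| *
        (l⁻¹ * MM δ ξ (fun a' => H a' z ^ 2) (ξ a) + l * (MM δ η (fun b => f a b ^ 2) (-ξ a - ζ z) +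
          MM δ ζ (fun z' => H a z' ^ 2) (ζ z)))) := by
  have hσ0 : 0 < σ := lt_of_lt_of_le (by positivity) hσ
  have hτ : δ ^ 2 ≤ κ * σ := hσ.trans (le_mul_of_one_le_left hσ0.le hκ)
  have hτ0 : 0 < κ * σ := lt_of_lt_of_le (by positivity) hτ
  obtain ⟨E, hE⟩ : ∃ E : ℝ × ℝ → ℝ, E = fun p => ∑ a, ∑ z, δ ^ 2 * |c' a z - c a z| *
      (gs σ (ξ a - p.1) * gs (κ * σ) (ζ z - (-p.1 - p.2)) *
        (l⁻¹ * (∑ a', δ * gs σ (ξ a' - p.1) * H a' z ^ 2) +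
          l * (∑ b, δ * gs (κ * σ) (η b - p.2) * f a b ^ 2 +
            ∑ z', δ * gs (κ * σ) (ζ z' - (-p.1 - p.2)) * H a z' ^ 2))) := ⟨_, rfl⟩
  have hL : LB E (∑ a, ∑ z, δ ^ 2 * |c' a z - c a z| *
        (l⁻¹ * MM δ ξ (fun a' => H a' z ^ 2) (ξ a) + l * (MM δ η (fun b => f a b ^ 2) (-ξ a - ζ z) +
          MM δ ζ (fun z' => H a z' ^ 2) (ζ z)))) := by
    rw [hE]
    refine LB.sum _ fun a => LB.sum _ fun z => LB.const_mul (by positivity) ?_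
    have l1 := (LB.sum Finset.univ fun a' => (LB_a hσ0 hτ0 (ξ a) (ξ a') (ζ z)).const_mul
      (c := δ * H a' z ^ 2) (by positivity)).mono (I' := MM δ ξ (fun a' => H a' z ^ 2) (ξ a))
      (le_trans (le_of_eq (Finset.sum_congr rfl fun _ _ => mul_right_comm _ _ _))
        (le_MM hδ ξ (fun _ => sq_nonneg _) _ (by linarith)))
    have l2 := (LB.sum Finset.univ fun b => (LB_b hσ0 hτ0 (ξ a) (η b) (ζ z)).const_mul
      (c := δ * f a b ^ 2) (by positivity)).mono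
      (I' := MM δ η (fun b => f a b ^ 2) (-ξ a - ζ z))
      (le_trans (le_of_eq (Finset.sum_congr rfl fun _ _ => mul_right_comm _ _ _))
        (le_MM hδ η (fun _ => sq_nonneg _) _ (by linarith)))
    have l3 := (LB.sum Finset.univ fun z' => (LB_c hσ0 hτ0 (ξ a) (ζ z) (ζ z')).const_mul
      (c := δ * H a z' ^ 2) (by positivity)).mono (I' := MM δ ζ (fun z' => H a z' ^ 2) (ζ z))
      (le_trans (le_of_eq (Finset.sum_congr rfl fun _ _ => mul_right_comm _ _ _))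
        (le_MM hδ ζ (fun _ => sq_nonneg _) _ (by linarith)))
    convert (l1.const_mul (inv_pos.2 hl).le).add ((l2.add l3).const_mul hl.le) using 2 with p
    simp only [mul_add, Finset.mul_sum]
    congr 1
    · exact Finset.sum_congr rfl fun _ _ => by ring
    · congr 1 <;> exact Finset.sum_congr rfl fun _ _ => by ring
  refine le_trans ?_ (add_le_add_right (hL.const_mul (c := 10) (by norm_num)).le _)
  rw [EN, EN, ← lintegral_add_right _ (hL.meas.const_mul 10).ennreal_ofReal]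
  refine lintegral_mono fun p => ?_
  have hβ : ∀ a, 0 ≤ ∑ b, δ * gs (κ * σ) (η b - p.2) * f a b ^ 2 := fun a =>
    Finset.sum_nonneg fun _ _ => mul_nonneg (mul_nonneg hδ.le (gs_nonneg _ _)) (sq_nonneg _)
  have j1 := EE_jump' (σ := σ) (τ := κ * σ) hδ hl ξ ζ hc hc' p.1 (-p.1 - p.2)
    (Gm_psd σ (κ * σ) ξ η (δ • f) p.1 p.2) hβ fun a => le_of_eq (by
      simp only [Gm_apply, Real.mul_self_sqrt (gs_nonneg _ _), Finset.mul_sum, Matrix.smul_apply,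
        smul_eq_mul]
      exact Finset.sum_congr rfl fun _ _ => by ring)
  have j2 := EE_jump' (σ := σ) (τ := κ * σ) hδ hl ξ ζ hc hc' p.1 (-p.1 - p.2)
    PosSemidef.zero hβ fun a => mul_nonneg (mul_nonneg hδ.le (gs_nonneg _ _)) (hβ a)
  rw [zero_add, zero_add] at j2
  have hEp := congrFun hE p
  rw [← hEp] at j1 j2
  have h3 : 3 * ENNReal.ofReal (Real.pi * E p) ≤ ENNReal.ofReal (10 * E p) := by
    rw [← ENNReal.ofReal_ofNat 3, ← ENNReal.ofReal_mul (by norm_num), ← mul_assoc]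
    refine ENNReal.ofReal_le_ofReal (mul_le_mul_of_nonneg_right ?_ (hL.nonneg p))
    have := Real.pi_lt_d2
    linarith
  refine (add_le_add (add_le_add_left (mul_le_mul_right j1 2) _) j2).trans
    (le_trans (le_of_eq ?_) (add_le_add_right h3 _))
  simp only [Gs]
  ring

end Crest.Agent.R72
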