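import Crest.Agent.R72.LinB

/-!
# Row 72: variation and count (S0095, S0096)

PLAN for `variation`.  Fix `2 < r' < r`, `S i = annulusCount (2^i) F G z`, `M = ⨆ i, 2^(-i(1-1/r')) S i`.  For a chain with
increments `b j`: if `#{j | λ < b j} ≥ 2^i` then `2^i λ ≤ S i`; so `b j ≤ M`, `#{j | λ < b j} ≤ 2 (M/λ)^r'`, and
`∑ b j^r ≤ C M^r`.  `M^(3/2) ≤ ∑' i, (2^(-i(1-1/r')) S i)^(3/2)`, `lintegral_tsum`, `count_bound`, geometric series.
-/

set_option autoImplicit false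

namespace Crest.Agent.R72

open MeasureTheory Set Matrix Filter Topology
open scoped ENNReal

open Crest.AnalysisR

theorem fin_dyad {ι : Type*} {b : ι → ℝ≥0∞} {l : ℕ → ℝ≥0∞} {r : ℝ} (hr : 0 ≤ r)
    (h : ∀ (i : ℕ) (T : Finset ι), T.card = 2 ^ i → ∃ j ∈ T, b j ≤ l i) (I : ℕ) :
    ∀ A : Finset ι, A.card < 2 ^ I → ∑ j ∈ A, b j ^ r ≤ ∑ i ∈ Finset.range I, 2 ^ (i + 1) * l i ^ r := by
  induction I with
  | zero => intro A hA; simp [Finset.card_eq_zero.1 (Nat.lt_one_iff.1 hA)]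
  | succ I ih =>
    intro A hA
    rw [Finset.sum_range_succ, ← Finset.sum_filter_not_add_sum_filter A fun j => b j ≤ l I]
    refine add_le_add (ih _ (lt_of_not_ge fun h' => ?_)) ?_
    · obtain ⟨T, h1, h2⟩ := Finset.exists_subset_card_eq h'
      obtain ⟨j, h3, h4⟩ := h I T h2
      exact (Finset.mem_filter.1 (h1 h3)).2 h4
    · refine (Finset.sum_le_card_nsmul _ _ _ fun j hj =>
        ENNReal.rpow_le_rpow (Finset.mem_filter.1 hj).2 hr).trans ?_
      rw [nsmul_eq_mul]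
      gcongr
      exact_mod_cast (Finset.card_filter_le _ _).trans hA.le

theorem fin_sum_rpow (y : ℕ → ℝ≥0∞) {q : ℝ} (hq : 1 ≤ q) (I : ℕ) :
    ∑ i ∈ Finset.range I, y i ^ q ≤ (∑ i ∈ Finset.range I, y i) ^ q := by
  induction I with
  | zero => simp
  | succ I ih =>
    rw [Finset.sum_range_succ, Finset.sum_range_succ]
    exact (add_le_add_left ih _).trans (ENNReal.add_rpow_le_rpow_add _ _ hq)

theorem fin_var {r : ℝ} (hr : 3 / 2 ≤ r) (F G : ℝ × ℝ → ℂ) (z : ℝ × ℝ) :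
    annularVariation r F G z ^ (3 / 2 : ℝ) ≤
      ∑' i : ℕ, 2 ^ ((i + 1 - i * r) * (3 / (2 * r))) * annulusCount (2 ^ i) F G z ^ (3 / 2 : ℝ) := by
  have h0 : 0 < r := by linarith
  rw [← ENNReal.le_rpow_inv_iff (by norm_num)]
  refine iSup_le fun J => iSup_le fun t => iSup_le fun ht => iSup_le fun ht0 => ?_
  rw [one_div, ENNReal.rpow_inv_le_iff h0, ← ENNReal.rpow_mul]
  refine (fin_dyad (l := fun i => 2 ^ (-i : ℝ) * annulusCount (2 ^ i) F G z) h0.le (fun i T hT => ?_) _ _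
    Nat.lt_two_pow_self).trans (le_trans (Finset.sum_le_sum fun i _ => le_of_eq ?_)
      ((fin_sum_rpow _ (by linarith [show (3 / 2 : ℝ)⁻¹ * r = 2 / 3 * r by norm_num]) _).trans
        (ENNReal.rpow_le_rpow (ENNReal.sum_le_tsum _) (by positivity))))
  · obtain ⟨j, h1, h2⟩ := T.exists_min_image (fun j =>
      ‖annularTriangularHT F G (t j.castSucc) (t j.succ) z‖ₑ) (Finset.card_pos.1 (hT ▸ Nat.two_pow_pos i))
    refine ⟨j, h1, ?_⟩
    let e := T.orderEmbOfFin hT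
    have h3 := lb_cnt_iff.1 (lb_count_eq (2 ^ i) F G z).ge _ le_rfl (fun k => t (e k).castSucc)
      (fun k => t (e k).succ) (fun k => ⟨ht0.trans_le (ht.monotone (Fin.zero_le _)), ht Fin.castSucc_lt_succ⟩)
      (fun k k' hk => hk.lt_or_gt.imp (fun h => ht.monotone (Fin.succ_le_castSucc_iff.2 (e.strictMono h)))
        fun h => ht.monotone (Fin.succ_le_castSucc_iff.2 (e.strictMono h))) (by simp)
    refine le_trans (le_of_eq ?_) (mul_le_mul_right ((Finset.card_nsmul_le_sum _ _ _ fun k _ =>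
      h2 _ (T.orderEmbOfFin_mem hT k)).trans h3) _)
    rw [Finset.card_fin, nsmul_eq_mul, ← mul_assoc, ENNReal.rpow_neg, ENNReal.rpow_natCast, Nat.cast_pow,
      Nat.cast_ofNat, ENNReal.inv_mul_cancel (by simp) (by simp), one_mul]
  · rw [ENNReal.mul_rpow_of_nonneg _ _ h0.le, ENNReal.mul_rpow_of_nonneg _ _ (by positivity),
      ← ENNReal.rpow_natCast, ← mul_assoc]
    simp only [← ENNReal.rpow_mul]
    rw [← ENNReal.rpow_add _ _ (by norm_num) (by norm_num)]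
    congr 2
    · push_cast; field_simp; ring
    · ring

theorem count_log :
    ∃ C : ℝ, ∀ n : ℕ, 1 ≤ n → ∀ F G : ℝ × ℝ → ℂ,
      MeasureTheory.MemLp F 3 MeasureTheory.volume → MeasureTheory.MemLp G 3 MeasureTheory.volume →
        (∫⁻ z, Crest.AnalysisR.annulusCount n F G z ^ (3 / 2 : ℝ)) ^ (2 / 3 : ℝ) ≤
          ENNReal.ofReal (C * Real.sqrt n * Real.log (2 + n)) *
            MeasureTheory.eLpNorm F 3 MeasureTheory.volume *
            MeasureTheory.eLpNorm G 3 MeasureTheory.volume := by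
  obtain ⟨C, hC, H⟩ := count_bound
  refine ⟨C, fun n hn F G hF hG => ?_⟩
  rw [show (2 / 3 : ℝ) = (3 / 2)⁻¹ by norm_num, ENNReal.rpow_inv_le_iff (by norm_num)]
  refine (H n hn F G hF hG).trans ?_
  gcongr (ENNReal.ofReal ?_ * _ * _) ^ _
  refine le_mul_of_one_le_right (by positivity) ((Real.le_log_iff_exp_le (by positivity)).2 ?_)
  have : (1 : ℝ) ≤ n := by exact_mod_cast hn
  linarith [Real.exp_one_lt_d9]

theorem variation (r : ℝ) (hr : 2 < r) :
    ∃ C : ℝ, ∀ F G : ℝ × ℝ → ℂ,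
      MeasureTheory.MemLp F 3 MeasureTheory.volume → MeasureTheory.MemLp G 3 MeasureTheory.volume →
        (∫⁻ z, Crest.AnalysisR.annularVariation r F G z ^ (3 / 2 : ℝ)) ^ (2 / 3 : ℝ) ≤
          ENNReal.ofReal C * MeasureTheory.eLpNorm F 3 MeasureTheory.volume *
            MeasureTheory.eLpNorm G 3 MeasureTheory.volume := by
  obtain ⟨C, hC, H⟩ := count_bound
  set u : ℝ≥0∞ := 2 ^ (3 / (2 * r) - 3 / 4)
  have hu : u < 1 := ENNReal.rpow_lt_one_of_one_lt_of_neg (by norm_num) (by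
    rw [sub_neg, div_lt_div_iff_of_pos_left] <;> linarith)
  set D : ℝ≥0∞ := (2 ^ (3 / (2 * r)) * (1 - u)⁻¹) ^ (2 / 3 : ℝ) * ENNReal.ofReal C with hD
  have hD' : D ≠ ⊤ := ENNReal.mul_ne_top (ENNReal.rpow_ne_top_of_nonneg (by norm_num) (ENNReal.mul_ne_top
    (ENNReal.rpow_ne_top_of_nonneg (by positivity) (by norm_num))
    (ENNReal.inv_ne_top.2 (tsub_pos_of_lt hu).ne'))) ENNReal.ofReal_ne_top
  refine ⟨D.toReal, fun F G hF hG => ?_⟩
  rw [ENNReal.ofReal_toReal hD', show (2 / 3 : ℝ) = (3 / 2)⁻¹ by norm_num,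
    ENNReal.rpow_inv_le_iff (by norm_num)]
  refine (lintegral_mono fun z => fin_var (by linarith) F G z).trans ?_
  rw [lintegral_tsum fun i => ((aemeasurable_count _ hF.1 hG.1).pow_const _).const_mul _]
  refine (ENNReal.tsum_le_tsum (g := fun i => 2 ^ (3 / (2 * r)) * u ^ i *
    (ENNReal.ofReal C * eLpNorm F 3 volume * eLpNorm G 3 volume) ^ (3 / 2 : ℝ)) fun i => ?_).trans_eq ?_
  · rw [lintegral_const_mul'' _ ((aemeasurable_count _ hF.1 hG.1).pow_const _)]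
    refine (mul_le_mul_right (H _ Nat.one_le_two_pow F G hF hG) _).trans_eq ?_
    have h1 : ENNReal.ofReal (C * √((2 ^ i : ℕ) : ℝ)) = 2 ^ (i / 2 : ℝ) * ENNReal.ofReal C := by
      rw [ENNReal.ofReal_mul hC.le, mul_comm, Real.sqrt_eq_rpow, Nat.cast_pow, ← Real.rpow_natCast,
        ← Real.rpow_mul (by norm_num), ← ENNReal.ofReal_rpow_of_pos (by norm_num), mul_one_div]
      simp
    rw [h1, mul_assoc (2 ^ (i / 2 : ℝ)), mul_assoc (2 ^ (i / 2 : ℝ)),
      ENNReal.mul_rpow_of_nonneg (2 ^ (i / 2 : ℝ)) _ (by norm_num), ← mul_assoc, ← ENNReal.rpow_natCast u,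
      ← ENNReal.rpow_mul, ← ENNReal.rpow_mul, ← ENNReal.rpow_add _ _ (by norm_num) (by norm_num),
      ← ENNReal.rpow_add _ _ (by norm_num) (by norm_num)]
    congr 2
    field_simp
    ring
  · rw [ENNReal.tsum_mul_right, ENNReal.tsum_mul_left, ENNReal.tsum_geometric, hD, mul_assoc _ (ENNReal.ofReal C),
      mul_assoc _ (ENNReal.ofReal C * _), ENNReal.mul_rpow_of_nonneg (_ ^ (2 / 3 : ℝ)) _ (by norm_num),
      ← ENNReal.rpow_mul]
    norm_num

end Crest.Agent.R72
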