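import Crest.Agent.R72.Flow_C

/-!
# Row 72: monotonicity of the energy along the heat flow

PLAN.  `G₁ = Gm σ (κσ) ξ η F p₀ p₁` has entries `h a h a' ∑_b gs (κσ) (η b - p₁) F a b F a' b`,
`h a = √(gs σ (ξ a - p₀))`, `∂_{p₀} h = u h`, `∂_σ h = (u² - 1/(4σ)) h`, `u = uu σ ξ p₀`, `∂_{p₀} u = -1/(2σ)`.
`G = G₁ + G₂`, `R = Rs G`, `φ = ph G`, `U = diagonal u`, `K = U G + G U`, `Hᵢ = ∂ᵢ Gᵢ`, `Jᵢ = ∂ᵢ² Gᵢ` (derivatives in the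
centre of the second window), `Q(H,H') = tr (R H R H')`.
* Along a differentiable path: `(log det (1+G))' = tr (R G')` (Jacobi; `Matrix.det_one_add_smul` or multilinearity),
  `R' = - R G' R`; so `(ell G)' = tr (φ G')`, `(tr (φ H))' = tr (φ H') + Q(G', H)`.
* `∂_σ G = (U² - 1/(4σ)) G + G (U² - 1/(4σ)) + κ/2 (J₁ + J₂)`, `∂₀² G = U² G + 2 U G U + G U² - G/σ`.
* On the plane `p₂ = -p₀ - p₁`: `Ψa = tr (φ (K + H₂))/2`, `Ψb = tr (φ (κ H₁ - (1+κ) H₂))/2`;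
  `∂_{p₀} Ψa = (tr (φ (∂₀²G - J₂)) + Q(K - H₂, K + H₂))/2`,
  `∂_{p₁} Ψb = (tr (φ (κ J₁ + (1+κ) J₂)) + Q(H₁ - H₂, κ H₁ - (1+κ) H₂))/2`, and the algebraic identity
  `tr (φ ((U²G + GU²)/2 - UGU)) - Q(K,K)/2 = -2 tr (φ U φ U)` (substitute `G = N - 1`, `R N = 1`) gives
  `∂_σ ell G = ∂_{p₀} Ψa + ∂_{p₁} Ψb - 2 gn G G u - κ/2 (Q₁₁ + Q₂₂) + (1+2κ)/2 Q₁₂`.
* All these functions are continuous and bounded by `C exp (-c (p₀² + p₁²))` for `σ ∈ [σ₀, σ₁]` (entries of `R, φ` are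
  bounded by `1`; use a predicate closed under sums, bounded factors and linear factors); so Fubini, the
  fundamental theorem in `σ` and `integral_eq_zero_of_hasDerivAt_of_integrable` in `p₀`, `p₁` give
  `∫ ell(σ₁) - ∫ ell(σ₀) = ∫∫ (-2 gn - κ/2 (Q₁₁ + Q₂₂) + (1+2κ)/2 Q₁₂)`.
* Apply this to `(F, F')`, `(F, 0)`, `(0, F')`.  `2 Q₁₂ ≤ Q₁₁ + Q₂₂` (`Q(H₁-H₂,H₁-H₂) ≥ 0`) and
  `Q^G(Hᵢ,Hᵢ) ≤ Q^{Gᵢ}(Hᵢ,Hᵢ)` (`Rs_anti`, `trace_quad_mono`).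
-/

set_option autoImplicit false

namespace Crest.Agent.R72

open MeasureTheory Set Matrix Filter Topology
open scoped ENNReal

variable {X Y Z : Type*} [Fintype X] [DecidableEq X] [Fintype Y] [DecidableEq Y] [Fintype Z]
  [DecidableEq Z]

omit [Fintype X] [DecidableEq X] in
theorem MD.congr {G : ℝ → Matrix X X ℝ} {G' G'' : Matrix X X ℝ} {t : ℝ} (h : MD G G' t)
    (e : G' = G'') : MD G G'' t := e ▸ h

theorem flow_alg {G : Matrix X X ℝ} (hG : G.PosSemidef) (U A B J₁ J₂ : Matrix X X ℝ) (κ s : ℝ) :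
    (ph G * ((U * U - s • 1) * G + G * (U * U - s • 1) + (κ / 2) • (J₁ + J₂))).trace =
      2⁻¹ * ((ph G * (U * (U * G + G * U) + (U * G + G * U) * U - (4 * s) • G - J₂)).trace +
        QQ G (U * G + G * U + B) (U * G + G * U - B)) +
      2⁻¹ * ((ph G * (κ • J₁ + (1 + κ) • J₂)).trace + QQ G (B - A) ((1 + κ) • B - κ • A)) +
      (-2 * (ph G * U * ph G * U).trace - κ / 2 * (QQ G A A + QQ G B B) +
        (1 + 2 * κ) / 2 * QQ G A B) := by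
  have h := key_identity hG U
  rw [QQ_add_left G _ B, QQ_sub_right, QQ_sub_right, QQ_comm G B (_ + _), QQ_sub_left, QQ_sub_right,
    QQ_sub_right, QQ_smul_right, QQ_smul_right, QQ_smul_right, QQ_smul_right, QQ_comm G B A]
  simp only [Matrix.mul_add, Matrix.add_mul, Matrix.mul_sub, Matrix.sub_mul, Matrix.smul_mul,
    Matrix.mul_smul, Matrix.one_mul, Matrix.mul_one, trace_add, trace_sub, trace_smul, smul_eq_mul,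
    Matrix.mul_assoc] at h ⊢
  linarith

/-- the Gram matrix at a vertex -/
noncomputable def GT (κ : ℝ) (ξ : X → ℝ) (η : Y → ℝ) (ζ : Z → ℝ) (F : Matrix X Y ℝ)
    (F' : Matrix X Z ℝ) (z : ℝ × ℝ × ℝ) : Matrix X X ℝ :=
  WW gs κ 0 (-1) ξ η F z + WW gs κ 1 1 ξ ζ F' z

/-- the source term of the flow -/
noncomputable def DT (κ : ℝ) (ξ : X → ℝ) (η : Y → ℝ) (ζ : Z → ℝ) (F : Matrix X Y ℝ)
    (F' : Matrix X Z ℝ) (z : ℝ × ℝ × ℝ) : ℝ :=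
  -2 * gn (GT κ ξ η ζ F F' z) (GT κ ξ η ζ F F' z) (uu z.1 ξ z.2.1) -
    κ / 2 * (QQ (GT κ ξ η ζ F F' z) (WW d1 κ 0 (-1) ξ η F z) (WW d1 κ 0 (-1) ξ η F z) +
      QQ (GT κ ξ η ζ F F' z) (WW d1 κ 1 1 ξ ζ F' z) (WW d1 κ 1 1 ξ ζ F' z)) +
    (1 + 2 * κ) / 2 * QQ (GT κ ξ η ζ F F' z) (WW d1 κ 0 (-1) ξ η F z) (WW d1 κ 1 1 ξ ζ F' z)

section

variable {κ σ₀ σ₁ : ℝ} (ξ : X → ℝ) (η : Y → ℝ) (ζ : Z → ℝ) (F : Matrix X Y ℝ) (F' : Matrix X Z ℝ)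

omit [DecidableEq X] [DecidableEq Y] [DecidableEq Z] in
theorem GT_psd (z : ℝ × ℝ × ℝ) : (GT κ ξ η ζ F F' z).PosSemidef :=
  (WW_psd ξ η F z).add (WW_psd ξ ζ F' z)

omit [Fintype X] [DecidableEq X] [DecidableEq Y] [DecidableEq Z] in
theorem GT_RD (hκ : 0 < κ) (h₀ : 0 < σ₀) : RD σ₀ σ₁ (GT κ ξ η ζ F F') :=
  (RD.W0 h₀ hκ (by simp) (by simp) ξ η F).add (RD.W0 h₀ hκ (by simp) (by simp) ξ ζ F')

omit [DecidableEq Y] [DecidableEq Z] in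
theorem DT_Bd (hκ : 0 < κ) (h₀ : 0 < σ₀) : Bd σ₀ σ₁ (-2) (DT κ ξ η ζ F F') := by
  have hG := GT_RD (σ₁ := σ₁) ξ η ζ F F' hκ h₀
  have hp := GT_psd (κ := κ) ξ η ζ F F'
  have hA : RD σ₀ σ₁ (WW d1 κ 0 (-1) ξ η F) := RD.W1 h₀ hκ (by simp) (by simp) ξ η F
  have hB : RD σ₀ σ₁ (WW d1 κ 1 1 ξ ζ F') := RD.W1 h₀ hκ (by simp) (by simp) ξ ζ F'
  exact (((hG.gn hp (Bd.uu h₀ ξ)).const_mul _).sub
    (((hG.QQ hp hA hA).add (hG.QQ hp hB hB)).const_mul _)).add ((hG.QQ hp hA hB).const_mul _)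

omit [DecidableEq Y] [DecidableEq Z] in
theorem flow_id (hκ : 0 < κ) (h₀ : 0 < σ₀) (h₁ : σ₀ ≤ σ₁) :
    (∫ p, ell (GT κ ξ η ζ F F' (σ₁, p))) - ∫ p, ell (GT κ ξ η ζ F F' (σ₀, p)) =
      ∫ z, DT κ ξ η ζ F F' z ∂((volume.restrict (Ioc σ₀ σ₁)).prod volume) := by
  have hG := GT_RD (σ₁ := σ₁) ξ η ζ F F' hκ h₀
  have hp := GT_psd (κ := κ) ξ η ζ F F'
  have hA : RD σ₀ σ₁ (WW d1 κ 0 (-1) ξ η F) := RD.W1 h₀ hκ (by simp) (by simp) ξ η F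
  have hB : RD σ₀ σ₁ (WW d1 κ 1 1 ξ ζ F') := RD.W1 h₀ hκ (by simp) (by simp) ξ ζ F'
  have hJ₁ : RD σ₀ σ₁ (WW d2 κ 0 (-1) ξ η F) := RD.W2 h₀ hκ (by simp) (by simp) ξ η F
  have hJ₂ : RD σ₀ σ₁ (WW d2 κ 1 1 ξ ζ F') := RD.W2 h₀ hκ (by simp) (by simp) ξ ζ F'
  have hU : MB σ₀ σ₁ 1 fun z => diagonal (uu z.1 ξ z.2.1) := MB.diagonal (Bd.uu h₀ ξ)
  have hK := (hG.mul_left hU).add (hG.mul_right hU)
  have hG' : RD σ₀ σ₁ fun z => (4 * (1 / (4 * z.1))) • GT κ ξ η ζ F F' z := fun N a b => by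
    convert (Bd.inv h₀).mul (hG N a b) using 2 with z
    · simp
    · simp only [Matrix.smul_apply, smul_eq_mul]; ring
  refine div_identity h₁ (hG.ell hp) ((hG.ph_mul hp (hK.sub hB)).const_mul 2⁻¹)
    (((hG.ph_mul hp ((((hK.mul_left hU).add (hK.mul_right hU)).sub hG').sub hJ₂)).add
      (hG.QQ hp (hK.add hB) (hK.sub hB))).const_mul 2⁻¹)
    ((hG.ph_mul hp ((hB.smul (1 + κ)).sub (hA.smul κ))).const_mul 2⁻¹)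
    (((hG.ph_mul hp ((hJ₁.smul κ).add (hJ₂.smul (1 + κ)))).add
      (hG.QQ hp (hB.sub hA) ((hB.smul (1 + κ)).sub (hA.smul κ)))).const_mul 2⁻¹)
    (DT_Bd ξ η ζ F F' hκ h₀) (fun σ hσ p => ?_) (fun σ hσ p q => ?_) fun σ hσ p q => ?_
  · have hσ0 := h₀.trans_le hσ.1
    refine (MD.ell (G := fun s => GT κ ξ η ζ F F' (s, p)) ((WW_s ξ η F p.1 p.2 hσ0 hκ).add
      (WW_s ξ ζ F' p.1 p.2 hσ0 hκ)) (hp _)).congr_deriv ?_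
    refine Eq.trans ?_ (flow_alg (hp (σ, p)) _ _ _ _ _ κ (1 / (4 * σ)))
    congr 2
    simp only [GT, Matrix.mul_add, Matrix.add_mul, smul_add]
    abel
  · have hσ0 := h₀.trans_le hσ.1
    have hκσ := mul_pos hκ hσ0
    have dG : MD (fun s => GT κ ξ η ζ F F' (σ, s, q)) (diagonal (uu σ ξ p) * GT κ ξ η ζ F F' (σ, p, q) +
        GT κ ξ η ζ F F' (σ, p, q) * diagonal (uu σ ξ p) + WW d1 κ 1 1 ξ ζ F' (σ, p, q)) p := by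
      refine ((WW_p (ω' := d1) ξ η F p q hσ0 (hasDerivAt_gs hκσ)).add
        (WW_p (ω' := d1) ξ ζ F' p q hσ0 (hasDerivAt_gs hκσ))).congr ?_
      simp only [GT, Matrix.mul_add, Matrix.add_mul, zero_smul, one_smul]
      abel
    have dU := UU_p (σ := σ) ξ p
    refine (dG.ph_mul (Eventually.of_forall fun _ => hp _) ((((dU.mul dG).add (dG.mul dU)).sub
      (WW_p (ω' := d2) ξ ζ F' p q hσ0 (hasDerivAt_d1 hκσ))).congr ?_)).const_mul 2⁻¹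
    rw [show 4 * (1 / (4 * σ)) = 1 / (2 * σ) + 1 / (2 * σ) by ring]
    simp only [Matrix.mul_add, Matrix.add_mul, one_smul, Matrix.smul_mul, Matrix.mul_smul,
      Matrix.one_mul, Matrix.mul_one, add_smul, neg_smul, Matrix.neg_mul, Matrix.mul_neg]
    abel
  · have hκσ := mul_pos hκ (h₀.trans_le hσ.1)
    have dG : MD (fun s => GT κ ξ η ζ F F' (σ, p, s))
        (WW d1 κ 1 1 ξ ζ F' (σ, p, q) - WW d1 κ 0 (-1) ξ η F (σ, p, q)) q := by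
      refine ((WW_q (ω' := d1) ξ η F p q (hasDerivAt_gs hκσ)).add
        (WW_q (ω' := d1) ξ ζ F' p q (hasDerivAt_gs hκσ))).congr ?_
      simp only [neg_smul, one_smul]
      abel
    refine (dG.ph_mul (Eventually.of_forall fun _ => hp _)
      ((((WW_q (ω' := d2) ξ ζ F' p q (hasDerivAt_d1 hκσ)).smul (1 + κ)).sub
      ((WW_q (ω' := d2) ξ η F p q (hasDerivAt_d1 hκσ)).smul κ)).congr ?_)).const_mul 2⁻¹
    simp only [neg_smul, one_smul, smul_neg]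
    abel

omit [DecidableEq Y] [DecidableEq Z] in
theorem DT_le (hκ : 1 ≤ κ) (z : ℝ × ℝ × ℝ) :
    2 * DT κ ξ η ζ F F' z + DT κ ξ η ζ F 0 z + DT κ ξ η ζ 0 F' z ≤
      -(4 * gn (GT κ ξ η ζ F F' z) (GT κ ξ η ζ F F' z) (uu z.1 ξ z.2.1)) := by
  have hp := GT_psd (κ := κ) ξ η ζ F F' z
  have h1 := gn_nonneg (GT_psd (κ := κ) ξ η ζ F 0 z) (GT_psd (κ := κ) ξ η ζ F 0 z) (uu z.1 ξ z.2.1)
  have h2 := gn_nonneg (GT_psd (κ := κ) ξ η ζ 0 F' z) (GT_psd (κ := κ) ξ η ζ 0 F' z) (uu z.1 ξ z.2.1)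
  obtain ⟨A, hA⟩ : ∃ A, A = WW d1 κ 0 (-1) ξ η F z := ⟨_, rfl⟩
  obtain ⟨B, hB⟩ : ∃ B, B = WW d1 κ 1 1 ξ ζ F' z := ⟨_, rfl⟩
  have sA : Aᵀ = A := by rw [hA]; exact Gw_symm _ _ _
  have sB : Bᵀ = B := by rw [hB]; exact Gw_symm _ _ _
  have h3 := QQ_anti (Q := GT κ ξ η ζ F F' z) (GT_psd (κ := κ) ξ η ζ F 0 z)
    (by simpa [GT, WW_zero] using WW_psd ξ ζ F' z) sA
  have h4 := QQ_anti (Q := GT κ ξ η ζ F F' z) (GT_psd (κ := κ) ξ η ζ 0 F' z)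
    (by simpa [GT, WW_zero] using WW_psd ξ η F z) sB
  have h5 := QQ_nonneg hp (H := A - B) (by rw [transpose_sub, sA, sB])
  rw [QQ_sub_left, QQ_sub_right, QQ_sub_right, QQ_comm _ B A] at h5
  have h6 := QQ_nonneg hp sA
  have h7 := QQ_nonneg hp sB
  simp only [DT, WW_zero, QQ_zero, QQ_comm _ 0, ← hA, ← hB]
  nlinarith

omit [Fintype X] [DecidableEq X] [DecidableEq Y] in
theorem Gm_eq_WW (σ p q c₀ c₁ r : ℝ) (h : r = -(c₀ * p + c₁ * q)) :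
    Gm σ (κ * σ) ξ η F p r = WW gs κ c₀ c₁ ξ η F (σ, p, q) := by
  ext a a'
  simp only [Gm, Wm, WW, Gw, hw, mul_apply, transpose_apply, of_apply, Finset.mul_sum]
  refine Finset.sum_congr rfl fun b _ => ?_
  rw [show η b + c₀ * p + c₁ * q = η b - r by rw [h]; ring]
  linear_combination (√(gs σ (ξ a - p)) * √(gs σ (ξ a' - p)) * F a b * F a' b) *
    Real.mul_self_sqrt (gs_nonneg (κ * σ) (η b - r))

end

theorem flow {κ σ₀ σ₁ : ℝ} (hκ : 1 ≤ κ) (h₀ : 0 < σ₀) (h₁ : σ₀ ≤ σ₁) (ξ : X → ℝ) (η : Y → ℝ)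
    (ζ : Z → ℝ) (F : Matrix X Y ℝ) (F' : Matrix X Z ℝ) :
    (∫⁻ σ in Ioc σ₀ σ₁, ∫⁻ p : ℝ × ℝ, ENNReal.ofReal
        (4 * gn (Gs κ σ ξ η ζ F F' p) (Gs κ σ ξ η ζ F F' p) (uu σ ξ p.1))) +
      ∫⁻ p : ℝ × ℝ, ENNReal.ofReal (2 * ell (Gs κ σ₁ ξ η ζ F F' p) +
        ell (Gm σ₁ (κ * σ₁) ξ η F p.1 p.2) + ell (Gm σ₁ (κ * σ₁) ξ ζ F' p.1 (-p.1 - p.2))) ≤
      ∫⁻ p : ℝ × ℝ, ENNReal.ofReal (2 * ell (Gs κ σ₀ ξ η ζ F F' p) +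
        ell (Gm σ₀ (κ * σ₀) ξ η F p.1 p.2) + ell (Gm σ₀ (κ * σ₀) ξ ζ F' p.1 (-p.1 - p.2))) := by
  have hκ0 : 0 < κ := one_pos.trans_le hκ
  have e1 : ∀ σ (p : ℝ × ℝ), Gm σ (κ * σ) ξ η F p.1 p.2 = GT κ ξ η ζ F 0 (σ, p) := fun σ p => by
    rw [GT, WW_zero, add_zero]; exact Gm_eq_WW _ _ _ _ _ _ _ _ _ (by ring)
  have e2 : ∀ σ (p : ℝ × ℝ), Gm σ (κ * σ) ξ ζ F' p.1 (-p.1 - p.2) = GT κ ξ η ζ 0 F' (σ, p) :=
    fun σ p => by rw [GT, WW_zero, zero_add]; exact Gm_eq_WW _ _ _ _ _ _ _ _ _ (by ring)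
  have e3 : ∀ σ (p : ℝ × ℝ), Gs κ σ ξ η ζ F F' p = GT κ ξ η ζ F F' (σ, p) := fun σ p => by
    simp only [Gs, e1, e2, GT, WW_zero, add_zero, zero_add]
  simp only [e1, e2, e3]
  have hE := fun (F : Matrix X Y ℝ) (F' : Matrix X Z ℝ) =>
    (GT_RD (σ₁ := σ₁) ξ η ζ F F' hκ0 h₀).ell (GT_psd ξ η ζ F F')
  have hD := fun (F : Matrix X Y ℝ) (F' : Matrix X Z ℝ) =>
    (DT_Bd (σ₁ := σ₁) ξ η ζ F F' hκ0 h₀).int_prod
  have hg := ((GT_RD (σ₁ := σ₁) ξ η ζ F F' hκ0 h₀).gn (GT_psd ξ η ζ F F') (Bd.uu h₀ ξ)).const_mul 4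
  have hg0 : ∀ z : ℝ × ℝ × ℝ, 0 ≤ 4 * gn (GT κ ξ η ζ F F' z) (GT κ ξ η ζ F F' z) (uu z.1 ξ z.2.1) :=
    fun z => mul_nonneg (by norm_num) (gn_nonneg (GT_psd ξ η ζ F F' z) (GT_psd ξ η ζ F F' z) _)
  have hl0 : ∀ z, 0 ≤ 2 * ell (GT κ ξ η ζ F F' z) + ell (GT κ ξ η ζ F 0 z) + ell (GT κ ξ η ζ 0 F' z) :=
    fun z => add_nonneg (add_nonneg (mul_nonneg (by norm_num) (ell_nonneg (GT_psd ξ η ζ _ _ z)))
      (ell_nonneg (GT_psd ξ η ζ _ _ z))) (ell_nonneg (GT_psd ξ η ζ _ _ z))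
  have key : ∀ σ ∈ Icc σ₀ σ₁, ∫⁻ p : ℝ × ℝ, ENNReal.ofReal (2 * ell (GT κ ξ η ζ F F' (σ, p)) +
      ell (GT κ ξ η ζ F 0 (σ, p)) + ell (GT κ ξ η ζ 0 F' (σ, p))) =
      ENNReal.ofReal (2 * (∫ p, ell (GT κ ξ η ζ F F' (σ, p))) + (∫ p, ell (GT κ ξ η ζ F 0 (σ, p))) +
        ∫ p, ell (GT κ ξ η ζ 0 F' (σ, p))) := fun σ hσ => by
    have i1 := ((hE F F').int_slice hσ).const_mul 2
    have i2 := (hE F 0).int_slice hσ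
    have i3 := (hE 0 F').int_slice hσ
    rw [← integral_const_mul, ← integral_add i1 i2, ← integral_add (i1.fun_add i2) i3]
    exact (ofReal_integral_eq_lintegral_ofReal ((i1.add i2).add i3)
      (ae_of_all _ fun p => hl0 (σ, p))).symm
  have nn : 0 ≤ 2 * (∫ p, ell (GT κ ξ η ζ F F' (σ₁, p))) + (∫ p, ell (GT κ ξ η ζ F 0 (σ₁, p))) +
      ∫ p, ell (GT κ ξ η ζ 0 F' (σ₁, p)) := by
    have := fun (F : Matrix X Y ℝ) (F' : Matrix X Z ℝ) => integral_nonneg (μ := volume)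
      (f := fun p => ell (GT κ ξ η ζ F F' (σ₁, p))) fun p => ell_nonneg (GT_psd ξ η ζ F F' _)
    linarith [this F F', this F 0, this 0 F']
  rw [key σ₁ ⟨h₁, le_rfl⟩, key σ₀ ⟨le_rfl, h₁⟩,
    ← lintegral_prod (fun z : ℝ × ℝ × ℝ => ENNReal.ofReal
      (4 * gn (GT κ ξ η ζ F F' z) (GT κ ξ η ζ F F' z) (uu z.1 ξ z.2.1)))
      hg.1.ennreal_ofReal.aemeasurable,
    ← ofReal_integral_eq_lintegral_ofReal hg.int_prod (ae_of_all _ hg0),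
    ← ENNReal.ofReal_add (integral_nonneg hg0) nn]
  refine ENNReal.ofReal_le_ofReal ?_
  have h := integral_mono ((((hD F F').const_mul 2).add (hD F 0)).add (hD 0 F')) hg.int_prod.neg
    fun z => DT_le ξ η ζ F F' hκ z
  simp only [Pi.add_apply, Pi.neg_apply] at h
  rw [integral_add (((hD F F').const_mul 2).fun_add (hD F 0)) (hD 0 F'),
    integral_add ((hD F F').const_mul 2) (hD F 0), integral_const_mul, integral_neg,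
    ← flow_id ξ η ζ F F' hκ0 h₀ h₁, ← flow_id ξ η ζ F 0 hκ0 h₀ h₁, ← flow_id ξ η ζ 0 F' hκ0 h₀ h₁] at h
  linarith

end Crest.Agent.R72
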