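import Crest.Agent.R72.Mat

/-! # Row 72: calculus for paths of matrices -/

set_option autoImplicit false

namespace Crest.Agent.R72

open MeasureTheory Set Matrix Filter Topology

variable {X T : Type*} [Fintype X] [DecidableEq X] [Fintype T]

/-- entrywise derivative -/
def MD (G : ℝ → Matrix X X ℝ) (G' : Matrix X X ℝ) (t : ℝ) : Prop :=
  ∀ a b, HasDerivAt (fun s => G s a b) (G' a b) t

section

variable {G H : ℝ → Matrix X X ℝ} {G' H' : Matrix X X ℝ} {t : ℝ}

omit [Fintype X] [DecidableEq X] in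
theorem MD.const (A : Matrix X X ℝ) (t : ℝ) : MD (fun _ => A) 0 t := fun _ _ => hasDerivAt_const _ _

omit [Fintype X] [DecidableEq X] in
theorem MD.add (hG : MD G G' t) (hH : MD H H' t) : MD (fun s => G s + H s) (G' + H') t :=
  fun a b => (hG a b).add (hH a b)

omit [Fintype X] [DecidableEq X] in
theorem MD.sub (hG : MD G G' t) (hH : MD H H' t) : MD (fun s => G s - H s) (G' - H') t :=
  fun a b => (hG a b).sub (hH a b)

omit [Fintype X] [DecidableEq X] in
theorem MD.smul (hG : MD G G' t) (c : ℝ) : MD (fun s => c • G s) (c • G') t :=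
  fun a b => (hG a b).const_mul c

omit [DecidableEq X] in
theorem MD.mul (hG : MD G G' t) (hH : MD H H' t) :
    MD (fun s => G s * H s) (G' * H t + G t * H') t := fun a b => by
  simp only [mul_apply, Matrix.add_apply, ← Finset.sum_add_distrib]
  exact HasDerivAt.fun_sum fun c _ => (hG a c).mul (hH c b)

omit [DecidableEq X] in
theorem MD.trace (hG : MD G G' t) : HasDerivAt (fun s => (G s).trace) G'.trace t :=
  HasDerivAt.fun_sum fun a _ => hG a a

omit [Fintype X] in
theorem MD.diagonal {u : ℝ → X → ℝ} {u' : X → ℝ} (h : ∀ a, HasDerivAt (fun s => u s a) (u' a) t) :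
    MD (fun s => diagonal (u s)) (diagonal u') t := fun a b => by
  by_cases hab : a = b
  · subst hab; simpa using h a
  · simpa [hab] using hasDerivAt_const t (0 : ℝ)

theorem MD.det (hG : MD G G' t) :
    HasDerivAt (fun s => (G s).det) ((G t).adjugate * G').trace t := by
  have h : HasDerivAt (fun s => ∑ σ : Equiv.Perm X, ((Equiv.Perm.sign σ : ℤ) : ℝ) * ∏ i, G s (σ i) i)
      (∑ σ : Equiv.Perm X, ((Equiv.Perm.sign σ : ℤ) : ℝ) *
        ∑ i, (∏ j ∈ Finset.univ.erase i, G t (σ j) j) • G' (σ i) i) t :=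
    HasDerivAt.fun_sum fun σ _ => (HasDerivAt.fun_finsetProd fun i _ => hG (σ i) i).const_mul _
  simp only [← det_apply'] at h
  convert h using 1
  simp only [Finset.mul_sum]
  rw [Finset.sum_comm, Matrix.trace]
  refine Finset.sum_congr rfl fun i _ => ?_
  have : ((G t).adjugate * G').diag i = cramer (G t) (fun k => G' k i) i := by
    rw [cramer_eq_adjugate_mulVec]; rfl
  rw [this, cramer_apply, det_apply']
  refine Finset.sum_congr rfl fun σ _ => ?_
  rw [← Finset.mul_prod_erase _ _ (Finset.mem_univ i), updateCol_self, smul_eq_mul, mul_comm (G' _ _)]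
  congr 2
  exact Finset.prod_congr rfl fun j hj => updateCol_ne (Finset.ne_of_mem_erase hj)

theorem MD.Rs (hG : MD G G' t) (hp : ∀ᶠ s in 𝓝 t, (G s).PosSemidef) :
    MD (fun s => Rs (G s)) (-(Rs (G t) * G' * Rs (G t))) t := by
  have hN : MD (fun s => 1 + G s) G' t := by simpa using (MD.const 1 t).add hG
  have hp0 := hp.self_of_nhds
  have hd : ∀ a b, DifferentiableAt ℝ (fun s => R72.Rs (G s) a b) t := fun a b => by
    simp only [R72.Rs, inv_def, Ring.inverse_eq_inv', Matrix.smul_apply, adjugate_apply, smul_eq_mul]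
    refine (hN.det.differentiableAt.inv (one_add_posDef hp0).det_pos.ne').mul
      (MD.det (G' := G'.updateRow b 0) fun i j => ?_).differentiableAt
    by_cases hi : i = b
    · subst hi; simp only [updateRow_self]; exact hasDerivAt_const t _
    · simp only [updateRow_ne hi]; exact hN i j
  have hR : MD (fun s => R72.Rs (G s)) (of fun a b => deriv (fun s => R72.Rs (G s) a b) t) t :=
    fun a b => (hd a b).hasDerivAt
  have h1 := hR.mul hN
  have h2 : (of fun a b => deriv (fun s => R72.Rs (G s) a b) t) * (1 + G t) +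
      R72.Rs (G t) * G' = 0 := by
    ext a b
    refine (h1 a b).unique ((MD.const 1 t a b).congr_of_eventuallyEq ?_)
    filter_upwards [hp] with s hs
    rw [Rs_mul hs]
  have h3 := congrArg (· * R72.Rs (G t)) h2
  simp only [add_mul, Matrix.mul_assoc, mul_Rs hp0, Matrix.mul_one, Matrix.zero_mul] at h3
  rw [Matrix.mul_assoc, ← eq_neg_of_add_eq_zero_left h3]
  exact hR

/-- the Hessian form -/
noncomputable def QQ (G H H' : Matrix X X ℝ) : ℝ := (Rs G * H * Rs G * H').trace

theorem MD.ell (hG : MD G G' t) (hp : (G t).PosSemidef) :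
    HasDerivAt (fun s => ell (G s)) (ph (G t) * G').trace t := by
  have hN : MD (fun s => 1 + G s) G' t := by simpa using (MD.const 1 t).add hG
  have h0 := (one_add_posDef hp).det_pos.ne'
  refine (hG.trace.sub (hN.det.log h0)).congr_deriv ?_
  simp only [ph, R72.Rs, inv_def, Ring.inverse_eq_inv', sub_mul, Matrix.one_mul, trace_sub,
    smul_mul_assoc, trace_smul, smul_eq_mul]
  ring

theorem MD.ph_mul (hG : MD G G' t) (hp : ∀ᶠ s in 𝓝 t, (G s).PosSemidef) (hH : MD H H' t) :
    HasDerivAt (fun s => (ph (G s) * H s).trace) ((ph (G t) * H').trace + QQ (G t) G' (H t)) t := by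
  refine (((MD.const 1 t).sub (hG.Rs hp)).mul hH).trace.congr_deriv ?_
  simp only [zero_sub, neg_neg, trace_add, QQ, ph, add_comm]

end

theorem QQ_comm (G H H' : Matrix X X ℝ) : QQ G H H' = QQ G H' H := by
  rw [QQ, QQ, Matrix.mul_assoc (Rs G * H), trace_mul_comm, ← Matrix.mul_assoc]

theorem QQ_add_left (G H₁ H₂ H' : Matrix X X ℝ) : QQ G (H₁ + H₂) H' = QQ G H₁ H' + QQ G H₂ H' := by
  simp only [QQ, Matrix.mul_add, Matrix.add_mul, trace_add]

theorem QQ_sub_left (G H₁ H₂ H' : Matrix X X ℝ) : QQ G (H₁ - H₂) H' = QQ G H₁ H' - QQ G H₂ H' := by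
  simp only [QQ, Matrix.mul_sub, Matrix.sub_mul, trace_sub]

theorem QQ_sub_right (G H H₁ H₂ : Matrix X X ℝ) : QQ G H (H₁ - H₂) = QQ G H H₁ - QQ G H H₂ := by
  simp only [QQ, Matrix.mul_sub, trace_sub]

theorem QQ_smul_right (G H H' : Matrix X X ℝ) (c : ℝ) : QQ G H (c • H') = c * QQ G H H' := by
  simp only [QQ, Matrix.mul_smul, trace_smul, smul_eq_mul]

theorem QQ_zero (G H : Matrix X X ℝ) : QQ G H 0 = 0 := by simp [QQ]

theorem QQ_anti {P Q H : Matrix X X ℝ} (hP : P.PosSemidef) (h : (Q - P).PosSemidef) (hH : Hᵀ = H) :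
    QQ Q H H ≤ QQ P H H := by
  have hQ : Q.PosSemidef := by simpa using h.add hP
  have := trace_quad_mono (Rs_psd hQ) (Rs_psd hQ) (Rs_anti hP h) (Rs_anti hP h) H
  rwa [hH] at this

theorem QQ_nonneg {G H : Matrix X X ℝ} (hG : G.PosSemidef) (hH : Hᵀ = H) : 0 ≤ QQ G H H := by
  have := trace_quad_mono (P := 0) (Q := 0) PosSemidef.zero PosSemidef.zero
    (by simpa using Rs_psd hG) (by simpa using Rs_psd hG) H
  rw [hH] at this
  simpa [QQ] using this

theorem key_identity {G : Matrix X X ℝ} (hG : G.PosSemidef) (U : Matrix X X ℝ) :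
    (ph G * (U * U * G)).trace + (ph G * (G * (U * U))).trace - 2 * (ph G * (U * G * U)).trace -
      QQ G (U * G + G * U) (U * G + G * U) = -4 * (ph G * U * ph G * U).trace := by
  obtain ⟨R, hR⟩ : ∃ R, R = Rs G := ⟨_, rfl⟩
  have h1 : G * R = 1 - R := by rw [hR, eq_sub_iff_add_eq, add_comm, ← mul_Rs hG, add_mul, one_mul]
  have h2 : R * G = 1 - R := by rw [hR, eq_sub_iff_add_eq, add_comm, ← Rs_mul hG, mul_add, mul_one]
  have h1' : ∀ M, G * (R * M) = M - R * M := fun M => by rw [← mul_assoc, h1, sub_mul, one_mul]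
  have h2' : ∀ M, R * (G * M) = M - R * M := fun M => by rw [← mul_assoc, h2, sub_mul, one_mul]
  have t1 : (R * (U * (U * G))).trace = (U * U).trace - (R * (U * U)).trace := by
    rw [← mul_assoc U, ← mul_assoc R, trace_mul_comm, h1', trace_sub]
  have t2 : (R * (U * (R * (U * G)))).trace = (U * (R * U)).trace - (R * (U * (R * U))).trace := by
    rw [← mul_assoc R U G, ← mul_assoc U, ← mul_assoc R, trace_mul_comm, h1', trace_sub]
  have t3 : (U * (R * U)).trace = (R * (U * U)).trace := by rw [trace_mul_comm, mul_assoc]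
  have t4 : (U * (R * (U * G))).trace = (R * (U * (G * U))).trace := by
    rw [trace_mul_comm]; simp only [mul_assoc]
  have t5 : (U * (U * G)).trace = (G * (U * U)).trace := by rw [← mul_assoc, trace_mul_comm]
  have t6 : (U * (G * U)).trace = (G * (U * U)).trace := by rw [trace_mul_comm, mul_assoc]
  simp only [QQ, ph, ← hR, mul_add, add_mul, sub_mul, mul_sub, one_mul, mul_one, mul_assoc, h1', h2',
    trace_add, trace_sub, t1, t2, t3, t4, t5, t6]
  ring

/-- weighted Gram matrices -/
noncomputable def Gw (h : X → ℝ) (F : Matrix X T ℝ) (w : T → ℝ) : Matrix X X ℝ :=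
  of fun a a' => h a * h a' * ∑ b, w b * (F a b * F a' b)

omit [Fintype X] [DecidableEq X] in
theorem Gw_symm (h : X → ℝ) (F : Matrix X T ℝ) (w : T → ℝ) : (Gw h F w)ᵀ = Gw h F w := by
  ext a b; simp [Gw, mul_comm]

omit [DecidableEq X] in
theorem Gw_psd (h : X → ℝ) (F : Matrix X T ℝ) {w : T → ℝ} (hw : ∀ b, 0 ≤ w b) :
    (Gw h F w).PosSemidef := by
  have : Gw h F w = (of fun a b => h a * F a b * √(w b)) * (of fun a b => h a * F a b * √(w b))ᴴ := by
    ext a a'
    simp only [Gw, of_apply, mul_apply, conjTranspose_apply, star_trivial, Finset.mul_sum]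
    refine Finset.sum_congr rfl fun b _ => ?_
    have := Real.mul_self_sqrt (hw b)
    linear_combination (-(h a * h a' * F a b * F a' b)) * this
  rw [this]
  exact posSemidef_self_mul_conjTranspose _

theorem MD.Gw {h : ℝ → X → ℝ} {v : X → ℝ} {w : ℝ → T → ℝ} {w' : T → ℝ} {t : ℝ} (F : Matrix X T ℝ)
    (hh : ∀ a, HasDerivAt (fun s => h s a) (v a * h t a) t)
    (hw : ∀ b, HasDerivAt (fun s => w s b) (w' b) t) :
    MD (fun s => Gw (h s) F (w s)) (Matrix.diagonal v * R72.Gw (h t) F (w t) +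
      R72.Gw (h t) F (w t) * Matrix.diagonal v + R72.Gw (h t) F w') t := fun a b => by
  refine (((hh a).mul (hh b)).mul
    (HasDerivAt.fun_sum fun c _ => (hw c).mul_const (F a c * F b c))).congr_deriv ?_
  simp only [R72.Gw, Matrix.add_apply, diagonal_mul, mul_diagonal, of_apply, Pi.mul_apply]
  ring

end Crest.Agent.R72
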