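import Crest.Agent.R72.Flow_A

/-! # Row 72: decay classes and the integrated divergence identity -/

set_option autoImplicit false

namespace Crest.Agent.R72

open MeasureTheory Set Matrix Filter Topology

/-- exponential bounds, uniformly for `σ ∈ [σ₀, σ₁]` -/
def Bd (σ₀ σ₁ N : ℝ) (f : ℝ × ℝ × ℝ → ℝ) : Prop :=
  Measurable f ∧ ∃ C, ∀ z : ℝ × ℝ × ℝ, z.1 ∈ Icc σ₀ σ₁ →
    |f z| ≤ C * Real.exp (N * (|z.2.1| + |z.2.2|))

section

variable {σ₀ σ₁ N M : ℝ} {f g : ℝ × ℝ × ℝ → ℝ}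

theorem Bd.mono (hf : Bd σ₀ σ₁ N f) (h : N ≤ M) : Bd σ₀ σ₁ M f := by
  obtain ⟨hm, C, hC⟩ := hf
  refine ⟨hm, |C|, fun z hz => (hC z hz).trans ?_⟩
  gcongr
  exact le_abs_self C

theorem Bd.of_le (hf : Bd σ₀ σ₁ N f) (hg : Measurable g)
    (h : ∀ z : ℝ × ℝ × ℝ, z.1 ∈ Icc σ₀ σ₁ → |g z| ≤ |f z|) : Bd σ₀ σ₁ N g := by
  obtain ⟨_, C, hC⟩ := hf
  exact ⟨hg, C, fun z hz => (h z hz).trans (hC z hz)⟩

theorem Bd.add (hf : Bd σ₀ σ₁ N f) (hg : Bd σ₀ σ₁ N g) : Bd σ₀ σ₁ N fun z => f z + g z := by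
  obtain ⟨hm, C, hC⟩ := hf
  obtain ⟨hm', C', hC'⟩ := hg
  refine ⟨hm.add hm', C + C', fun z hz => (abs_add_le _ _).trans ?_⟩
  rw [add_mul]
  exact add_le_add (hC z hz) (hC' z hz)

theorem Bd.mul (hf : Bd σ₀ σ₁ N f) (hg : Bd σ₀ σ₁ M g) : Bd σ₀ σ₁ (N + M) fun z => f z * g z := by
  obtain ⟨hm, C, hC⟩ := hf
  obtain ⟨hm', C', hC'⟩ := hg
  refine ⟨hm.mul hm', C * C', fun z hz => ?_⟩
  rw [abs_mul, add_mul, Real.exp_add, mul_mul_mul_comm]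
  exact mul_le_mul (hC z hz) (hC' z hz) (abs_nonneg _) ((abs_nonneg _).trans (hC z hz))

theorem Bd.bdd (hf : Measurable f) {C : ℝ} (h : ∀ z : ℝ × ℝ × ℝ, z.1 ∈ Icc σ₀ σ₁ → |f z| ≤ C) :
    Bd σ₀ σ₁ 0 f := ⟨hf, C, fun z hz => by simpa using h z hz⟩

theorem Bd.const (c : ℝ) : Bd σ₀ σ₁ 0 fun _ => c := Bd.bdd measurable_const fun _ _ => le_rfl

theorem Bd.const_mul (hf : Bd σ₀ σ₁ N f) (c : ℝ) : Bd σ₀ σ₁ N fun z => c * f z := by
  simpa using (Bd.const c).mul hf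

theorem Bd.sub (hf : Bd σ₀ σ₁ N f) (hg : Bd σ₀ σ₁ N g) : Bd σ₀ σ₁ N fun z => f z - g z := by
  simpa [sub_eq_add_neg] using hf.add (hg.const_mul (-1))

theorem Bd.zero : Bd σ₀ σ₁ N fun _ => 0 := ⟨measurable_const, 0, by simp⟩

theorem Bd.sum {ι : Type*} (s : Finset ι) {f : ι → ℝ × ℝ × ℝ → ℝ} (h : ∀ i, Bd σ₀ σ₁ N (f i)) :
    Bd σ₀ σ₁ N fun z => ∑ i ∈ s, f i z := by
  classical
  induction s using Finset.induction_on with
  | empty => simpa using Bd.zero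
  | insert a s ha ih => simpa [Finset.sum_insert ha] using (h a).add ih

theorem Bd.inv (h₀ : 0 < σ₀) : Bd σ₀ σ₁ 0 fun z => z.1⁻¹ :=
  Bd.bdd (by fun_prop) (C := σ₀⁻¹) fun z hz => by
    rw [abs_of_pos (inv_pos.2 (h₀.trans_le hz.1))]
    exact inv_anti₀ h₀ hz.1

theorem Bd.lin (τ c₀ c₁ : ℝ) : Bd σ₀ σ₁ 1 fun z => τ + c₀ * z.2.1 + c₁ * z.2.2 := by
  refine ⟨by fun_prop, |τ| + |c₀| + |c₁|, fun z _ => ?_⟩
  have h1 := Real.add_one_le_exp (1 * (|z.2.1| + |z.2.2|))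
  have h2 : |τ + c₀ * z.2.1 + c₁ * z.2.2| ≤ |τ| + |c₀| * |z.2.1| + |c₁| * |z.2.2| := by
    rw [← abs_mul, ← abs_mul]
    exact abs_add_three _ _ _
  have := abs_nonneg τ
  have := abs_nonneg c₀
  have := abs_nonneg c₁
  have := abs_nonneg z.2.1
  have := abs_nonneg z.2.2
  refine h2.trans (le_trans ?_ (mul_le_mul_of_nonneg_left h1 (by positivity)))
  nlinarith [mul_nonneg (abs_nonneg τ) (abs_nonneg z.2.1), mul_nonneg (abs_nonneg τ) (abs_nonneg z.2.2),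
    mul_nonneg (abs_nonneg c₀) (abs_nonneg z.2.2), mul_nonneg (abs_nonneg c₁) (abs_nonneg z.2.1)]

theorem integrable_exp2 : Integrable fun x : ℝ => Real.exp (-2 * |x|) := by
  refine integrable_inv_one_add_sq.mono' (by fun_prop) (ae_of_all _ fun x => ?_)
  rw [Real.norm_eq_abs, abs_of_pos (Real.exp_pos _), neg_mul, Real.exp_neg]
  refine inv_anti₀ (by positivity) ?_
  have h1 := Real.add_one_le_exp |x|
  rw [two_mul, Real.exp_add, ← sq_abs]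
  nlinarith [abs_nonneg x]

theorem Bd.int_slice (hf : Bd σ₀ σ₁ (-2) f) {σ : ℝ} (hσ : σ ∈ Icc σ₀ σ₁) :
    Integrable fun p => f (σ, p) := by
  obtain ⟨hm, C, hC⟩ := hf
  refine ((integrable_exp2.mul_prod integrable_exp2).const_mul C).mono'
    (hm.comp measurable_prodMk_left).aestronglyMeasurable (ae_of_all _ fun p => ?_)
  rw [← Real.exp_add, ← mul_add]
  exact hC (σ, p) hσ

theorem Bd.int_fst (hf : Bd σ₀ σ₁ (-2) f) {σ : ℝ} (hσ : σ ∈ Icc σ₀ σ₁) (q : ℝ) :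
    Integrable fun p => f (σ, p, q) := by
  obtain ⟨hm, C, hC⟩ := hf
  refine ((integrable_exp2.mul_const (Real.exp (-2 * |q|))).const_mul C).mono'
    (hm.comp (by fun_prop)).aestronglyMeasurable (ae_of_all _ fun p => ?_)
  rw [← Real.exp_add, ← mul_add]
  exact hC (σ, p, q) hσ

theorem Bd.int_snd (hf : Bd σ₀ σ₁ (-2) f) {σ : ℝ} (hσ : σ ∈ Icc σ₀ σ₁) (q : ℝ) :
    Integrable fun p => f (σ, q, p) := by
  obtain ⟨hm, C, hC⟩ := hf
  refine ((integrable_exp2.const_mul (Real.exp (-2 * |q|))).const_mul C).mono'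
    (hm.comp (by fun_prop)).aestronglyMeasurable (ae_of_all _ fun p => ?_)
  rw [← Real.exp_add, ← mul_add]
  exact hC (σ, q, p) hσ

theorem Bd.int_prod (hf : Bd σ₀ σ₁ (-2) f) :
    Integrable f ((volume.restrict (Ioc σ₀ σ₁)).prod volume) := by
  obtain ⟨hm, C, hC⟩ := hf
  have h1 : Integrable (fun _ : ℝ => C) (volume.restrict (Ioc σ₀ σ₁)) := integrable_const C
  refine (h1.mul_prod (integrable_exp2.mul_prod integrable_exp2)).mono' hm.aestronglyMeasurable ?_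
  have : ∀ᵐ z ∂((volume.restrict (Ioc σ₀ σ₁)).prod (volume : Measure (ℝ × ℝ))), z.1 ∈ Ioc σ₀ σ₁ :=
    Measure.quasiMeasurePreserving_fst.ae (ae_restrict_mem measurableSet_Ioc)
  filter_upwards [this] with z hz
  rw [← Real.exp_add, ← mul_add]
  exact hC z (Ioc_subset_Icc_self hz)

theorem div_identity (h₁ : σ₀ ≤ σ₁) {E a a' b b' D : ℝ × ℝ × ℝ → ℝ} (hE : Bd σ₀ σ₁ (-2) E)
    (ha : Bd σ₀ σ₁ (-2) a) (ha' : Bd σ₀ σ₁ (-2) a') (hb : Bd σ₀ σ₁ (-2) b) (hb' : Bd σ₀ σ₁ (-2) b')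
    (hD : Bd σ₀ σ₁ (-2) D)
    (dE : ∀ σ ∈ Icc σ₀ σ₁, ∀ p, HasDerivAt (fun s => E (s, p)) (a' (σ, p) + b' (σ, p) + D (σ, p)) σ)
    (da : ∀ σ ∈ Icc σ₀ σ₁, ∀ p q, HasDerivAt (fun s => a (σ, s, q)) (a' (σ, p, q)) p)
    (db : ∀ σ ∈ Icc σ₀ σ₁, ∀ p q, HasDerivAt (fun s => b (σ, p, s)) (b' (σ, p, q)) q) :
    (∫ p, E (σ₁, p)) - ∫ p, E (σ₀, p) = ∫ z, D z ∂((volume.restrict (Ioc σ₀ σ₁)).prod volume) := by
  have hS := ((ha'.add hb').add hD).int_prod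
  have e1 : (∫ p, E (σ₁, p)) - ∫ p, E (σ₀, p) =
      ∫ z, (a' z + b' z + D z) ∂((volume.restrict (Ioc σ₀ σ₁)).prod volume) := by
    rw [← integral_sub (hE.int_slice ⟨h₁, le_rfl⟩) (hE.int_slice ⟨le_rfl, h₁⟩),
      integral_prod_symm _ hS]
    refine integral_congr_ae ?_
    filter_upwards [hS.prod_left_ae] with p hp
    rw [← intervalIntegral.integral_of_le h₁]
    refine (intervalIntegral.integral_eq_sub_of_hasDerivAt (f := fun s => E (s, p))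
      (fun s hs => dE s (by rwa [uIcc_of_le h₁] at hs) p) ?_).symm
    rw [intervalIntegrable_iff_integrableOn_Ioc_of_le h₁]
    exact hp
  have e2 : ∫ z, a' z ∂((volume.restrict (Ioc σ₀ σ₁)).prod volume) = 0 := by
    rw [integral_prod _ ha'.int_prod]
    refine setIntegral_eq_zero_of_forall_eq_zero fun σ hσ => ?_
    have hσ' := Ioc_subset_Icc_self hσ
    rw [Measure.volume_eq_prod, integral_prod_symm _ (ha'.int_slice hσ')]
    simp only [integral_eq_zero_of_hasDerivAt_of_integrable (da σ hσ' · _) (ha'.int_fst hσ' _)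
      (ha.int_fst hσ' _), integral_zero]
  have e3 : ∫ z, b' z ∂((volume.restrict (Ioc σ₀ σ₁)).prod volume) = 0 := by
    rw [integral_prod _ hb'.int_prod]
    refine setIntegral_eq_zero_of_forall_eq_zero fun σ hσ => ?_
    have hσ' := Ioc_subset_Icc_self hσ
    rw [Measure.volume_eq_prod, integral_prod _ (hb'.int_slice hσ')]
    simp only [integral_eq_zero_of_hasDerivAt_of_integrable (db σ hσ' _) (hb'.int_snd hσ' _)
      (hb.int_snd hσ' _), integral_zero]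
  rw [e1, integral_add (ha'.add hb').int_prod hD.int_prod, integral_add ha'.int_prod hb'.int_prod,
    e2, e3, zero_add, zero_add]

end

section

variable {X : Type*} [Fintype X] [DecidableEq X] {σ₀ σ₁ N M : ℝ} {G H : ℝ × ℝ × ℝ → Matrix X X ℝ}

/-- entrywise bounds -/
def MB (σ₀ σ₁ N : ℝ) (G : ℝ × ℝ × ℝ → Matrix X X ℝ) : Prop := ∀ a b, Bd σ₀ σ₁ N fun z => G z a b

/-- rapid decay -/
def RD (σ₀ σ₁ : ℝ) (G : ℝ × ℝ × ℝ → Matrix X X ℝ) : Prop := ∀ N, MB σ₀ σ₁ N G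

omit [DecidableEq X] in
theorem MB.mul (hG : MB σ₀ σ₁ N G) (hH : MB σ₀ σ₁ M H) : MB σ₀ σ₁ (N + M) fun z => G z * H z :=
  fun a b => Bd.sum _ fun c => (hG a c).mul (hH c b)

omit [Fintype X] [DecidableEq X] in
theorem RD.add (hG : RD σ₀ σ₁ G) (hH : RD σ₀ σ₁ H) : RD σ₀ σ₁ fun z => G z + H z :=
  fun N a b => (hG N a b).add (hH N a b)

omit [Fintype X] [DecidableEq X] in
theorem RD.sub (hG : RD σ₀ σ₁ G) (hH : RD σ₀ σ₁ H) : RD σ₀ σ₁ fun z => G z - H z :=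
  fun N a b => (hG N a b).sub (hH N a b)

omit [Fintype X] [DecidableEq X] in
theorem RD.smul (hG : RD σ₀ σ₁ G) (c : ℝ) : RD σ₀ σ₁ fun z => c • G z :=
  fun N a b => (hG N a b).const_mul c

omit [DecidableEq X] in
theorem RD.mul_left (hH : RD σ₀ σ₁ H) (hG : MB σ₀ σ₁ N G) : RD σ₀ σ₁ fun z => G z * H z :=
  fun M => by simpa using hG.mul (hH (M - N))

omit [DecidableEq X] in
theorem RD.mul_right (hH : RD σ₀ σ₁ H) (hG : MB σ₀ σ₁ N G) : RD σ₀ σ₁ fun z => H z * G z :=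
  fun M => by simpa using (hH (M - N)).mul hG

omit [DecidableEq X] in
theorem RD.trace (hH : RD σ₀ σ₁ H) : Bd σ₀ σ₁ (-2) fun z => (H z).trace :=
  Bd.sum _ fun a => hH _ a a

omit [Fintype X] in
theorem MB.diagonal {u : ℝ × ℝ × ℝ → X → ℝ} (h : ∀ a, Bd σ₀ σ₁ N fun z => u z a) :
    MB σ₀ σ₁ N fun z => diagonal (u z) := fun a b => by
  by_cases hab : a = b
  · subst hab; simpa using h a
  · simpa [hab] using Bd.zero

variable (hG : RD σ₀ σ₁ G) (hp : ∀ z, (G z).PosSemidef)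
include hG hp

theorem RD.Rs : MB σ₀ σ₁ 0 fun z => Rs (G z) := fun a b =>
  Bd.bdd (measurable_Rs (fun a b => (hG 0 a b).1) a b) fun z _ => abs_Rs_le (hp z) a b

theorem RD.ph : RD σ₀ σ₁ fun z => ph (G z) := by
  have : ∀ z, R72.ph (G z) = G z * R72.Rs (G z) := fun z => by
    rw [R72.ph, ← mul_Rs (hp z), add_mul, one_mul, add_sub_cancel_left]
  simp only [this]
  exact hG.mul_right (hG.Rs hp)

theorem RD.ell : Bd σ₀ σ₁ (-2) fun z => ell (G z) :=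
  hG.trace.of_le (measurable_ell fun a b => (hG 0 a b).1) fun z _ => by
    rw [abs_of_nonneg (ell_nonneg (hp z))]
    exact (ell_le_trace (hp z)).trans (le_abs_self _)

theorem RD.ph_mul (hH : RD σ₀ σ₁ H) : Bd σ₀ σ₁ (-2) fun z => (R72.ph (G z) * H z).trace :=
  (hH.mul_left (hG.ph hp 0)).trace

theorem RD.QQ {H' : ℝ × ℝ × ℝ → Matrix X X ℝ} (hH : RD σ₀ σ₁ H) (hH' : RD σ₀ σ₁ H') :
    Bd σ₀ σ₁ (-2) fun z => QQ (G z) (H z) (H' z) :=
  (hH'.mul_left (((hG.Rs hp).mul (hH 0)).mul (hG.Rs hp))).trace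

theorem RD.gn {u : ℝ × ℝ × ℝ → X → ℝ} (h : ∀ a, Bd σ₀ σ₁ N fun z => u z a) :
    Bd σ₀ σ₁ (-2) fun z => gn (G z) (G z) (u z) :=
  ((((hG.ph hp).mul_right (MB.diagonal h)).mul_right (hG.ph hp 0)).mul_right (MB.diagonal h)).trace

end

end Crest.Agent.R72
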