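import Crest.Agent.R72.Defs

/-!
# Row 72: Gaussian densities

PLANS.
* complete the square: `gs a (x-p) gs b (y+p) = gs (a+b) (x+y) gs (ab/(a+b)) (p - m)`, `m = (b x - a y)/(a+b)`;
  the moments of order `≤ 3` of `gs` (`integral_gaussian`, oddness, integration by parts) give the convolutions
  of the derivatives (second derivative `(x²/σ² - 1/σ) gs σ x`).
* `sum_gs_le`: `gs σ x ≤ √(2e) gs (2σ) y` for `|x - y| ≤ √σ`; the intervals `[ξ a, ξ a + δ)` are disjoint.
-/

set_option autoImplicit false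

namespace Crest.Agent.R72

open MeasureTheory Set Matrix Filter Topology
open scoped ENNReal

theorem gs_pos {σ : ℝ} (hσ : 0 < σ) (x : ℝ) : 0 < gs σ x := by
  unfold gs
  have := Real.pi_pos
  positivity

theorem gs_nonneg (σ x : ℝ) : 0 ≤ gs σ x := by
  unfold gs
  positivity

theorem gs_neg (σ x : ℝ) : gs σ (-x) = gs σ x := by
  simp [gs]

theorem gs_le {σ : ℝ} (hσ : 0 < σ) (x : ℝ) : gs σ x ≤ (√σ)⁻¹ := by
  have h1 : Real.exp (-x ^ 2 / (2 * σ)) ≤ 1 :=
    Real.exp_le_one_iff.mpr (div_nonpos_of_nonpos_of_nonneg (by nlinarith [sq_nonneg x]) (by positivity))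
  have h2 : (√(2 * Real.pi * σ))⁻¹ ≤ (√σ)⁻¹ :=
    inv_anti₀ (Real.sqrt_pos.mpr hσ) (Real.sqrt_le_sqrt (by nlinarith [Real.pi_gt_three]))
  calc gs σ x ≤ (√(2 * Real.pi * σ))⁻¹ * 1 := mul_le_mul_of_nonneg_left h1 (by positivity)
    _ ≤ _ := by rwa [mul_one]

@[fun_prop] theorem measurable_gs {α : Type*} [MeasurableSpace α] {σ x : α → ℝ} (hσ : Measurable σ)
    (hx : Measurable x) : Measurable fun t => gs (σ t) (x t) := by
  unfold gs
  fun_prop

@[fun_prop] theorem measurable_d1 {α : Type*} [MeasurableSpace α] {σ x : α → ℝ} (hσ : Measurable σ)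
    (hx : Measurable x) : Measurable fun t => d1 (σ t) (x t) := by
  unfold d1
  fun_prop

theorem continuous_gs (σ : ℝ) : Continuous (gs σ) := by
  unfold gs
  fun_prop

theorem continuousOn_gs : ContinuousOn (fun p : ℝ × ℝ => gs p.1 p.2) (Ioi 0 ×ˢ univ) := by
  unfold gs
  have := Real.pi_pos
  refine ContinuousOn.mul (ContinuousOn.inv₀ (by fun_prop) fun p hp => ?_)
    (ContinuousOn.rexp (ContinuousOn.div (by fun_prop) (by fun_prop) fun p hp => ?_))
  · have : 0 < p.1 := hp.1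
    positivity
  · have : 0 < p.1 := hp.1
    positivity

theorem gs_eq (σ : ℝ) : gs σ = fun x => (√(2 * Real.pi * σ))⁻¹ * Real.exp (-(2 * σ)⁻¹ * x ^ 2) := by
  funext x
  unfold gs
  congr 2
  ring

theorem integrable_gs {σ : ℝ} (hσ : 0 < σ) : Integrable (gs σ) := by
  rw [gs_eq]
  exact (integrable_exp_neg_mul_sq (by positivity)).const_mul _

theorem integrable_pow_mul_gs {σ : ℝ} (hσ : 0 < σ) (k : ℕ) :
    Integrable fun x => x ^ k * gs σ x := by
  have h := (integrable_rpow_mul_exp_neg_mul_sq (b := (2 * σ)⁻¹) (by positivity) (s := k)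
    (by have : (0 : ℝ) ≤ k := k.cast_nonneg; linarith)).const_mul (√(2 * Real.pi * σ))⁻¹
  refine h.congr (Eventually.of_forall fun x => ?_)
  simp only [gs_eq, Real.rpow_natCast]
  ring

theorem integral_gs {σ : ℝ} (hσ : 0 < σ) : ∫ x, gs σ x = 1 := by
  have := Real.pi_pos
  rw [gs_eq, integral_const_mul, integral_gaussian, show Real.pi / (2 * σ)⁻¹ = 2 * Real.pi * σ by
    field_simp]
  exact inv_mul_cancel₀ (by positivity)

theorem lintegral_gs {σ : ℝ} (hσ : 0 < σ) (c : ℝ) : ∫⁻ p, ENNReal.ofReal (gs σ (c - p)) = 1 := by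
  rw [← ofReal_integral_eq_lintegral_ofReal ((integrable_gs hσ).comp_sub_left c)
    (Eventually.of_forall fun p => gs_nonneg _ _), integral_sub_left_eq_self (gs σ) volume c, integral_gs hσ,
    ENNReal.ofReal_one]

theorem hasDerivAt_gs {σ : ℝ} (hσ : 0 < σ) (x : ℝ) : HasDerivAt (gs σ) (d1 σ x) x := by
  have h := ((((hasDerivAt_pow 2 x).neg).div_const (2 * σ)).exp).const_mul (√(2 * Real.pi * σ))⁻¹
  refine h.congr_deriv ?_
  simp only [d1, gs, Pi.neg_apply]
  field_simp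
  norm_num

theorem hasDerivAt_d1 {σ : ℝ} (hσ : 0 < σ) (x : ℝ) :
    HasDerivAt (d1 σ) ((x ^ 2 / σ ^ 2 - 1 / σ) * gs σ x) x := by
  have h := ((hasDerivAt_id x).neg.div_const σ).mul (hasDerivAt_gs hσ x)
  refine HasDerivAt.congr_deriv h ?_
  simp only [d1, Pi.neg_apply, id]
  field_simp
  ring

theorem hasDerivAt_gs_var {σ : ℝ} (hσ : 0 < σ) (x : ℝ) :
    HasDerivAt (fun s => gs s x) ((x ^ 2 / σ ^ 2 - 1 / σ) * gs σ x / 2) σ := by
  have hp := Real.pi_pos
  have h0 : 0 < √(2 * Real.pi * σ) := by positivity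
  have h1 : HasDerivAt (fun s : ℝ => 2 * Real.pi * s) (2 * Real.pi) σ := by
    simpa using (hasDerivAt_id σ).const_mul (2 * Real.pi)
  have h2 := (h1.sqrt (by positivity)).inv h0.ne'
  have h3 : HasDerivAt (fun s : ℝ => 2 * s) 2 σ := by simpa using (hasDerivAt_id σ).const_mul 2
  have h4 := ((hasDerivAt_const σ (-x ^ 2)).div h3 (by positivity)).exp
  refine HasDerivAt.congr_deriv (h2.mul h4) ?_
  simp only [gs, Pi.inv_apply, Pi.div_apply]
  rw [Real.sq_sqrt (by positivity)]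
  field_simp
  ring

/-- comparison of two Gaussians -/
theorem gs_cmp {a b x y K t : ℝ} (ha : 0 < a) (hb : 0 < b) (hK : b ≤ K ^ 2 * a) (hK0 : 0 ≤ K)
    (h : -x ^ 2 / (2 * a) ≤ -y ^ 2 / (2 * b) + t) : gs a x ≤ K * Real.exp t * gs b y := by
  have hp := Real.pi_pos
  have h1 : √(2 * Real.pi * b) ≤ K * √(2 * Real.pi * a) := by
    rw [← Real.sqrt_sq hK0, ← Real.sqrt_mul (sq_nonneg K)]
    exact Real.sqrt_le_sqrt (by nlinarith)
  have h2 : (√(2 * Real.pi * a))⁻¹ ≤ K * (√(2 * Real.pi * b))⁻¹ := by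
    rw [← div_eq_mul_inv, inv_eq_one_div, div_le_div_iff₀ (by positivity) (by positivity), one_mul]
    exact h1
  have h3 : Real.exp (-x ^ 2 / (2 * a)) ≤ Real.exp (-y ^ 2 / (2 * b)) * Real.exp t := by
    rw [← Real.exp_add]
    exact Real.exp_le_exp.mpr h
  calc gs a x ≤ (K * (√(2 * Real.pi * b))⁻¹) * (Real.exp (-y ^ 2 / (2 * b)) * Real.exp t) :=
        mul_le_mul h2 h3 (by positivity) (by positivity)
    _ = _ := by unfold gs; ring

/-- polynomial factors are absorbed by doubling the variance -/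
theorem pow_mul_gs_le (k : ℕ) : ∃ C, ∀ σ > 0, ∀ x, (|x| / √σ) ^ k * gs σ x ≤ C * gs (2 * σ) x := by
  refine ⟨(1 + 4 ^ k * k.factorial) * 2, fun σ hσ x => ?_⟩
  set u := |x| / √σ with hu
  have hu0 : 0 ≤ u := by positivity
  have hu2 : u ^ 2 = x ^ 2 / σ := by rw [hu, div_pow, sq_abs, Real.sq_sqrt hσ.le]
  have h1 := gs_cmp (a := σ) (b := 2 * σ) (x := x) (y := x) (K := 2) (t := -(u ^ 2 / 4)) hσ (by positivity)
    (by nlinarith) (by norm_num) (by rw [hu2]; apply le_of_eq; field_simp; ring)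
  have h2 := Real.pow_div_factorial_le_exp (x := u ^ 2 / 4) (by positivity) k
  have h3 : u ^ k ≤ 1 + (u ^ k) ^ 2 := by nlinarith [sq_nonneg (u ^ k - 1)]
  have h4 : (u ^ k) ^ 2 = 4 ^ k * k.factorial * ((u ^ 2 / 4) ^ k / k.factorial) := by
    rw [div_pow (u ^ 2), ← pow_mul, ← pow_mul, mul_comm k 2]
    field_simp
  have h5 : 1 ≤ Real.exp (u ^ 2 / 4) := Real.one_le_exp (by positivity)
  have h6 : u ^ k ≤ (1 + 4 ^ k * k.factorial) * Real.exp (u ^ 2 / 4) := by
    have : (4 : ℝ) ^ k * k.factorial * ((u ^ 2 / 4) ^ k / k.factorial) ≤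
        4 ^ k * k.factorial * Real.exp (u ^ 2 / 4) := by gcongr
    linarith
  calc u ^ k * gs σ x ≤ ((1 + 4 ^ k * k.factorial) * Real.exp (u ^ 2 / 4)) *
        (2 * Real.exp (-(u ^ 2 / 4)) * gs (2 * σ) x) :=
        mul_le_mul h6 h1 (gs_nonneg _ _) (by positivity)
    _ = _ := by
      rw [Real.exp_neg]
      field_simp

theorem gs_mul_gs {a b : ℝ} (ha : 0 < a) (hb : 0 < b) (x y p : ℝ) :
    gs a (x - p) * gs b (y + p) =
      gs (a + b) (x + y) * gs (a * b / (a + b)) (p - (b * x - a * y) / (a + b)) := by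
  have hp := Real.pi_pos
  have h1 : √(2 * Real.pi * a) * √(2 * Real.pi * b) =
      √(2 * Real.pi * (a + b)) * √(2 * Real.pi * (a * b / (a + b))) := by
    rw [← Real.sqrt_mul (by positivity), ← Real.sqrt_mul (by positivity)]
    congr 1
    field_simp
  have h2 : -(x - p) ^ 2 / (2 * a) + -(y + p) ^ 2 / (2 * b) =
      -(x + y) ^ 2 / (2 * (a + b)) + -(p - (b * x - a * y) / (a + b)) ^ 2 / (2 * (a * b / (a + b))) := by
    field_simp
    ring
  unfold gs
  rw [mul_mul_mul_comm, ← mul_inv, h1, ← Real.exp_add, h2, Real.exp_add, mul_inv, mul_mul_mul_comm]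

theorem integrable_gs_mul_gs {a b : ℝ} (ha : 0 < a) (hb : 0 < b) (x y : ℝ) :
    Integrable fun p => gs a (x - p) * gs b (y + p) := by
  simp only [gs_mul_gs ha hb]
  exact ((integrable_gs (by positivity)).comp_sub_right _).const_mul _

theorem integral_gs_mul_gs {a b : ℝ} (ha : 0 < a) (hb : 0 < b) (x y : ℝ) :
    ∫ p, gs a (x - p) * gs b (y + p) = gs (a + b) (x + y) := by
  simp only [gs_mul_gs ha hb]
  rw [integral_const_mul, integral_sub_right_eq_self (gs _), integral_gs (by positivity), mul_one]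

theorem lintegral_gs_mul_gs {a b : ℝ} (ha : 0 < a) (hb : 0 < b) (x y : ℝ) :
    ∫⁻ p, ENNReal.ofReal (gs a (x - p) * gs b (y + p)) = ENNReal.ofReal (gs (a + b) (x + y)) := by
  rw [← ofReal_integral_eq_lintegral_ofReal (integrable_gs_mul_gs ha hb x y)
    (Eventually.of_forall fun p => mul_nonneg (gs_nonneg _ _) (gs_nonneg _ _)), integral_gs_mul_gs ha hb]

theorem lintegral_gs_mul_gs' {a b : ℝ} (ha : 0 < a) (hb : 0 < b) (x y : ℝ) :
    ∫⁻ p, ENNReal.ofReal (gs a (x - p) * gs b (y - p)) = ENNReal.ofReal (gs (a + b) (x - y)) := by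
  have h := lintegral_gs_mul_gs ha hb x (-y)
  rw [← sub_eq_add_neg] at h
  rw [← h]
  congr 1
  funext p
  rw [← gs_neg b (y - p)]
  congr 3
  ring

theorem integrable_d1 {σ : ℝ} (hσ : 0 < σ) : Integrable (d1 σ) := by
  refine ((integrable_pow_mul_gs hσ 1).const_mul (-1 / σ)).congr (Eventually.of_forall fun x => ?_)
  simp only [d1]
  ring

theorem d1_bdd {σ : ℝ} (hσ : 0 < σ) : ∃ C, ∀ x, |d1 σ x| ≤ C := by
  obtain ⟨C, hC⟩ := pow_mul_gs_le 1
  have hs : 0 < √σ := Real.sqrt_pos.mpr hσ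
  refine ⟨(√σ)⁻¹ * (|C| * (√(2 * σ))⁻¹), fun x => ?_⟩
  have h1 : |d1 σ x| = (√σ)⁻¹ * ((|x| / √σ) ^ 1 * gs σ x) := by
    rw [d1, abs_mul, abs_of_nonneg (gs_nonneg _ _), abs_div, abs_neg, abs_of_pos hσ, pow_one]
    have : |x| / σ = (√σ)⁻¹ * (|x| / √σ) := by
      rw [div_eq_mul_inv, div_eq_mul_inv, mul_left_comm, ← mul_inv, Real.mul_self_sqrt hσ.le]
    rw [this, mul_assoc]
  rw [h1]
  refine mul_le_mul_of_nonneg_left ((hC σ hσ x).trans ?_) (by positivity)
  exact mul_le_mul (le_abs_self C) (gs_le (by positivity) x) (gs_nonneg _ _) (abs_nonneg C)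

theorem integral_odd_gs (σ : ℝ) {k : ℕ} (hk : Odd k) : ∫ x, x ^ k * gs σ x = 0 := by
  have h := integral_neg_eq_self (fun x => x ^ k * gs σ x) volume
  simp only [gs_neg, hk.neg_pow, neg_mul, integral_neg] at h
  linarith

theorem integral_sq_gs {σ : ℝ} (hσ : 0 < σ) : ∫ x, x ^ 2 * gs σ x = σ := by
  have i1 := (integrable_pow_mul_gs hσ 2).const_mul (1 / σ ^ 2)
  have i2 := (integrable_gs hσ).const_mul (1 / σ)
  have e : (fun x => (x ^ 2 / σ ^ 2 - 1 / σ) * gs σ x) =
      fun x => 1 / σ ^ 2 * (x ^ 2 * gs σ x) - 1 / σ * gs σ x := by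
    funext x; ring
  have h := integral_eq_zero_of_hasDerivAt_of_integrable (hasDerivAt_d1 hσ) (by rw [e]; exact i1.sub i2)
    (integrable_d1 hσ)
  rw [e, integral_sub i1 i2, integral_const_mul, integral_const_mul, integral_gs hσ] at h
  field_simp at h
  linarith

theorem integral_poly_gs {σ : ℝ} (hσ : 0 < σ) (A B C D : ℝ) :
    ∫ x, (A + B * x + C * x ^ 2 + D * x ^ 3) * gs σ x = A + C * σ := by
  have i0 := (integrable_gs hσ).const_mul A
  have i1 := (integrable_pow_mul_gs hσ 1).const_mul B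
  have i2 := (integrable_pow_mul_gs hσ 2).const_mul C
  have i3 := (integrable_pow_mul_gs hσ 3).const_mul D
  have e : (fun x => (A + B * x + C * x ^ 2 + D * x ^ 3) * gs σ x) =
      fun x => A * gs σ x + B * (x ^ 1 * gs σ x) + C * (x ^ 2 * gs σ x) + D * (x ^ 3 * gs σ x) := by
    funext x; ring
  have i01 : Integrable fun x => A * gs σ x + B * (x ^ 1 * gs σ x) := i0.add i1
  have i012 : Integrable fun x => A * gs σ x + B * (x ^ 1 * gs σ x) + C * (x ^ 2 * gs σ x) := i01.add i2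
  rw [e, integral_add i012 i3, integral_add i01 i2, integral_add i0 i1, integral_const_mul, integral_const_mul,
    integral_const_mul, integral_const_mul, integral_gs hσ, integral_sq_gs hσ, integral_odd_gs σ (by decide),
    integral_odd_gs σ (by decide)]
  ring

theorem integral_poly_gs_mul_gs {a b : ℝ} (ha : 0 < a) (hb : 0 < b) (x y A B C D : ℝ) {f : ℝ → ℝ}
    (hf : ∀ p, f p = (A + B * (p - (b * x - a * y) / (a + b)) + C * (p - (b * x - a * y) / (a + b)) ^ 2 +
      D * (p - (b * x - a * y) / (a + b)) ^ 3) * (gs a (x - p) * gs b (y + p))) :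
    ∫ p, f p = (A + C * (a * b / (a + b))) * gs (a + b) (x + y) := by
  simp only [hf, gs_mul_gs ha hb, mul_left_comm _ (gs (a + b) (x + y))]
  rw [integral_const_mul, integral_sub_right_eq_self
    (fun u => (A + B * u + C * u ^ 2 + D * u ^ 3) * gs (a * b / (a + b)) u), integral_poly_gs (by positivity),
    mul_comm]

theorem integral_d1_mul_d1 {a b : ℝ} (ha : 0 < a) (hb : 0 < b) (x y : ℝ) :
    ∫ p, d1 a (x - p) * d1 b (y + p) =
      ((x + y) ^ 2 / (a + b) ^ 2 - 1 / (a + b)) * gs (a + b) (x + y) := by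
  have h := integral_poly_gs_mul_gs ha hb x y (((x + y) / (a + b)) ^ 2) ((a - b) / (a * b) * ((x + y) / (a + b)))
    (-1 / (a * b)) 0 (f := fun p => d1 a (x - p) * d1 b (y + p)) fun p => by
      unfold d1
      field_simp
      ring
  rw [h]
  congr 1
  field_simp
  ring

theorem plane3 {σ : ℝ} (hσ : 0 < σ) (x y z : ℝ) :
    Integrable (fun p : ℝ × ℝ => d1 σ (x - p.1) * d1 σ (y - p.2) * d1 σ (z - (-p.1 - p.2))) ∧
    ∫ p : ℝ × ℝ, d1 σ (x - p.1) * d1 σ (y - p.2) * d1 σ (z - (-p.1 - p.2)) =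
      d3 (3 * σ) (x + y + z) := by
  obtain ⟨C, hC⟩ := d1_bdd hσ
  have hi : Integrable (fun p : ℝ × ℝ => d1 σ (x - p.1) * d1 σ (y - p.2) * d1 σ (z - (-p.1 - p.2))) :=
    (((integrable_d1 hσ).comp_sub_left x).mul_prod ((integrable_d1 hσ).comp_sub_left y)).mul_bdd (c := C)
      (Measurable.aestronglyMeasurable (by fun_prop)) (Eventually.of_forall fun p => hC _)
  refine ⟨hi, ?_⟩
  rw [Measure.volume_eq_prod] at hi ⊢
  rw [integral_prod _ hi]
  have e1 : ∀ p q : ℝ, z - (-p - q) = z + p + q := fun p q => by ring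
  simp only [e1, mul_assoc, integral_const_mul, integral_d1_mul_d1 hσ hσ]
  have h2 : 0 < σ + σ := by positivity
  rw [integral_poly_gs_mul_gs hσ h2 x (y + z)
    (-((x + y + z) / (3 * σ)) ^ 3 + (x + y + z) / (3 * σ) / (2 * σ)) (-1 / (2 * σ ^ 2))
    (3 * ((x + y + z) / (3 * σ)) / (4 * σ ^ 2)) (1 / (4 * σ ^ 3)) fun p => by
      rw [show y + (z + p) = y + z + p by ring]
      unfold d1
      rw [show σ + (σ + σ) = 3 * σ by ring, show σ + σ = 2 * σ by ring]
      field_simp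
      ring]
  rw [show σ + (σ + σ) = 3 * σ by ring, ← add_assoc, d3]
  congr 1
  field_simp
  ring

theorem integral_d1_mul_gs {a b : ℝ} (ha : 0 < a) (hb : 0 < b) (x y : ℝ) :
    ∫ p, d1 a (x - p) * gs b (y + p) = d1 (a + b) (x + y) := by
  rw [integral_poly_gs_mul_gs ha hb x y (-(x + y) / (a + b)) (1 / a) 0 0 fun p => by
      unfold d1
      field_simp
      ring, d1]
  ring

theorem integral_gs_mul_d1 {a b : ℝ} (ha : 0 < a) (hb : 0 < b) (x y : ℝ) :
    ∫ p, gs a (x - p) * d1 b (y + p) = d1 (a + b) (x + y) := by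
  rw [integral_poly_gs_mul_gs ha hb x y (-(x + y) / (a + b)) (-1 / b) 0 0 fun p => by
      unfold d1
      field_simp
      ring, d1]
  ring

theorem plane1 {σ : ℝ} (hσ : 0 < σ) (x y z r : ℝ) :
    Integrable (fun p : ℝ × ℝ => gs σ (x - p.1) * d1 σ (y - p.2) * gs σ (z - (r - p.1 - p.2))) ∧
    ∫ p : ℝ × ℝ, gs σ (x - p.1) * d1 σ (y - p.2) * gs σ (z - (r - p.1 - p.2)) =
      d1 (3 * σ) (x + y + z - r) := by
  have hi : Integrable (fun p : ℝ × ℝ => gs σ (x - p.1) * d1 σ (y - p.2) * gs σ (z - (r - p.1 - p.2))) :=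
    (((integrable_gs hσ).comp_sub_left x).mul_prod ((integrable_d1 hσ).comp_sub_left y)).mul_bdd (c := (√σ)⁻¹)
      (Measurable.aestronglyMeasurable (by fun_prop)) (Eventually.of_forall fun p => by
        rw [Real.norm_of_nonneg (gs_nonneg _ _)]; exact gs_le hσ _)
  refine ⟨hi, ?_⟩
  rw [Measure.volume_eq_prod] at hi ⊢
  rw [integral_prod _ hi]
  have e1 : ∀ p q : ℝ, z - (r - p - q) = z - r + p + q := fun p q => by ring
  simp only [e1, mul_assoc, integral_const_mul, integral_d1_mul_gs hσ hσ]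
  have e2 : ∀ p : ℝ, y + (z - r + p) = y + z - r + p := fun p => by ring
  simp only [e2]
  rw [integral_gs_mul_d1 hσ (by positivity)]
  congr 1 <;> ring

theorem exp_half_le : Real.exp (1 / 2) ≤ 2 := by
  have h1 : Real.exp (1 / 2) ^ 2 = Real.exp 1 := by rw [← Real.exp_nat_mul]; norm_num
  have h2 := Real.exp_one_lt_d9
  nlinarith [Real.exp_pos (1 / 2)]

theorem sum_gs_le {X : Type*} [Fintype X] {δ σ : ℝ} (hδ : 0 < δ) (hσ : δ ^ 2 ≤ σ) {ξ : X → ℝ}
    (hξ : Sep δ ξ) (y : ℝ) : ∑ a, δ * gs σ (ξ a - y) ≤ 3 := by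
  have hσ0 : 0 < σ := lt_of_lt_of_le (by positivity) hσ
  have hi : Integrable fun t => gs (2 * σ) (t - y) := (integrable_gs (by positivity)).comp_sub_right y
  have h1 : ∀ a, δ * gs σ (ξ a - y) ≤ 3 * ∫ t in Ico (ξ a) (ξ a + δ), gs (2 * σ) (t - y) := fun a => by
    have h2 := setIntegral_ge_of_const_le_real (μ := volume) (s := Ico (ξ a) (ξ a + δ))
      (f := fun t => gs (2 * σ) (t - y)) (c := gs σ (ξ a - y) / 3) measurableSet_Ico (by simp)
      (fun t ht => ?_) hi.integrableOn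
    · rw [Real.volume_real_Ico_of_le (by linarith), add_sub_cancel_left] at h2
      linarith
    · have h3 := gs_cmp (a := σ) (b := 2 * σ) (x := ξ a - y) (y := t - y) (K := 3 / 2) (t := 1 / 2) hσ0
        (by positivity) (by nlinarith) (by norm_num) (by
          have h4 : (t - ξ a) ^ 2 ≤ σ := le_trans (pow_le_pow_left₀ (by linarith [ht.1]) (by linarith [ht.2]) 2) hσ
          rw [div_add' _ _ _ (by positivity), div_le_div_iff₀ (by positivity) (by positivity)]
          have h5 : (t - y) ^ 2 ≤ 2 * (ξ a - y) ^ 2 + 2 * σ := by nlinarith [sq_nonneg (t - ξ a - (ξ a - y))]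
          nlinarith)
      have h6 := gs_nonneg (2 * σ) (t - y)
      have h7 := exp_half_le
      nlinarith
  calc ∑ a, δ * gs σ (ξ a - y) ≤ ∑ a, 3 * ∫ t in Ico (ξ a) (ξ a + δ), gs (2 * σ) (t - y) :=
        Finset.sum_le_sum fun a _ => h1 a
    _ = 3 * ∫ t in ⋃ a, Ico (ξ a) (ξ a + δ), gs (2 * σ) (t - y) := by
        rw [integral_iUnion_fintype (fun _ => measurableSet_Ico) ?_ fun _ => hi.integrableOn, Finset.mul_sum]
        intro a b hab
        have h2 := hξ a b hab
        refine Set.disjoint_left.mpr fun t h3 h4 => ?_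
        rcases le_abs'.mp h2 with h | h <;> linarith [h3.1, h3.2, h4.1, h4.2]
    _ ≤ 3 * ∫ t, gs (2 * σ) (t - y) :=
        mul_le_mul_of_nonneg_left (setIntegral_le_integral hi (Eventually.of_forall fun t => gs_nonneg _ _))
          (by norm_num)
    _ = 3 := by rw [integral_sub_right_eq_self (gs _), integral_gs (by positivity), mul_one]

theorem gs_shift {a : ℝ} (ha : 0 < a) (s r : ℝ) :
    gs a (s - r) ≤ 5 * (1 + |r| / √a) * gs (2 * a + r ^ 2) s := by
  have hs : 0 < √a := Real.sqrt_pos.mpr ha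
  have hu : (|r| / √a) ^ 2 * a = r ^ 2 := by
    rw [div_pow, sq_abs, Real.sq_sqrt ha.le]
    field_simp
  have hu0 : 0 ≤ |r| / √a := by positivity
  have h1 := gs_cmp (a := a) (b := 2 * a + r ^ 2) (x := s - r) (y := s) (K := 2 * (1 + |r| / √a)) (t := 1 / 2) ha
    (by positivity) (by nlinarith [mul_nonneg hu0 ha.le, sq_nonneg r]) (by positivity) (by
      rw [div_add' _ _ _ (by positivity), div_le_div_iff₀ (by positivity) (by positivity)]
      nlinarith [sq_nonneg ((s - r) * r - a), mul_nonneg ha.le (sq_nonneg (s - r)), sq_nonneg a])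
  have h2 : 2 * (1 + |r| / √a) * Real.exp (1 / 2) ≤ 5 * (1 + |r| / √a) := by nlinarith [exp_half_le]
  exact h1.trans (mul_le_mul_of_nonneg_right h2 (gs_nonneg _ _))

/-- the three parametrisations of the plane `p₀ + p₁ + p₂ = r` -/
theorem measurePreserving_rot (r : ℝ) :
    MeasurePreserving (fun p : ℝ × ℝ => (p.1, r - p.1 - p.2)) volume volume := by
  rw [Measure.volume_eq_prod]
  exact (MeasurePreserving.id volume).skew_product (g := fun a b : ℝ => r - a - b) (by fun_prop)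
    (Eventually.of_forall fun a => (Measure.measurePreserving_sub_left volume (r - a)).map_eq)

theorem measurePreserving_rot' (r : ℝ) :
    MeasurePreserving (fun p : ℝ × ℝ => (r - p.1 - p.2, p.2)) volume volume := by
  have h1 : MeasurePreserving (Prod.swap : ℝ × ℝ → ℝ × ℝ) volume volume := Measure.measurePreserving_swap
  have h2 := (h1.comp (measurePreserving_rot r)).comp h1
  convert h2 using 1
  funext p
  simp only [Function.comp, Prod.swap]
  rw [sub_right_comm]

end Crest.Agent.R72
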