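import Crest.Agent.R72.Flow_B
import Crest.Agent.R72.Gauss

/-! # Row 72: Gaussian windows along the flow -/

set_option autoImplicit false

namespace Crest.Agent.R72

open MeasureTheory Set Matrix Filter Topology

variable {X T : Type*} [Fintype X] [DecidableEq X] [Fintype T]

/-- the second derivative of the Gaussian -/
noncomputable def d2 (σ x : ℝ) : ℝ := (x ^ 2 / σ ^ 2 - 1 / σ) * gs σ x

/-- the first window -/
noncomputable def hw (σ : ℝ) (ξ : X → ℝ) (p : ℝ) : X → ℝ := fun a => √(gs σ (ξ a - p))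

/-- Gram matrices with a general second weight -/
noncomputable def WW (ω : ℝ → ℝ → ℝ) (κ c₀ c₁ : ℝ) (ξ : X → ℝ) (τ : T → ℝ) (F : Matrix X T ℝ)
    (z : ℝ × ℝ × ℝ) : Matrix X X ℝ :=
  Gw (hw z.1 ξ z.2.1) F fun b => ω (κ * z.1) (τ b + c₀ * z.2.1 + c₁ * z.2.2)

theorem gs_decay {s₀ : ℝ} (h₀ : 0 < s₀) (s₁ k : ℝ) :
    ∃ C, 0 ≤ C ∧ ∀ s ∈ Icc s₀ s₁, ∀ x, gs s x ≤ C * Real.exp (-k * |x|) := by
  refine ⟨(√(2 * Real.pi * s₀))⁻¹ * Real.exp (k ^ 2 * s₁ / 2), by positivity, fun s hs x => ?_⟩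
  have hs0 : 0 < s := h₀.trans_le hs.1
  rw [gs, mul_assoc _ (Real.exp _), ← Real.exp_add]
  have := Real.pi_pos
  gcongr
  · exact hs.1
  · rw [div_le_iff₀ (by positivity), ← sq_abs x]
    nlinarith [sq_nonneg (|x| - k * s), mul_le_mul_of_nonneg_left hs.2 (mul_nonneg (sq_nonneg k) hs0.le)]

theorem Bd.base {σ₀ σ₁ κ c₀ c₁ : ℝ} (h₀ : 0 < σ₀) (hκ : 0 < κ) (hc₀ : |c₀| ≤ 1) (hc₁ : |c₁| = 1)
    (ξ τ N : ℝ) :
    Bd σ₀ σ₁ N fun z => √(gs z.1 (ξ - z.2.1)) * gs (κ * z.1) (τ + c₀ * z.2.1 + c₁ * z.2.2) := by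
  obtain ⟨C, hC0, hC⟩ := gs_decay h₀ σ₁ (4 * |N|)
  obtain ⟨C', hC0', hC'⟩ := gs_decay (mul_pos hκ h₀) (κ * σ₁) |N|
  refine ⟨by fun_prop, √C * C' * Real.exp (|N| * (2 * |ξ| + |τ|)), fun z hz => ?_⟩
  obtain ⟨x, hx⟩ : ∃ x, x = ξ - z.2.1 := ⟨_, rfl⟩
  obtain ⟨y, hy⟩ : ∃ y, y = τ + c₀ * z.2.1 + c₁ * z.2.2 := ⟨_, rfl⟩
  simp only [← hx, ← hy]
  have h1 : √(gs z.1 x) ≤ √C * Real.exp (-(2 * |N|) * |x|) := by
    refine Real.sqrt_le_iff.2 ⟨by positivity, (hC _ hz x).trans_eq ?_⟩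
    rw [mul_pow, Real.sq_sqrt hC0, ← Real.exp_nat_mul]
    congr 2
    push_cast
    ring
  have h2 := hC' (κ * z.1) ⟨by gcongr; exact hz.1, by gcongr; exact hz.2⟩ y
  have h3 : |z.2.1| ≤ |x| + |ξ| := by
    rw [show z.2.1 = ξ - x by rw [hx]; ring, add_comm]
    exact abs_sub _ _
  have h4 : |z.2.2| ≤ |y| + |τ| + |z.2.1| := by
    rw [← one_mul |z.2.2|, ← hc₁, ← abs_mul, show c₁ * z.2.2 = y - τ - c₀ * z.2.1 by rw [hy]; ring]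
    refine (abs_sub _ _).trans (add_le_add (abs_sub _ _) ?_)
    rw [abs_mul]
    exact mul_le_of_le_one_left (abs_nonneg _) hc₀
  rw [abs_of_nonneg (mul_nonneg (Real.sqrt_nonneg _) (gs_nonneg _ _))]
  refine (mul_le_mul h1 h2 (gs_nonneg _ _) (by positivity)).trans ?_
  rw [mul_mul_mul_comm, mul_assoc (√C * C'), ← Real.exp_add, ← Real.exp_add]
  refine mul_le_mul_of_nonneg_left (Real.exp_le_exp.2 ?_) (by positivity)
  have h5 : -|N| * (|z.2.1| + |z.2.2|) ≤ N * (|z.2.1| + |z.2.2|) :=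
    mul_le_mul_of_nonneg_right (neg_abs_le N) (by positivity)
  nlinarith [mul_le_mul_of_nonneg_left (show |z.2.1| + |z.2.2| ≤ 2 * |x| + |y| + (2 * |ξ| + |τ|) by
    linarith) (abs_nonneg N)]

section

variable {σ₀ σ₁ κ c₀ c₁ : ℝ} (h₀ : 0 < σ₀) (hκ : 0 < κ) (hc₀ : |c₀| ≤ 1) (hc₁ : |c₁| = 1)
  (ξ : X → ℝ) (τ : T → ℝ) (F : Matrix X T ℝ)
include h₀ hκ hc₀ hc₁

omit [Fintype X] [DecidableEq X] in
theorem RD.WW {ω π : ℝ → ℝ → ℝ} {M : ℝ} (hω : ∀ s x, ω s x = π s x * gs s x)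
    (hπ : ∀ t, Bd σ₀ σ₁ M fun z => π (κ * z.1) (t + c₀ * z.2.1 + c₁ * z.2.2)) :
    RD σ₀ σ₁ (WW ω κ c₀ c₁ ξ τ F) := fun N a a' => by
  have h1 : Bd σ₀ σ₁ 0 fun z => √(gs z.1 (ξ a' - z.2.1)) := by
    obtain ⟨C, -, hC⟩ := gs_decay h₀ σ₁ 0
    refine Bd.bdd (by fun_prop) (C := √C) fun z hz => ?_
    rw [abs_of_nonneg (Real.sqrt_nonneg _)]
    exact Real.sqrt_le_sqrt (by simpa using hC _ hz _)
  have h2 := Bd.sum Finset.univ fun b => ((((Bd.base h₀ hκ hc₀ hc₁ (ξ a) (τ b) (N - M)).mul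
    (hπ (τ b))).mul h1).const_mul (F a b * F a' b)).mono (M := N) (by linarith)
  convert h2 using 2 with z
  simp only [R72.WW, Gw, hw, of_apply, hω, Finset.mul_sum]
  exact Finset.sum_congr rfl fun b _ => by ring

omit [Fintype X] [DecidableEq X] in
theorem RD.W0 : RD σ₀ σ₁ (R72.WW gs κ c₀ c₁ ξ τ F) :=
  RD.WW h₀ hκ hc₀ hc₁ ξ τ F (π := fun _ _ => 1) (by simp) fun _ => Bd.const 1

omit [Fintype X] [DecidableEq X] in
theorem RD.W1 : RD σ₀ σ₁ (R72.WW d1 κ c₀ c₁ ξ τ F) :=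
  RD.WW h₀ hκ hc₀ hc₁ ξ τ F (π := fun s x => -x / s) (fun _ _ => rfl) fun t => by
    convert ((Bd.lin t c₀ c₁).mul (Bd.inv h₀)).const_mul (-κ⁻¹) using 2 with z
    ring

omit [Fintype X] [DecidableEq X] in
theorem RD.W2 : RD σ₀ σ₁ (R72.WW d2 κ c₀ c₁ ξ τ F) :=
  RD.WW h₀ hκ hc₀ hc₁ ξ τ F (π := fun s x => x ^ 2 / s ^ 2 - 1 / s) (fun _ _ => rfl) fun t => by
    have h1 := ((Bd.lin (σ₁ := σ₁) t c₀ c₁).mul (Bd.inv h₀)).const_mul κ⁻¹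
    convert (h1.mul h1).sub (((Bd.inv h₀).const_mul κ⁻¹).mono (by norm_num)) using 2 with z
    ring

end

omit [Fintype X] [DecidableEq X] in
theorem Bd.uu {σ₀ σ₁ : ℝ} (h₀ : 0 < σ₀) (ξ : X → ℝ) (a : X) :
    Bd σ₀ σ₁ 1 fun z => uu z.1 ξ z.2.1 a := by
  convert ((Bd.lin (ξ a) (-1) 0).mul (Bd.inv h₀)).const_mul 2⁻¹ using 2 with z
  · simp
  · simp only [R72.uu]; ring

omit [Fintype X] [DecidableEq X] in
theorem hw_p {σ : ℝ} (hσ : 0 < σ) (ξ : X → ℝ) (p : ℝ) (a : X) :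
    HasDerivAt (fun s => hw σ ξ s a) (uu σ ξ p a * hw σ ξ p a) p := by
  have h := gs_pos hσ (ξ a - p)
  refine (((hasDerivAt_gs hσ _).comp p ((hasDerivAt_id p).const_sub (ξ a))).sqrt h.ne').congr_deriv ?_
  have h1 := Real.mul_self_sqrt h.le
  have h2 := (Real.sqrt_pos.2 h).ne'
  simp only [Function.comp, id, hw, R72.uu, d1]
  field_simp
  rw [Real.sq_sqrt h.le]

omit [Fintype X] [DecidableEq X] in
theorem hw_s {σ : ℝ} (hσ : 0 < σ) (ξ : X → ℝ) (p : ℝ) (a : X) :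
    HasDerivAt (fun s => hw s ξ p a) ((uu σ ξ p a * uu σ ξ p a - 1 / (4 * σ)) * hw σ ξ p a) σ := by
  have h := gs_pos hσ (ξ a - p)
  refine ((hasDerivAt_gs_var hσ _).sqrt h.ne').congr_deriv ?_
  have h2 := (Real.sqrt_pos.2 h).ne'
  simp only [hw, R72.uu]
  field_simp
  rw [Real.sq_sqrt h.le]
  ring

omit [Fintype X] [DecidableEq X] in
theorem Gw_mul (h : X → ℝ) (F : Matrix X T ℝ) (w : T → ℝ) (c : ℝ) :
    Gw h F (fun b => w b * c) = c • Gw h F w := by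
  ext a a'
  simp only [Gw, of_apply, Matrix.smul_apply, smul_eq_mul, Finset.mul_sum]
  exact Finset.sum_congr rfl fun b _ => by ring

section

variable {ω ω' : ℝ → ℝ → ℝ} {σ κ c₀ c₁ : ℝ} (ξ : X → ℝ) (τ : T → ℝ) (F : Matrix X T ℝ) (p q : ℝ)

theorem WW_p (hσ : 0 < σ) (hω : ∀ x, HasDerivAt (ω (κ * σ)) (ω' (κ * σ) x) x) :
    MD (fun s => WW ω κ c₀ c₁ ξ τ F (σ, s, q)) (diagonal (uu σ ξ p) * WW ω κ c₀ c₁ ξ τ F (σ, p, q) +
      WW ω κ c₀ c₁ ξ τ F (σ, p, q) * diagonal (uu σ ξ p) + c₀ • WW ω' κ c₀ c₁ ξ τ F (σ, p, q)) p := by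
  have := MD.Gw F (hw_p hσ ξ p) fun b => (hω (τ b + c₀ * p + c₁ * q)).comp p
    ((((hasDerivAt_id p).const_mul c₀).const_add (τ b)).add_const (c₁ * q))
  simp only [mul_one, Gw_mul] at this
  exact this

theorem WW_q (hω : ∀ x, HasDerivAt (ω (κ * σ)) (ω' (κ * σ) x) x) :
    MD (fun s => WW ω κ c₀ c₁ ξ τ F (σ, p, s)) (c₁ • WW ω' κ c₀ c₁ ξ τ F (σ, p, q)) q := by
  have := MD.Gw (h := fun _ => hw σ ξ p) (v := 0) F (fun a => by simpa using hasDerivAt_const _ _)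
    fun b => (hω (τ b + c₀ * p + c₁ * q)).comp q
    (((hasDerivAt_id q).const_mul c₁).const_add (τ b + c₀ * p))
  simp only [mul_one, Gw_mul, diagonal_zero', Matrix.zero_mul, Matrix.mul_zero, zero_add] at this
  exact this

theorem WW_s (hσ : 0 < σ) (hκ : 0 < κ) :
    MD (fun s => WW gs κ c₀ c₁ ξ τ F (s, p, q))
      ((diagonal (uu σ ξ p) * diagonal (uu σ ξ p) - (1 / (4 * σ)) • 1) * WW gs κ c₀ c₁ ξ τ F (σ, p, q) +
      WW gs κ c₀ c₁ ξ τ F (σ, p, q) * (diagonal (uu σ ξ p) * diagonal (uu σ ξ p) - (1 / (4 * σ)) • 1) +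
      (κ / 2) • WW d2 κ c₀ c₁ ξ τ F (σ, p, q)) σ := by
  have := MD.Gw F (hw_s hσ ξ p) (w' := fun b => d2 (κ * σ) (τ b + c₀ * p + c₁ * q) * (κ / 2))
    fun b => ((hasDerivAt_gs_var (mul_pos hκ hσ) (τ b + c₀ * p + c₁ * q)).comp σ
      ((hasDerivAt_id σ).const_mul κ)).congr_deriv (by rw [d2]; ring)
  rw [Gw_mul] at this
  rw [diagonal_mul_diagonal, smul_one_eq_diagonal, diagonal_sub]
  exact this

omit [Fintype X] in
theorem UU_p : MD (fun s => diagonal (uu σ ξ s)) (-(1 / (2 * σ)) • 1) p := by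
  rw [smul_one_eq_diagonal]
  refine MD.diagonal fun a => (((hasDerivAt_id p).const_sub (ξ a)).div_const (2 * σ)).congr_deriv ?_
  ring

omit [DecidableEq X] in
theorem WW_psd (z : ℝ × ℝ × ℝ) : (WW gs κ c₀ c₁ ξ τ F z).PosSemidef :=
  Gw_psd _ _ fun _ => gs_nonneg _ _

omit [Fintype X] [DecidableEq X] in
theorem WW_zero (z : ℝ × ℝ × ℝ) : WW ω κ c₀ c₁ ξ τ 0 z = 0 := by
  ext a a'; simp [WW, Gw]

end

end Crest.Agent.R72
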