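import Crest.Agent.R72.Gauss

/-!
# Row 72: the kernels

PLANS.  With `w = t²/(6R²)`: `t DD R t = 1_{R<|t|} - 1 + 3 e^{-w} - 2 (1+w) e^{-w}`; the three functions `1_{R<|t|}`, `e^{-w}`,
`(1+w) e^{-w}` are monotone in `R` with values in `[0,1]` (this gives `var_DD` by telescoping).
* `ee_le`: `ee σ E r = ∫₀^∞ E s (ψ (r-s) - ψ (r+s)) ds`, `ψ = d1 (3σ)`.  Split at `S = max √σ (|r|/2)`: for `s ≤ S` use the mean
  value theorem (`|ψ'| ≤ C σ^(-3/2)`, and `|ψ' y| ≤ C σ^(-1/2)/y²`), for `s > S` use `|E s| ≤ H/S`, `∫ |ψ| ≤ C/√σ`.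
* `sm_sub`: the inner integral is `∫ E s g''_{6σ} (t - s) ds` (Fubini, `integral_d1_mul_d1`), `∂_σ gs (6σ) x = 3 g''_{6σ} x`;
  Fubini in `(σ, s)`.
* `tendsto_KK`: substitute `s = t - √τ y`, dominated convergence; `|sm τ E| ≤ ‖E‖₁/√τ`.
-/

set_option autoImplicit false

namespace Crest.Agent.R72

open MeasureTheory Set Matrix Filter Topology
open scoped ENNReal

theorem hasDerivAt_LL {σ : ℝ} (hσ : 0 < σ) (t : ℝ) :
    HasDerivAt (fun s => LL s t) (-(3 / 2 * √(6 * Real.pi)) * (√σ * d3 (3 * σ) t)) σ := by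
  have h1 : HasDerivAt (fun s : ℝ => -t ^ 2 / (6 * s)) (t ^ 2 / (6 * σ ^ 2)) σ := by
    have := ((hasDerivAt_id σ).const_mul 6).fun_inv (by simpa using hσ.ne') |>.const_mul (-t ^ 2)
    refine HasDerivAt.congr_deriv this ?_
    simp only [id]; field_simp
  have h2 : HasDerivAt (fun s : ℝ => t / (3 * s)) (-t / (3 * σ ^ 2)) σ := by
    have := ((hasDerivAt_id σ).const_mul 3).fun_inv (by simpa using hσ.ne') |>.const_mul t
    refine HasDerivAt.congr_deriv this ?_
    simp only [id]; field_simp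
  have h3 := ((h1.exp.const_sub 1).div_const t).add (h2.mul h1.exp)
  refine HasDerivAt.congr_deriv h3 ?_
  have e1 : √(2 * Real.pi * (3 * σ)) = √(6 * Real.pi) * √σ := by
    rw [← Real.sqrt_mul (by positivity)]; congr 1; ring
  have e2 : 2 * (3 * σ) = 6 * σ := by ring
  have p1 : 0 < √(6 * Real.pi) := by positivity
  have p2 : 0 < √σ := by positivity
  simp only [d3, gs, e1, e2]
  rcases eq_or_ne t 0 with rfl | ht
  · simp
  · field_simp; ring

theorem measurable_DD (R : ℝ) : Measurable (DD R) := by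
  have h1 : Measurable (TT R) :=
    Measurable.ite (measurableSet_lt measurable_const (by fun_prop)) (by fun_prop) measurable_const
  have h2 : Measurable (LL (R ^ 2)) := by unfold LL; fun_prop
  exact h1.sub h2

theorem kn_measurable_sm (τ : ℝ) {E : ℝ → ℝ} (hE : Measurable E) : Measurable (sm τ E) :=
  (StronglyMeasurable.integral_prod_right' (ν := volume) (f := fun p : ℝ × ℝ => E p.2 * gs τ (p.1 - p.2))
    (Measurable.stronglyMeasurable (by fun_prop))).measurable

theorem measurable_KK (σ₀ σ₁ R : ℝ) : Measurable (KK σ₀ σ₁ R) := by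
  have h2 : Measurable (LL (R ^ 2)) := by unfold LL; fun_prop
  exact h2.add ((kn_measurable_sm _ (measurable_DD R)).sub (kn_measurable_sm _ (measurable_DD R)))

theorem DD_neg (R t : ℝ) : DD R (-t) = -DD R t := by
  simp only [DD, TT, LL, abs_neg, neg_sq, div_neg, neg_div]
  split_ifs <;> ring

theorem abs_LL_le {R : ℝ} (hR : 0 < R) (t : ℝ) : |LL (R ^ 2) t| ≤ 2 / R := by
  rcases eq_or_ne t 0 with rfl | ht
  · simp only [LL, div_zero, zero_div, zero_mul, add_zero, abs_zero]; positivity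
  have ha : 0 < |t| := abs_pos.mpr ht
  have hw : 0 ≤ t ^ 2 / (6 * R ^ 2) := by positivity
  have e0 : -t ^ 2 / (6 * R ^ 2) = -(t ^ 2 / (6 * R ^ 2)) := neg_div _ _
  have e1 := Real.add_one_le_exp (-(t ^ 2 / (6 * R ^ 2)))
  have e2 : Real.exp (-(t ^ 2 / (6 * R ^ 2))) ≤ 1 := Real.exp_le_one_iff.mpr (by linarith)
  have e3 := Real.add_one_le_exp (t ^ 2 / (6 * R ^ 2))
  have e4 := Real.exp_pos (-(t ^ 2 / (6 * R ^ 2)))
  have e5 : Real.exp (-(t ^ 2 / (6 * R ^ 2))) * (t ^ 2 / (6 * R ^ 2) + 1) ≤ 1 := by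
    calc _ ≤ Real.exp (-(t ^ 2 / (6 * R ^ 2))) * Real.exp (t ^ 2 / (6 * R ^ 2)) := by gcongr
      _ = 1 := by rw [← Real.exp_add]; simp
  rw [LL, e0]
  generalize Real.exp (-(t ^ 2 / (6 * R ^ 2))) = e at *
  rw [← sq_abs t] at e1 e5
  have h1 : |(1 - e) / t| ≤ 1 / R := by
    rw [abs_div, abs_of_nonneg (by linarith), div_le_div_iff₀ ha hR]
    rcases le_total |t| R with h | h
    · have : |t| ^ 2 / (6 * R ^ 2) * R ≤ |t| := by
        rw [div_mul_eq_mul_div, div_le_iff₀ (by positivity)]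
        nlinarith [mul_le_mul_of_nonneg_left h (mul_pos ha hR).le, mul_pos ha (mul_pos hR hR)]
      nlinarith
    · nlinarith
  have h2 : |t / (3 * R ^ 2) * e| ≤ 1 / R := by
    rw [abs_mul, abs_div, abs_of_pos e4, abs_of_pos (by positivity : 0 < 3 * R ^ 2)]
    have : |t| / (3 * R ^ 2) ≤ 1 / R * (|t| ^ 2 / (6 * R ^ 2) + 1) := by
      rw [← sub_nonneg]
      have : 1 / R * (|t| ^ 2 / (6 * R ^ 2) + 1) - |t| / (3 * R ^ 2) =
          ((|t| - R) ^ 2 + 5 * R ^ 2) / (6 * R ^ 3) := by field_simp; ring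
      rw [this]; positivity
    calc _ ≤ 1 / R * (|t| ^ 2 / (6 * R ^ 2) + 1) * e := by gcongr
      _ = 1 / R * (e * (|t| ^ 2 / (6 * R ^ 2) + 1)) := by ring
      _ ≤ 1 / R * 1 := by gcongr
      _ = 1 / R := mul_one _
  calc _ ≤ _ := abs_add_le _ _
    _ ≤ 1 / R + 1 / R := add_le_add h1 h2
    _ = 2 / R := by ring

theorem abs_DD_le {R : ℝ} (hR : 0 < R) (t : ℝ) : |DD R t| ≤ 3 / R := by
  have h1 : |TT R t| ≤ 1 / R := by
    unfold TT
    split_ifs with h
    · rw [abs_div, abs_one]; gcongr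
    · rw [abs_zero]; positivity
  calc _ ≤ _ := abs_sub _ _
    _ ≤ 1 / R + 2 / R := add_le_add h1 (abs_LL_le hR t)
    _ = 3 / R := by ring

theorem integrable_DD {R : ℝ} (hR : 0 < R) : Integrable (DD R) := by
  have hb : 0 < 1 / (6 * R ^ 2) := by positivity
  have i1 : Integrable ((Icc (-R) R).indicator fun _ : ℝ => 3 / R) :=
    (integrable_indicator_iff measurableSet_Icc).2 (integrableOn_const (by simp))
  have i2 := (integrable_exp_neg_mul_sq hb).const_mul (1 / R)
  have i3 := ((integrable_mul_exp_neg_mul_sq hb).const_mul (1 / (3 * R ^ 2))).abs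
  refine ((i1.add i2).add i3).mono' (measurable_DD R).aestronglyMeasurable (Eventually.of_forall fun t => ?_)
  simp only [Pi.add_apply, Real.norm_eq_abs]
  by_cases h : R < |t|
  · have ht : t ≠ 0 := fun h' => by rw [h', abs_zero] at h; linarith
    have e : DD R t = 1 / t * Real.exp (-(1 / (6 * R ^ 2)) * t ^ 2) -
        1 / (3 * R ^ 2) * (t * Real.exp (-(1 / (6 * R ^ 2)) * t ^ 2)) := by
      rw [DD, TT, if_pos h, LL, show -t ^ 2 / (6 * R ^ 2) = -(1 / (6 * R ^ 2)) * t ^ 2 by ring]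
      ring
    have h1 : 0 ≤ (Icc (-R) R).indicator (fun _ : ℝ => 3 / R) t :=
      indicator_nonneg (fun _ _ => by positivity) t
    have h2 : |1 / t * Real.exp (-(1 / (6 * R ^ 2)) * t ^ 2)| ≤
        1 / R * Real.exp (-(1 / (6 * R ^ 2)) * t ^ 2) := by
      rw [abs_mul, abs_of_pos (Real.exp_pos _), abs_div, abs_one]
      gcongr
    rw [e]
    linarith [abs_sub (1 / t * Real.exp (-(1 / (6 * R ^ 2)) * t ^ 2))
      (1 / (3 * R ^ 2) * (t * Real.exp (-(1 / (6 * R ^ 2)) * t ^ 2)))]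
  · rw [indicator_of_mem (show t ∈ Icc (-R) R from abs_le.mp (not_lt.mp h))]
    have h2 : 0 ≤ 1 / R * Real.exp (-(1 / (6 * R ^ 2)) * t ^ 2) := by positivity
    linarith [abs_DD_le hR t, abs_nonneg (1 / (3 * R ^ 2) * (t * Real.exp (-(1 / (6 * R ^ 2)) * t ^ 2)))]

theorem kn_one_add_mul_exp_le {w w' : ℝ} (h0 : 0 ≤ w) (h : w ≤ w') :
    (1 + w') * Real.exp (-w') ≤ (1 + w) * Real.exp (-w) := by
  have e : Real.exp (-w) = Real.exp (w' - w) * Real.exp (-w') := by rw [← Real.exp_add]; congr 1; ring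
  rw [e, ← mul_assoc]
  gcongr
  have := Real.add_one_le_exp (w' - w)
  nlinarith [mul_nonneg h0 (sub_nonneg.mpr h)]

theorem var_DD {ρ : ℕ → ℝ} (hρ : Monotone ρ) (h0 : 0 < ρ 0) (m : ℕ) (t : ℝ) :
    ∑ i ∈ Finset.range m, |DD (ρ i) t - DD (ρ (i + 1)) t| ≤ 6 / |t| := by
  rcases eq_or_ne t 0 with rfl | ht
  · simp [DD, TT, LL]
  have ha : 0 < |t| := abs_pos.mpr ht
  have hp : ∀ i, 0 < ρ i := fun i => h0.trans_le (hρ (Nat.zero_le i))
  let a : ℕ → ℝ := fun i => if ρ i < |t| then 1 else 0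
  let w : ℕ → ℝ := fun i => t ^ 2 / (6 * ρ i ^ 2)
  let φ : ℕ → ℝ := fun i => -a i + 3 * Real.exp (-w i) + 2 * ((1 + w i) * Real.exp (-w i))
  have hw : ∀ i, 0 ≤ w i := fun i => by simp only [w]; positivity
  have e : ∀ i, DD (ρ i) t = (a i - 1 + 3 * Real.exp (-w i) - 2 * ((1 + w i) * Real.exp (-w i))) / t := by
    intro i
    have := (hp i).ne'
    simp only [DD, TT, LL, a, w, neg_div]
    split_ifs <;> field_simp <;> ring
  have key : ∀ i, |DD (ρ i) t - DD (ρ (i + 1)) t| ≤ φ (i + 1) / |t| - φ i / |t| := by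
    intro i
    have h1 : a (i + 1) ≤ a i := by
      have := hρ (Nat.le_succ i)
      simp only [a]
      split_ifs <;> first | linarith | norm_num
    have h2 : w (i + 1) ≤ w i := by
      have := hρ (Nat.le_succ i)
      have := hp i
      simp only [w]
      gcongr
    have h3 := kn_one_add_mul_exp_le (hw _) h2
    have h4 := Real.exp_le_exp.mpr (neg_le_neg h2)
    rw [e, e, ← sub_div, ← sub_div, abs_div]
    gcongr
    rw [abs_le]
    simp only [φ]
    constructor <;> linarith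
  refine (Finset.sum_le_sum fun i _ => key i).trans ?_
  rw [Finset.sum_range_sub (fun i => φ i / |t|), ← sub_div]
  gcongr
  have h1 : 0 ≤ a m := by simp only [a]; split_ifs <;> norm_num
  have h2 : a 0 ≤ 1 := by simp only [a]; split_ifs <;> norm_num
  have h3 := kn_one_add_mul_exp_le le_rfl (hw m)
  have h4 : Real.exp (-w m) ≤ 1 := Real.exp_le_one_iff.mpr (by linarith [hw m])
  have h5 := Real.exp_pos (-w 0)
  have h6 : 0 ≤ (1 + w 0) * Real.exp (-w 0) := by have := hw 0; positivity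
  simp only [neg_zero, Real.exp_zero] at h3
  simp only [φ]
  linarith

theorem measurable_ee {E : ℝ → ℝ} (hE : Measurable E) :
    Measurable fun q : ℝ × ℝ => ee q.1 E q.2 := by
  exact (StronglyMeasurable.integral_prod_right' (ν := volume)
    (f := fun p : (ℝ × ℝ) × ℝ => E p.2 * d1 (3 * p.1.1) (p.1.2 - p.2))
    (Measurable.stronglyMeasurable (by fun_prop))).measurable

theorem kn_abs_d1_le : ∃ C > 0, ∀ a > 0, ∀ x, |d1 a x| ≤ C / √a * gs (2 * a) x := by
  obtain ⟨C, hC⟩ := pow_mul_gs_le 1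
  refine ⟨|C| + 1, by positivity, fun a ha x => ?_⟩
  have h1 := hC a ha x
  have h2 := gs_nonneg (2 * a) x
  have h3 : 0 < √a := by positivity
  have e : |d1 a x| = (|x| / √a) ^ 1 * gs a x / √a := by
    rw [d1, abs_mul, abs_div, abs_neg, abs_of_pos ha, abs_of_nonneg (gs_nonneg a x)]
    conv_lhs => rw [← Real.mul_self_sqrt ha.le]
    rw [Real.mul_self_sqrt ha.le]
    field_simp
    rw [Real.sq_sqrt ha.le]; ring
  rw [e, div_mul_eq_mul_div (|C| + 1)]
  exact div_le_div_of_nonneg_right (h1.trans (by gcongr; linarith [le_abs_self C])) h3.le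

theorem kn_pow_mul_gs_le' (k : ℕ) : ∃ C > 0, ∀ a > 0, ∀ x, (|x| / √a) ^ k * gs a x ≤ C / √a := by
  obtain ⟨C, hC⟩ := pow_mul_gs_le k
  refine ⟨|C| + 1, by positivity, fun a ha x => (hC a ha x).trans ?_⟩
  have h2 := gs_nonneg (2 * a) x
  have h3 : gs (2 * a) x ≤ (√a)⁻¹ := (gs_le (by positivity) x).trans (by gcongr; linarith)
  rw [div_eq_mul_inv]
  calc _ ≤ (|C| + 1) * gs (2 * a) x := by gcongr; linarith [le_abs_self C]
    _ ≤ _ := by gcongr

theorem kn_abs_d2_le : ∃ C > 0, ∀ a > 0, ∀ y, ∀ S > 0, (S ≤ √a ∨ S ≤ |y|) →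
    |(y ^ 2 / a ^ 2 - 1 / a) * gs a y| ≤ C / (√a * S ^ 2) := by
  obtain ⟨C0, p0, h0⟩ := kn_pow_mul_gs_le' 0
  obtain ⟨C2, p2, h2⟩ := kn_pow_mul_gs_le' 2
  obtain ⟨C4, p4, h4⟩ := kn_pow_mul_gs_le' 4
  refine ⟨C4 + 2 * C2 + C0, by positivity, fun a ha y S hS h => ?_⟩
  have a0 := h0 a ha y
  have a2 := h2 a ha y
  have a4 := h4 a ha y
  have hG := gs_nonneg a y
  have hu : (|y| / √a) ^ 2 = y ^ 2 / a := by rw [div_pow, sq_abs, Real.sq_sqrt ha.le]
  rw [show (|y| / √a) ^ 4 = ((|y| / √a) ^ 2) ^ 2 by ring, hu] at a4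
  rw [hu] at a2
  have hS2 : S ^ 2 ≤ a * (y ^ 2 / a + 1) := by
    rw [mul_add, mul_div_cancel₀ _ ha.ne', mul_one]
    rcases h with h | h
    · nlinarith [pow_le_pow_left₀ hS.le h 2, Real.sq_sqrt ha.le, sq_nonneg y]
    · nlinarith [pow_le_pow_left₀ hS.le h 2, sq_abs y]
  have hd : |y ^ 2 / a ^ 2 - 1 / a| ≤ (y ^ 2 / a + 1) / a := by
    refine (abs_sub _ _).trans (le_of_eq ?_)
    rw [abs_of_nonneg (by positivity), abs_of_nonneg (by positivity)]
    field_simp
  rw [abs_mul, abs_of_nonneg hG, ← div_div, le_div_iff₀ (by positivity)]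
  calc _ ≤ (y ^ 2 / a + 1) / a * gs a y * (a * (y ^ 2 / a + 1)) := by gcongr
    _ = (y ^ 2 / a) ^ 2 * gs a y + 2 * (y ^ 2 / a * gs a y) + gs a y := by field_simp; ring
    _ ≤ C4 / √a + 2 * (C2 / √a) + C0 / √a := by
      gcongr
      simpa using a0
    _ = _ := by ring

theorem integrable_mul_d1 {E : ℝ → ℝ} (hE : Integrable E) {σ : ℝ} (hσ : 0 < σ) (r : ℝ) :
    Integrable fun s => E s * d1 σ (r - s) := by
  obtain ⟨M, hM⟩ := d1_bdd hσ
  exact hE.mul_bdd (c := M) (Measurable.aestronglyMeasurable (by fun_prop)) (Eventually.of_forall fun s => hM _)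

theorem integrable_mul_gs {E : ℝ → ℝ} (hE : Integrable E) {σ : ℝ} (hσ : 0 < σ) (r : ℝ) :
    Integrable fun s => E s * gs σ (r - s) := by
  exact hE.mul_bdd (c := (√σ)⁻¹) (Measurable.aestronglyMeasurable (by fun_prop))
    (Eventually.of_forall fun s => by rw [Real.norm_of_nonneg (gs_nonneg _ _)]; exact gs_le hσ _)

theorem ee_le : ∃ C > 0, ∀ (E : ℝ → ℝ) (H : ℝ), 0 ≤ H → Integrable E → (∀ t, E (-t) = -E t) →
    (∀ t, |E t| ≤ H / |t|) → ∀ σ > 0, ∀ r, |ee σ E r| ≤ C * H / (σ * (1 + |r| / √σ)) := by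
  obtain ⟨C₁, p₁, h₁⟩ := kn_abs_d1_le
  obtain ⟨C₂, p₂, h₂⟩ := kn_abs_d2_le
  refine ⟨3 * (2 * C₂ + C₁), by positivity, fun E H hH hE hodd hb σ hσ r => ?_⟩
  have ha : 0 < 3 * σ := by positivity
  have hσb : √σ ≤ √(3 * σ) := Real.sqrt_le_sqrt (by linarith)
  have e0 : ee σ E r = ∫ s, E s * d1 (3 * σ) (r - s) := rfl
  generalize 3 * σ = a at ha hσb e0
  have hb0 : 0 < √a := by positivity
  obtain ⟨S, hS1, hS2, hS3⟩ : ∃ S, √a ≤ S ∧ |r| / 2 ≤ S ∧ (S ≤ √a ∨ S ≤ |r| / 2) :=
    ⟨max (√a) (|r| / 2), le_max_left _ _, le_max_right _ _, by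
      rcases le_total (√a) (|r| / 2) with h | h
      · exact Or.inr (max_le h le_rfl)
      · exact Or.inl (max_le le_rfl h)⟩
  have hS : 0 < S := hb0.trans_le hS1
  have i1 := integrable_mul_d1 hE ha r
  have i2 : Integrable fun s => E s * d1 a (r + s) := by
    have := i1.comp_neg.neg
    refine this.congr (Eventually.of_forall fun s => ?_)
    simp [hodd]
  have e1 : ∫ s, E s * d1 a (r - s) = -∫ s, E s * d1 a (r + s) := by
    rw [← integral_neg_eq_self, ← integral_neg]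
    simp [hodd]
  have e2 : 2 * ee σ E r = ∫ s, E s * (d1 a (r - s) - d1 a (r + s)) := by
    simp only [mul_sub]
    rw [integral_sub i1 i2, e0, two_mul, sub_eq_add_neg, ← e1]
  have j1 : Integrable ((Icc (-S) S).indicator fun _ : ℝ => 2 * H * (C₂ / (√a * S ^ 2))) :=
    (integrable_indicator_iff measurableSet_Icc).2 (integrableOn_const (by simp))
  have g0 := integrable_gs (σ := 2 * a) (by positivity)
  have j2 : Integrable fun s => H / S * (C₁ / √a) * (gs (2 * a) (r - s) + gs (2 * a) (r + s)) :=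
    ((g0.comp_sub_left r).add (g0.comp_add_left r)).const_mul (H / S * (C₁ / √a))
  have bd : ∀ s, ‖E s * (d1 a (r - s) - d1 a (r + s))‖ ≤
      (Icc (-S) S).indicator (fun _ : ℝ => 2 * H * (C₂ / (√a * S ^ 2))) s +
        H / S * (C₁ / √a) * (gs (2 * a) (r - s) + gs (2 * a) (r + s)) := by
    intro s
    have g1 := gs_nonneg (2 * a) (r - s)
    have g2 := gs_nonneg (2 * a) (r + s)
    rw [Real.norm_eq_abs, abs_mul]
    by_cases hs : s ∈ Icc (-S) S
    · rw [indicator_of_mem hs]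
      refine le_add_of_le_of_nonneg ?_ (by positivity)
      have m := (convex_Icc (r - S) (r + S)).norm_image_sub_le_of_norm_hasDerivWithin_le
        (f := d1 a) (C := C₂ / (√a * S ^ 2)) (x := r + s) (y := r - s)
        (fun x _ => (hasDerivAt_d1 ha x).hasDerivWithinAt) (fun y hy => h₂ a ha y S hS (hS3.imp id fun h => by
          have := abs_sub_abs_le_abs_sub r y
          have : |r - y| ≤ S := abs_le.mpr ⟨by linarith [hy.2], by linarith [hy.1]⟩
          linarith)) ⟨by linarith [hs.1], by linarith [hs.2]⟩ ⟨by linarith [hs.2], by linarith [hs.1]⟩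
      rw [Real.norm_eq_abs, Real.norm_eq_abs, show r - s - (r + s) = -(2 * s) by ring, abs_neg, abs_mul,
        abs_two] at m
      rcases eq_or_ne s 0 with rfl | hs0
      · simp only [sub_zero, add_zero, sub_self, abs_zero, mul_zero]; positivity
      · have := abs_pos.mpr hs0
        calc _ ≤ H / |s| * (C₂ / (√a * S ^ 2) * (2 * |s|)) := by gcongr; exact hb s
          _ = _ := by field_simp
    · rw [indicator_of_notMem hs, zero_add]
      have hs' : S ≤ |s| := by
        by_contra h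
        exact hs (abs_le.mp (not_le.mp h).le)
      calc _ ≤ H / S * (C₁ / √a * gs (2 * a) (r - s) + C₁ / √a * gs (2 * a) (r + s)) := by
            gcongr
            · exact (hb s).trans (by gcongr)
            · exact (abs_sub _ _).trans (add_le_add (h₁ a ha _) (h₁ a ha _))
        _ = _ := by ring
  have k := norm_integral_le_of_norm_le (j1.add j2) (Eventually.of_forall bd)
  rw [← e2] at k
  simp only [Pi.add_apply] at k
  rw [integral_add j1 j2, integral_indicator measurableSet_Icc, integral_const_mul (H / S * (C₁ / √a)),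
    integral_add (g0.comp_sub_left r) (g0.comp_add_left r), integral_sub_left_eq_self (gs (2 * a)),
    integral_add_left_eq_self (gs (2 * a)), integral_gs (by positivity), setIntegral_const, Real.volume_real_Icc,
    max_eq_left (by linarith), Real.norm_eq_abs, abs_mul, abs_two, smul_eq_mul] at k
  have k2 : |ee σ E r| ≤ (2 * C₂ + C₁) * H / (√a * S) := by
    refine le_of_mul_le_mul_left (k.trans (le_of_eq ?_)) two_pos
    field_simp; ring
  have hs0 : 0 < √σ := by positivity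
  have k3 : σ * (1 + |r| / √σ) ≤ 3 * (√a * S) := by
    have : σ * (1 + |r| / √σ) = √σ * (√σ + |r|) := by
      conv_lhs => rw [← Real.mul_self_sqrt hσ.le]
      rw [Real.sqrt_mul_self hs0.le]
      field_simp
    rw [this]
    nlinarith [mul_le_mul hσb (show √σ + |r| ≤ 3 * S by linarith) (by positivity) hb0.le]
  calc _ ≤ _ := k2
    _ = 3 * (2 * C₂ + C₁) * H / (3 * (√a * S)) := by field_simp
    _ ≤ _ := by gcongr

theorem sm_sub {E : ℝ → ℝ} (hE : Integrable E) {σ₀ σ₁ : ℝ} (h₀ : 0 < σ₀) (h₁ : σ₀ ≤ σ₁) (t : ℝ) :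
    (∀ σ > 0, Integrable fun r => ee σ E r * d1 (3 * σ) (t - r)) ∧
    IntegrableOn (fun σ => ∫ r, ee σ E r * d1 (3 * σ) (t - r)) (Ioc σ₀ σ₁) ∧
    sm (6 * σ₀) E t - sm (6 * σ₁) E t =
      -3 * ∫ σ in Ioc σ₀ σ₁, ∫ r, ee σ E r * d1 (3 * σ) (t - r) := by
  have hp : ∀ σ > 0, Integrable (fun p : ℝ × ℝ => d1 (3 * σ) (t - p.1) * E p.2 * d1 (3 * σ) (p.1 - p.2))
      (volume.prod volume) := fun σ hσ => by
    obtain ⟨M, hM⟩ := d1_bdd (σ := 3 * σ) (by positivity)
    exact (((integrable_d1 (σ := 3 * σ) (by positivity)).comp_sub_left t).mul_prod hE).mul_bdd (c := M)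
      (Measurable.aestronglyMeasurable (by fun_prop)) (Eventually.of_forall fun s => hM _)
  have e1 : ∀ σ r, ∫ s, d1 (3 * σ) (t - r) * E s * d1 (3 * σ) (r - s) = ee σ E r * d1 (3 * σ) (t - r) := by
    intro σ r
    rw [ee, ← integral_mul_const]
    congr 1; ext s; ring
  let h : ℝ → ℝ → ℝ := fun σ x => (x ^ 2 / (6 * σ) ^ 2 - 1 / (6 * σ)) * gs (6 * σ) x
  have e2 : ∀ σ > 0, ∫ r, ee σ E r * d1 (3 * σ) (t - r) = ∫ s, E s * h σ (t - s) := fun σ hσ => by
    simp only [← e1]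
    rw [integral_integral_swap (hp σ hσ)]
    congr 1; ext s
    have := integral_d1_mul_d1 (a := 3 * σ) (b := 3 * σ) (by positivity) (by positivity) t (-s)
    rw [show 3 * σ + 3 * σ = 6 * σ by ring, ← sub_eq_add_neg] at this
    simp only [h]
    rw [← this, ← integral_const_mul]
    congr 1; ext r
    rw [neg_add_eq_sub]; ring
  obtain ⟨C, hC, hb⟩ := kn_abs_d2_le
  have hb' : ∀ σ, σ₀ ≤ σ → ∀ x, |h σ x| ≤ C / (√(6 * σ₀) * √(6 * σ₀) ^ 2) := fun σ hσ x =>
    (hb (6 * σ) (by linarith) x (√(6 * σ₀)) (by positivity) (Or.inl (by gcongr))).trans (by gcongr)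
  have hm : Measurable fun p : ℝ × ℝ => h p.1 p.2 := by simp only [h]; fun_prop
  have hq : Integrable (fun p : ℝ × ℝ => E p.2 * h p.1 (t - p.2))
      ((volume.restrict (Ioc σ₀ σ₁)).prod volume) := by
    have := ((integrable_const (μ := volume.restrict (Ioc σ₀ σ₁)) (1 : ℝ)).mul_prod hE).mul_bdd
      (g := fun p : ℝ × ℝ => h p.1 (t - p.2)) (c := C / (√(6 * σ₀) * √(6 * σ₀) ^ 2))
      (Measurable.aestronglyMeasurable (hm.comp (f := fun p : ℝ × ℝ => (p.1, t - p.2)) (by fun_prop))) (by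
        filter_upwards [Measure.quasiMeasurePreserving_fst.ae (ae_restrict_mem measurableSet_Ioc)] with p hp
        exact hb' p.1 hp.1.le _)
    simpa using this
  have e3 : ∀ x, ∫ σ in Ioc σ₀ σ₁, h σ x = (gs (6 * σ₁) x - gs (6 * σ₀) x) / 3 := fun x => by
    have hi : IntervalIntegrable (fun σ => h σ x) volume σ₀ σ₁ := by
      rw [intervalIntegrable_iff_integrableOn_Ioc_of_le h₁]
      refine (integrable_const (C / (√(6 * σ₀) * √(6 * σ₀) ^ 2))).mono'
        (Measurable.aestronglyMeasurable (hm.comp (f := fun σ : ℝ => (σ, x)) (by fun_prop))) ?_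
      filter_upwards [ae_restrict_mem measurableSet_Ioc] with σ hσ
      exact hb' σ hσ.1.le _
    rw [← intervalIntegral.integral_of_le h₁, sub_div]
    refine intervalIntegral.integral_eq_sub_of_hasDerivAt (f := fun σ => gs (6 * σ) x / 3) (fun σ hσ => ?_) hi
    rw [uIcc_of_le h₁] at hσ
    have := ((hasDerivAt_gs_var (σ := 6 * σ) (by linarith [hσ.1]) x).comp σ
      ((hasDerivAt_id σ).const_mul 6)).div_const 3
    refine HasDerivAt.congr_deriv this ?_
    simp only [h]; ring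
  refine ⟨fun σ hσ => ?_, ?_, ?_⟩
  · simpa only [e1] using (hp σ hσ).integral_prod_left
  · refine IntegrableOn.congr_fun (f := fun σ => ∫ s, E s * h σ (t - s)) hq.integral_prod_left
      (fun σ hσ => (e2 σ (h₀.trans hσ.1)).symm) measurableSet_Ioc
  · rw [setIntegral_congr_fun measurableSet_Ioc fun σ hσ => e2 σ (h₀.trans hσ.1),
      integral_integral_swap (f := fun σ s => E s * h σ (t - s)) hq, sm, sm,
      ← integral_sub (integrable_mul_gs hE (by positivity) t) (integrable_mul_gs hE (by linarith) t),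
      ← integral_const_mul]
    congr 1; ext s
    rw [integral_const_mul, e3]; ring

theorem kn_abs_sm_le {E : ℝ → ℝ} {M τ : ℝ} (hM : ∀ s, |E s| ≤ M) (hτ : 0 < τ) (t : ℝ) : |sm τ E t| ≤ M := by
  have := norm_integral_le_of_norm_le (μ := volume) (f := fun s => E s * gs τ (t - s))
    (((integrable_gs hτ).comp_sub_left t).const_mul M) (Eventually.of_forall fun s => by
      rw [Real.norm_eq_abs, abs_mul, abs_of_nonneg (gs_nonneg _ _)]
      exact mul_le_mul_of_nonneg_right (hM s) (gs_nonneg _ _))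
  rwa [integral_const_mul, integral_sub_left_eq_self (gs τ), integral_gs hτ, mul_one] at this

theorem abs_KK_le {σ₀ σ₁ R : ℝ} (h₀ : 0 < σ₀) (h₁ : 0 < σ₁) (hR : 0 < R) (t : ℝ) :
    |KK σ₀ σ₁ R t| ≤ 8 / R := by
  have a1 := abs_LL_le hR t
  have a2 := kn_abs_sm_le (abs_DD_le hR) (τ := 6 * σ₀) (by positivity) t
  have a3 := kn_abs_sm_le (abs_DD_le hR) (τ := 6 * σ₁) (by positivity) t
  calc _ ≤ _ := abs_add_le _ _
    _ ≤ 2 / R + (3 / R + 3 / R) := add_le_add a1 ((abs_sub _ _).trans (add_le_add a2 a3))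
    _ = 8 / R := by ring

theorem kn_sm_eq {τ : ℝ} (hτ : 0 < τ) (E : ℝ → ℝ) (t : ℝ) : sm τ E t = ∫ y, E (t - √τ * y) * gs 1 y := by
  have hs : 0 < √τ := by positivity
  have e : ∀ y, gs 1 y = √τ * gs τ (√τ * y) := fun y => by
    simp only [gs, mul_pow, Real.sq_sqrt hτ.le, mul_one]
    rw [Real.sqrt_mul (by positivity) τ, show -(τ * y ^ 2) / (2 * τ) = -y ^ 2 / 2 by field_simp]
    field_simp
  have h1 := Measure.integral_comp_mul_left (fun u => E (t - u) * (√τ * gs τ u)) (√τ)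
  simp only [← e] at h1
  rw [h1, abs_of_pos (inv_pos.mpr hs), smul_eq_mul, ← integral_const_mul, sm,
    ← integral_sub_left_eq_self _ volume t]
  congr 1; ext u
  rw [sub_sub_cancel]; field_simp

theorem kn_continuousAt_DD {R t : ℝ} (ht : |t| ≠ R) (ht0 : t ≠ 0) : ContinuousAt (DD R) t := by
  have h2 : ContinuousAt (LL (R ^ 2)) t := by unfold LL; fun_prop (disch := assumption)
  refine ContinuousAt.sub ?_ h2
  rcases lt_or_gt_of_ne ht with h | h
  · refine (continuousAt_const (y := (0 : ℝ))).congr ?_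
    filter_upwards [continuous_abs.continuousAt.eventually_lt continuousAt_const h] with s hs
    exact (if_neg hs.not_gt).symm
  · refine ContinuousAt.congr (f := fun s => 1 / s) (by fun_prop (disch := assumption)) ?_
    filter_upwards [continuousAt_const.eventually_lt continuous_abs.continuousAt h] with s hs
    exact (if_pos hs).symm

theorem tendsto_KK {R t : ℝ} (hR : 0 < R) (ht : |t| ≠ R) (ht0 : t ≠ 0) :
    Tendsto (fun n : ℕ => KK (1 / ((n : ℝ) + 1)) ((n : ℝ) + 1) R t) atTop (𝓝 (TT R t)) := by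
  have l0 : Tendsto (fun n : ℕ => √(6 * (1 / ((n : ℝ) + 1)))) atTop (𝓝 0) := by
    simpa using ((tendsto_one_div_add_atTop_nhds_zero_nat (𝕜 := ℝ)).const_mul 6).sqrt
  have l1 : Tendsto (fun n : ℕ => sm (6 * (1 / ((n : ℝ) + 1))) (DD R) t) atTop (𝓝 (DD R t)) := by
    have := tendsto_integral_of_dominated_convergence (μ := volume)
      (F := fun (n : ℕ) y => DD R (t - √(6 * (1 / ((n : ℝ) + 1))) * y) * gs 1 y) (f := fun y => DD R t * gs 1 y)
      (fun y => 3 / R * gs 1 y)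
      (fun n => Measurable.aestronglyMeasurable (((measurable_DD R).comp (by fun_prop)).mul (by fun_prop)))
      ((integrable_gs one_pos).const_mul _)
      (fun n => Eventually.of_forall fun y => by
        rw [Real.norm_eq_abs, abs_mul, abs_of_nonneg (gs_nonneg _ _)]
        exact mul_le_mul_of_nonneg_right (abs_DD_le hR _) (gs_nonneg _ _))
      (Eventually.of_forall fun y => ((kn_continuousAt_DD ht ht0).tendsto.comp (by
        simpa using (l0.mul_const y).const_sub t)).mul_const _)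
    rw [integral_const_mul, integral_gs one_pos, mul_one] at this
    exact this.congr fun n => (kn_sm_eq (by positivity) _ _).symm
  have l2 : Tendsto (fun n : ℕ => sm (6 * ((n : ℝ) + 1)) (DD R) t) atTop (𝓝 0) := by
    have l3 : Tendsto (fun n : ℕ => (∫ s, ‖DD R s‖) * (√(6 * ((n : ℝ) + 1)))⁻¹) atTop (𝓝 0) := by
      simpa using ((Real.tendsto_sqrt_atTop.comp ((tendsto_atTop_add_const_right _ 1
        tendsto_natCast_atTop_atTop).const_mul_atTop (r := 6) (by norm_num))).inv_tendsto_atTop).const_mul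
        (∫ s, ‖DD R s‖)
    refine squeeze_zero_norm (fun n => ?_) l3
    rw [← integral_mul_const]
    refine norm_integral_le_of_norm_le ((integrable_DD hR).norm.mul_const _) (Eventually.of_forall fun s => ?_)
    rw [norm_mul, Real.norm_of_nonneg (gs_nonneg _ _)]
    gcongr
    exact gs_le (by positivity) _
  have := (l1.sub l2).const_add (LL (R ^ 2) t)
  rwa [sub_zero, DD, add_sub_cancel] at this

end Crest.Agent.R72
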