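import Crest.Agent.R72.Core

/-!
# Row 72: linearisation

PLAN.  Enumerate the positive elements of `Q` increasingly, `ρ 0 < … < ρ m` (constant afterwards; if there are none, the
count is `0`), `b i = BR F G (ρ i) (ρ (i+1))` (nice functions).  Let `𝒜` be the finite set of `β : ℕ → {-1,0,1}` vanishing for
`i ≥ m` with `Var m β ≤ 2n`, and `S z = max_{β ∈ 𝒜} ∑_{i<m} β i b i z`.  An admissible family of annuli gives
`β i = ∑_j sign_j 1[i < m ∧ ε j ≤ ρ i ∧ ρ (i+1) ≤ R j] ∈ 𝒜` (`BR` is additive over consecutive annuli), so `cnt ≤ S`.  Choose a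
maximiser measurably (`measurable_find`), apply `core` to `a F, b G, c √S`, `V = 2n`, and `le_of_scale`:
`I ≤ 3K√(2n) (∫|F|³)^(1/3) (∫|G|³)^(1/3) I^(1/3)` with `I = ∫ S^(3/2)`.
-/

set_option autoImplicit false

namespace Crest.Agent.R72

open MeasureTheory Set Matrix Filter Topology
open scoped ENNReal

/-- the count function with radii in `Q` -/
noncomputable def cnt (Q : Set ℚ) (n : ℕ) (B : ℚ → ℚ → ℝ≥0∞) : ℝ≥0∞ :=
  ⨆ (m : ℕ) (_ : m ≤ n) (ε : Fin m → ℚ) (R : Fin m → ℚ) (_ : ∀ j, 0 < ε j ∧ ε j < R j)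
    (_ : ∀ i j, i ≠ j → R i ≤ ε j ∨ R j ≤ ε i) (_ : ∀ j, ε j ∈ Q ∧ R j ∈ Q), ∑ j, B (ε j) (R j)

namespace LinAux

/-! ### nice functions -/

section nice

variable {F G : ℝ × ℝ → ℝ}

theorem nice_zero : Nice fun _ => 0 :=
  ⟨measurable_const, ⟨0, fun _ => by simp⟩, ⟨0, fun _ h => absurd rfl h⟩⟩

theorem nice_add (hF : Nice F) (hG : Nice G) : Nice fun z => F z + G z := by
  obtain ⟨M, hM⟩ := hF.bdd
  obtain ⟨M', hM'⟩ := hG.bdd
  obtain ⟨R, hR⟩ := hF.supp
  obtain ⟨R', hR'⟩ := hG.supp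
  refine ⟨hF.meas.add hG.meas, ⟨M + M', fun z => (abs_add_le _ _).trans (add_le_add (hM z) (hM' z))⟩,
    ⟨max R R', fun z hz => ?_⟩⟩
  by_cases h : F z = 0
  · have h' : G z ≠ 0 := by simpa [h] using hz
    exact ⟨(hR' z h').1.trans (le_max_right _ _), (hR' z h').2.trans (le_max_right _ _)⟩
  · exact ⟨(hR z h).1.trans (le_max_left _ _), (hR z h).2.trans (le_max_left _ _)⟩

theorem nice_sum {ι : Type*} (s : Finset ι) {f : ι → ℝ × ℝ → ℝ} (hf : ∀ i ∈ s, Nice (f i)) :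
    Nice fun z => ∑ i ∈ s, f i z := by
  classical
  induction s using Finset.induction_on with
  | empty => simpa using nice_zero
  | insert i s hi ih =>
    simp only [Finset.sum_insert hi]
    exact nice_add (hf i (Finset.mem_insert_self _ _))
      (ih fun j hj => hf j (Finset.mem_insert_of_mem hj))

theorem nice_bmul (hF : Nice F) {g : ℝ × ℝ → ℝ} (hg : Measurable g) (hb : ∃ M, ∀ z, |g z| ≤ M) :
    Nice fun z => g z * F z := by
  obtain ⟨M, hM⟩ := hF.bdd
  obtain ⟨M', hM'⟩ := hb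
  obtain ⟨R, hR⟩ := hF.supp
  refine ⟨hg.mul hF.meas, ⟨M' * M, fun z => ?_⟩, ⟨R, fun z hz => hR z (right_ne_zero_of_mul hz)⟩⟩
  rw [abs_mul]
  exact mul_le_mul (hM' z) (hM z) (abs_nonneg _) ((abs_nonneg _).trans (hM' z))

theorem nice_smul (hF : Nice F) (c : ℝ) : Nice fun z => c * F z :=
  nice_bmul hF measurable_const ⟨|c|, fun _ => le_rfl⟩

theorem nice_comp (hF : Nice F) {φ : ℝ → ℝ} (hφ : Continuous φ) (h0 : φ 0 = 0) :
    Nice fun z => φ (F z) := by
  obtain ⟨M, hM⟩ := hF.bdd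
  obtain ⟨R, hR⟩ := hF.supp
  obtain ⟨C, hC⟩ := (isCompact_Icc (a := -M) (b := M)).exists_bound_of_continuousOn
    hφ.continuousOn
  exact ⟨hφ.measurable.comp hF.meas, ⟨C, fun z => hC _ (abs_le.1 (hM z))⟩,
    ⟨R, fun z hz => hR z fun h => hz (by rw [h, h0])⟩⟩

theorem nice_integrable (hF : Nice F) : Integrable F := by
  obtain ⟨M, hM⟩ := hF.bdd
  obtain ⟨R, hR⟩ := hF.supp
  have h : IntegrableOn F (Icc (-R) R ×ˢ Icc (-R) R) :=
    Measure.integrableOn_of_bounded (isCompact_Icc.prod isCompact_Icc).measure_lt_top.ne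
      hF.meas.aestronglyMeasurable (Eventually.of_forall hM)
  refine (integrableOn_iff_integrable_of_support_subset fun z hz => ?_).1 h
  exact ⟨abs_le.1 (hR z hz).1, abs_le.1 (hR z hz).2⟩

theorem nice_cube (hF : Nice F) : Nice fun z => |F z| ^ 3 :=
  nice_comp hF (φ := fun x => |x| ^ 3) (by fun_prop) (by simp)

theorem eLpNorm_nice (hF : Nice F) :
    eLpNorm F 3 volume = ENNReal.ofReal ((∫ z, |F z| ^ 3) ^ (1 / 3 : ℝ)) := by
  have e : ∀ z, ‖F z‖ ^ (3 : ℝ≥0∞).toReal = |F z| ^ 3 := fun z => by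
    rw [Real.norm_eq_abs, ENNReal.toReal_ofNat, Real.rpow_ofNat]
  have h : MemLp F 3 volume := by
    rw [← integrable_norm_rpow_iff hF.meas.aestronglyMeasurable (by norm_num) (by norm_num)]
    simp only [e]
    exact nice_integrable (nice_cube hF)
  rw [h.eLpNorm_eq_integral_rpow_norm (by norm_num) (by norm_num)]
  simp only [e]
  norm_num

/-! ### the annular transform -/

/-- an annulus -/
def ann (a b : ℝ) : Set ℝ := {t | a < |t| ∧ |t| < b}

theorem meas_ann (a b : ℝ) : MeasurableSet (ann a b) :=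
  (measurableSet_lt measurable_const measurable_abs).inter
    (measurableSet_lt measurable_abs measurable_const)

theorem vol_ann (a b : ℝ) : volume (ann a b) < ∞ :=
  (measure_mono (fun _ ht => abs_lt.1 ht.2 : ann a b ⊆ Ioo (-b) b)).trans_lt measure_Ioo_lt_top

theorem BR_eq (F G : ℝ × ℝ → ℝ) (a b : ℝ) (z : ℝ × ℝ) :
    BR F G a b z = ∫ t in ann a b, F (z.1 + t, z.2) * G (z.1, z.2 + t) / t := rfl

theorem meas_ker (hF : Nice F) (hG : Nice G) :
    Measurable fun p : (ℝ × ℝ) × ℝ => F (p.1.1 + p.2, p.1.2) * G (p.1.1, p.1.2 + p.2) / p.2 := by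
  have := hF.meas
  have := hG.meas
  fun_prop

theorem ker_bdd (hF : Nice F) (hG : Nice G) {a : ℝ} (ha : 0 < a) (b : ℝ) :
    ∃ C, ∀ z : ℝ × ℝ, ∀ t ∈ ann a b, ‖F (z.1 + t, z.2) * G (z.1, z.2 + t) / t‖ ≤ C := by
  obtain ⟨M, hM⟩ := hF.bdd
  obtain ⟨M', hM'⟩ := hG.bdd
  have h0 : 0 ≤ M := (abs_nonneg _).trans (hM 0)
  have h0' : 0 ≤ M' := (abs_nonneg _).trans (hM' 0)
  refine ⟨M * M' / a, fun z t ht => ?_⟩
  rw [Real.norm_eq_abs, abs_div, abs_mul]
  gcongr
  exacts [hM _, hM' _, ht.1.le]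

theorem int_ker (hF : Nice F) (hG : Nice G) {a : ℝ} (ha : 0 < a) (b : ℝ) (z : ℝ × ℝ) :
    IntegrableOn (fun t => F (z.1 + t, z.2) * G (z.1, z.2 + t) / t) (ann a b) := by
  obtain ⟨C, hC⟩ := ker_bdd hF hG ha b
  exact Measure.integrableOn_of_bounded (vol_ann a b).ne
    ((meas_ker hF hG).comp (measurable_prodMk_left (x := z))).aestronglyMeasurable
    (ae_restrict_of_forall_mem (meas_ann a b) (hC z))

theorem nice_BR (hF : Nice F) (hG : Nice G) {a : ℝ} (ha : 0 < a) (b : ℝ) : Nice (BR F G a b) := by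
  obtain ⟨C, hC⟩ := ker_bdd hF hG ha b
  obtain ⟨R, hR⟩ := hF.supp
  obtain ⟨R', hR'⟩ := hG.supp
  refine ⟨((meas_ker hF hG).stronglyMeasurable.integral_prod_right'
    (ν := volume.restrict (ann a b))).measurable,
    ⟨_, fun z => norm_setIntegral_le_of_norm_le_const (vol_ann a b) (hC z)⟩,
    ⟨max R R', fun z hz => ?_⟩⟩
  obtain ⟨t, ht⟩ : ∃ t, F (z.1 + t, z.2) * G (z.1, z.2 + t) / t ≠ 0 := by
    by_contra h
    push Not at h
    exact hz (by simp [BR_eq, h])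
  have h1 := left_ne_zero_of_mul (div_ne_zero_iff.1 ht).1
  have h2 := right_ne_zero_of_mul (div_ne_zero_iff.1 ht).1
  exact ⟨(hR' _ h2).1.trans (le_max_right _ _), (hR _ h1).2.trans (le_max_left _ _)⟩

theorem BR_self (F G : ℝ × ℝ → ℝ) (a : ℝ) (z : ℝ × ℝ) : BR F G a a z = 0 := by
  have : ann a a = ∅ := eq_empty_of_forall_notMem fun t ht => lt_asymm ht.1 ht.2
  rw [BR_eq, this, setIntegral_empty]

theorem BR_add (hF : Nice F) (hG : Nice G) {a b c : ℝ} (ha : 0 < a) (hab : a ≤ b) (hbc : b ≤ c)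
    (z : ℝ × ℝ) : BR F G a c z = BR F G a b z + BR F G b c z := by
  have hae : (ann a c : Set ℝ) =ᵐ[volume] (ann a b ∪ ann b c : Set ℝ) := by
    have h0 : ∀ᵐ t : ℝ, t ∉ ({b, -b} : Set ℝ) := (Set.toFinite _).countable.ae_notMem _
    filter_upwards [h0] with t ht
    have hne : |t| ≠ b := fun e => ht (by
      rcases abs_cases t with h | h
      · left; linarith [h.1]
      · right; change t = -b; linarith [h.1])
    refine propext ⟨fun h => ?_, fun h => ?_⟩
    · rcases lt_or_gt_of_ne hne with e | e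
      exacts [Or.inl ⟨h.1, e⟩, Or.inr ⟨e, h.2⟩]
    · rcases h with h | h
      exacts [⟨h.1, h.2.trans_le hbc⟩, ⟨hab.trans_lt h.1, h.2⟩]
  rw [BR_eq, BR_eq, BR_eq, setIntegral_congr_set hae, setIntegral_union
    (Set.disjoint_left.2 fun t h h' => lt_asymm h.2 h'.1) (meas_ann b c) (int_ker hF hG ha b z)
    (int_ker hF hG (ha.trans_le hab) c z)]

theorem BR_sum (hF : Nice F) (hG : Nice G) {ρ : ℕ → ℝ} (hρ : Monotone ρ) (h0 : 0 < ρ 0) {p q : ℕ}
    (hpq : p ≤ q) (z : ℝ × ℝ) :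
    BR F G (ρ p) (ρ q) z = ∑ i ∈ Finset.Ico p q, BR F G (ρ i) (ρ (i + 1)) z := by
  induction q, hpq using Nat.le_induction with
  | base => simp [BR_self]
  | succ q hpq ih =>
    rw [Finset.sum_Ico_succ_top hpq, ← ih]
    exact BR_add hF hG (h0.trans_le (hρ (Nat.zero_le p))) (hρ hpq) (hρ (Nat.le_succ q)) z

theorem BR_smul (F G : ℝ × ℝ → ℝ) (a b ε R : ℝ) (z : ℝ × ℝ) :
    BR (fun z => a * F z) (fun z => b * G z) ε R z = a * b * BR F G ε R z := by
  rw [BR_eq, BR_eq, ← integral_const_mul]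
  congr 1
  funext t
  ring

end nice

/-! ### selection and sign patterns -/

theorem select {Z : Type*} [MeasurableSpace Z] (m : ℕ) {b : ℕ → Z → ℝ} (hb : ∀ i, Measurable (b i))
    {𝒜 : Set (ℕ → ℝ)} (h𝒜 : 𝒜.Finite) (β₀ : ℕ → ℝ) :
    ∃ γ : Z → ℕ → ℝ, (∀ i, Measurable fun z => γ z i) ∧ (∀ z, γ z ∈ insert β₀ 𝒜) ∧
      ∀ z, ∀ β ∈ 𝒜, ∑ i ∈ Finset.range m, β i * b i z ≤ ∑ i ∈ Finset.range m, γ z i * b i z := by
  classical
  induction 𝒜, h𝒜 using Set.Finite.induction_on with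
  | empty => exact ⟨fun _ => β₀, fun _ => measurable_const, fun _ => mem_insert _ _, by simp⟩
  | @insert β₁ 𝒜 _ _ ih =>
    obtain ⟨γ, h1, h2, h3⟩ := ih
    have hs : MeasurableSet {z | ∑ i ∈ Finset.range m, γ z i * b i z ≤
        ∑ i ∈ Finset.range m, β₁ i * b i z} :=
      measurableSet_le (Finset.measurable_sum _ fun i _ => (h1 i).mul (hb i))
        (Finset.measurable_sum _ fun i _ => (hb i).const_mul _)
    refine ⟨fun z => if ∑ i ∈ Finset.range m, γ z i * b i z ≤ ∑ i ∈ Finset.range m, β₁ i * b i z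
      then β₁ else γ z, fun i => ?_, fun z => ?_, fun z β hβ => ?_⟩
    · simp only [ite_apply]
      exact Measurable.ite hs measurable_const (h1 i)
    · dsimp only
      split_ifs
      · exact mem_insert_of_mem _ (mem_insert _ _)
      · rcases h2 z with h | h
        · exact Or.inl h
        · exact Or.inr (Or.inr h)
    · dsimp only
      split_ifs with h
      · rcases hβ with rfl | hβ
        exacts [le_rfl, (h3 z β hβ).trans h]
      · rcases hβ with rfl | hβ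
        exacts [(not_le.1 h).le, h3 z β hβ]

/-- admissible sign patterns -/
def Pat (m : ℕ) (V : ℝ) : Set (ℕ → ℝ) :=
  {β | (∀ i, β i ∈ ({-1, 0, 1} : Set ℝ)) ∧ (∀ i, m ≤ i → β i = 0) ∧ Var m β ≤ V}

theorem finite_Pat (m : ℕ) (V : ℝ) : (Pat m V).Finite := by
  have h : {f : Fin m → ℝ | ∀ i, f i ∈ ({-1, 0, 1} : Set ℝ)}.Finite :=
    Set.Finite.pi' fun _ => Set.toFinite _
  refine (h.image fun f i => if h : i < m then f ⟨i, h⟩ else 0).subset fun β hβ => ?_
  refine ⟨fun i => β i, fun i => hβ.1 i, funext fun i => ?_⟩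
  dsimp only
  split_ifs with h
  · rfl
  · exact (hβ.2.1 i (not_lt.1 h)).symm

theorem zero_mem_Pat (m : ℕ) {V : ℝ} (hV : 0 ≤ V) : (0 : ℕ → ℝ) ∈ Pat m V :=
  ⟨fun _ => by simp, fun _ _ => rfl, by simpa [Var] using hV⟩

theorem Var_mul (m : ℕ) {c : ℝ} (hc : 0 ≤ c) (β : ℕ → ℝ) :
    Var m (fun i => c * β i) = c * Var m β := by
  simp only [Var, ← mul_sub, abs_mul, abs_of_nonneg hc, ← Finset.mul_sum, mul_add]

theorem Var_sum {ι : Type*} (s : Finset ι) (m : ℕ) (β : ι → ℕ → ℝ) :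
    Var m (fun i => ∑ j ∈ s, β j i) ≤ ∑ j ∈ s, Var m (β j) := by
  simp only [Var, Finset.sum_add_distrib, ← Finset.sum_sub_distrib]
  rw [Finset.sum_comm]
  exact add_le_add (Finset.abs_sum_le_sum_abs _ _)
    (Finset.sum_le_sum fun i _ => Finset.abs_sum_le_sum_abs _ _)

theorem sum_ite_succ_le (m p : ℕ) :
    ((if 0 = p then 1 else 0) + ∑ i ∈ Finset.range m, if i + 1 = p then (1 : ℝ) else 0) ≤ 1 := by
  rw [add_comm, ← Finset.sum_range_succ' (fun i => if i = p then (1 : ℝ) else 0),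
    Finset.sum_ite_eq']
  split_ifs <;> norm_num

theorem Var_ind (m p q : ℕ) {s : ℝ} (hs : |s| ≤ 1) :
    Var m (fun i => if p ≤ i ∧ i < q then s else 0) ≤ 2 := by
  have h1 := sum_ite_succ_le m p
  have h2 := sum_ite_succ_le m q
  have h3 : |if p ≤ 0 ∧ 0 < q then s else 0| ≤ if 0 = p then 1 else 0 := by
    split_ifs with a b
    · exact hs
    · omega
    all_goals simp
  have h4 : ∀ i, |(if p ≤ i + 1 ∧ i + 1 < q then s else 0) - if p ≤ i ∧ i < q then s else 0| ≤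
      (if i + 1 = p then 1 else 0) + if i + 1 = q then 1 else 0 := fun i => by
    split_ifs <;> first | omega | (simp only [sub_self, sub_zero, zero_sub, abs_neg, abs_zero]; linarith)
  have h5 := Finset.sum_le_sum fun i (_ : i ∈ Finset.range m) => h4 i
  rw [Finset.sum_add_distrib] at h5
  have h6 : (0 : ℝ) ≤ if 0 = q then 1 else 0 := by split_ifs <;> norm_num
  simp only [Var]
  linarith

theorem exists_pat {m k : ℕ} (p q : Fin k → ℕ) (hq : ∀ j, q j ≤ m)
    (hd : ∀ i j, i ≠ j → q i ≤ p j ∨ q j ≤ p i) (b : ℕ → ℝ) :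
    ∃ β ∈ Pat m (2 * k), ∑ j, |∑ i ∈ Finset.Ico (p j) (q j), b i| =
      ∑ i ∈ Finset.range m, β i * b i := by
  set s : Fin k → ℝ := fun j => if 0 ≤ ∑ i ∈ Finset.Ico (p j) (q j), b i then 1 else -1 with hs
  have hs1 : ∀ j, s j = 1 ∨ s j = -1 := fun j => by simp only [hs]; split_ifs <;> simp
  refine ⟨fun i => ∑ j, if p j ≤ i ∧ i < q j then s j else 0, ⟨fun i => ?_, fun i hi => ?_, ?_⟩, ?_⟩
  · dsimp only
    by_cases h : ∃ j, p j ≤ i ∧ i < q j
    · obtain ⟨j, hj⟩ := h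
      rw [Finset.sum_eq_single j, if_pos hj]
      · rcases hs1 j with e | e <;> simp [e]
      · intro j' _ hj'
        have := hd j' j hj'
        rw [if_neg (by omega)]
      · simp
    · rw [Finset.sum_eq_zero fun j _ => if_neg fun hj => h ⟨j, hj⟩]
      simp
  · exact Finset.sum_eq_zero fun j _ => if_neg fun hj => by have := hq j; omega
  · refine (Var_sum _ _ _).trans ((Finset.sum_le_sum fun j _ => Var_ind m (p j) (q j)
      (by rcases hs1 j with e | e <;> simp [e])).trans (le_of_eq ?_))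
    simp [mul_comm]
  · simp only [Finset.sum_mul]
    rw [Finset.sum_comm]
    refine Finset.sum_congr rfl fun j _ => ?_
    have e : Finset.Ico (p j) (q j) = (Finset.range m).filter fun i => p j ≤ i ∧ i < q j := by
      ext i
      have := hq j
      simp only [Finset.mem_Ico, Finset.mem_filter, Finset.mem_range]
      omega
    have e2 : ∑ i ∈ Finset.range m, (if p j ≤ i ∧ i < q j then s j else 0) * b i =
        s j * ∑ i ∈ Finset.Ico (p j) (q j), b i := by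
      rw [e, Finset.sum_filter, Finset.mul_sum]
      exact Finset.sum_congr rfl fun i _ => by split_ifs <;> simp
    rw [e2]
    simp only [hs]
    split_ifs with h
    · rw [abs_of_nonneg h, one_mul]
    · rw [abs_of_neg (not_le.1 h), neg_one_mul]

theorem exists_den (Q : Finset ℚ) :
    ∃ N : ℕ, 0 < N ∧ ∀ x ∈ Q, 0 < x → ∃ p : ℕ, (x : ℝ) = (p + 1) / N := by
  refine ⟨∏ x ∈ Q, x.den, Finset.prod_pos fun x _ => x.den_pos, fun x hx h0 => ?_⟩
  obtain ⟨c, hc⟩ := Finset.dvd_prod_of_mem (fun x : ℚ => x.den) hx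
  have hN : 0 < ∏ x ∈ Q, x.den := Finset.prod_pos fun x _ => x.den_pos
  rw [hc] at hN ⊢
  have hc0 : 0 < c := Nat.pos_of_mul_pos_left hN
  obtain ⟨a, ha⟩ := Int.eq_ofNat_of_zero_le (Rat.num_pos.2 h0).le
  have ha0 : 0 < a := by have := Rat.num_pos.2 h0; omega
  refine ⟨a * c - 1, ?_⟩
  have h1 : ((a * c - 1 : ℕ) : ℝ) + 1 = a * c := by
    have : a * c - 1 + 1 = a * c := Nat.sub_add_cancel (Nat.mul_pos ha0 hc0)
    exact_mod_cast this
  rw [h1, Rat.cast_def, ha]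
  have := x.den_pos
  push_cast
  field_simp

theorem lin : ∃ K > 0, ∀ (F G : ℝ × ℝ → ℝ), Nice F → Nice G → ∀ V : ℝ, 1 ≤ V →
    ∀ (m : ℕ) (ρ : ℕ → ℝ) (γ : ℝ × ℝ → ℕ → ℝ), Monotone ρ → 0 < ρ 0 →
    (∀ i, Measurable fun z => γ z i) → (∀ z, γ z ∈ Pat m V) → ∀ S : ℝ × ℝ → ℝ,
    (∀ z, S z = ∑ i ∈ Finset.range m, γ z i * BR F G (ρ i) (ρ (i + 1)) z) → (∀ z, 0 ≤ S z) →
    Nice S ∧ ∫ z, √(S z) ^ 3 ≤
      (K * √V * (∫ z, |F z| ^ 3) ^ (1 / 3 : ℝ) * (∫ z, |G z| ^ 3) ^ (1 / 3 : ℝ)) ^ (3 / 2 : ℝ) := by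
  obtain ⟨K, hK, hcore⟩ := core
  refine ⟨3 * K, by positivity, fun F G hF hG V hV m ρ γ hρ h0 hγm hγ S hS hS0 => ?_⟩
  have hγ1 : ∀ z i, |γ z i| ≤ 1 := fun z i => by
    rcases (hγ z).1 i with e | e | e <;> rw [e] <;> simp
  have hb : ∀ i, Nice (BR F G (ρ i) (ρ (i + 1))) := fun i =>
    nice_BR hF hG (h0.trans_le (hρ (Nat.zero_le i))) _
  have hγb : ∀ i, Nice fun z => γ z i * BR F G (ρ i) (ρ (i + 1)) z := fun i =>
    nice_bmul (hb i) (hγm i) ⟨1, fun z => hγ1 z i⟩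
  have hSn : Nice S := by
    rw [show S = _ from funext hS]
    exact nice_sum _ fun i _ => hγb i
  have hT : Nice fun z => √(S z) := nice_comp hSn Real.continuous_sqrt Real.sqrt_zero
  refine ⟨hSn, ?_⟩
  set I := ∫ z, √(S z) ^ 3 with hI
  set x := ∫ z, |F z| ^ 3 with hx
  set y := ∫ z, |G z| ^ 3 with hy
  have hI0 : 0 ≤ I := integral_nonneg fun z => by positivity
  have hx0 : 0 ≤ x := integral_nonneg fun z => by positivity
  have hy0 : 0 ≤ y := integral_nonneg fun z => by positivity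
  have key : I ≤ 3 * (K * √V) * x ^ (1 / 3 : ℝ) * y ^ (1 / 3 : ℝ) * I ^ (1 / 3 : ℝ) := by
    refine le_of_scale (by positivity) hx0 hy0 hI0 fun a b c ha hb' hc => ?_
    have h := hcore (fun z => a * F z) (fun z => b * G z) (fun z => c * √(S z)) (nice_smul hF a)
      (nice_smul hG b) (nice_smul hT c) V hV m ρ (fun i z => c * √(S z) * γ z i) hρ h0
      (fun i => (hT.meas.const_mul c).mul (hγm i))
      (funext fun z => by simp [(hγ z).2.1 m le_rfl])
      (fun i z => by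
        rw [abs_mul, abs_of_nonneg (by positivity)]
        exact mul_le_of_le_one_right (by positivity) (hγ1 z i))
      (fun z => by
        rw [Var_mul m (by positivity), mul_comm]
        exact mul_le_mul_of_nonneg_right (hγ z).2.2 (by positivity))
    have e1 : ∀ (F : ℝ × ℝ → ℝ) {a : ℝ}, 0 < a → ∫ z, |a * F z| ^ 3 = a ^ 3 * ∫ z, |F z| ^ 3 :=
      fun F a ha => by
        simp only [abs_mul, abs_of_pos ha, mul_pow, integral_const_mul]
    have e2 : ∑ i ∈ Finset.range m, ∫ z, c * √(S z) * γ z i *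
        BR (fun z => a * F z) (fun z => b * G z) (ρ i) (ρ (i + 1)) z = a * b * c * I := by
      have e3 : ∀ i z, c * √(S z) * γ z i *
          BR (fun z => a * F z) (fun z => b * G z) (ρ i) (ρ (i + 1)) z =
          a * b * c * (√(S z) * (γ z i * BR F G (ρ i) (ρ (i + 1)) z)) := fun i z => by
        rw [BR_smul]; ring
      simp only [e3, integral_const_mul, ← Finset.mul_sum]
      rw [← integral_finsetSum _ fun i _ => nice_integrable (nice_bmul (hγb i) hT.meas hT.bdd)]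
      congr 2
      funext z
      rw [← Finset.mul_sum, ← hS, pow_succ', Real.sq_sqrt (hS0 z)]
    rw [e2, e1 F ha, e1 G hb', e1 _ hc] at h
    simp only [abs_of_nonneg (Real.sqrt_nonneg _)] at h
    exact (le_abs_self _).trans h
  set C := 3 * K * √V * x ^ (1 / 3 : ℝ) * y ^ (1 / 3 : ℝ) with hC
  have hC0 : 0 ≤ C := by positivity
  rcases hI0.eq_or_lt with e | hpos
  · rw [← e]; positivity
  · have h1 : I ^ (2 / 3 : ℝ) ≤ C := by
      have h2 : I = I ^ (2 / 3 : ℝ) * I ^ (1 / 3 : ℝ) := by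
        rw [← Real.rpow_add hpos]; norm_num
      refine le_of_mul_le_mul_right ?_ (Real.rpow_pos_of_pos hpos (1 / 3 : ℝ))
      rw [← h2, hC]
      linarith
    calc I = (I ^ (2 / 3 : ℝ)) ^ (3 / 2 : ℝ) := by rw [← Real.rpow_mul hI0]; norm_num
      _ ≤ C ^ (3 / 2 : ℝ) := Real.rpow_le_rpow (by positivity) h1 (by norm_num)

end LinAux

open LinAux

theorem count_real : ∃ K > 0, ∀ n : ℕ, 1 ≤ n → ∀ F G : ℝ × ℝ → ℝ, Nice F → Nice G →
    ∀ Q : Finset ℚ, ∫⁻ z, cnt Q n (fun ε R => ‖BR F G ε R z‖ₑ) ^ (3 / 2 : ℝ) ≤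
      (ENNReal.ofReal (K * √n) * eLpNorm F 3 volume * eLpNorm G 3 volume) ^ (3 / 2 : ℝ) := by
  obtain ⟨K, hK, hlin⟩ := lin
  refine ⟨K * √2, by positivity, fun n hn F G hF hG Q => ?_⟩
  obtain ⟨N, hN, hQ⟩ := exists_den Q
  choose! p hp using hQ
  set ρ : ℕ → ℝ := fun i => (i + 1) / N with hρ
  have hN' : (0 : ℝ) < N := by exact_mod_cast hN
  have hρs : StrictMono ρ := fun i j hij => by
    simp only [hρ]
    gcongr
  have h0 : 0 < ρ 0 := by simp only [hρ]; positivity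
  set m := Q.sup p with hm
  have hn' : (1 : ℝ) ≤ n := by exact_mod_cast hn
  have hb : ∀ i, Nice (BR F G (ρ i) (ρ (i + 1))) := fun i =>
    nice_BR hF hG (h0.trans_le (hρs.monotone (Nat.zero_le i))) _
  have hz := zero_mem_Pat m (V := 2 * n) (by positivity)
  obtain ⟨γ, hγm, hγ, hmax⟩ := select m (fun i => (hb i).meas) (finite_Pat m (2 * n)) 0
  rw [insert_eq_of_mem hz] at hγ
  set S : ℝ × ℝ → ℝ := fun z => ∑ i ∈ Finset.range m, γ z i * BR F G (ρ i) (ρ (i + 1)) z with hS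
  have hS0 : ∀ z, 0 ≤ S z := fun z => by simpa using hmax z 0 hz
  obtain ⟨hSn, hI⟩ := hlin F G hF hG (2 * n) (by linarith) m ρ γ hρs.monotone h0 hγm hγ S
    (fun _ => rfl) hS0
  have hcnt : ∀ z, cnt Q n (fun ε R => ‖BR F G ε R z‖ₑ) ≤ ENNReal.ofReal (S z) := by
    intro z
    simp only [cnt, iSup_le_iff]
    intro k hk ε R h1 h2 h3
    have hε : ∀ j, (ε j : ℝ) = ρ (p (ε j)) := fun j => hp _ (h3 j).1 (h1 j).1
    have hR : ∀ j, (R j : ℝ) = ρ (p (R j)) := fun j => hp _ (h3 j).2 ((h1 j).1.trans (h1 j).2)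
    have hle : ∀ i j, R i ≤ ε j → p (R i) ≤ p (ε j) := fun i j h => by
      rw [← hρs.le_iff_le, ← hε, ← hR]; exact_mod_cast h
    have hlt : ∀ j, p (ε j) ≤ p (R j) := fun j => by
      rw [← hρs.le_iff_le, ← hε, ← hR]; exact_mod_cast (h1 j).2.le
    obtain ⟨β, hβ, e⟩ := exists_pat (m := m) (fun j => p (ε j)) (fun j => p (R j))
      (fun j => Finset.le_sup (f := p) (h3 j).2) (fun i j hij => (h2 i j hij).imp (hle i j) (hle j i))
      fun i => BR F G (ρ i) (ρ (i + 1)) z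
    have hβ' : β ∈ Pat m (2 * n) := ⟨hβ.1, hβ.2.1, hβ.2.2.trans (by gcongr)⟩
    calc ∑ j, ‖BR F G (ε j) (R j) z‖ₑ = ENNReal.ofReal (∑ j, |BR F G (ε j) (R j) z|) := by
          rw [ENNReal.ofReal_sum_of_nonneg fun _ _ => abs_nonneg _]
          exact Finset.sum_congr rfl fun j _ => by rw [← Real.norm_eq_abs, ofReal_norm]
      _ ≤ ENNReal.ofReal (S z) := by
          refine ENNReal.ofReal_le_ofReal (le_trans (le_of_eq ?_) (hmax z β hβ'))
          rw [← e]
          exact Finset.sum_congr rfl fun j _ => by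
            rw [hε, hR, BR_sum hF hG hρs.monotone h0 (hlt j)]
  have hint : Integrable fun z => √(S z) ^ 3 :=
    nice_integrable (nice_comp hSn (φ := fun x => √x ^ 3) (by fun_prop) (by simp))
  calc ∫⁻ z, cnt Q n (fun ε R => ‖BR F G ε R z‖ₑ) ^ (3 / 2 : ℝ)
      ≤ ∫⁻ z, ENNReal.ofReal (√(S z) ^ 3) := lintegral_mono fun z => by
        refine (ENNReal.rpow_le_rpow (hcnt z) (by norm_num)).trans (le_of_eq ?_)
        rw [ENNReal.ofReal_rpow_of_nonneg (hS0 z) (by norm_num), Real.sqrt_eq_rpow,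
          ← Real.rpow_natCast, ← Real.rpow_mul (hS0 z)]
        norm_num
    _ = ENNReal.ofReal (∫ z, √(S z) ^ 3) :=
        (ofReal_integral_eq_lintegral_ofReal hint (Eventually.of_forall fun z => by positivity)).symm
    _ ≤ _ := by
        have hx0 : 0 ≤ ∫ z, |F z| ^ 3 := integral_nonneg fun z => by positivity
        have hy0 : 0 ≤ ∫ z, |G z| ^ 3 := integral_nonneg fun z => by positivity
        refine (ENNReal.ofReal_le_ofReal hI).trans (le_of_eq ?_)
        rw [eLpNorm_nice hF, eLpNorm_nice hG, ← ENNReal.ofReal_mul (by positivity),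
          ← ENNReal.ofReal_mul (by positivity), ENNReal.ofReal_rpow_of_nonneg (by positivity)
            (by norm_num), Real.sqrt_mul (by norm_num), ← mul_assoc K]

end Crest.Agent.R72
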