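import Crest.Agent.R72.LinA

/-!
# Row 72: the count estimate

PLAN.  Replace `F, G` by measurable representatives (for a.e. `z` the integrands agree for a.e. `t`: the maps
`(z,t) ↦ (z.1+t, z.2)`, `(z.1, z.2+t)` are quasi measure preserving; countably many radii).  Monotone convergence
along finite sets `Q_N ↑ ℚ`.  Truncate `F_M = F 1_{|F| ≤ M, |z| ≤ M}`: at every `z`,
`‖B(F,G)‖ ≤ liminf ‖B(F_M,G_M)‖` (dominated convergence if the integrand is integrable, otherwise the left side is `0`), so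
`cnt ≤ liminf cnt`; Fatou.  Split into real and imaginary parts: `cnt ≤` sum of four real counts,
`(a+b+c+d)^(3/2) ≤ 8 ∑ a^(3/2)`.
-/

set_option autoImplicit false

namespace Crest.Agent.R72

open MeasureTheory Set Matrix Filter Topology
open scoped ENNReal

open Crest.AnalysisR

theorem lb_cnt_iff {Q : Set ℚ} {n : ℕ} {B : ℚ → ℚ → ℝ≥0∞} {c : ℝ≥0∞} : cnt Q n B ≤ c ↔
    ∀ m ≤ n, ∀ ε R : Fin m → ℚ, (∀ j, 0 < ε j ∧ ε j < R j) → (∀ i j, i ≠ j → R i ≤ ε j ∨ R j ≤ ε i) →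
      (∀ j, ε j ∈ Q ∧ R j ∈ Q) → ∑ j, B (ε j) (R j) ≤ c := by
  simp only [cnt, iSup_le_iff]

theorem lb_cnt_add {Q : Set ℚ} {n : ℕ} {B B₁ B₂ : ℚ → ℚ → ℝ≥0∞}
    (h : ∀ ε R, 0 < ε → B ε R ≤ B₁ ε R + B₂ ε R) : cnt Q n B ≤ cnt Q n B₁ + cnt Q n B₂ :=
  lb_cnt_iff.2 fun m hm ε R h1 h2 h3 => ((Finset.sum_le_sum fun j _ => h _ _ (h1 j).1).trans_eq
    Finset.sum_add_distrib).trans (add_le_add (lb_cnt_iff.1 le_rfl m hm ε R h1 h2 h3)
      (lb_cnt_iff.1 le_rfl m hm ε R h1 h2 h3))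

theorem lb_count_eq (n : ℕ) (F G : ℝ × ℝ → ℂ) (z : ℝ × ℝ) :
    annulusCount n F G z = cnt univ n fun ε R => ‖annularTriangularHT F G ε R z‖ₑ := by
  simp [annulusCount, cnt]

theorem lb_meas_cnt (Q : Set ℚ) (n : ℕ) {B : ℚ → ℚ → ℝ × ℝ → ℝ≥0∞} (h : ∀ ε R, Measurable (B ε R)) :
    Measurable fun z => cnt Q n fun ε R => B ε R z :=
  .iSup fun _ => .iSup fun _ => .iSup fun _ => .iSup fun _ => .iSup fun _ => .iSup fun _ => .iSup fun _ =>
    Finset.measurable_sum _ fun _ _ => h _ _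

theorem lb_meas_B {F G : ℝ × ℝ → ℂ} (hF : Measurable F) (hG : Measurable G) (ε R : ℝ) :
    Measurable (annularTriangularHT F G ε R) :=
  (Measurable.stronglyMeasurable (f := fun p : (ℝ × ℝ) × ℝ =>
    F (p.1.1 + p.2, p.1.2) * G (p.1.1, p.1.2 + p.2) / (p.2 : ℂ)) (by fun_prop)).integral_prod_right'.measurable

theorem lb_meas_BR {F G : ℝ × ℝ → ℝ} (hF : Measurable F) (hG : Measurable G) (ε R : ℝ) :
    Measurable (BR F G ε R) :=
  (Measurable.stronglyMeasurable (f := fun p : (ℝ × ℝ) × ℝ =>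
    F (p.1.1 + p.2, p.1.2) * G (p.1.1, p.1.2 + p.2) / p.2) (by fun_prop)).integral_prod_right'.measurable

theorem lb_meas_count (n : ℕ) {F G : ℝ × ℝ → ℂ} (hF : Measurable F) (hG : Measurable G) :
    Measurable (annulusCount n F G) := by
  rw [funext (lb_count_eq n F G)]
  exact lb_meas_cnt _ _ fun ε R => (lb_meas_B hF hG ε R).enorm

theorem lb_line {F F' : ℝ × ℝ → ℂ} (h : F =ᵐ[volume] F') (v : ℝ × ℝ) :
    ∀ᵐ z : ℝ × ℝ, ∀ᵐ t : ℝ, F (z + t • v) = F' (z + t • v) :=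
  Measure.ae_ae_of_ae_prod ((QuasiMeasurePreserving.prod_of_left
    (f := fun p : (ℝ × ℝ) × ℝ => p.1 + p.2 • v) (by fun_prop) (.of_forall fun t =>
      (measurePreserving_add_right volume (t • v)).quasiMeasurePreserving)).ae h)

theorem lb_congr (n : ℕ) {F F' G G' : ℝ × ℝ → ℂ} (hF : F =ᵐ[volume] F') (hG : G =ᵐ[volume] G') :
    annulusCount n F G =ᵐ[volume] annulusCount n F' G' := by
  filter_upwards [lb_line hF (1, 0), lb_line hG (0, 1)] with ⟨x, y⟩ h1 h2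
  rw [lb_count_eq, lb_count_eq]
  refine congrArg _ (funext₂ fun ε R => congrArg _ (integral_congr_ae (ae_restrict_of_ae ?_)))
  filter_upwards [h1, h2] with t h1 h2
  simp only [Prod.smul_mk, smul_eq_mul, mul_one, mul_zero, Prod.mk_add_mk, add_zero] at h1 h2
  rw [h1, h2]

/-- truncation -/
noncomputable def lbTr (k : ℕ) (F : ℝ × ℝ → ℂ) : ℝ × ℝ → ℂ := indicator {z | ‖F z‖ ≤ k ∧ ‖z‖ ≤ k} F

/-- exhaustion of the rationals -/
def lbQ (k : ℕ) : Finset ℚ := (Finset.range k).image (Denumerable.ofNat ℚ)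

theorem lb_meas_tr {F : ℝ × ℝ → ℂ} (hF : Measurable F) (k : ℕ) : Measurable (lbTr k F) :=
  hF.indicator ((measurableSet_le hF.norm measurable_const).inter
    (measurableSet_le measurable_norm measurable_const))

theorem lb_tr_ev (F : ℝ × ℝ → ℂ) (z : ℝ × ℝ) : ∀ᶠ k in atTop, lbTr k F z = F z := by
  filter_upwards [tendsto_natCast_atTop_atTop.eventually_ge_atTop ‖F z‖,
    tendsto_natCast_atTop_atTop.eventually_ge_atTop ‖z‖] with k h1 h2
  exact indicator_of_mem (show z ∈ {z | ‖F z‖ ≤ k ∧ ‖z‖ ≤ k} from ⟨h1, h2⟩) _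

theorem lb_nice {L : ℂ → ℝ} (hL : Measurable L) (hL' : ∀ w, |L w| ≤ ‖w‖) {F : ℝ × ℝ → ℂ}
    (hF : Measurable F) (k : ℕ) : Nice (fun z => L (lbTr k F z)) ∧
      eLpNorm (fun z => L (lbTr k F z)) 3 volume ≤ eLpNorm F 3 volume := by
  refine ⟨⟨hL.comp (lb_meas_tr hF k), ⟨k, fun z => (hL' _).trans ?_⟩, k, fun z hz => ?_⟩,
    eLpNorm_mono fun z => (hL' _).trans (norm_indicator_le_norm_self _ _)⟩
  · unfold lbTr indicator
    split_ifs with h
    exacts [h.1, by simp]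
  · have : ‖z‖ ≤ k := (mem_of_indicator_ne_zero (f := F) (s := {z | ‖F z‖ ≤ k ∧ ‖z‖ ≤ k}) fun h =>
      hz (by simpa [lbTr, h] using hL' 0)).2
    exact ⟨(norm_fst_le z).trans this, (norm_snd_le z).trans this⟩

theorem lb_int {a c : ℝ × ℝ → ℝ} (ha : Nice a) (hc : Nice c) {ε : ℝ} (hε : 0 < ε) (R : ℝ) (z : ℝ × ℝ) :
    IntegrableOn (fun t => ((a (z.1 + t, z.2) * c (z.1, z.2 + t) / t : ℝ) : ℂ))
      {t : ℝ | ε < |t| ∧ |t| < R} := by
  obtain ⟨M, hM⟩ := ha.bdd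
  obtain ⟨M', hM'⟩ := hc.bdd
  have := ha.meas
  have := hc.meas
  have := (abs_nonneg _).trans (hM 0)
  have := (abs_nonneg _).trans (hM' 0)
  refine Measure.integrableOn_of_bounded (M := M * M' / ε) ((measure_mono fun t ht =>
    abs_lt.1 ht.2).trans_lt (measure_Ioo_lt_top (a := -R) (b := R))).ne
    (Measurable.aestronglyMeasurable (by fun_prop)) (ae_restrict_of_forall_mem (by measurability) fun t ht => ?_)
  rw [Complex.norm_real, Real.norm_eq_abs, abs_div, abs_mul]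
  gcongr
  exacts [hM _, hM' _, ht.1.le]

theorem lb_split {F G : ℝ × ℝ → ℂ} (a1 : Nice fun z => (F z).re) (a2 : Nice fun z => (F z).im)
    (b1 : Nice fun z => (G z).re) (b2 : Nice fun z => (G z).im) {ε : ℝ} (hε : 0 < ε) (R : ℝ) (z : ℝ × ℝ) :
    ‖annularTriangularHT F G ε R z‖ₑ ≤
      (‖BR (fun z => (F z).re) (fun z => (G z).re) ε R z‖ₑ + ‖BR (fun z => (F z).im) (fun z => (G z).im) ε R z‖ₑ) +
      (‖BR (fun z => (F z).re) (fun z => (G z).im) ε R z‖ₑ + ‖BR (fun z => (F z).im) (fun z => (G z).re) ε R z‖ₑ) := by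
  have h : annularTriangularHT F G ε R z =
      (BR (fun z => (F z).re) (fun z => (G z).re) ε R z - BR (fun z => (F z).im) (fun z => (G z).im) ε R z) +
      Complex.I * (BR (fun z => (F z).re) (fun z => (G z).im) ε R z +
        BR (fun z => (F z).im) (fun z => (G z).re) ε R z) := by
    have h1 := lb_int a1 b1 hε R z
    have h2 := lb_int a2 b2 hε R z
    have h3 := lb_int a1 b2 hε R z
    have h4 := lb_int a2 b1 hε R z
    simp only [BR, ← integral_complex_ofReal]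
    rw [← integral_sub h1 h2, ← integral_add h3 h4, ← integral_const_mul]
    refine (integral_congr_ae (.of_forall fun t => ?_)).trans
      (integral_add (h1.sub h2) ((h3.add h4).const_mul Complex.I))
    beta_reduce
    conv_lhs => rw [← Complex.re_add_im (F _), ← Complex.re_add_im (G _)]
    push_cast
    linear_combination ((F (z.1 + t, z.2)).im * (G (z.1, z.2 + t)).im / t : ℂ) * Complex.I_sq
  rw [h]
  refine (enorm_add_le _ _).trans (add_le_add (enorm_sub_le.trans_eq ?_) ?_)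
  · simp [enorm]
  · rw [enorm_mul]
    exact (by simp [enorm] : ‖Complex.I‖ₑ = 1) ▸ (one_mul _).trans_le
      ((enorm_add_le _ _).trans_eq (by simp [enorm]))

theorem lb_add {f g : ℝ × ℝ → ℝ≥0∞} (hf : Measurable f) (hg : Measurable g) {x y : ℝ≥0∞}
    (h1 : ∫⁻ z, f z ^ (3 / 2 : ℝ) ≤ x ^ (3 / 2 : ℝ)) (h2 : ∫⁻ z, g z ^ (3 / 2 : ℝ) ≤ y ^ (3 / 2 : ℝ)) :
    ∫⁻ z, (f z + g z) ^ (3 / 2 : ℝ) ≤ (x + y) ^ (3 / 2 : ℝ) := by
  have := ENNReal.lintegral_Lp_add_le (μ := volume) hf.aemeasurable hg.aemeasurable (by norm_num : (1 : ℝ) ≤ 3 / 2)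
  rw [← ENNReal.rpow_inv_le_iff (by norm_num), ← one_div] at h1 h2 ⊢
  exact this.trans (add_le_add h1 h2)

theorem lb_liminf (n : ℕ) {F G : ℝ × ℝ → ℂ} (hF : Measurable F) (hG : Measurable G) (z : ℝ × ℝ) :
    annulusCount n F G z ^ (3 / 2 : ℝ) ≤ liminf (fun k => (cnt (lbQ k) n fun ε R =>
      ‖annularTriangularHT (lbTr k F) (lbTr k G) ε R z‖ₑ) ^ (3 / 2 : ℝ)) atTop := by
  refine le_trans ?_ (ENNReal.orderIsoRpow (3 / 2) (by norm_num)).liminf_apply.le
  refine ENNReal.rpow_le_rpow ?_ (by norm_num)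
  have h : ∀ ε R : ℝ, ∃ c : ℕ → ℝ≥0∞, Tendsto c atTop (𝓝 ‖annularTriangularHT F G ε R z‖ₑ) ∧
      ∀ k, c k ≤ ‖annularTriangularHT (lbTr k F) (lbTr k G) ε R z‖ₑ := fun ε R => by
    by_cases hi : IntegrableOn (fun t : ℝ => F (z.1 + t, z.2) * G (z.1, z.2 + t) / (t : ℂ))
      {t : ℝ | ε < |t| ∧ |t| < R}
    · refine ⟨_, Tendsto.enorm (tendsto_integral_of_dominated_convergence _ (fun k => ?_) hi.norm
        (fun k => .of_forall fun t => ?_) (.of_forall fun t => tendsto_const_nhds.congr' ?_)), fun k => le_rfl⟩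
      · have := lb_meas_tr hF k
        have := lb_meas_tr hG k
        exact Measurable.aestronglyMeasurable (by fun_prop)
      · simp only [norm_div, norm_mul]
        gcongr <;> exact norm_indicator_le_norm_self _ _
      · filter_upwards [lb_tr_ev F (z.1 + t, z.2), lb_tr_ev G (z.1, z.2 + t)] with k h1 h2
        rw [h1, h2]
    · exact ⟨fun _ => 0, by simp [annularTriangularHT, integral_undef hi], fun _ => zero_le⟩
  choose c hc hc' using h
  rw [lb_count_eq]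
  refine lb_cnt_iff.2 fun m hm ε R h1 h2 _ => ?_
  rw [← (tendsto_finsetSum _ fun j _ => hc (ε j) (R j)).liminf_eq]
  have hQ : ∀ q, ∀ᶠ k in atTop, q ∈ (lbQ k : Set ℚ) := fun q =>
    (eventually_gt_atTop _).mono fun k hk =>
      Finset.mem_coe.2 (Finset.mem_image.2 ⟨_, Finset.mem_range.2 hk, Denumerable.ofNat_encode q⟩)
  refine liminf_le_liminf ((eventually_all.2 fun j => (hQ (ε j)).and (hQ (R j))).mono fun k hk => ?_)
  exact (Finset.sum_le_sum fun j _ => hc' _ _ k).trans (lb_cnt_iff.1 le_rfl m hm ε R h1 h2 hk)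

theorem aemeasurable_count (n : ℕ) {F G : ℝ × ℝ → ℂ} (hF : AEStronglyMeasurable F volume)
    (hG : AEStronglyMeasurable G volume) :
    AEMeasurable (Crest.AnalysisR.annulusCount n F G) volume :=
  (lb_meas_count n hF.measurable_mk hG.measurable_mk).aemeasurable.congr
    (lb_congr n hF.ae_eq_mk.symm hG.ae_eq_mk.symm)

theorem count_bound : ∃ C > 0, ∀ n : ℕ, 1 ≤ n → ∀ F G : ℝ × ℝ → ℂ, MemLp F 3 volume →
    MemLp G 3 volume → ∫⁻ z, Crest.AnalysisR.annulusCount n F G z ^ (3 / 2 : ℝ) ≤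
      (ENNReal.ofReal (C * √n) * eLpNorm F 3 volume * eLpNorm G 3 volume) ^ (3 / 2 : ℝ) := by
  obtain ⟨K, hK, H⟩ := count_real
  refine ⟨4 * K, by positivity, fun n hn F G hF hG => ?_⟩
  replace hF := hF.1
  replace hG := hG.1
  rw [lintegral_congr_ae ((lb_congr n hF.ae_eq_mk hG.ae_eq_mk).mono fun z hz => by rw [hz]),
    eLpNorm_congr_ae hF.ae_eq_mk, eLpNorm_congr_ae hG.ae_eq_mk]
  have mF := hF.measurable_mk
  have mG := hG.measurable_mk
  generalize hF.mk F = F at mF ⊢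
  generalize hG.mk G = G at mG ⊢
  refine (lintegral_mono fun z => lb_liminf n mF mG z).trans ((lintegral_liminf_le fun k =>
    (lb_meas_cnt _ _ fun ε R => (lb_meas_B (lb_meas_tr mF k) (lb_meas_tr mG k) ε R).enorm).pow_const _).trans
    (liminf_le_of_frequently_le' (.of_forall fun k => ?_)))
  have a1 := lb_nice Complex.measurable_re Complex.abs_re_le_norm mF k
  have a2 := lb_nice Complex.measurable_im Complex.abs_im_le_norm mF k
  have b1 := lb_nice Complex.measurable_re Complex.abs_re_le_norm mG k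
  have b2 := lb_nice Complex.measurable_im Complex.abs_im_le_norm mG k
  have hm : ∀ {a c : ℝ × ℝ → ℝ}, Nice a → Nice c → Measurable fun z =>
      cnt (lbQ k) n fun ε R => ‖BR a c ε R z‖ₑ := fun ha hc =>
    lb_meas_cnt _ _ fun ε R => (lb_meas_BR ha.meas hc.meas ε R).enorm
  have hb : ∀ {a c : ℝ × ℝ → ℝ}, Nice a ∧ eLpNorm a 3 volume ≤ eLpNorm F 3 volume →
      Nice c ∧ eLpNorm c 3 volume ≤ eLpNorm G 3 volume →
      ∫⁻ z, cnt (lbQ k) n (fun ε R => ‖BR a c ε R z‖ₑ) ^ (3 / 2 : ℝ) ≤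
        (ENNReal.ofReal (K * √n) * eLpNorm F 3 volume * eLpNorm G 3 volume) ^ (3 / 2 : ℝ) :=
    fun ha hc => (H n hn _ _ ha.1 hc.1 _).trans (by gcongr; exacts [ha.2, hc.2])
  refine (lintegral_mono fun z => ENNReal.rpow_le_rpow ((lb_cnt_add fun ε R hε =>
    lb_split a1.1 a2.1 b1.1 b2.1 (by exact_mod_cast hε) R z).trans (add_le_add
      (lb_cnt_add fun _ _ _ => le_rfl) (lb_cnt_add fun _ _ _ => le_rfl))) (by norm_num)).trans ?_
  refine (lb_add ((hm a1.1 b1.1).add (hm a2.1 b2.1)) ((hm a1.1 b2.1).add (hm a2.1 b1.1))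
    (lb_add (hm a1.1 b1.1) (hm a2.1 b2.1) (hb a1 b1) (hb a2 b2))
    (lb_add (hm a1.1 b2.1) (hm a2.1 b1.1) (hb a1 b2) (hb a2 b1))).trans_eq ?_
  rw [mul_assoc 4 K, ENNReal.ofReal_mul (p := 4) (by norm_num), ENNReal.ofReal_ofNat]
  congr 1; ring

end Crest.Agent.R72
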