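import Crest.Agent.R72.Energy
import Crest.Agent.R72.Kern

/-!
# Row 72: the smooth truncations

PLAN.  `θ = 1/√V`.  For `σ > 0` and a coefficient matrix `c` put `A = Wm (2σ) (2σ) ξ η (δ•f₀) p₀ p₁`,
`B = Wm (2σ) (2σ) η ζ (δ•f₁) p₁ p₂`, `C = Wm (2σ) (2σ) ζ ξ (δ•θ•c) p₂ p₀`, `p₂ = -p₀-p₁`,
`χ x = exp (-x²/(8σ))`, `m x = χ² x/(2σ)`, `|m| ≤ 1/√σ`, `m x gs (2σ) x = - d1 σ x/(2√2)`.  By `plane3`
`θ Tri (c d3 (3σ)) = -16√2 ∫ tr (A D₁ B D₂ C D₀) dp`.  `three`, `GG_conj`, `GG_mono` (note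
`Gs 2 σ ξ η ζ (δ•f₀) (δ•θ•cᵀ) p = √2 χ (AAᵀ + CᵀC) χ`) and the changes of variables `Prod.swap`, `measurePreserving_rot'` give
`θ √σ |Tri (c d3 (3σ))| ≤ 16√2 (GN 2 σ ξ η ζ (δ•f₀) (δ•θ•cᵀ) + GN 2 σ η ξ ζ (δ•f₀ᵀ) (δ•f₁) + GN 2 σ ζ η ξ (δ•f₁ᵀ) (δ•θ•c))`.
Integrate over `Ioc (s i) (s (i+1))` (`hasDerivAt_LL`), telescope with `flowE`, `EN_jump` (`l = θ`, `H` replaced by
`θ•H`; `MM` of `θ² H²` is at most `θ² MM`, or use `MM_bound` for `θ H`), `EN_le`, `young32`, `MM_bound`.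
-/

set_option autoImplicit false

namespace Crest.Agent.R72

open MeasureTheory Set Matrix Filter Topology
open scoped ENNReal

section Aux

variable {X Y Z : Type*} [Fintype X] [DecidableEq X] [Fintype Y] [DecidableEq Y] [Fintype Z]
  [DecidableEq Z]

/-- the cut-off `χ` -/
noncomputable def lgChi (σ x : ℝ) : ℝ := Real.exp (-x ^ 2 / (8 * σ))

/-- the bounded multiplier `m` -/
noncomputable def lgM (σ x : ℝ) : ℝ := lgChi σ x ^ 2 * (x / (2 * σ))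

theorem lgChi_sq (σ x : ℝ) : lgChi σ x ^ 2 = Real.exp (-x ^ 2 / (4 * σ)) := by
  rw [lgChi, ← Real.exp_nat_mul]; congr 1; push_cast; ring

theorem lg_abs_chi {σ : ℝ} (hσ : 0 < σ) (x : ℝ) : |lgChi σ x| ≤ 1 := by
  rw [lgChi, abs_of_pos (Real.exp_pos _), Real.exp_le_one_iff]
  exact div_nonpos_of_nonpos_of_nonneg (by nlinarith [sq_nonneg x]) (by positivity)

theorem lg_chi_gs {σ : ℝ} (hσ : 0 < σ) (x : ℝ) :
    lgChi σ x ^ 2 * gs (2 * σ) x = (√2)⁻¹ * gs σ x := by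
  have h1 : √(2 * Real.pi * (2 * σ)) = √2 * √(2 * Real.pi * σ) := by
    rw [← Real.sqrt_mul (by norm_num)]; congr 1; ring
  have h2 : Real.exp (-x ^ 2 / (4 * σ)) * Real.exp (-x ^ 2 / (2 * (2 * σ))) =
      Real.exp (-x ^ 2 / (2 * σ)) := by
    rw [← Real.exp_add]; congr 1; field_simp; ring
  rw [lgChi_sq, gs, gs, h1, mul_inv, ← h2]; ring

theorem lg_m_gs {σ : ℝ} (hσ : 0 < σ) (x : ℝ) :
    lgM σ x * gs (2 * σ) x = -(2 * √2)⁻¹ * d1 σ x := by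
  have h := lg_chi_gs hσ x
  calc lgM σ x * gs (2 * σ) x = x / (2 * σ) * (lgChi σ x ^ 2 * gs (2 * σ) x) := by rw [lgM]; ring
    _ = _ := by rw [h, d1]; field_simp

theorem lg_abs_m {σ : ℝ} (hσ : 0 < σ) (x : ℝ) : |lgM σ x| ≤ (√σ)⁻¹ := by
  obtain ⟨r, hr, rfl⟩ : ∃ r > 0, σ = r ^ 2 := ⟨√σ, Real.sqrt_pos.2 hσ, (Real.sq_sqrt hσ.le).symm⟩
  rw [Real.sqrt_sq hr.le, lgM, lgChi_sq, abs_mul, abs_of_pos (Real.exp_pos _), abs_div,
    abs_of_pos (by positivity : 0 < 2 * r ^ 2), neg_div, Real.exp_neg, inv_mul_le_iff₀ (Real.exp_pos _)]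
  have h1 := Real.add_one_le_exp (x ^ 2 / (4 * r ^ 2))
  have h2 : |x| / (2 * r ^ 2) ≤ (x ^ 2 / (4 * r ^ 2) + 1) * r⁻¹ := by
    rw [← sq_abs x]
    have : (|x| ^ 2 / (4 * r ^ 2) + 1) * r⁻¹ - |x| / (2 * r ^ 2) =
        ((|x| - r) ^ 2 + 3 * r ^ 2) / (4 * r ^ 3) := by field_simp; ring
    have h3 : 0 ≤ ((|x| - r) ^ 2 + 3 * r ^ 2) / (4 * r ^ 3) := by positivity
    linarith
  exact h2.trans (mul_le_mul_of_nonneg_right h1 (by positivity))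

theorem lg_sqrt {σ : ℝ} (hσ : 0 < σ) (x y : ℝ) :
    lgChi σ x * √(gs (2 * σ) x) * (lgChi σ y * √(gs (2 * σ) y)) =
      (√2)⁻¹ * (√(gs σ x) * √(gs σ y)) := by
  have h : ∀ x, lgChi σ x * √(gs (2 * σ) x) = √((√2)⁻¹) * √(gs σ x) := fun x => by
    rw [← Real.sqrt_mul (by positivity), ← lg_chi_gs hσ, Real.sqrt_mul (sq_nonneg _),
      Real.sqrt_sq (show 0 ≤ lgChi σ x from (Real.exp_pos _).le)]
  rw [h, h, mul_mul_mul_comm, Real.mul_self_sqrt (by positivity)]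

theorem lg_conj {σ : ℝ} (hσ : 0 < σ) (τ : ℝ) (ξ : X → ℝ) (η : Y → ℝ) (F : Matrix X Y ℝ) (p q : ℝ) :
    diagonal (fun a => lgChi σ (ξ a - p)) * Gm (2 * σ) τ ξ η F p q *
      diagonal (fun a => lgChi σ (ξ a - p)) = (√2)⁻¹ • Gm σ τ ξ η F p q := by
  ext a a'
  rw [mul_diagonal, diagonal_mul, Matrix.smul_apply, Gm_apply, Gm_apply, smul_eq_mul, ← mul_assoc (√2)⁻¹,
    ← lg_sqrt hσ]
  ring

theorem lg_vertex {σ : ℝ} (hσ : 0 < σ) (ξ : X → ℝ) (η : Y → ℝ) (ζ : Z → ℝ) (F : Matrix X Y ℝ)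
    (F' : Matrix X Z ℝ) (p : ℝ × ℝ) {x y z : ℝ} (hx : x = p.1) (hy : y = p.2) (hz : z = -p.1 - p.2) :
    GG (Gm (2 * σ) (2 * σ) ξ η F x y) (Gm (2 * σ) (2 * σ) ξ ζ F' x z) (fun a => lgM σ (ξ a - x)) ≤
      GG (Gs 2 σ ξ η ζ F F' p) (Gs 2 σ ξ η ζ F F' p) (uu σ ξ p.1) := by
  subst hx hy hz
  refine (GG_conj (Gm_psd ..) (Gm_psd ..) (χ := fun a => lgChi σ (ξ a - p.1))
    (fun a => lg_abs_chi hσ _) (uu σ ξ p.1)).trans ?_
  rw [lg_conj hσ, lg_conj hσ]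
  have h0 : (0 : ℝ) ≤ (√2)⁻¹ := by positivity
  have h1 : (0 : ℝ) ≤ 1 - (√2)⁻¹ :=
    sub_nonneg.2 (inv_le_one_of_one_le₀ (Real.one_le_sqrt.2 one_le_two))
  have hP := Gm_psd σ (2 * σ) ξ η F p.1 p.2
  have hQ := Gm_psd σ (2 * σ) ξ ζ F' p.1 (-p.1 - p.2)
  refine GG_mono (hP.smul h0) (hQ.smul h0) ?_ ?_ _
  · convert (hP.smul h1).add hQ using 1
    rw [Gs]; module
  · convert hP.add (hQ.smul h1) using 1
    rw [Gs]; module

theorem lg_tm (σ τ δ : ℝ) (ξ : X → ℝ) (η : Y → ℝ) (F : Matrix X Y ℝ) (p q : ℝ) :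
    (Wm σ τ ξ η (δ • F) p q)ᵀ * Wm σ τ ξ η (δ • F) p q = Gm τ σ η ξ (δ • Fᵀ) q p := by
  rw [Gm, ← transpose_smul, ← Wm_transpose, transpose_transpose]

theorem lg_meas (κ σ : ℝ) (ξ : X → ℝ) (η : Y → ℝ) (ζ : Z → ℝ) (F : Matrix X Y ℝ)
    (F' : Matrix X Z ℝ) : Measurable fun p : ℝ × ℝ =>
      GG (Gs κ σ ξ η ζ F F' p) (Gs κ σ ξ η ζ F F' p) (uu σ ξ p.1) := by
  have h : ∀ a b, Measurable fun p : ℝ × ℝ => Gs κ σ ξ η ζ F F' p a b := fun a b =>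
    (measurable_Gm measurable_const measurable_const measurable_fst measurable_snd ξ η F a b).add
      (measurable_Gm measurable_const measurable_const measurable_fst
        (measurable_fst.neg.sub measurable_snd) ξ ζ F' a b)
  exact measurable_GG h h fun a => by unfold uu; fun_prop

theorem lg_trace0 (A : Matrix X Y ℝ) (B : Matrix Y Z ℝ) (C : Matrix Z X ℝ) (m₀ : X → ℝ) (m₁ : Y → ℝ)
    (m₂ : Z → ℝ) : (A * diagonal m₁ * B * diagonal m₂ * C * diagonal m₀).trace =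
      ∑ a, ∑ b, ∑ c, A a b * m₁ b * B b c * m₂ c * C c a * m₀ a := by
  refine Finset.sum_congr rfl fun a _ => ?_
  rw [diag_apply, mul_diagonal, mul_apply, Finset.sum_comm, Finset.sum_mul]
  refine Finset.sum_congr rfl fun c _ => ?_
  rw [mul_diagonal, mul_apply, Finset.sum_mul, Finset.sum_mul, Finset.sum_mul]
  refine Finset.sum_congr rfl fun b _ => ?_
  rw [mul_diagonal]

theorem lg_trace {σ : ℝ} (hσ : 0 < σ) (ξ : X → ℝ) (η : Y → ℝ) (ζ : Z → ℝ) (F₀ : Matrix X Y ℝ)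
    (F₁ : Matrix Y Z ℝ) (F₂ : Matrix Z X ℝ) (p q r : ℝ) :
    (Wm (2 * σ) (2 * σ) ξ η F₀ p q * diagonal (fun b => lgM σ (η b - q)) *
      Wm (2 * σ) (2 * σ) η ζ F₁ q r * diagonal (fun c => lgM σ (ζ c - r)) *
      Wm (2 * σ) (2 * σ) ζ ξ F₂ r p * diagonal (fun a => lgM σ (ξ a - p))).trace =
      ∑ a, ∑ b, ∑ c, (-(2 * √2)⁻¹) ^ 3 * (F₀ a b * F₁ b c * F₂ c a) *
        (d1 σ (ξ a - p) * d1 σ (η b - q) * d1 σ (ζ c - r)) := by
  rw [lg_trace0]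
  refine Finset.sum_congr rfl fun a _ => Finset.sum_congr rfl fun b _ =>
    Finset.sum_congr rfl fun c _ => ?_
  have h : ∀ x, √(gs (2 * σ) x) * √(gs (2 * σ) x) * lgM σ x = -(2 * √2)⁻¹ * d1 σ x := fun x => by
    rw [Real.mul_self_sqrt (gs_nonneg _ _), mul_comm, lg_m_gs hσ]
  simp only [Wm, of_apply]
  calc _ = (F₀ a b * F₁ b c * F₂ c a) *
        ((√(gs (2 * σ) (ξ a - p)) * √(gs (2 * σ) (ξ a - p)) * lgM σ (ξ a - p)) *
        (√(gs (2 * σ) (η b - q)) * √(gs (2 * σ) (η b - q)) * lgM σ (η b - q)) *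
        (√(gs (2 * σ) (ζ c - r)) * √(gs (2 * σ) (ζ c - r)) * lgM σ (ζ c - r))) := by ring
    _ = _ := by rw [h, h, h]; ring

/-- the estimate at one scale -/
theorem lg_scale {σ : ℝ} (hσ : 0 < σ) (δ : ℝ) (ξ : X → ℝ) (η : Y → ℝ) (ζ : Z → ℝ)
    (f₀ : Matrix X Y ℝ) (f₁ : Matrix Y Z ℝ) (c : Matrix Z X ℝ) :
    ENNReal.ofReal (√σ * |Tri δ ξ η ζ f₀ f₁ fun z a t => c z a * d3 (3 * σ) t|) ≤
      ENNReal.ofReal ((2 * √2) ^ 3) * (GN 2 σ ξ η ζ (δ • f₀) (δ • cᵀ) +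
        GN 2 σ η ξ ζ (δ • f₀ᵀ) (δ • f₁) + GN 2 σ ζ η ξ (δ • f₁ᵀ) (δ • c)) := by
  set T : ℝ × ℝ → ℝ := fun p => ∑ a, ∑ b, ∑ z, (-(2 * √2)⁻¹) ^ 3 *
    ((δ • f₀) a b * (δ • f₁) b z * (δ • c) z a) *
      (d1 σ (ξ a - p.1) * d1 σ (η b - p.2) * d1 σ (ζ z - (-p.1 - p.2))) with hT
  have hi : ∀ a b z, Integrable fun p : ℝ × ℝ => (-(2 * √2)⁻¹) ^ 3 *
      ((δ • f₀) a b * (δ • f₁) b z * (δ • c) z a) *
      (d1 σ (ξ a - p.1) * d1 σ (η b - p.2) * d1 σ (ζ z - (-p.1 - p.2))) := fun a b z =>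
    (plane3 hσ _ _ _).1.const_mul _
  have h1 : ∫ p, T p = (-(2 * √2)⁻¹) ^ 3 * Tri δ ξ η ζ f₀ f₁ fun z a t => c z a * d3 (3 * σ) t := by
    rw [hT, integral_finsetSum _ fun a _ => integrable_finsetSum _ fun b _ =>
      integrable_finsetSum _ fun z _ => hi a b z, Tri, Finset.mul_sum]
    refine Finset.sum_congr rfl fun a _ => ?_
    rw [integral_finsetSum _ fun b _ => integrable_finsetSum _ fun z _ => hi a b z, Finset.mul_sum]
    refine Finset.sum_congr rfl fun b _ => ?_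
    rw [integral_finsetSum _ fun z _ => hi a b z, Finset.mul_sum]
    refine Finset.sum_congr rfl fun z _ => ?_
    rw [integral_const_mul, (plane3 hσ _ _ _).2]
    simp only [Matrix.smul_apply, smul_eq_mul]
    ring
  have h2 : √σ * |Tri δ ξ η ζ f₀ f₁ fun z a t => c z a * d3 (3 * σ) t| =
      (2 * √2) ^ 3 * (√σ * |∫ p, T p|) := by
    rw [h1, abs_mul, abs_pow, abs_neg, abs_of_pos (by positivity : (0 : ℝ) < (2 * √2)⁻¹)]
    field_simp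
  have hs : 0 < √σ := Real.sqrt_pos.2 hσ
  rw [h2, ENNReal.ofReal_mul (by positivity)]
  gcongr
  have h3 : ∀ p : ℝ × ℝ, ENNReal.ofReal √σ * ‖T p‖ₑ ≤
      GG (Gs 2 σ ξ η ζ (δ • f₀) (δ • cᵀ) p) (Gs 2 σ ξ η ζ (δ • f₀) (δ • cᵀ) p) (uu σ ξ p.1) +
      GG (Gs 2 σ η ξ ζ (δ • f₀ᵀ) (δ • f₁) p.swap) (Gs 2 σ η ξ ζ (δ • f₀ᵀ) (δ • f₁) p.swap)
        (uu σ η p.swap.1) +
      GG (Gs 2 σ ζ η ξ (δ • f₁ᵀ) (δ • c) (0 - p.1 - p.2, p.2))
        (Gs 2 σ ζ η ξ (δ • f₁ᵀ) (δ • c) (0 - p.1 - p.2, p.2)) (uu σ ζ (0 - p.1 - p.2, p.2).1) := by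
    intro p
    have h4 := three (Wm (2 * σ) (2 * σ) ξ η (δ • f₀) p.1 p.2)
      (Wm (2 * σ) (2 * σ) η ζ (δ • f₁) p.2 (-p.1 - p.2))
      (Wm (2 * σ) (2 * σ) ζ ξ (δ • c) (-p.1 - p.2) p.1) (M := (√σ)⁻¹) (by positivity)
      (fun a => lg_abs_m hσ (ξ a - p.1)) (fun b => lg_abs_m hσ (η b - p.2))
      (fun z => lg_abs_m hσ (ζ z - (-p.1 - p.2)))
    rw [lg_trace hσ] at h4
    rw [Real.enorm_eq_ofReal_abs]
    refine (mul_le_mul_right h4 _).trans ?_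
    rw [← mul_assoc, ← ENNReal.ofReal_mul hs.le, mul_inv_cancel₀ hs.ne', ENNReal.ofReal_one, one_mul]
    rw [lg_tm, lg_tm, lg_tm]
    exact add_le_add (add_le_add (lg_vertex hσ ξ η ζ (δ • f₀) (δ • cᵀ) p rfl rfl rfl)
      (lg_vertex hσ η ξ ζ (δ • f₀ᵀ) (δ • f₁) p.swap rfl rfl (by simp; ring)))
      (lg_vertex hσ ζ η ξ (δ • f₁ᵀ) (δ • c) (0 - p.1 - p.2, p.2) (by simp) rfl (by simp))
  have hm₁ := (lg_meas 2 σ η ξ ζ (δ • f₀ᵀ) (δ • f₁))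
  have hm₂ := (lg_meas 2 σ ζ η ξ (δ • f₁ᵀ) (δ • c))
  calc ENNReal.ofReal (√σ * |∫ p, T p|) ≤ ENNReal.ofReal √σ * ∫⁻ p, ‖T p‖ₑ := by
        rw [ENNReal.ofReal_mul hs.le, ← Real.enorm_eq_ofReal_abs]
        gcongr
        exact enorm_integral_le_lintegral_enorm _
    _ = ∫⁻ p, ENNReal.ofReal √σ * ‖T p‖ₑ := (lintegral_const_mul' _ _ ENNReal.ofReal_ne_top).symm
    _ ≤ _ := lintegral_mono h3
    _ = _ := by
      rw [lintegral_add_right _ (hm₂.fun_comp (measurePreserving_rot' 0).measurable),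
        lintegral_add_left (lg_meas ..), (measurePreserving_rot' 0).lintegral_comp hm₂]
      congr 2
      exact (Measure.measurePreserving_swap (μ := (volume : Measure ℝ)) (ν := volume)).lintegral_comp hm₁

omit [DecidableEq X] [DecidableEq Y] [DecidableEq Z] in
/-- the fundamental theorem of calculus in the scale -/
theorem lg_ftc {s₀ s₁ : ℝ} (h₀ : 0 < s₀) (h₁ : s₀ ≤ s₁) (δ : ℝ) (ξ : X → ℝ) (η : Y → ℝ) (ζ : Z → ℝ)
    (f₀ : Matrix X Y ℝ) (f₁ : Matrix Y Z ℝ) (c : Matrix Z X ℝ) :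
    ENNReal.ofReal |Tri δ ξ η ζ f₀ f₁ fun z a t => c z a * (LL s₀ t - LL s₁ t)| ≤
      ∫⁻ σ in Ioc s₀ s₁, ENNReal.ofReal (3 / 2 * √(6 * Real.pi)) *
        ENNReal.ofReal (√σ * |Tri δ ξ η ζ f₀ f₁ fun z a t => c z a * d3 (3 * σ) t|) := by
  have hpos : ∀ σ ∈ uIcc s₀ s₁, 0 < σ := fun σ hσ => by
    rw [uIcc_of_le h₁] at hσ; exact h₀.trans_le hσ.1
  have hd : ∀ σ ∈ uIcc s₀ s₁, HasDerivAt (fun s => Tri δ ξ η ζ f₀ f₁ fun z a t => c z a * LL s t)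
      (-(3 / 2 * √(6 * Real.pi)) * (√σ * Tri δ ξ η ζ f₀ f₁ fun z a t => c z a * d3 (3 * σ) t)) σ := by
    intro σ hσ
    unfold Tri
    simp only [Finset.mul_sum]
    refine HasDerivAt.fun_sum fun a _ => HasDerivAt.fun_sum fun b _ => HasDerivAt.fun_sum fun z _ => ?_
    exact ((((hasDerivAt_LL (hpos σ hσ) (ξ a + η b + ζ z)).const_mul (c z a)).const_mul
      (f₀ a b * f₁ b z)).const_mul (δ ^ 3)).congr_deriv (by ring)
  have hc : ContinuousOn (fun σ => -(3 / 2 * √(6 * Real.pi)) *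
      (√σ * Tri δ ξ η ζ f₀ f₁ fun z a t => c z a * d3 (3 * σ) t)) (uIcc s₀ s₁) := by
    have h : ∀ t, ContinuousOn (fun σ => d3 (3 * σ) t) (uIcc s₀ s₁) := fun t => by
      have h1 : ContinuousOn (fun σ => gs (3 * σ) t) (uIcc s₀ s₁) :=
        continuousOn_gs.comp (f := fun σ => (3 * σ, t)) (by fun_prop) fun σ hσ =>
          ⟨by simpa using hpos σ hσ, trivial⟩
      unfold d3
      refine ContinuousOn.mul (ContinuousOn.sub (ContinuousOn.div (by fun_prop) (by fun_prop) ?_)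
        (ContinuousOn.div (by fun_prop) (by fun_prop) ?_)) h1 <;>
      exact fun σ hσ => by have := hpos σ hσ; positivity
    unfold Tri
    refine continuousOn_const.mul (Real.continuous_sqrt.continuousOn.mul
      (continuousOn_finsetSum _ fun a _ => continuousOn_finsetSum _ fun b _ =>
        continuousOn_finsetSum _ fun z _ => continuousOn_const.mul
          (continuousOn_const.mul (continuousOn_const.mul (h _)))))
  have h := intervalIntegral.integral_eq_sub_of_hasDerivAt hd hc.intervalIntegrable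
  have h2 : (Tri δ ξ η ζ f₀ f₁ fun z a t => c z a * (LL s₀ t - LL s₁ t)) =
      -((Tri δ ξ η ζ f₀ f₁ fun z a t => c z a * LL s₁ t) -
        Tri δ ξ η ζ f₀ f₁ fun z a t => c z a * LL s₀ t) := by
    rw [neg_sub]; simp only [Tri, ← Finset.sum_sub_distrib, mul_sub]
  rw [h2, abs_neg, ← h, intervalIntegral.integral_of_le h₁, ← Real.enorm_eq_ofReal_abs]
  refine (enorm_integral_le_lintegral_enorm _).trans (lintegral_mono fun σ => le_of_eq ?_)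
  rw [Real.enorm_eq_ofReal_abs, ← ENNReal.ofReal_mul (by positivity), abs_mul, abs_mul, abs_neg,
    abs_of_nonneg (Real.sqrt_nonneg σ), abs_of_nonneg (by positivity)]

omit [DecidableEq X] [DecidableEq Y] in
theorem lg_N3_nonneg (δ : ℝ) (f : Matrix X Y ℝ) : 0 ≤ N3 δ f := by
  unfold N3; positivity

omit [DecidableEq X] [DecidableEq Y] in
theorem lg_N3_transpose (δ : ℝ) (f : Matrix X Y ℝ) : N3 δ fᵀ = N3 δ f := Finset.sum_comm

omit [DecidableEq X] in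
theorem lg_MM_smul (δ : ℝ) (ξ : X → ℝ) (f : X → ℝ) (y θ : ℝ) :
    MM δ ξ (fun a => (θ * f a) ^ 2) y = θ ^ 2 * MM δ ξ (fun a => f a ^ 2) y := by
  rw [MM, MM, Real.mul_iSup_of_nonneg (sq_nonneg θ)]
  refine iSup_congr fun τ => ?_
  rw [Finset.mul_sum]
  exact Finset.sum_congr rfl fun a _ => by ring

/-- telescoping with jumps -/
theorem lg_tele0 {δ l : ℝ} (hδ : 0 < δ) (hl : 0 < l) (ξ : X → ℝ) (η : Y → ℝ) (ζ : Z → ℝ)
    (f : Matrix X Y ℝ) {c : ℕ → Matrix X Z ℝ} {H : Matrix X Z ℝ} (hc : ∀ i a z, |c i a z| ≤ H a z)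
    {s : ℕ → ℝ} (hs : Monotone s) (h0 : δ ^ 2 ≤ s 0) (m : ℕ) :
    4 * (∑ i ∈ Finset.range m, ∫⁻ σ in Ioc (s i) (s (i + 1)), GN 2 σ ξ η ζ (δ • f) (δ • c i)) +
      EN 2 (s m) ξ η ζ (δ • f) (δ • c m) ≤ EN 2 (s 0) ξ η ζ (δ • f) (δ • c 0) +
      ENNReal.ofReal (10 * ∑ a, ∑ z, δ ^ 2 * (∑ i ∈ Finset.range m, |c (i + 1) a z - c i a z|) *
        (l⁻¹ * MM δ ξ (fun a' => H a' z ^ 2) (ξ a) + l * (MM δ η (fun b => f a b ^ 2) (-ξ a - ζ z) +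
          MM δ ζ (fun z' => H a z' ^ 2) (ζ z)))) := by
  have hM : ∀ a z, 0 ≤ l⁻¹ * MM δ ξ (fun a' => H a' z ^ 2) (ξ a) +
      l * (MM δ η (fun b => f a b ^ 2) (-ξ a - ζ z) + MM δ ζ (fun z' => H a z' ^ 2) (ζ z)) :=
    fun a z => add_nonneg (mul_nonneg (inv_nonneg.2 hl.le) (MM_nonneg hδ _ (fun _ => sq_nonneg _) _))
      (mul_nonneg hl.le (add_nonneg (MM_nonneg hδ _ (fun _ => sq_nonneg _) _)
        (MM_nonneg hδ _ (fun _ => sq_nonneg _) _)))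
  induction m with
  | zero => simp
  | succ m ih =>
    have h1 : ∀ i, δ ^ 2 ≤ s i := fun i => h0.trans (hs (Nat.zero_le i))
    have h2 := flowE (κ := 2) one_le_two ((pow_pos hδ 2).trans_le (h1 m)) (hs (Nat.le_succ m)) ξ η ζ
      (δ • f) (δ • c m)
    have h3 := EN_jump (κ := 2) one_le_two hδ (h1 (m + 1)) hl ξ η ζ f (hc m) (hc (m + 1))
    simp only [Finset.sum_range_succ, mul_add (δ ^ 2), add_mul, Finset.sum_add_distrib, mul_add (10 : ℝ)]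
    rw [ENNReal.ofReal_add, mul_add, add_assoc, ← add_assoc (EN 2 (s 0) ξ η ζ (δ • f) (δ • c 0))]
    · refine le_trans ?_ (add_le_add ih le_rfl)
      rw [add_assoc]
      refine add_le_add le_rfl ((add_le_add le_rfl h3).trans ?_)
      rw [← add_assoc]
      exact add_le_add h2 le_rfl
    all_goals
      refine mul_nonneg (by norm_num) (Finset.sum_nonneg fun a _ => Finset.sum_nonneg fun z _ =>
        mul_nonneg (by positivity) (hM a z))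

end Aux

theorem lg_tele : ∃ K > 0, ∀ (X Y Z : Type) [Fintype X] [DecidableEq X] [Fintype Y] [DecidableEq Y]
    [Fintype Z] [DecidableEq Z] (δ : ℝ), 0 < δ → ∀ (ξ : X → ℝ) (η : Y → ℝ) (ζ : Z → ℝ), Sep δ ξ →
    Sep δ η → Sep δ ζ → ∀ (f : Matrix X Y ℝ) (H : Matrix X Z ℝ) (θ : ℝ), 0 < θ → θ ≤ 1 →
    ∀ (m : ℕ) (s : ℕ → ℝ) (c : ℕ → Matrix X Z ℝ), Monotone s → δ ^ 2 ≤ s 0 →
    (∀ i a z, |c i a z| ≤ H a z) →
    (∀ a z, θ ^ 2 * ∑ i ∈ Finset.range m, |c (i + 1) a z - c i a z| ≤ H a z) →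
    ∑ i ∈ Finset.range m, ∫⁻ σ in Ioc (s i) (s (i + 1)), GN 2 σ ξ η ζ (δ • f) (δ • θ • c i) ≤
      ENNReal.ofReal (K * (N3 δ f + N3 δ H)) := by
  obtain ⟨K, hK, hMM⟩ := MM_bound
  refine ⟨60 + 20 * K, by positivity, ?_⟩
  intro X Y Z _ _ _ _ _ _ δ hδ ξ η ζ hξ hη hζ f H θ hθ hθ1 m s c hs h0 hc hv
  have hH : ∀ a z, 0 ≤ H a z := fun a z => (abs_nonneg _).trans (hc 0 a z)
  have hc' : ∀ i a z, |(θ • c i) a z| ≤ (θ • H) a z := fun i a z => by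
    simp only [Matrix.smul_apply, smul_eq_mul, abs_mul, abs_of_pos hθ]
    exact mul_le_mul_of_nonneg_left (hc i a z) hθ.le
  have h1 := lg_tele0 hδ hθ ξ η ζ f hc' hs h0 m
  have h2 := EN_le (κ := 2) one_le_two hδ h0 hξ hη hζ f (θ • c 0)
  have h3 : N3 δ (θ • c 0) ≤ N3 δ H := by
    refine Finset.sum_le_sum fun a _ => Finset.sum_le_sum fun z _ => ?_
    have h4 : |(θ • c 0) a z| ≤ |H a z| := (hc' 0 a z).trans
      ((mul_le_of_le_one_left (hH a z) hθ1).trans (le_abs_self _))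
    gcongr
  have hf := lg_N3_nonneg δ f
  have hN := lg_N3_nonneg δ H
  have e1 : ∑ a, ∑ z, δ ^ 2 * MM δ ξ (fun a' => H a' z ^ 2) (ξ a) ^ (3 / 2 : ℝ) ≤ K * N3 δ H := by
    rw [Finset.sum_comm, ← lg_N3_transpose, N3, Finset.mul_sum]
    refine Finset.sum_le_sum fun z _ => ?_
    rw [← Finset.mul_sum, ← Finset.mul_sum, mul_left_comm]
    exact mul_le_mul_of_nonneg_left (hMM X X δ hδ ξ ξ hξ hξ fun a => H a z) (sq_nonneg δ)
  have e2 : ∑ a, ∑ z, δ ^ 2 * MM δ η (fun b => f a b ^ 2) (-ξ a - ζ z) ^ (3 / 2 : ℝ) ≤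
      K * N3 δ f := by
    rw [N3, Finset.mul_sum]
    refine Finset.sum_le_sum fun a _ => ?_
    rw [← Finset.mul_sum, ← Finset.mul_sum, mul_left_comm]
    refine mul_le_mul_of_nonneg_left (hMM Y Z δ hδ η (fun z => -ξ a - ζ z) hη (fun z z' h => ?_)
      fun b => f a b) (sq_nonneg δ)
    rw [show -ξ a - ζ z - (-ξ a - ζ z') = ζ z' - ζ z by ring]
    exact hζ _ _ h.symm
  have e3 : ∑ a, ∑ z, δ ^ 2 * MM δ ζ (fun z' => H a z' ^ 2) (ζ z) ^ (3 / 2 : ℝ) ≤ K * N3 δ H := by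
    rw [N3, Finset.mul_sum]
    refine Finset.sum_le_sum fun a _ => ?_
    rw [← Finset.mul_sum, ← Finset.mul_sum, mul_left_comm]
    exact mul_le_mul_of_nonneg_left (hMM Z Z δ hδ ζ ζ hζ hζ fun z => H a z) (sq_nonneg δ)
  have h5 : ∑ a, ∑ z, δ ^ 2 * (∑ i ∈ Finset.range m, |(θ • c (i + 1)) a z - (θ • c i) a z|) *
      (θ⁻¹ * MM δ ξ (fun a' => (θ • H) a' z ^ 2) (ξ a) +
        θ * (MM δ η (fun b => f a b ^ 2) (-ξ a - ζ z) + MM δ ζ (fun z' => (θ • H) a z' ^ 2) (ζ z))) ≤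
      3 * N3 δ H + (K * N3 δ H + K * N3 δ f + K * N3 δ H) := by
    refine le_trans ?_ (add_le_add le_rfl (add_le_add (add_le_add e1 e2) e3))
    simp only [N3, Finset.mul_sum Finset.univ, ← Finset.sum_add_distrib]
    refine Finset.sum_le_sum fun a _ => Finset.sum_le_sum fun z _ => ?_
    simp only [Matrix.smul_apply, smul_eq_mul, lg_MM_smul, ← mul_sub, abs_mul, abs_of_pos hθ,
      ← Finset.mul_sum]
    have m1 := MM_nonneg hδ ξ (f := fun a' => H a' z ^ 2) (fun _ => sq_nonneg _) (ξ a)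
    have m2 := MM_nonneg hδ η (f := fun b => f a b ^ 2) (fun _ => sq_nonneg _) (-ξ a - ζ z)
    have m3 := MM_nonneg hδ ζ (f := fun z' => H a z' ^ 2) (fun _ => sq_nonneg _) (ζ z)
    have y1 := young32 (hH a z) m1
    have y2 := young32 (hH a z) m2
    have y3 := young32 (hH a z) m3
    have hv' := hv a z
    rw [abs_of_nonneg (hH a z)]
    generalize MM δ ξ (fun a' => H a' z ^ 2) (ξ a) = A at *
    generalize MM δ η (fun b => f a b ^ 2) (-ξ a - ζ z) = B at *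
    generalize MM δ ζ (fun z' => H a z' ^ 2) (ζ z) = C at *
    generalize ∑ i ∈ Finset.range m, |c (i + 1) a z - c i a z| = v at *
    have h6 : θ ^ 2 * C ≤ C := mul_le_of_le_one_left m3 (pow_le_one₀ hθ.le hθ1)
    have h7 : θ * v * (θ⁻¹ * (θ ^ 2 * A) + θ * (B + θ ^ 2 * C)) =
        θ ^ 2 * v * (A + (B + θ ^ 2 * C)) := by field_simp
    have h8 : θ ^ 2 * v * (A + (B + θ ^ 2 * C)) ≤ H a z * (A + (B + C)) :=
      mul_le_mul hv' (by linarith) (by positivity) (hH a z)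
    calc _ = δ ^ 2 * (θ * v * (θ⁻¹ * (θ ^ 2 * A) + θ * (B + θ ^ 2 * C))) := by ring
      _ ≤ δ ^ 2 * (3 * H a z ^ 3 + (A ^ (3 / 2 : ℝ) + B ^ (3 / 2 : ℝ) + C ^ (3 / 2 : ℝ))) := by
        rw [h7]; exact mul_le_mul_of_nonneg_left (by linarith) (sq_nonneg δ)
      _ = _ := by ring
  calc _ ≤ 4 * _ := le_mul_of_one_le_left' (by norm_num)
    _ ≤ _ := le_self_add.trans h1
    _ ≤ _ := add_le_add h2 (ENNReal.ofReal_le_ofReal (mul_le_mul_of_nonneg_left h5 (by norm_num)))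
    _ ≤ _ := by
      rw [← ENNReal.ofReal_add (by have := lg_N3_nonneg δ (θ • c 0); positivity) (by positivity)]
      refine ENNReal.ofReal_le_ofReal ?_
      nlinarith [mul_nonneg hK.le hf, mul_nonneg hK.le hN]

theorem long : ∃ K > 0, ∀ (X Y Z : Type) [Fintype X] [DecidableEq X] [Fintype Y] [DecidableEq Y] [Fintype Z]
    [DecidableEq Z] (δ : ℝ), 0 < δ → ∀ (ξ : X → ℝ) (η : Y → ℝ) (ζ : Z → ℝ), Sep δ ξ → Sep δ η → Sep δ ζ →
    ∀ (f₀ : Matrix X Y ℝ) (f₁ : Matrix Y Z ℝ) (H : Matrix Z X ℝ) (V : ℝ), 1 ≤ V →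
    ∀ (m : ℕ) (s : ℕ → ℝ) (α : ℕ → Matrix Z X ℝ), Monotone s → δ ^ 2 ≤ s 0 →
    (∀ i c a, |α i c a| ≤ H c a) → (∀ c a, Var m (fun i => α i c a) ≤ V * H c a) →
    |Tri δ ξ η ζ f₀ f₁ fun c a t => ∑ i ∈ Finset.range m, α i c a * (LL (s i) t - LL (s (i + 1)) t)| ≤
      K * √V * (N3 δ f₀ + N3 δ f₁ + N3 δ H) := by
  obtain ⟨K, hK, hT⟩ := lg_tele
  refine ⟨3 / 2 * √(6 * Real.pi) * (2 * √2) ^ 3 * (2 * K), by positivity, ?_⟩
  intro X Y Z _ _ _ _ _ _ δ hδ ξ η ζ hξ hη hζ f₀ f₁ H V hV m s α hs h0 hα hv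
  have hV1 : 1 ≤ √V := Real.one_le_sqrt.2 hV
  have hθ : 0 < (√V)⁻¹ := by positivity
  have hθ1 : (√V)⁻¹ ≤ 1 := inv_le_one_of_one_le₀ hV1
  have hv' : ∀ c a, (√V)⁻¹ ^ 2 * ∑ i ∈ Finset.range m, |α (i + 1) c a - α i c a| ≤ H c a := by
    intro c a
    rw [inv_pow, Real.sq_sqrt (by linarith), inv_mul_le_iff₀ (by linarith)]
    exact le_trans (le_add_of_nonneg_left (abs_nonneg _)) (hv c a)
  generalize hθe : (√V)⁻¹ = θ at hθ hθ1 hv'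
  have t0 := hT X Y Z δ hδ ξ η ζ hξ hη hζ f₀ Hᵀ θ hθ hθ1 m s (fun i => (α i)ᵀ) hs h0
    (fun i a z => hα i z a) fun a z => hv' z a
  have t1 := hT Y X Z δ hδ η ξ ζ hη hξ hζ f₀ᵀ (Matrix.of fun b z => |f₁ b z|) 1 one_pos le_rfl m s
    (fun _ => f₁) hs h0 (fun _ _ _ => le_rfl) fun b z => by simp
  have t2 := hT Z Y X δ hδ ζ η ξ hζ hη hξ f₁ᵀ H θ hθ hθ1 m s α hs h0 hα hv'
  rw [lg_N3_transpose] at t0 t1 t2
  rw [show N3 δ (Matrix.of fun b z => |f₁ b z|) = N3 δ f₁ by simp [N3], one_smul] at t1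
  have n0 := lg_N3_nonneg δ f₀
  have n1 := lg_N3_nonneg δ f₁
  have n2 := lg_N3_nonneg δ H
  have e : θ * Tri δ ξ η ζ f₀ f₁
      (fun c a t => ∑ i ∈ Finset.range m, α i c a * (LL (s i) t - LL (s (i + 1)) t)) =
      ∑ i ∈ Finset.range m, Tri δ ξ η ζ f₀ f₁
        fun c a t => (θ • α i) c a * (LL (s i) t - LL (s (i + 1)) t) := by
    simp only [Tri, Finset.mul_sum, Matrix.smul_apply, smul_eq_mul]
    rw [Finset.sum_comm (s := Finset.range m)]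
    refine Finset.sum_congr rfl fun a _ => ?_
    rw [Finset.sum_comm (s := Finset.range m)]
    refine Finset.sum_congr rfl fun b _ => ?_
    rw [Finset.sum_comm (s := Finset.range m)]
    exact Finset.sum_congr rfl fun c _ => Finset.sum_congr rfl fun i _ => by ring
  have hpos : ∀ i, 0 < s i := fun i => (pow_pos hδ 2).trans_le (h0.trans (hs (Nat.zero_le i)))
  have key : ∀ i, ENNReal.ofReal |Tri δ ξ η ζ f₀ f₁
      fun c a t => (θ • α i) c a * (LL (s i) t - LL (s (i + 1)) t)| ≤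
      ENNReal.ofReal (3 / 2 * √(6 * Real.pi) * (2 * √2) ^ 3) *
        ((∫⁻ σ in Ioc (s i) (s (i + 1)), GN 2 σ ξ η ζ (δ • f₀) (δ • θ • (α i)ᵀ)) +
        (∫⁻ σ in Ioc (s i) (s (i + 1)), GN 2 σ η ξ ζ (δ • f₀ᵀ) (δ • f₁)) +
        ∫⁻ σ in Ioc (s i) (s (i + 1)), GN 2 σ ζ η ξ (δ • f₁ᵀ) (δ • θ • α i)) := by
    intro i
    refine (lg_ftc (hpos i) (hs (Nat.le_succ i)) δ ξ η ζ f₀ f₁ (θ • α i)).trans ?_
    rw [← lintegral_add_left (measurable_GN ..), ← lintegral_add_right _ (measurable_GN ..),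
      ← lintegral_const_mul' _ _ ENNReal.ofReal_ne_top]
    refine setLIntegral_mono' measurableSet_Ioc fun σ hσ => ?_
    rw [ENNReal.ofReal_mul (p := 3 / 2 * √(6 * Real.pi)) (by positivity), mul_assoc]
    exact mul_le_mul_right (lg_scale ((hpos i).trans hσ.1) δ ξ η ζ f₀ f₁ (θ • α i)) _
  have fin : ENNReal.ofReal |θ * Tri δ ξ η ζ f₀ f₁
      (fun c a t => ∑ i ∈ Finset.range m, α i c a * (LL (s i) t - LL (s (i + 1)) t))| ≤
      ENNReal.ofReal (3 / 2 * √(6 * Real.pi) * (2 * √2) ^ 3 *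
        (2 * K * (N3 δ f₀ + N3 δ f₁ + N3 δ H))) := by
    rw [e]
    refine (ENNReal.ofReal_le_ofReal (Finset.abs_sum_le_sum_abs _ _)).trans ?_
    rw [ENNReal.ofReal_sum_of_nonneg fun _ _ => abs_nonneg _]
    refine (Finset.sum_le_sum fun i _ => key i).trans ?_
    rw [← Finset.mul_sum, Finset.sum_add_distrib, Finset.sum_add_distrib,
      ENNReal.ofReal_mul (q := 2 * K * _) (by positivity)]
    refine mul_le_mul_right ((add_le_add (add_le_add t0 t1) t2).trans (le_of_eq ?_)) _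
    rw [← ENNReal.ofReal_add (by positivity) (by positivity),
      ← ENNReal.ofReal_add (by positivity) (by positivity)]
    congr 1; ring
  rw [ENNReal.ofReal_le_ofReal_iff (by positivity), abs_mul, abs_of_pos hθ, ← hθe,
    inv_mul_le_iff₀ (by positivity)] at fin
  exact fin.trans (le_of_eq (by ring))

end Crest.Agent.R72
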