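import Crest.Agent.R72.Defs

/-!
# Row 72: matrix inequalities at a fixed spectral scale

PLANS.  `R = Rs G`, `(1 + G) R = 1`.
* `ph_le`: `(1-Y)ᵀ(1-Y) + YᵀPY - ph P = (Y - R)ᵀ (1 + P) (Y - R)`.
* `Rs_anti`: `ph_le` for `P` with `Y = Rs Q`: `(1-Y)ᵀ(1-Y) + YᵀQY = ph Q`.
* `log_det_le`: eigenvalues, `log x ≤ x - 1`.  `ell_le`: `det (1+G) = ∏ (1+λ) ≥ 1 + ∑ λ`, `log (1+x) ≥ 2x/(2+x)`
  (`Real.le_log_one_add_of_nonneg`).
* `ell_tangent`: write `R = SᵀS` and apply `log_det_le` to `S (1+G') Sᵀ`.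
* `ell_add`: `1 + P + Q = (1+P) (1 - ph P * ph Q) (1+Q)`; write `ph P = SᵀS`, `det (1 - SᵀS ph Q) = det (1 - S ph Q Sᵀ)`
  (`det_one_sub_mul_comm`); `1 - S ph Q Sᵀ` is positive definite (`≥ 1 - S Sᵀ`, or from `1 + P + Q > 0`).
* `ph_conj`: with `D = diagonal χ`: `(D-T)ᵀ(D-T) + TᵀGT - D (ph G) D = (T - R D)ᵀ (1+G) (T - R D)` for every `T`; take
  `T = D Y`, `Y = Rs (D G D)`, and use `1 - D² ≥ 0`, `ph_eq`.
* measurability: `A⁻¹ = Ring.inverse (det A) • adjugate A` (`Matrix.inv_def`), everything is polynomial in the entries.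
-/

set_option autoImplicit false

namespace Crest.Agent.R72

open MeasureTheory Set Matrix Filter Topology
open scoped ENNReal

variable {X Y Z : Type*} [Fintype X] [DecidableEq X] [Fintype Y] [DecidableEq Y] [Fintype Z]
  [DecidableEq Z]

namespace MatAux

open scoped MatrixOrder in
theorem exists_sq {P : Matrix X X ℝ} (hP : P.PosSemidef) :
    ∃ S : Matrix X X ℝ, Sᵀ = S ∧ S * S = P := by
  refine ⟨CFC.sqrt P, ?_, CFC.sqrt_mul_sqrt_self P hP.nonneg⟩
  have : (CFC.sqrt P).PosSemidef := (CFC.sqrt_nonneg P).posSemidef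
  simpa using this.1.eq

omit [Fintype X] [DecidableEq X] in
theorem psd_T {P : Matrix X X ℝ} (hP : P.PosSemidef) : Pᵀ = P := by
  simpa using hP.1.eq

omit [DecidableEq X] [DecidableEq Y] in
theorem psd_conj {P : Matrix X X ℝ} (hP : P.PosSemidef) (B : Matrix X Y ℝ) :
    (Bᵀ * P * B).PosSemidef := by
  simpa using hP.conjTranspose_mul_mul_same B

omit [DecidableEq X] [DecidableEq Y] in
theorem psd_conj' {P : Matrix X X ℝ} (hP : P.PosSemidef) (B : Matrix Y X ℝ) :
    (B * P * Bᵀ).PosSemidef := by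
  simpa using hP.mul_mul_conjTranspose_same B

omit [DecidableEq X] [DecidableEq Y] in
theorem psd_self (B : Matrix X Y ℝ) : (Bᵀ * B).PosSemidef := by
  simpa using posSemidef_conjTranspose_mul_self B

theorem abs_le_one {M : Matrix X X ℝ} (hM : M.PosSemidef) (h1 : (1 - M).PosSemidef) (a b : X) :
    |M a b| ≤ 1 := by
  have hd : ∀ a, M a a ≤ 1 := fun a => by
    have := h1.diag_nonneg (i := a)
    simp only [Matrix.sub_apply, one_apply_eq] at this
    linarith
  obtain ⟨S, hS, rfl⟩ := exists_sq hM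
  have hs : ∀ a b, S a b = S b a := fun a b => by
    conv_lhs => rw [← hS]
    rfl
  have e : ∀ a, (S * S) a a = ∑ k, S a k ^ 2 := fun a => by
    rw [mul_apply]
    exact Finset.sum_congr rfl fun k _ => by rw [hs k a, sq]
  have h2 : (S * S) a b ^ 2 ≤ (S * S) a a * (S * S) b b := by
    rw [e, e, mul_apply]
    simp only [fun k => hs k b]
    exact Finset.sum_mul_sq_le_sq_mul_sq _ _ _
  have h3 := hM.diag_nonneg (i := a)
  have h4 := hM.diag_nonneg (i := b)
  rw [← sq_le_one_iff_abs_le_one]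
  nlinarith [hd a, hd b]

theorem one_add_sum_le {ι : Type*} (s : Finset ι) {f : ι → ℝ} (hf : ∀ i, 0 ≤ f i) :
    1 + ∑ i ∈ s, f i ≤ ∏ i ∈ s, (1 + f i) := by
  classical
  induction s using Finset.induction_on with
  | empty => simp
  | insert i s hi ih =>
    rw [Finset.sum_insert hi, Finset.prod_insert hi]
    have h1 : 0 ≤ ∑ i ∈ s, f i := Finset.sum_nonneg fun i _ => hf i
    nlinarith [hf i, mul_nonneg (hf i) h1]

theorem one_add_trace_le {G : Matrix X X ℝ} (hG : G.PosSemidef) : 1 + G.trace ≤ (1 + G).det := by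
  have h1 : (1 + G).det = ∏ i, (1 + hG.1.eigenvalues i) := by
    conv_lhs => rw [hG.1.spectral_theorem, Unitary.conjStarAlgAut_apply, det_one_add_mul_comm,
      ← mul_assoc, Unitary.coe_star_mul_self, one_mul, ← diagonal_one, diagonal_add, det_diagonal]
    simp
  rw [h1, hG.1.trace_eq_sum_eigenvalues]
  exact one_add_sum_le _ hG.eigenvalues_nonneg

end MatAux

open MatAux

theorem one_add_posDef {G : Matrix X X ℝ} (hG : G.PosSemidef) : (1 + G).PosDef :=
  PosDef.one.add_posSemidef hG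

theorem mul_Rs {G : Matrix X X ℝ} (hG : G.PosSemidef) : (1 + G) * Rs G = 1 :=
  mul_nonsing_inv _ (one_add_posDef hG).det_pos.ne'.isUnit

theorem Rs_mul {G : Matrix X X ℝ} (hG : G.PosSemidef) : Rs G * (1 + G) = 1 :=
  nonsing_inv_mul _ (one_add_posDef hG).det_pos.ne'.isUnit

theorem Rs_psd {G : Matrix X X ℝ} (hG : G.PosSemidef) : (Rs G).PosSemidef :=
  (one_add_posDef hG).posSemidef.inv

theorem ph_eq {P : Matrix X X ℝ} (hP : P.PosSemidef) :
    (1 - Rs P)ᵀ * (1 - Rs P) + (Rs P)ᵀ * P * Rs P = ph P := by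
  rw [transpose_sub, transpose_one, psd_T (Rs_psd hP), ph]
  have h := Rs_mul hP
  calc (1 - Rs P) * (1 - Rs P) + Rs P * P * Rs P
      = 1 - Rs P - Rs P + Rs P * (1 + P) * Rs P := by noncomm_ring
    _ = 1 - Rs P := by rw [h]; noncomm_ring

theorem ph_psd {G : Matrix X X ℝ} (hG : G.PosSemidef) : (ph G).PosSemidef := by
  rw [← ph_eq hG]
  exact (psd_self _).add (psd_conj hG _)

theorem abs_Rs_le {G : Matrix X X ℝ} (hG : G.PosSemidef) (a b : X) : |Rs G a b| ≤ 1 :=
  abs_le_one (Rs_psd hG) (ph_psd hG) a b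

theorem abs_ph_le {G : Matrix X X ℝ} (hG : G.PosSemidef) (a b : X) : |ph G a b| ≤ 1 :=
  abs_le_one (ph_psd hG) (by rw [ph, sub_sub_cancel]; exact Rs_psd hG) a b

theorem MatAux.sq_id {P : Matrix X X ℝ} (hP : P.PosSemidef) (D T : Matrix X X ℝ) :
    (D - T)ᵀ * (D - T) + Tᵀ * P * T - Dᵀ * ph P * D =
      (T - Rs P * D)ᵀ * (1 + P) * (T - Rs P * D) := by
  have h1 := Rs_mul hP
  have h2 := mul_Rs hP
  rw [transpose_sub, transpose_sub, transpose_mul, psd_T (Rs_psd hP), ph]
  calc (Dᵀ - Tᵀ) * (D - T) + Tᵀ * P * T - Dᵀ * (1 - Rs P) * D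
      = Tᵀ * (1 + P) * T - Tᵀ * 1 * D - Dᵀ * 1 * T + Dᵀ * 1 * Rs P * D := by noncomm_ring
    _ = Tᵀ * (1 + P) * T - Tᵀ * ((1 + P) * Rs P) * D - Dᵀ * (Rs P * (1 + P)) * T +
        Dᵀ * (Rs P * (1 + P)) * Rs P * D := by rw [h1, h2]
    _ = _ := by noncomm_ring

theorem ph_le {P : Matrix X X ℝ} (hP : P.PosSemidef) (Y : Matrix X X ℝ) :
    ((1 - Y)ᵀ * (1 - Y) + Yᵀ * P * Y - ph P).PosSemidef := by
  have h := sq_id hP 1 Y
  rw [transpose_one, one_mul, mul_one] at h
  rw [h]
  exact psd_conj (one_add_posDef hP).posSemidef _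

theorem Rs_anti {P Q : Matrix X X ℝ} (hP : P.PosSemidef) (h : (Q - P).PosSemidef) :
    (Rs P - Rs Q).PosSemidef := by
  have hQ : Q.PosSemidef := by simpa using hP.add h
  have e : Rs P - Rs Q = ((1 - Rs Q)ᵀ * (1 - Rs Q) + (Rs Q)ᵀ * P * Rs Q - ph P) +
      (Rs Q)ᵀ * (Q - P) * Rs Q := by
    have h1 := ph_eq hQ
    calc Rs P - Rs Q = ph Q - ph P := by rw [ph, ph]; abel
      _ = _ := by rw [← h1]; noncomm_ring
  rw [e]
  exact (ph_le hP _).add (psd_conj h _)

theorem trace_mul_nonneg {P Q : Matrix X X ℝ} (hP : P.PosSemidef) (hQ : Q.PosSemidef) :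
    0 ≤ (P * Q).trace := by
  obtain ⟨S, hS, rfl⟩ := exists_sq hP
  rw [mul_assoc, trace_mul_comm]
  have := (psd_conj hQ S).trace_nonneg
  rwa [hS] at this

/-- monotonicity of `tr (P H Q Hᵀ)` -/
theorem trace_quad_mono {P P' : Matrix X X ℝ} {Q Q' : Matrix Y Y ℝ} (hP : P.PosSemidef)
    (hQ : Q.PosSemidef) (h : (P' - P).PosSemidef) (h' : (Q' - Q).PosSemidef) (H : Matrix X Y ℝ) :
    (P * H * Q * Hᵀ).trace ≤ (P' * H * Q' * Hᵀ).trace := by
  have hQ' : Q'.PosSemidef := by simpa using hQ.add h'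
  have h1 := trace_mul_nonneg h (psd_conj' hQ' H)
  have h2 := trace_mul_nonneg hP (psd_conj' h' H)
  simp only [Matrix.sub_mul, Matrix.mul_sub, trace_sub, ← Matrix.mul_assoc] at h1 h2
  linarith

/-- Cauchy–Schwarz for the Frobenius inner product -/
theorem abs_trace_le (M : Matrix X Y ℝ) (N : Matrix Y X ℝ) :
    |(M * N).trace| ≤ √(M * Mᵀ).trace * √(Nᵀ * N).trace := by
  have e1 : (M * N).trace = ∑ p : X × Y, M p.1 p.2 * N p.2 p.1 := by
    simp [trace, mul_apply, Fintype.sum_prod_type]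
  have e2 : (M * Mᵀ).trace = ∑ p : X × Y, M p.1 p.2 ^ 2 := by
    simp [trace, mul_apply, Fintype.sum_prod_type, sq]
  have e3 : (Nᵀ * N).trace = ∑ p : X × Y, N p.2 p.1 ^ 2 := by
    simp [trace, mul_apply, Fintype.sum_prod_type, sq]
  rw [e1, e2, e3, ← Real.sqrt_mul (Finset.sum_nonneg fun _ _ => sq_nonneg _)]
  exact Real.abs_le_sqrt (Finset.sum_mul_sq_le_sq_mul_sq _ _ _)

theorem log_det_le {K : Matrix X X ℝ} (hK : K.PosDef) :
    Real.log K.det ≤ K.trace - Fintype.card X := by
  rw [hK.1.det_eq_prod_eigenvalues, hK.1.trace_eq_sum_eigenvalues]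
  simp only [RCLike.ofReal_real_eq_id, id]
  rw [Real.log_prod fun i _ => (hK.eigenvalues_pos i).ne']
  calc ∑ i, Real.log (hK.1.eigenvalues i) ≤ ∑ i, (hK.1.eigenvalues i - 1) :=
        Finset.sum_le_sum fun i _ => Real.log_le_sub_one_of_pos (hK.eigenvalues_pos i)
    _ = _ := by simp [Finset.sum_sub_distrib]

theorem ell_nonneg {G : Matrix X X ℝ} (hG : G.PosSemidef) : 0 ≤ ell G := by
  have := log_det_le (one_add_posDef hG)
  rw [trace_add, trace_one] at this
  rw [ell]
  linarith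

theorem ell_le_trace {G : Matrix X X ℝ} (hG : G.PosSemidef) : ell G ≤ G.trace := by
  have h1 := one_add_trace_le hG
  have h2 := hG.trace_nonneg
  have := Real.log_nonneg (show 1 ≤ (1 + G).det by linarith)
  rw [ell]
  linarith

theorem ell_le {G : Matrix X X ℝ} (hG : G.PosSemidef) : ell G ≤ G.trace ^ 2 / (2 + G.trace) := by
  have h1 := one_add_trace_le hG
  have h2 := hG.trace_nonneg
  have h3 := Real.log_le_log (by linarith) h1
  have h4 := Real.le_log_one_add_of_nonneg h2
  have h5 : G.trace ^ 2 / (2 + G.trace) = G.trace - 2 * G.trace / (G.trace + 2) := by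
    field_simp; ring
  rw [ell, h5]
  linarith

theorem ell_tangent {G G' : Matrix X X ℝ} (hG : G.PosSemidef) (hG' : G'.PosSemidef) :
    ell G + (ph G * (G' - G)).trace ≤ ell G' := by
  obtain ⟨S, hS, hSS⟩ := exists_sq (Rs_psd hG)
  have hd := (one_add_posDef hG).det_pos
  have hd' := (one_add_posDef hG').det_pos
  have h1 : (S * (1 + G') * S).det = (1 + G').det / (1 + G).det := by
    have : (Rs G).det * (1 + G).det = 1 := by rw [← det_mul, Rs_mul hG, det_one]
    rw [← hSS, det_mul] at this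
    rw [det_mul, det_mul, eq_div_iff hd.ne']
    linear_combination (1 + G').det * this
  have hK : (S * (1 + G') * S).PosDef := by
    have := psd_conj (one_add_posDef hG').posSemidef S
    rw [hS] at this
    exact this.posDef_iff_det_ne_zero.2 (by rw [h1]; positivity)
  have h2 := log_det_le hK
  rw [h1, Real.log_div hd'.ne' hd.ne', trace_mul_cycle, hSS] at h2
  have h3 : ph G * (G' - G) = G' - G - Rs G * (1 + G') + Rs G * (1 + G) := by
    rw [ph]; noncomm_ring
  rw [h3, Rs_mul hG, trace_add, trace_sub, trace_sub, trace_one, ell, ell]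
  linarith

theorem ell_mid {P Q : Matrix X X ℝ} (hP : P.PosSemidef) (hQ : Q.PosSemidef) :
    ell ((2⁻¹ : ℝ) • (P + Q)) ≤ (ell P + ell Q) / 2 := by
  have hM : ((2⁻¹ : ℝ) • (P + Q)).PosSemidef := (hP.add hQ).smul (by norm_num)
  have h1 := ell_tangent hM hP
  have h2 := ell_tangent hM hQ
  have h3 : Q - (2⁻¹ : ℝ) • (P + Q) = -(P - (2⁻¹ : ℝ) • (P + Q)) := by module
  rw [h3, Matrix.mul_neg, trace_neg] at h2
  linarith

theorem ell_add_of_mul_eq_zero {P Q : Matrix X X ℝ} (hP : P.PosSemidef) (hQ : Q.PosSemidef)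
    (h : P * Q = 0) : ell (P + Q) = ell P + ell Q := by
  have e : 1 + (P + Q) = (1 + P) * (1 + Q) := by
    calc 1 + (P + Q) = 1 + (P + Q) + P * Q := by rw [h, add_zero]
      _ = _ := by noncomm_ring
  rw [ell, ell, ell, e, det_mul, Real.log_mul (one_add_posDef hP).det_pos.ne'
    (one_add_posDef hQ).det_pos.ne', trace_add]
  ring

theorem ell_add {P Q : Matrix X X ℝ} (hP : P.PosSemidef) (hQ : Q.PosSemidef) :
    ell P + ell Q + (ph P * ph Q).trace ≤ ell (P + Q) := by
  obtain ⟨S, hS, hSS⟩ := exists_sq (ph_psd hP)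
  have e1 : (1 + P) * ph P = P := by rw [ph, mul_sub, mul_Rs hP]; noncomm_ring
  have e2 : ph Q * (1 + Q) = Q := by rw [ph, sub_mul, Rs_mul hQ]; noncomm_ring
  have e : 1 + (P + Q) = (1 + P) * (1 - ph P * ph Q) * (1 + Q) := by
    calc 1 + (P + Q) = (1 + P) * (1 + Q) - P * Q := by noncomm_ring
      _ = (1 + P) * (1 + Q) - ((1 + P) * ph P) * (ph Q * (1 + Q)) := by rw [e1, e2]
      _ = _ := by noncomm_ring
  have e3 : (1 - ph P * ph Q).det = (1 - S * ph Q * S).det := by
    rw [← hSS, mul_assoc, det_one_sub_mul_comm]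
  have hd := (one_add_posDef (hP.add hQ)).det_pos
  have hdP := (one_add_posDef hP).det_pos
  have hdQ := (one_add_posDef hQ).det_pos
  have hne : (1 - S * ph Q * S).det ≠ 0 := fun h0 => by
    rw [e, det_mul, det_mul, e3, h0] at hd
    simp at hd
  have hK : (1 - S * ph Q * S).PosDef := by
    have e4 : 1 - S * ph Q * S = Rs P + S * Rs Q * S := by
      calc 1 - S * ph Q * S = 1 - S * S + S * Rs Q * S := by rw [ph]; noncomm_ring
        _ = _ := by rw [hSS, ph, sub_sub_cancel]
    have h1 := psd_conj (Rs_psd hQ) S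
    rw [hS] at h1
    refine (PosSemidef.posDef_iff_det_ne_zero ?_).2 hne
    rw [e4]
    exact (Rs_psd hP).add h1
  have h2 := log_det_le hK
  rw [trace_sub, trace_one, trace_mul_cycle, hSS] at h2
  rw [ell, ell, ell, e, det_mul, det_mul, e3, Real.log_mul (mul_ne_zero hdP.ne' hne) hdQ.ne',
    Real.log_mul hdP.ne' hne, trace_add]
  linarith

theorem gn_nonneg {P Q : Matrix X X ℝ} (hP : P.PosSemidef) (hQ : Q.PosSemidef) (u : X → ℝ) :
    0 ≤ gn P Q u := by
  have := trace_mul_nonneg (ph_psd hP) (psd_conj (ph_psd hQ) (diagonal u))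
  rwa [diagonal_transpose, ← mul_assoc, ← mul_assoc] at this

theorem gn_comm (P Q : Matrix X X ℝ) (u : X → ℝ) : gn P Q u = gn Q P u := by
  rw [gn, gn, mul_assoc, trace_mul_comm, ← mul_assoc]

theorem gn_mono {P Q P' Q' : Matrix X X ℝ} (hP : P.PosSemidef) (hQ : Q.PosSemidef)
    (h : (P' - P).PosSemidef) (h' : (Q' - Q).PosSemidef) (u : X → ℝ) : gn P Q u ≤ gn P' Q' u := by
  have := trace_quad_mono (P' := ph P') (Q' := ph Q') (ph_psd hP) (ph_psd hQ)
    (by rw [ph, ph, sub_sub_sub_cancel_left]; exact Rs_anti hP h)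
    (by rw [ph, ph, sub_sub_sub_cancel_left]; exact Rs_anti hQ h') (diagonal u)
  rwa [diagonal_transpose] at this

theorem ph_conj {G : Matrix X X ℝ} (hG : G.PosSemidef) {χ : X → ℝ} (hχ : ∀ a, |χ a| ≤ 1) :
    (ph (diagonal χ * G * diagonal χ) - diagonal χ * ph G * diagonal χ).PosSemidef := by
  have hG' : (diagonal χ * G * diagonal χ).PosSemidef := by
    have := psd_conj hG (diagonal χ)
    rwa [diagonal_transpose] at this
  have hD : (1 - diagonal χ * diagonal χ : Matrix X X ℝ).PosSemidef := by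
    rw [diagonal_mul_diagonal, ← diagonal_one, diagonal_sub]
    refine PosSemidef.diagonal fun a => ?_
    have := (sq_le_one_iff_abs_le_one _).2 (hχ a)
    simp only [Pi.zero_apply]
    nlinarith
  set D := diagonal χ with hDdef
  have hDT : Dᵀ = D := diagonal_transpose χ
  set Y := Rs (D * G * D) with hY
  have h1 := sq_id hG D (D * Y)
  have e : ph (D * G * D) - D * ph G * D = (1 - Y)ᵀ * (1 - D * D) * (1 - Y) +
      ((D - D * Y)ᵀ * (D - D * Y) + (D * Y)ᵀ * G * (D * Y) - Dᵀ * ph G * D) := by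
    rw [← ph_eq hG', ← hY]
    simp only [transpose_sub, transpose_mul, transpose_one, hDT]
    noncomm_ring
  rw [e, h1]
  exact (psd_conj hD _).add (psd_conj (one_add_posDef hG).posSemidef _)

theorem gn_conj {P Q : Matrix X X ℝ} (hP : P.PosSemidef) (hQ : Q.PosSemidef) {χ : X → ℝ}
    (hχ : ∀ a, |χ a| ≤ 1) (u : X → ℝ) : gn P Q (fun a => χ a ^ 2 * u a) ≤
      gn (diagonal χ * P * diagonal χ) (diagonal χ * Q * diagonal χ) u := by
  have hc : ∀ {M : Matrix X X ℝ}, M.PosSemidef → (diagonal χ * M * diagonal χ).PosSemidef :=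
    fun {M} hM => by
      have := psd_conj hM (diagonal χ)
      rwa [diagonal_transpose] at this
  have h := trace_quad_mono (hc (ph_psd hP)) (hc (ph_psd hQ)) (ph_conj hP hχ) (ph_conj hQ hχ)
    (diagonal u)
  rw [diagonal_transpose] at h
  have e : diagonal (fun a => χ a ^ 2 * u a) = diagonal χ * diagonal u * diagonal χ := by
    rw [diagonal_mul_diagonal, diagonal_mul_diagonal]
    congr 1
    funext a
    ring
  refine le_trans (le_of_eq ?_) h
  rw [gn, e, ← mul_assoc, trace_mul_comm]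
  simp only [mul_assoc]

section Meas

variable {α : Type*} [MeasurableSpace α] {P Q : α → Matrix X X ℝ} {u : α → X → ℝ}

theorem MatAux.measurable_det (hP : ∀ a b, Measurable fun t => P t a b) :
    Measurable fun t => (P t).det := by
  simp only [det_apply']
  exact Finset.measurable_sum _ fun σ _ =>
    (Finset.measurable_prod _ fun i _ => hP _ _).const_mul _

omit [DecidableEq X] in
theorem MatAux.measurable_mul (hP : ∀ a b, Measurable fun t => P t a b)
    (hQ : ∀ a b, Measurable fun t => Q t a b) (a b : X) :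
    Measurable fun t => (P t * Q t) a b := by
  simp only [mul_apply]
  exact Finset.measurable_sum _ fun k _ => (hP _ _).mul (hQ _ _)

omit [DecidableEq X] in
theorem MatAux.measurable_trace (hP : ∀ a b, Measurable fun t => P t a b) :
    Measurable fun t => (P t).trace := by
  simp only [trace, diag_apply]
  exact Finset.measurable_sum _ fun k _ => hP _ _

theorem measurable_Rs (hP : ∀ a b, Measurable fun t => P t a b) (a b : X) :
    Measurable fun t => Rs (P t) a b := by
  have h1 : ∀ a b, Measurable fun t => (1 + P t) a b := fun a b => (hP a b).const_add _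
  simp only [Rs, inv_def, Ring.inverse_eq_inv', Matrix.smul_apply, smul_eq_mul,
    adjugate_apply]
  refine (measurable_det h1).inv.mul (measurable_det fun c d => ?_)
  simp only [updateRow_apply]
  split_ifs
  · exact measurable_const
  · exact h1 c d

theorem measurable_ell (hP : ∀ a b, Measurable fun t => P t a b) :
    Measurable fun t => ell (P t) :=
  (measurable_trace hP).sub (measurable_det (P := fun t => 1 + P t)
    fun a b => (hP a b).const_add _).log

theorem measurable_gn (hP : ∀ a b, Measurable fun t => P t a b)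
    (hQ : ∀ a b, Measurable fun t => Q t a b) (hu : ∀ a, Measurable fun t => u t a) :
    Measurable fun t => gn (P t) (Q t) (u t) := by
  have hD : ∀ a b, Measurable fun t => diagonal (u t) a b := fun a b => by
    simp only [diagonal_apply]
    split_ifs
    · exact hu a
    · exact measurable_const
  have h1 : ∀ a b, Measurable fun t => ph (P t) a b := fun a b =>
    (measurable_Rs hP a b).const_sub _
  have h2 : ∀ a b, Measurable fun t => ph (Q t) a b := fun a b =>
    (measurable_Rs hQ a b).const_sub _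
  exact measurable_trace (MatAux.measurable_mul (MatAux.measurable_mul
    (MatAux.measurable_mul h1 hD) h2) hD)

theorem measurable_EE (hP : ∀ a b, Measurable fun t => P t a b) :
    Measurable fun t => EE (P t) := by
  have h : Measurable fun p : α × ℝ =>
      ENNReal.ofReal (2 * p.2 ^ 2 * ell ((p.2 ^ 2)⁻¹ • P p.1)) :=
    (((measurable_snd.pow_const 2).const_mul 2).mul
      (measurable_ell (P := fun p : α × ℝ => (p.2 ^ 2)⁻¹ • P p.1) fun a b =>
        (measurable_snd.pow_const 2).inv.mul ((hP a b).comp measurable_fst))).ennreal_ofReal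
  exact h.lintegral_prod_right'

theorem measurable_GG (hP : ∀ a b, Measurable fun t => P t a b)
    (hQ : ∀ a b, Measurable fun t => Q t a b) (hu : ∀ a, Measurable fun t => u t a) :
    Measurable fun t => GG (P t) (Q t) (u t) := by
  have h : Measurable fun p : α × ℝ =>
      ENNReal.ofReal (2 * p.2 ^ 2 * gn ((p.2 ^ 2)⁻¹ • P p.1) ((p.2 ^ 2)⁻¹ • Q p.1) (u p.1)) :=
    (((measurable_snd.pow_const 2).const_mul 2).mul
      (measurable_gn (P := fun p : α × ℝ => (p.2 ^ 2)⁻¹ • P p.1)
        (Q := fun p : α × ℝ => (p.2 ^ 2)⁻¹ • Q p.1) (u := fun p : α × ℝ => u p.1)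
        (fun a b => (measurable_snd.pow_const 2).inv.mul ((hP a b).comp measurable_fst))
        (fun a b => (measurable_snd.pow_const 2).inv.mul ((hQ a b).comp measurable_fst))
        fun a => (hu a).comp measurable_fst)).ennreal_ofReal
  exact h.lintegral_prod_right'

end Meas

end Crest.Agent.R72
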